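import Crest.Agent.R80.Defs

/-!
# Row 80: an abstract Dirichlet-to-Neumann lemma
-/

namespace Crest.Agent.R80

open MeasureTheory Set Metric Filter Topology Complex
open scoped ContDiff
open Crest.AnalysisR.VecCalc3 Crest.AnalysisR.PDE Crest.AnalysisR.PDE.Elasticity

section AbsAux

variable {H : Type*} [NormedAddCommGroup H] [InnerProductSpace ℝ H]

/-- The infimum of the quadratic form over the coset `x + A₀`. -/
private noncomputable def absQ (A₀ : Submodule ℝ H) (B : H →L[ℝ] H →L[ℝ] ℝ) (x : H) : ℝ :=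
  ⨅ z : A₀, B (x + z) (x + z)

private lemma abs_cont (B : H →L[ℝ] H →L[ℝ] ℝ) {f g : H → H} (hf : Continuous f)
    (hg : Continuous g) : Continuous fun z => B (f z) (g z) :=
  (B.continuous.comp hf).clm_apply hg

private lemma absQ_le (A₀ : Submodule ℝ H) (B : H →L[ℝ] H →L[ℝ] ℝ) (n : ∀ x, 0 ≤ B x x) (x : H)
    {z : H} (hz : z ∈ closure (A₀ : Set H)) : absQ A₀ B x ≤ B (x + z) (x + z) := by
  have hc : IsClosed {z : H | absQ A₀ B x ≤ B (x + z) (x + z)} :=
    isClosed_le continuous_const (abs_cont B (by fun_prop) (by fun_prop))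
  refine closure_minimal (fun w hw => ?_) hc hz
  have hb : BddBelow (Set.range fun z : A₀ => B (x + z) (x + z)) :=
    ⟨0, by rintro _ ⟨u, rfl⟩; exact n _⟩
  exact ciInf_le hb (⟨w, hw⟩ : A₀)

private lemma le_absQ (A₀ : Submodule ℝ H) (B : H →L[ℝ] H →L[ℝ] ℝ) (x : H) {a : ℝ}
    (h : ∀ z ∈ A₀, a ≤ B (x + z) (x + z)) : a ≤ absQ A₀ B x :=
  le_ciInf fun z => h z z.2

private lemma abs_young (B : H →L[ℝ] H →L[ℝ] ℝ) (s : ∀ x y, B x y = B y x) (n : ∀ x, 0 ≤ B x x)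
    (a b : H) {t : ℝ} (ht : 0 < t) :
    B (a + b) (a + b) ≤ (1 + t) * B a a + (1 + 1 / t) * B b b := by
  have h := n (t • a - b)
  simp only [map_sub, map_smul, _root_.sub_apply, _root_.smul_apply,
    smul_eq_mul] at h
  simp only [map_add, _root_.add_apply]
  rw [s b a] at h ⊢
  have h2 : 2 * B a b ≤ t * B a a + 1 / t * B b b := by
    have h3 : t * (2 * B a b) ≤ t * (t * B a a + 1 / t * B b b) := by
      have : t * (1 / t * B b b) = B b b := by field_simp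
      nlinarith
    exact le_of_mul_le_mul_left h3 ht
  linarith

private lemma absQ_mono (A₀ A : Submodule ℝ H) (B₁ B₂ : H →L[ℝ] H →L[ℝ] ℝ)
    (s₂ : ∀ x y, B₂ x y = B₂ y x) (n₁ : ∀ x, 0 ≤ B₁ x x) (n₂ : ∀ x, 0 ≤ B₂ x x)
    (h12 : ∀ x ∈ A, ∀ z ∈ A₀, ∀ ε : ℝ, 0 < ε →
      ∃ z' ∈ A₀, B₂ (x + z') (x + z') < B₁ (x + z) (x + z) + ε)
    {x : H} (hx : x ∈ closure (A : Set H)) : absQ A₀ B₂ x ≤ absQ A₀ B₁ x := by
  refine le_absQ A₀ B₁ x fun z hz => ?_
  have key : ∀ t : ℝ, 0 < t → absQ A₀ B₂ x ≤ (1 + t) * B₁ (x + z) (x + z) := by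
    intro t ht
    have hc : IsClosed {y : H | absQ A₀ B₂ x ≤
        (1 + t) * B₁ (y + z) (y + z) + (1 + 1 / t) * B₂ (x - y) (x - y)} := by
      refine isClosed_le continuous_const ?_
      exact (continuous_const.mul (abs_cont B₁ (by fun_prop) (by fun_prop))).add
        (continuous_const.mul (abs_cont B₂ (by fun_prop) (by fun_prop)))
    have hsub : (A : Set H) ⊆ {y : H | absQ A₀ B₂ x ≤
        (1 + t) * B₁ (y + z) (y + z) + (1 + 1 / t) * B₂ (x - y) (x - y)} := by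
      intro y hy
      show absQ A₀ B₂ x ≤ (1 + t) * B₁ (y + z) (y + z) + (1 + 1 / t) * B₂ (x - y) (x - y)
      refine le_of_forall_pos_le_add fun ε hε => ?_
      obtain ⟨z', hz', hlt⟩ := h12 y hy z hz (ε / (1 + t)) (by positivity)
      have h1 := absQ_le A₀ B₂ n₂ x (subset_closure hz')
      have h2 := abs_young B₂ s₂ n₂ (y + z') (x - y) ht
      have h3 : y + z' + (x - y) = x + z' := by abel
      rw [h3] at h2
      have h4 : (1 + t) * B₂ (y + z') (y + z') ≤ (1 + t) * (B₁ (y + z) (y + z) + ε / (1 + t)) :=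
        mul_le_mul_of_nonneg_left hlt.le (by positivity)
      have h5 : (1 + t) * (ε / (1 + t)) = ε := by field_simp
      nlinarith
    have := closure_minimal hsub hc hx
    simpa using this
  refine le_of_forall_pos_le_add fun ε hε => ?_
  have hb := n₁ (x + z)
  have h := key (ε / (B₁ (x + z) (x + z) + 1)) (by positivity)
  have h2 : ε / (B₁ (x + z) (x + z) + 1) * B₁ (x + z) (x + z) ≤ ε := by
    rw [div_mul_eq_mul_div, div_le_iff₀ (by positivity)]
    nlinarith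
  nlinarith

/-- If `w` is `B`-orthogonal to `A₀` and `Z` is in the closure of `A₀`, the infimum splits. -/
private lemma absQ_split (A₀ : Submodule ℝ H) (B : H →L[ℝ] H →L[ℝ] ℝ) (s : ∀ x y, B x y = B y x)
    (n : ∀ x, 0 ≤ B x x) {w Z : H} (hw : ∀ z ∈ A₀, B w z = 0) (hZ : Z ∈ closure (A₀ : Set H))
    (y : H) : absQ A₀ B (w + Z + y) = B w w + 2 * B w y + absQ A₀ B y := by
  have hw' : ∀ z ∈ closure (A₀ : Set H), B w z = 0 := by
    intro z hz
    have hc : IsClosed {z : H | B w z = 0} := isClosed_eq (B w).continuous continuous_const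
    exact closure_minimal hw hc hz
  have hexp : ∀ z ∈ closure (A₀ : Set H),
      B (w + (y + z)) (w + (y + z)) = B w w + 2 * B w y + B (y + z) (y + z) := by
    intro z hz
    have e1 : B w (y + z) = B w y := by rw [map_add, hw' z hz, add_zero]
    rw [map_add B w, _root_.add_apply, map_add (B w), map_add (B (y + z)) w,
      s (y + z) w, e1]
    ring
  have hcl : ∀ {a b : H}, a ∈ closure (A₀ : Set H) → b ∈ closure (A₀ : Set H) →
      a + b ∈ closure (A₀ : Set H) ∧ a - b ∈ closure (A₀ : Set H) := by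
    intro a b ha hb
    rw [← Submodule.topologicalClosure_coe] at ha hb ⊢
    exact ⟨A₀.topologicalClosure.add_mem ha hb, A₀.topologicalClosure.sub_mem ha hb⟩
  apply le_antisymm
  · have : absQ A₀ B (w + Z + y) - (B w w + 2 * B w y) ≤ absQ A₀ B y := by
      refine le_absQ A₀ B y fun z hz => ?_
      have h1 := absQ_le A₀ B n (w + Z + y) (hcl (subset_closure hz) hZ).2
      have h2 : w + Z + y + (z - Z) = w + (y + z) := by abel
      rw [h2, hexp z (subset_closure hz)] at h1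
      linarith
    linarith
  · refine le_absQ A₀ B _ fun z hz => ?_
    have hz' := (hcl hZ (subset_closure hz)).1
    have h2 : w + Z + y + z = w + (y + (Z + z)) := by abel
    rw [h2, hexp _ hz']
    have := absQ_le A₀ B n y hz'
    linarith

private lemma abs_lax [CompleteSpace H] (A₀ : Submodule ℝ H) (B : H →L[ℝ] H →L[ℝ] ℝ) {c : ℝ}
    (hc : 0 < c) (co : ∀ z ∈ A₀, c * ‖z‖ ^ 2 ≤ B z z) (x : H) :
    ∃ Z ∈ closure (A₀ : Set H), ∀ z ∈ A₀, B (x - Z) z = 0 := by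
  set K := A₀.topologicalClosure with hK
  have : CompleteSpace K := A₀.isClosed_topologicalClosure.completeSpace_coe
  let B' : K →L[ℝ] K →L[ℝ] ℝ := B.bilinearComp K.subtypeL K.subtypeL
  have hB' : ∀ u v : K, B' u v = B u v := fun u v => by simp [B']
  have hco : IsCoercive B' := by
    refine ⟨c, hc, fun u => ?_⟩
    have hcl : IsClosed {z : H | c * ‖z‖ ^ 2 ≤ B z z} :=
      isClosed_le (by fun_prop) (abs_cont B continuous_id continuous_id)
    have hu : (u : H) ∈ closure (A₀ : Set H) := by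
      rw [← Submodule.topologicalClosure_coe]; exact u.2
    have h : c * ‖(u : H)‖ ^ 2 ≤ B u u := closure_minimal co hcl hu
    rw [hB']
    have : ‖u‖ = ‖(u : H)‖ := rfl
    rw [this]
    nlinarith
  let f : K →L[ℝ] ℝ := (B x).comp K.subtypeL
  let v : K := (InnerProductSpace.toDual ℝ K).symm f
  refine ⟨(hco.continuousLinearEquivOfBilin.symm v : K), ?_, fun z hz => ?_⟩
  · rw [← Submodule.topologicalClosure_coe]; exact Subtype.property _
  · have hzK : z ∈ K := A₀.le_topologicalClosure hz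
    have h1 := hco.continuousLinearEquivOfBilin_apply
      (hco.continuousLinearEquivOfBilin.symm v) ⟨z, hzK⟩
    rw [ContinuousLinearEquiv.apply_symm_apply, hB'] at h1
    have h2 : inner ℝ v (⟨z, hzK⟩ : K) = B x z := by
      simp only [v]
      rw [InnerProductSpace.toDual_symm_apply]
      simp [f]
    rw [map_sub, _root_.sub_apply, ← h1, h2, sub_self]

end AbsAux

/-- Let `Qⱼ x = inf_{z ∈ A₀} Bⱼ (x + z) (x + z)`.  The hypothesis says `Q₁ = Q₂` on `A`, hence on its closure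
(`√Qⱼ` is Lipschitz, or argue with `ε`).  By Lax-Milgram on the closure of `A₀` there is `Z` with
`B₂ (x - Z) z = 0` for all `z ∈ A₀`.  For `y ∈ A`, `s ∈ ℝ`:
`Q₁ (x + s y) = B₁ x x + 2 s B₁ x y + Q₁ (s y)` and
`Q₂ (x + s y) = B₂ (x-Z) (x-Z) + 2 s B₂ (x-Z) y + Q₂ (s y)`; compare `s = 0` and `s = 1`. -/
theorem abs_dn {H : Type*} [NormedAddCommGroup H] [InnerProductSpace ℝ H] [CompleteSpace H]
    (A₀ A : Submodule ℝ H) (B₁ B₂ : H →L[ℝ] H →L[ℝ] ℝ) (s₁ : ∀ x y, B₁ x y = B₁ y x)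
    (s₂ : ∀ x y, B₂ x y = B₂ y x) (n₁ : ∀ x, 0 ≤ B₁ x x) (n₂ : ∀ x, 0 ≤ B₂ x x) {c : ℝ} (hc : 0 < c)
    (co : ∀ z ∈ A₀, c * ‖z‖ ^ 2 ≤ B₂ z z)
    (h12 : ∀ x ∈ A, ∀ z ∈ A₀, ∀ ε : ℝ, 0 < ε →
      ∃ z' ∈ A₀, B₂ (x + z') (x + z') < B₁ (x + z) (x + z) + ε)
    (h21 : ∀ x ∈ A, ∀ z ∈ A₀, ∀ ε : ℝ, 0 < ε →
      ∃ z' ∈ A₀, B₁ (x + z') (x + z') < B₂ (x + z) (x + z) + ε)
    {x : H} (hx : x ∈ closure (A : Set H)) (hx0 : ∀ z ∈ A₀, B₁ x z = 0) :
    ∃ Z ∈ closure (A₀ : Set H), ∀ y ∈ A, B₂ (x - Z) y = B₁ x y := by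
  obtain ⟨Z, hZ, hZ0⟩ := abs_lax A₀ B₂ hc co x
  refine ⟨Z, hZ, fun y hy => ?_⟩
  have hQ : ∀ {u : H}, u ∈ closure (A : Set H) → absQ A₀ B₁ u = absQ A₀ B₂ u := fun hu =>
    le_antisymm (absQ_mono A₀ A B₂ B₁ s₁ n₂ n₁ h21 hu) (absQ_mono A₀ A B₁ B₂ s₂ n₁ n₂ h12 hu)
  have h0 : (0 : H) ∈ closure (A₀ : Set H) := subset_closure A₀.zero_mem
  have hxy : x + y ∈ closure (A : Set H) := by
    have hy' : y ∈ closure (A : Set H) := subset_closure hy
    rw [← Submodule.topologicalClosure_coe] at hx hy' ⊢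
    exact A.topologicalClosure.add_mem hx hy'
  have e1 := absQ_split A₀ B₁ s₁ n₁ hx0 h0 y
  have e2 := absQ_split A₀ B₁ s₁ n₁ hx0 h0 0
  have e3 := absQ_split A₀ B₂ s₂ n₂ hZ0 hZ y
  have e4 := absQ_split A₀ B₂ s₂ n₂ hZ0 hZ 0
  simp only [add_zero, sub_add_cancel, map_zero, mul_zero] at e1 e2 e3 e4
  have q1 := hQ hxy
  have q2 := hQ hx
  have q3 := hQ (subset_closure hy)
  have q4 := hQ (subset_closure A.zero_mem)
  linarith

end Crest.Agent.R80
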