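import Crest.Agent.R80.Weak2

/-!
# Row 80: Carleman estimate for `θ · ∇`
-/

namespace Crest.Agent.R80

open MeasureTheory Set Metric Filter Topology Complex
open scoped ContDiff
open Crest.AnalysisR.VecCalc3 Crest.AnalysisR.PDE Crest.AnalysisR.PDE.Elasticity

/-- the complex weight `e^{K |x|²}` -/
noncomputable def car1W (K : ℝ) (x : R3) : ℂ := Complex.exp ((K : ℂ) * ∑ i, (x i : ℂ) * (x i : ℂ))

theorem car1_W_eq (K : ℝ) (x : R3) : car1W K x = (Real.exp (K * ‖x‖ ^ 2) : ℂ) := by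
  unfold car1W
  rw [EuclideanSpace.real_norm_sq_eq]
  push_cast
  simp only [sq]

theorem car1_contDiff_q (K : ℝ) :
    ContDiff ℝ ∞ fun x : R3 => (K : ℂ) * ∑ i, (x i : ℂ) * (x i : ℂ) :=
  contDiff_const.mul (ContDiff.sum fun i _ => (contDiff_coord _ i).mul (contDiff_coord _ i))

theorem car1_contDiff_W (K : ℝ) : ContDiff ℝ ∞ (car1W K) := (car1_contDiff_q K).cexp

theorem car1_contDiff_lin (η : C3) : ContDiff ℝ ∞ fun x : R3 => ∑ i, η i * (x i : ℂ) :=
  ContDiff.sum fun i _ => contDiff_const.mul (contDiff_coord _ i)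

theorem car1_diff {f : R3 → ℂ} (hf : ContDiff ℝ ∞ f) (x : R3) : DifferentiableAt ℝ f x :=
  hf.differentiable (by simp) x

theorem car1_dv_coord (θ : C3) (j : Fin 3) (x : R3) :
    dv θ (fun y : R3 => ((y j : ℝ) : ℂ)) x = θ j := by
  simp [dv, pd_coord]

theorem car1_dv_lin (θ η : C3) (x : R3) :
    dv θ (fun y : R3 => ∑ i, η i * (y i : ℂ)) x = ∑ i, η i * θ i := by
  rw [dv_sum θ _ fun i _ => car1_diff (contDiff_const.mul (contDiff_coord _ i)) x]
  refine Finset.sum_congr rfl fun i _ => ?_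
  rw [dv_const_mul θ _ (car1_diff (contDiff_coord _ i) x), car1_dv_coord]

theorem car1_dv_W (θ : C3) (K : ℝ) (x : R3) :
    dv θ (car1W K) x = car1W K x * (2 * K * ∑ i, θ i * (x i : ℂ)) := by
  unfold car1W
  rw [dv_cexp θ (car1_diff (car1_contDiff_q K) x), dv_const_mul θ _ (car1_diff
    (ContDiff.sum fun i _ => (contDiff_coord _ i).mul (contDiff_coord _ i)) x),
    dv_sum θ _ fun i _ => car1_diff ((contDiff_coord _ i).mul (contDiff_coord _ i)) x]
  congr 1
  rw [Finset.mul_sum, Finset.mul_sum]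
  refine Finset.sum_congr rfl fun i _ => ?_
  rw [dv_mul θ (car1_diff (contDiff_coord _ i) x) (car1_diff (contDiff_coord _ i) x), car1_dv_coord]
  ring

theorem car1_dv_conj (θ : C3) (f : R3 → ℂ) (x : R3) :
    dv (fun i => starRingEnd ℂ (θ i)) (fun y => starRingEnd ℂ (f y)) x =
      starRingEnd ℂ (dv θ f x) := by
  simp only [dv, pd_conj, map_sum, map_mul]

theorem car1_dv_comm (θ η : C3) {y : R3 → ℂ} (hy : ContDiff ℝ ∞ y) (x : R3) :
    dv θ (dv η y) x = dv η (dv θ y) x := by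
  have h : ∀ (ξ : C3) (i : Fin 3), pd i (dv ξ y) x = ∑ j, ξ j * pd i (pd j y) x := by
    intro ξ i
    unfold dv
    rw [pd_sum i _ fun j _ => car1_diff (contDiff_const.mul (contDiff_pd_top j hy)) x]
    exact Finset.sum_congr rfl fun j _ => pd_const_mul i _ (car1_diff (contDiff_pd_top j hy) x)
  have h2 : ContDiffAt ℝ 2 y x := (hy.of_le (WithTop.coe_le_coe.2 (le_top : (2 : ℕ∞) ≤ ⊤))).contDiffAt
  rw [dv, dv]
  simp only [h, Finset.mul_sum]
  rw [Finset.sum_comm]
  refine Finset.sum_congr rfl fun i _ => Finset.sum_congr rfl fun j _ => ?_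
  rw [pd_comm j i h2]
  ring

theorem car1_integral_sq (K : ℝ) (f : R3 → ℂ) :
    ∫ x, car1W K x * (f x * starRingEnd ℂ (f x)) =
      ((∫ x, Real.exp (K * ‖x‖ ^ 2) * ‖f x‖ ^ 2 : ℝ) : ℂ) := by
  rw [← integral_complex_ofReal]
  refine integral_congr_ae (Eventually.of_forall fun x => ?_)
  simp only
  rw [car1_W_eq, Complex.mul_conj']
  push_cast
  rfl

/-- With `v = e^{K|x|²/2} y`, `T v = D v - K (θ·x) v`, `T* v = - D̄ v - K (θ̄·x) v` one has
`‖T v‖² - ‖T* v‖² = 2 K |θ|² ‖v‖²` (two integrations by parts; `‖D v‖ = ‖D̄ v‖`). -/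
theorem car1_smooth (θ : C3) {K : ℝ} (hK : 0 ≤ K) {y : R3 → ℂ} (hy : Tst univ y) :
    2 * K * n2 θ * ∫ x, Real.exp (K * ‖x‖ ^ 2) * ‖y x‖ ^ 2 ≤
      ∫ x, Real.exp (K * ‖x‖ ^ 2) * ‖dv θ y x‖ ^ 2 := by
  set θ' : C3 := fun i => starRingEnd ℂ (θ i) with hθ'
  have hθ'' : (fun i => starRingEnd ℂ (θ' i)) = θ := by
    funext i
    simp [hθ']
  have hW := car1_contDiff_W K
  have hyc := hy.cd
  have hyb : Tst univ fun x => starRingEnd ℂ (y x) := hy.conj
  have hD : Tst univ (dv θ y) := hy.dv θ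
  have hD' : Tst univ (dv θ' y) := hy.dv θ'
  have hl : ContDiff ℝ ∞ fun x : R3 => (2 * K : ℂ) * ∑ i, θ' i * (x i : ℂ) :=
    contDiff_const.mul (car1_contDiff_lin θ')
  set z : R3 → ℂ := fun x => dv θ' y x + (2 * K * ∑ i, θ' i * (x i : ℂ)) * y x with hz
  have hzT : Tst univ z := hD'.add (hy.mul_left hl)
  have hn : ∑ i, θ' i * θ i = (n2 θ : ℂ) := by
    unfold n2
    push_cast
    exact Finset.sum_congr rfl fun i _ => Complex.conj_mul' _
  -- first integration by parts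
  have e1 : ∫ x, car1W K x * (dv θ y x * starRingEnd ℂ (dv θ y x)) =
      -∫ x, car1W K x * ((2 * K * ∑ i, θ' i * (x i : ℂ)) * dv θ y x + dv θ' (dv θ y) x) *
        starRingEnd ℂ (y x) := by
    have := integral_mul_dv (f := fun x => car1W K x * dv θ y x)
      ((hW.mul hD.cd).of_le (by exact_mod_cast le_top)) hyb.tk1 θ'
    simp only [hθ', car1_dv_conj] at this
    simp only [← mul_assoc (car1W K _)]
    rw [this]
    congr 1
    refine integral_congr_ae (Eventually.of_forall fun x => ?_)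
    simp only
    rw [dv_mul _ (car1_diff hW x) (car1_diff hD.cd x), car1_dv_W]
    ring
  -- second integration by parts
  have e2 : ∫ x, car1W K x * (z x * starRingEnd ℂ (z x)) =
      -∫ x, (car1W K x * ((2 * K * ∑ i, θ' i * (x i : ℂ)) * dv θ y x + dv θ' (dv θ y) x) *
        starRingEnd ℂ (y x) + 2 * K * n2 θ * (car1W K x * (y x * starRingEnd ℂ (y x)))) := by
    have := integral_mul_dv (f := z) (hzT.cd.of_le (by exact_mod_cast le_top))
      (Tst.tk1 (hyb.mul_left hW)) θ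
    have h1 : ∀ x, car1W K x * (z x * starRingEnd ℂ (z x)) =
        z x * dv θ (fun x => car1W K x * starRingEnd ℂ (y x)) x := by
      intro x
      rw [dv_mul _ (car1_diff hW x) (car1_diff hyb.cd x), car1_dv_W]
      have h2 := car1_dv_conj θ' y x
      rw [hθ''] at h2
      have h3 : starRingEnd ℂ (z x) = starRingEnd ℂ (dv θ' y x) +
          (2 * K * ∑ i, θ i * (x i : ℂ)) * starRingEnd ℂ (y x) := by
        simp only [hz, hθ', map_add, map_mul, map_sum, Complex.conj_conj, Complex.conj_ofReal,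
          map_ofNat]
      rw [h2, h3]
      ring
    simp only [h1]
    rw [this]
    congr 1
    refine integral_congr_ae (Eventually.of_forall fun x => ?_)
    simp only [hz]
    rw [dv_add _ (car1_diff hD'.cd x) (car1_diff (hl.mul hyc) x),
      dv_mul _ (car1_diff hl x) (car1_diff hyc x),
      dv_const_mul _ _ (car1_diff (car1_contDiff_lin θ') x), car1_dv_lin, hn,
      car1_dv_comm θ θ' hyc]
    ring
  have i1 : Integrable fun x => car1W K x *
      ((2 * K * ∑ i, θ' i * (x i : ℂ)) * dv θ y x + dv θ' (dv θ y) x) * starRingEnd ℂ (y x) :=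
    integrable_cont_mul_tk (hW.mul ((hl.mul hD.cd).add (hD.dv θ').cd)).continuous hyb
  have i2 : Integrable fun x => (2 * K * n2 θ : ℂ) * (car1W K x * (y x * starRingEnd ℂ (y x))) :=
    (((hyb.mul_left hyc).mul_left hW).integrable).const_mul _
  rw [integral_add i1 i2, integral_const_mul, neg_add, ← e1, car1_integral_sq, car1_integral_sq,
    car1_integral_sq] at e2
  have e3 : ∫ x, Real.exp (K * ‖x‖ ^ 2) * ‖z x‖ ^ 2 =
      (∫ x, Real.exp (K * ‖x‖ ^ 2) * ‖dv θ y x‖ ^ 2) +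
        -(2 * K * n2 θ * ∫ x, Real.exp (K * ‖x‖ ^ 2) * ‖y x‖ ^ 2) := by exact_mod_cast e2
  have e4 : 0 ≤ ∫ x, Real.exp (K * ‖x‖ ^ 2) * ‖z x‖ ^ 2 :=
    integral_nonneg fun x => by positivity
  have _ := hK
  linarith

/-- the square root of the weight -/
noncomputable def car1w (K : ℝ) (x : R3) : ℂ := (Real.exp (K * ‖x‖ ^ 2 / 2) : ℂ)

theorem car1_continuous_w (K : ℝ) : Continuous (car1w K) := by
  unfold car1w
  fun_prop

theorem car1_norm_w (K : ℝ) (x : R3) : ‖car1w K x‖ = Real.exp (K * ‖x‖ ^ 2 / 2) := by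
  unfold car1w
  rw [Complex.norm_real, Real.norm_of_nonneg (Real.exp_pos _).le]

theorem car1_norm_w_le {K R : ℝ} (hK : 0 ≤ K) {x : R3} (hx : x ∈ closedBall (0 : R3) R) :
    ‖car1w K x‖ ≤ Real.exp (K * R ^ 2 / 2) := by
  rw [car1_norm_w, Real.exp_le_exp]
  have h1 : ‖x‖ ≤ R := mem_closedBall_zero_iff.1 hx
  have h2 : ‖x‖ ^ 2 ≤ R ^ 2 := pow_le_pow_left₀ (norm_nonneg _) h1 2
  have := mul_le_mul_of_nonneg_left h2 hK
  linarith

theorem car1_l2_w (K R : ℝ) {f : R3 → ℂ} (hf : L2 univ f) :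
    L2 (closedBall 0 R) fun x => car1w K x * f x :=
  L2.cont_mul measurableSet_closedBall isBounded_closedBall (car1_continuous_w K)
    (hf.mono_set (subset_univ _))

theorem car1_integral_eq (K : ℝ) {R : ℝ} {f : R3 → ℂ} (hf : L2 univ f)
    (hv : Van (closedBall 0 R) f) :
    ∫ x, Real.exp (K * ‖x‖ ^ 2) * ‖f x‖ ^ 2 =
      nr (closedBall 0 R) (fun x => car1w K x * f x) ^ 2 := by
  rw [nr_sq (car1_l2_w K R hf), setIntegral_eq_integral_of_ae_compl_eq_zero]
  · refine integral_congr_ae (Eventually.of_forall fun x => ?_)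
    simp only
    rw [norm_mul, mul_pow, car1_norm_w, ← Real.exp_nat_mul]
    congr 2
    push_cast
    ring
  · filter_upwards [hv] with x hx hxR
    simp [hx hxR]

theorem car1_tendsto {K R : ℝ} (hK : 0 ≤ K) {f : R3 → ℂ} (hf : L2 univ f)
    (hv : Van (closedBall 0 R) f) :
    Tendsto (fun k => ∫ x, Real.exp (K * ‖x‖ ^ 2) * ‖mol k f x‖ ^ 2) atTop
      (𝓝 (∫ x, Real.exp (K * ‖x‖ ^ 2) * ‖f x‖ ^ 2)) := by
  have hv' : Van (closedBall 0 (R + 1)) f := hv.mono (closedBall_subset_closedBall (by linarith))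
  have hm : ∀ k, L2 univ (mol k f) := fun k => (l2_mol hf k).1
  simp only [fun k => car1_integral_eq K (hm k) (tst_mol hf hv k).van, car1_integral_eq K hf hv']
  refine Tendsto.pow (tendsto_nr (Eventually.of_forall fun k => car1_l2_w K _ (hm k))
    (car1_l2_w K _ hf) ?_) 2
  have h0 := (tendsto_nr_mol_sub hf).const_mul (Real.exp (K * (R + 1) ^ 2 / 2))
  rw [mul_zero] at h0
  refine squeeze_zero (fun k => nr_nonneg _ _) (fun k => ?_) h0
  have h1 : L2 univ fun x => mol k f x - f x := (hm k).sub' hf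
  refine (nr_le_mul_of_le measurableSet_closedBall (h1.mono_set (subset_univ _))
    (Real.exp_pos _).le (Eventually.of_forall fun x hx => ?_)).trans
    (mul_le_mul_of_nonneg_left (nr_mono_set (subset_univ _) h1) (Real.exp_pos _).le)
  rw [← mul_sub, norm_mul]
  exact mul_le_mul_of_nonneg_right (car1_norm_w_le hK hx) (norm_nonneg _)

/-- the same for weak solutions with compact support (mollify; the weight is bounded on the supports). -/
theorem car1_weak (θ : C3) {K R : ℝ} (hK : 0 ≤ K) {y F : R3 → ℂ} (hy : L2 univ y) (hF : L2 univ F)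
    (h : WD univ θ y F) (hv : Van (closedBall 0 R) y) :
    2 * K * n2 θ * ∫ x, Real.exp (K * ‖x‖ ^ 2) * ‖y x‖ ^ 2 ≤
      ∫ x, Real.exp (K * ‖x‖ ^ 2) * ‖F x‖ ^ 2 := by
  refine le_of_tendsto_of_tendsto' ((car1_tendsto hK hy hv).const_mul _)
    (car1_tendsto hK hF (h.van isClosed_closedBall hF hv)) fun k => ?_
  have := car1_smooth θ hK ((tst_mol hy hv k).mono (subset_univ _))
  simpa only [h.dv_mol hy k] using this

/-- systems: absorb the zero order terms by choosing `K` large (`F i` vanishes outside the ball by `WD.van`). -/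
theorem car1 (ι : Type) [Fintype ι] (R C₀ : ℝ) {δ : ℝ} (hδ : 0 < δ) :
    ∃ C : ℝ, 0 ≤ C ∧ ∀ θ : C3, δ ≤ n2 θ → ∀ (y F : ι → R3 → ℂ) (s : R3 → ℝ), (∀ i, L2 univ (y i)) →
      (∀ i, L2 univ (F i)) → (∀ i, WD univ θ (y i) (F i)) → (∀ i, Van (closedBall 0 R) (y i)) →
      L2 univ s → (∀ᵐ x : R3, ∀ i, ‖F i x‖ ≤ C₀ * ∑ j, ‖y j x‖ + s x) →
      ∀ i, nr univ (y i) ≤ C * nr univ s := by
  set n : ℝ := (Fintype.card ι : ℝ) with hn
  have hn0 : 0 ≤ n := Nat.cast_nonneg _
  set l : ℝ := n * |C₀| + 1 with hl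
  have hl0 : 0 < l := by positivity
  set K : ℝ := l ^ 2 / (2 * δ) with hK
  have hK0 : 0 ≤ K := by positivity
  set M : ℝ := Real.exp (K * R ^ 2 / 2) with hM
  have hM0 : 0 < M := Real.exp_pos _
  refine ⟨n * M, by positivity, fun θ hθ y F s hy hF h hv hs hb i => ?_⟩
  have hB : MeasurableSet (closedBall (0 : R3) R) := measurableSet_closedBall
  set N : ι → ℝ := fun j => nr (closedBall 0 R) fun x => car1w K x * y j x with hN
  have hN0 : ∀ j, 0 ≤ N j := fun j => nr_nonneg _ _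
  have hs' : L2 (closedBall 0 R) s := hs.mono_set (subset_univ _)
  have hyw : ∀ j, L2 (closedBall 0 R) fun x => ‖car1w K x * y j x‖ := fun j =>
    (car1_l2_w K R (hy j)).norm'
  have hsum : L2 (closedBall 0 R) fun x => ∑ j, ‖car1w K x * y j x‖ := L2.sum' _ fun j _ => hyw j
  have h1 : ∀ j, l * N j ≤ |C₀| * ∑ j, N j + M * nr univ s := by
    intro j
    have a1 := car1_weak θ hK0 (hy j) (hF j) (h j) (hv j)
    rw [car1_integral_eq K (hy j) (hv j),
      car1_integral_eq K (hF j) ((h j).van isClosed_closedBall (hF j) (hv j))] at a1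
    have a2 : (l * N j) ^ 2 ≤ nr (closedBall 0 R) (fun x => car1w K x * F j x) ^ 2 := by
      refine le_trans ?_ a1
      rw [mul_pow]
      refine mul_le_mul_of_nonneg_right ?_ (sq_nonneg _)
      calc l ^ 2 = 2 * K * δ := by rw [hK]; field_simp
        _ ≤ _ := mul_le_mul_of_nonneg_left hθ (by positivity)
    refine ((pow_le_pow_iff_left₀ (mul_nonneg hl0.le (hN0 j)) (nr_nonneg _ _) two_ne_zero).1
      a2).trans ?_
    refine (nr_le_of_le hB ((hsum.rmul |C₀|).add' (hs'.norm'.rmul M)) ?_).trans ?_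
    · filter_upwards [hb] with x hx hxR
      have b1 := car1_norm_w_le hK0 hxR
      have b2 : ‖F j x‖ ≤ |C₀| * ∑ j, ‖y j x‖ + ‖s x‖ :=
        (hx j).trans (add_le_add (mul_le_mul_of_nonneg_right (le_abs_self _)
          (Finset.sum_nonneg fun _ _ => norm_nonneg _)) (le_abs_self _))
      simp only [norm_mul, ← Finset.mul_sum]
      calc ‖car1w K x‖ * ‖F j x‖ ≤ ‖car1w K x‖ * (|C₀| * ∑ j, ‖y j x‖ + ‖s x‖) :=
            mul_le_mul_of_nonneg_left b2 (norm_nonneg _)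
        _ = |C₀| * (‖car1w K x‖ * ∑ j, ‖y j x‖) + ‖car1w K x‖ * ‖s x‖ := by ring
        _ ≤ _ := add_le_add_right (mul_le_mul_of_nonneg_right b1 (norm_nonneg _)) _
    · refine (nr_add_le (hsum.rmul _) (hs'.norm'.rmul M)).trans (add_le_add ?_ ?_)
      · rw [nr_const_mul_real, abs_abs]
        refine mul_le_mul_of_nonneg_left ((nr_sum_le _ fun j _ => hyw j).trans (le_of_eq ?_))
          (abs_nonneg _)
        exact Finset.sum_congr rfl fun j _ => nr_norm (car1_l2_w K R (hy j))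
      · rw [nr_const_mul_real, abs_of_pos hM0, nr_norm hs']
        exact mul_le_mul_of_nonneg_left (nr_mono_set (subset_univ _) hs) hM0.le
  have h2 := Finset.sum_le_sum fun j (_ : j ∈ Finset.univ) => h1 j
  rw [← Finset.mul_sum, Finset.sum_const, Finset.card_univ, nsmul_eq_mul, ← hn, hl] at h2
  have h3 : N i ≤ ∑ j, N j := Finset.single_le_sum (fun j _ => hN0 j) (Finset.mem_univ i)
  have h4 : nr univ (y i) ≤ N i := by
    rw [(hv i).nr_univ hB]
    refine (nr_le_mul_of_le hB (car1_l2_w K R (hy i)) zero_le_one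
      (Eventually.of_forall fun x _ => ?_)).trans (le_of_eq (one_mul _))
    rw [one_mul, norm_mul, car1_norm_w]
    exact le_mul_of_one_le_left (norm_nonneg _) (Real.one_le_exp (by positivity))
  linarith

/-- unique continuation. -/
theorem car1_zero {ι : Type} [Fintype ι] {R C₀ : ℝ} {θ : C3} (hθ : θ ≠ 0) {y F : ι → R3 → ℂ}
    (hy : ∀ i, L2 univ (y i)) (hF : ∀ i, L2 univ (F i)) (h : ∀ i, WD univ θ (y i) (F i))
    (hv : ∀ i, Van (closedBall 0 R) (y i)) (hb : ∀ᵐ x : R3, ∀ i, ‖F i x‖ ≤ C₀ * ∑ j, ‖y j x‖)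
    (i : ι) : ∀ᵐ x : R3, y i x = 0 := by
  obtain ⟨C, -, hC⟩ := car1 ι R C₀ (n2_pos hθ)
  have := hC θ le_rfl y F (fun _ => 0) hy hF h hv (L2.zero' _) (by simpa using hb) i
  rw [nr_zero, mul_zero] at this
  simpa using ae_eq_zero_of_nr MeasurableSet.univ (hy i) this

theorem car1_zero_scalar {R C₀ : ℝ} {θ : C3} (hθ : θ ≠ 0) {y F : R3 → ℂ} (hy : L2 univ y)
    (hF : L2 univ F) (h : WD univ θ y F) (hv : Van (closedBall 0 R) y)
    (hb : ∀ᵐ x : R3, ‖F x‖ ≤ C₀ * ‖y x‖) : ∀ᵐ x : R3, y x = 0 := by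
  exact car1_zero (ι := Unit) (C₀ := C₀) (y := fun _ => y) (F := fun _ => F) hθ (fun _ => hy)
    (fun _ => hF) (fun _ => h) (fun _ => hv) (by simpa using hb) ()

theorem poincare (R : ℝ) :
    ∃ C : ℝ, 0 ≤ C ∧ ∀ (f : R3 → ℂ) (G : Fin 3 → R3 → ℂ), H1 univ f G → Van (closedBall 0 R) f →
      nr univ f ≤ C * nr univ (G 0) := by
  obtain ⟨C, hC0, hC⟩ := car1 Unit R 0 one_pos
  refine ⟨C, hC0, fun f G h hv => ?_⟩
  have := hC (ee 0) (n2_ee 0).ge (fun _ => f) (fun _ => G 0) (fun x => ‖G 0 x‖) (fun _ => h.l2)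
    (fun _ => h.l2G 0) (fun _ => h.wd 0) (fun _ => hv) (h.l2G 0).norm' (by simp) ()
  rwa [nr_norm (h.l2G 0)] at this

end Crest.Agent.R80
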