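import Crest.Agent.R80.Calc2

/-!
# Row 80: geometry of a smooth bounded domain
-/

namespace Crest.Agent.R80

open MeasureTheory Set Metric Filter Topology Complex
open scoped ContDiff
open Crest.AnalysisR.VecCalc3 Crest.AnalysisR.PDE Crest.AnalysisR.PDE.Elasticity

variable {Ω : Set R3} {ρ : R3 → ℝ}

theorem IsDom.exists_defF (h : IsDom Ω) : ∃ ρ, DefF Ω ρ := by
  obtain ⟨hb, ρ, h1, h2, h3⟩ := h
  exact ⟨ρ, hb, h1, h2, h3⟩

theorem isDom_empty : IsDom ∅ :=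
  ⟨Bornology.isBounded_empty, fun _ => 1, contDiff_const, by ext x; simp, fun x hx => by simp at hx⟩

namespace DefF

theorem isOpen (h : DefF Ω ρ) : IsOpen Ω := by
  rw [h.eq]
  exact isOpen_lt h.cd.continuous continuous_const

theorem dom_mem (h : DefF Ω ρ) {x : R3} : x ∈ Ω ↔ ρ x < 0 := by
  rw [h.eq]; rfl

theorem dom_grad_ne (h : DefF Ω ρ) {x₀ : R3} (hx₀ : ρ x₀ = 0) : gradient ρ x₀ ≠ 0 := by
  intro h0
  apply h.ne x₀ hx₀
  rw [gradient] at h0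
  exact (LinearIsometryEquiv.map_eq_zero_iff _).1 h0

/-- strict differentiability in explicit form -/
theorem dom_strict (h : DefF Ω ρ) (x₀ : R3) {η : ℝ} (hη : 0 < η) :
    ∃ r : ℝ, 0 < r ∧ ∀ y z : R3, ‖y - x₀‖ < r → ‖z - x₀‖ < r →
      |ρ y - ρ z - inner ℝ (gradient ρ x₀) (y - z)| ≤ η * ‖y - z‖ := by
  have h1 : HasStrictFDerivAt ρ (fderiv ℝ ρ x₀) x₀ :=
    h.cd.contDiffAt.hasStrictFDerivAt (by simp)
  have h2 := h1.isLittleO.bound hη
  obtain ⟨r, hr, h3⟩ := Metric.eventually_nhds_iff.1 h2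
  refine ⟨r, hr, fun y z hy hz => ?_⟩
  have h4 := @h3 (y, z) (by
    rw [Prod.dist_eq, dist_eq_norm, dist_eq_norm]; exact max_lt hy hz)
  rw [gradient, InnerProductSpace.toDual_symm_apply]
  exact h4

/-- a zero `x` of `ρ` is the limit of `x - s ∇ρ x ∈ Ω`. -/
theorem closure_eq (h : DefF Ω ρ) : closure Ω = {x | ρ x ≤ 0} := by
  refine Subset.antisymm (closure_minimal (fun x hx => (h.dom_mem.1 hx).le)
    (isClosed_le h.cd.continuous continuous_const)) fun x hx => ?_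
  rcases (show ρ x ≤ 0 from hx).lt_or_eq with hx | hx
  · exact subset_closure (h.dom_mem.2 hx)
  have hν : 0 < ‖gradient ρ x‖ := norm_pos_iff.2 (h.dom_grad_ne hx)
  obtain ⟨r, hr, h1⟩ := h.dom_strict x (half_pos hν)
  rw [Metric.mem_closure_iff]
  intro ε hε
  set ν := gradient ρ x
  have hm : 0 < min r ε := lt_min hr hε
  set s : ℝ := min r ε / (2 * ‖ν‖) with hs
  have hs0 : 0 < s := by positivity
  have e1 : x - s • ν - x = -(s • ν) := by abel
  have e2 : ‖s • ν‖ = s * ‖ν‖ := by rw [norm_smul, Real.norm_of_nonneg hs0.le]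
  have e3 : s * ‖ν‖ = min r ε / 2 := by rw [hs]; field_simp
  have h2 := h1 (x - s • ν) x (by rw [e1, norm_neg, e2, e3]; linarith [min_le_left r ε])
    (by simpa using hr)
  rw [e1, norm_neg, e2, inner_neg_right, inner_smul_right, real_inner_self_eq_norm_sq, hx] at h2
  refine ⟨x - s • ν, h.dom_mem.2 ?_, ?_⟩
  · have h3 := (abs_le.1 h2).2
    have h4 : 0 < s * ‖ν‖ ^ 2 := by positivity
    nlinarith
  · rw [dist_comm, dist_eq_norm, e1, norm_neg, e2, e3]; linarith [min_le_right r ε]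

theorem frontier_eq (h : DefF Ω ρ) : frontier Ω = {x | ρ x = 0} := by
  rw [h.isOpen.frontier_eq, h.closure_eq]
  ext x
  simp only [Set.mem_sdiff, mem_ofPred_eq, h.dom_mem, not_lt]
  exact ⟨fun h => le_antisymm h.1 h.2, fun h => ⟨h.le, h.ge⟩⟩

/-- sliding to the boundary along the normal `ν = ∇ρ x₀`: near `x₀` the derivative of `ρ` along `ν` lies in
`[‖ν‖²/2, 2‖ν‖²]`; intermediate value theorem and mean value inequalities. -/
theorem slide (h : DefF Ω ρ) {x₀ : R3} (hx₀ : x₀ ∈ frontier Ω) {δ : ℝ} (hδ : 0 < δ) :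
    ∃ δ' : ℝ, 0 < δ' ∧ ∀ x ∈ Ω, ‖x - x₀‖ < δ' → ∃ s : ℝ, 0 < s ∧
      |ρ x| ≤ 2 * ‖gradient ρ x₀‖ ^ 2 * s ∧ ‖gradient ρ x₀‖ ^ 2 * s ≤ 2 * |ρ x| ∧
      x + s • gradient ρ x₀ ∈ frontier Ω ∧
      ∀ s' ∈ Icc 0 s, ‖x + s' • gradient ρ x₀ - x₀‖ < δ := by
  have h0 : ρ x₀ = 0 := by rw [h.frontier_eq] at hx₀; exact hx₀
  have hν : 0 < ‖gradient ρ x₀‖ := norm_pos_iff.2 (h.dom_grad_ne h0)
  obtain ⟨r, hr, h1⟩ := h.dom_strict x₀ (half_pos hν)
  set ν := gradient ρ x₀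
  set r' := min r δ with hr'
  have hr'0 : 0 < r' := lt_min hr hδ
  have hr1 : r' ≤ r := min_le_left _ _
  have hr2 : r' ≤ δ := min_le_right _ _
  refine ⟨r' / 6, by positivity, fun x hx hxx => ?_⟩
  have hρx : ρ x < 0 := h.dom_mem.1 hx
  set s₁ : ℝ := r' / (2 * ‖ν‖) with hs₁
  have hs₁0 : 0 < s₁ := by positivity
  have e3 : s₁ * ‖ν‖ = r' / 2 := by rw [hs₁]; field_simp
  have hin : ∀ s ∈ Icc 0 s₁, ‖x + s • ν - x₀‖ < r' := fun s hs => by
    have e : x + s • ν - x₀ = (x - x₀) + s • ν := by abel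
    have h2 := norm_add_le (x - x₀) (s • ν)
    rw [norm_smul, Real.norm_of_nonneg hs.1] at h2
    have h3 := mul_le_mul_of_nonneg_right hs.2 hν.le
    rw [e]; linarith
  have hg : ∀ s ∈ Icc 0 s₁, s * ‖ν‖ ^ 2 / 2 ≤ ρ (x + s • ν) - ρ x ∧
      ρ (x + s • ν) - ρ x ≤ 3 / 2 * (s * ‖ν‖ ^ 2) := fun s hs => by
    have h2 := h1 (x + s • ν) x ((hin s hs).trans_le hr1) (by linarith)
    rw [add_sub_cancel_left, norm_smul, Real.norm_of_nonneg hs.1, inner_smul_right,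
      real_inner_self_eq_norm_sq] at h2
    obtain ⟨h3, h4⟩ := abs_le.1 h2
    constructor <;> nlinarith
  have hlow : -(3 / 2 * ‖ν‖ * (r' / 6)) ≤ ρ x := by
    have h2 := h1 x x₀ (by linarith) (by simpa using hr)
    have h3 := (abs_le.1 h2).1
    have h4 := (abs_le.1 (abs_real_inner_le_norm ν (x - x₀))).1
    have h5 := mul_le_mul_of_nonneg_left hxx.le hν.le
    rw [h0] at h3
    nlinarith
  have hend : 0 ≤ ρ (x + s₁ • ν) := by
    have h2 := (hg s₁ ⟨hs₁0.le, le_rfl⟩).1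
    have e4 : s₁ * ‖ν‖ ^ 2 = r' / 2 * ‖ν‖ := by rw [← e3]; ring
    rw [e4] at h2
    nlinarith
  have hc : ContinuousOn (fun s : ℝ => ρ (x + s • ν)) (Icc 0 s₁) :=
    (h.cd.continuous.comp (by fun_prop)).continuousOn
  obtain ⟨s, hs, hs0⟩ := intermediate_value_Icc hs₁0.le hc
    (show (0 : ℝ) ∈ Icc (ρ (x + (0 : ℝ) • ν)) (ρ (x + s₁ • ν)) from
      ⟨by rw [zero_smul, add_zero]; exact hρx.le, hend⟩)
  have hs0' : ρ (x + s • ν) = 0 := hs0
  have hsp : 0 < s := by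
    rcases hs.1.lt_or_eq with h' | h'
    · exact h'
    · rw [← h', zero_smul, add_zero] at hs0'; linarith
  obtain ⟨h5, h6⟩ := hg s hs
  have h7 : 0 < s * ‖ν‖ ^ 2 := by positivity
  rw [abs_of_neg hρx]
  refine ⟨s, hsp, by linarith, by linarith, by rw [h.frontier_eq]; exact hs0', fun s' hs' => ?_⟩
  exact (hin s' ⟨hs'.1, hs'.2.trans hs.2⟩).trans_le hr2

theorem gradient_ne_zero (h : DefF Ω ρ) {x₀ : R3} (hx₀ : x₀ ∈ frontier Ω) : gradient ρ x₀ ≠ 0 :=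
  h.dom_grad_ne (by rw [h.frontier_eq] at hx₀; exact hx₀)

theorem dom_frontier_nonempty (h : DefF Ω ρ) (hne : Ω.Nonempty) : (frontier Ω).Nonempty := by
  rw [nonempty_iff_ne_empty]
  intro h0
  rcases isClopen_iff.1 (isClopen_iff_frontier_eq_empty.2 h0) with h1 | h1
  · exact hne.ne_empty h1
  · have := h.bd
    rw [h1] at this
    exact NormedSpace.unbounded_univ ℝ R3 this

/-- compactness and `slide`; away from the boundary `|ρ|` is bounded below. -/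
theorem dist_bound (h : DefF Ω ρ) :
    ∃ C : ℝ, 0 ≤ C ∧ ∀ x ∈ Ω, ∃ z ∈ frontier Ω, ‖x - z‖ ≤ C * |ρ x| := by
  have hK : IsCompact (closure Ω) := h.bd.isCompact_closure
  have key := hK.induction_on
    (p := fun s => ∃ C : ℝ, 0 ≤ C ∧ ∀ x ∈ s, x ∈ Ω → ∃ z ∈ frontier Ω, ‖x - z‖ ≤ C * |ρ x|)
    ⟨0, le_rfl, fun x hx => hx.elim⟩
    (fun s t hst ⟨C, hC, h1⟩ => ⟨C, hC, fun x hx => h1 x (hst hx)⟩)
    (fun s t ⟨C, hC, h1⟩ ⟨C', _, h2⟩ => ⟨max C C', le_max_of_le_left hC, fun x hx hxΩ => by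
      rcases hx with hx | hx
      · obtain ⟨z, hz, h3⟩ := h1 x hx hxΩ
        exact ⟨z, hz, h3.trans (mul_le_mul_of_nonneg_right (le_max_left _ _) (abs_nonneg _))⟩
      · obtain ⟨z, hz, h3⟩ := h2 x hx hxΩ
        exact ⟨z, hz, h3.trans (mul_le_mul_of_nonneg_right (le_max_right _ _) (abs_nonneg _))⟩⟩)
    ?_
  · obtain ⟨C, hC, h1⟩ := key
    exact ⟨C, hC, fun x hx => h1 x (subset_closure hx) hx⟩
  intro y hy
  rw [h.closure_eq] at hy
  rcases (show ρ y ≤ 0 from hy).lt_or_eq with hy | hy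
  · obtain ⟨z, hz⟩ := h.dom_frontier_nonempty ⟨y, h.dom_mem.2 hy⟩
    have h1 : {x | ρ x < ρ y / 2} ∩ ball y 1 ∈ 𝓝 y :=
      inter_mem ((isOpen_lt h.cd.continuous continuous_const).mem_nhds (by
        show ρ y < ρ y / 2; linarith)) (ball_mem_nhds y one_pos)
    have h2 : 0 < -ρ y / 2 := by linarith
    refine ⟨_, mem_nhdsWithin_of_mem_nhds h1, (1 + ‖y - z‖) / (-ρ y / 2), by positivity,
      fun x hx hxΩ => ⟨z, hz, ?_⟩⟩
    have h3 : ρ x < ρ y / 2 := hx.1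
    have h4 : ‖x - y‖ < 1 := by simpa [dist_eq_norm] using hx.2
    have h5 : ‖x - z‖ ≤ ‖x - y‖ + ‖y - z‖ := norm_sub_le_norm_sub_add_norm_sub _ _ _
    rw [abs_of_neg (h.dom_mem.1 hxΩ), div_mul_eq_mul_div, le_div_iff₀ h2]
    have h6 := norm_nonneg (x - z)
    have h7 := norm_nonneg (y - z)
    nlinarith
  · have hyf : y ∈ frontier Ω := by rw [h.frontier_eq]; exact hy
    have hν : 0 < ‖gradient ρ y‖ := norm_pos_iff.2 (h.dom_grad_ne hy)
    obtain ⟨δ', hδ', h1⟩ := h.slide hyf one_pos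
    refine ⟨_, mem_nhdsWithin_of_mem_nhds (ball_mem_nhds y hδ'), 2 / ‖gradient ρ y‖, by positivity,
      fun x hx hxΩ => ?_⟩
    obtain ⟨s, hs, -, h2, h3, -⟩ := h1 x hxΩ (by simpa [dist_eq_norm] using hx)
    refine ⟨_, h3, ?_⟩
    rw [sub_add_cancel_left, norm_neg, norm_smul, Real.norm_of_nonneg hs.le, div_mul_eq_mul_div,
      le_div_iff₀ hν]
    nlinarith

/-- exterior and interior points on the normal.  `ρ (x₀ ± ε ν) = ± ε ‖ν‖² + o(ε)` and `ρ` is Lipschitz on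
bounded sets. -/
theorem normal_points (h : DefF Ω ρ) {x₀ : R3} (hx₀ : x₀ ∈ frontier Ω) :
    ∃ c ε₁ : ℝ, 0 < c ∧ 0 < ε₁ ∧ ∀ ε : ℝ, 0 < ε → ε ≤ ε₁ →
      (∀ x ∈ closure Ω, c * ε ≤ ‖x - (x₀ + ε • gradient ρ x₀)‖) ∧
      ∀ x, ‖x - (x₀ - ε • gradient ρ x₀)‖ < c * ε → ρ x ≤ -(c * ε) := by
  have h0 : ρ x₀ = 0 := by rw [h.frontier_eq] at hx₀; exact hx₀
  have hν : 0 < ‖gradient ρ x₀‖ := norm_pos_iff.2 (h.dom_grad_ne h0)
  obtain ⟨r, hr, h1⟩ := h.dom_strict x₀ (show 0 < ‖gradient ρ x₀‖ / 4 by positivity)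
  set ν := gradient ρ x₀
  set c := min (‖ν‖ / 4) (‖ν‖ ^ 2 / 4) with hc
  have hc1 : c ≤ ‖ν‖ / 4 := min_le_left _ _
  have hc2 : c ≤ ‖ν‖ ^ 2 / 4 := min_le_right _ _
  refine ⟨c, r / (2 * ‖ν‖), lt_min (by positivity) (by positivity), by positivity,
    fun ε hε hε1 => ?_⟩
  have hεr : ε * ‖ν‖ ≤ r / 2 := by
    rw [le_div_iff₀ (by positivity)] at hε1; linarith
  have hp : 0 < ε * ‖ν‖ := by positivity
  have hp2 : 0 < ε * ‖ν‖ ^ 2 := by positivity
  have key : ∀ (σ : ℝ) (x : R3), |σ| = 1 → ‖x - (x₀ + (σ * ε) • ν)‖ < c * ε →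
      |ρ x - σ * ε * ‖ν‖ ^ 2| ≤ 9 / 16 * (ε * ‖ν‖ ^ 2) := fun σ x hσ hx => by
    set w := x - (x₀ + (σ * ε) • ν) with hw
    have e : x - x₀ = w + (σ * ε) • ν := by rw [hw]; abel
    have hw1 : ‖w‖ ≤ ε * ‖ν‖ / 4 := by
      have := mul_le_mul_of_nonneg_right hc1 hε.le
      linarith
    have hn : ‖x - x₀‖ ≤ 5 / 4 * (ε * ‖ν‖) := by
      have := norm_add_le w ((σ * ε) • ν)
      rw [norm_smul, Real.norm_eq_abs, abs_mul, hσ, one_mul, abs_of_pos hε] at this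
      rw [e]; linarith
    have h2 := h1 x x₀ (by linarith) (by simpa using hr)
    have h3 := mul_le_mul_of_nonneg_left hn (show 0 ≤ ‖ν‖ / 4 by positivity)
    have h4 := abs_real_inner_le_norm ν w
    have h5 := mul_le_mul_of_nonneg_left hw1 hν.le
    have e2 : inner ℝ ν (x - x₀) = inner ℝ ν w + σ * ε * ‖ν‖ ^ 2 := by
      rw [e, inner_add_right, inner_smul_right, real_inner_self_eq_norm_sq]
    rw [h0, e2] at h2
    obtain ⟨h6, h7⟩ := abs_le.1 (h2.trans h3)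
    obtain ⟨h8, h9⟩ := abs_le.1 (h4.trans h5)
    rw [abs_le]
    constructor <;> nlinarith
  refine ⟨fun x hx => ?_, fun x hx => ?_⟩
  · by_contra hlt
    have h2 := key 1 x abs_one (by rw [one_mul]; exact not_le.1 hlt)
    rw [h.closure_eq] at hx
    have h3 : ρ x ≤ 0 := hx
    have h4 := (abs_le.1 h2).1
    linarith
  · have h2 := key (-1) x (by simp) (by rw [neg_one_mul, neg_smul, ← sub_eq_add_neg]; exact hx)
    have h4 := (abs_le.1 h2).2
    have h5 := mul_le_mul_of_nonneg_right hc2 hε.le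
    linarith

/-- at a boundary point the closure contains the convex set with nonempty interior
`x₀ + {v | ‖v‖ ≤ δ, ⟪ν, v⟫ ≤ -‖ν‖ ‖v‖ / 2}` (`uniqueDiffWithinAt_convex`). -/
theorem uniqueDiffOn_closure (h : DefF Ω ρ) : UniqueDiffOn ℝ (closure Ω) := by
  intro x hx
  have hx' := hx
  rw [h.closure_eq] at hx'
  rcases (show ρ x ≤ 0 from hx').lt_or_eq with hρ | hρ
  · exact uniqueDiffWithinAt_of_mem_nhds
      (mem_of_superset (h.isOpen.mem_nhds (h.dom_mem.2 hρ)) subset_closure)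
  have hν : 0 < ‖gradient ρ x‖ := norm_pos_iff.2 (h.dom_grad_ne hρ)
  obtain ⟨r, hr, h1⟩ := h.dom_strict x (half_pos hν)
  set ν := gradient ρ x
  set K : Set R3 := ball x r ∩ {y | inner ℝ ν (y - x) + ‖ν‖ / 2 * ‖y - x‖ ≤ 0} with hK
  have hsub : K ⊆ closure Ω := fun y hy => by
    rw [h.closure_eq]
    have h2 := h1 y x (by simpa [dist_eq_norm] using hy.1) (by simpa using hr)
    have h3 : inner ℝ ν (y - x) + ‖ν‖ / 2 * ‖y - x‖ ≤ 0 := hy.2
    have h4 := (abs_le.1 h2).2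
    show ρ y ≤ 0
    linarith
  have hconv : Convex ℝ K := by
    refine (convex_ball x r).inter fun y hy z hz a b ha hb hab => ?_
    have hy' : inner ℝ ν (y - x) + ‖ν‖ / 2 * ‖y - x‖ ≤ 0 := hy
    have hz' : inner ℝ ν (z - x) + ‖ν‖ / 2 * ‖z - x‖ ≤ 0 := hz
    have e : a • y + b • z - x = a • (y - x) + b • (z - x) := by
      rw [smul_sub, smul_sub, ← add_sub_add_comm, ← add_smul, hab, one_smul]
    have h2 := norm_add_le (a • (y - x)) (b • (z - x))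
    rw [norm_smul, norm_smul, Real.norm_of_nonneg ha, Real.norm_of_nonneg hb] at h2
    show inner ℝ ν (a • y + b • z - x) + ‖ν‖ / 2 * ‖a • y + b • z - x‖ ≤ 0
    rw [e, inner_add_right, inner_smul_right, inner_smul_right]
    have h3 := mul_le_mul_of_nonneg_left h2 (half_pos hν).le
    have h4 := mul_le_mul_of_nonneg_left hy' ha
    have h5 := mul_le_mul_of_nonneg_left hz' hb
    linarith
  have hint : (interior K).Nonempty := by
    set s : ℝ := r / (2 * ‖ν‖) with hs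
    have hs0 : 0 < s := by positivity
    have e1 : x - s • ν - x = -(s • ν) := by abel
    have e2 : ‖s • ν‖ = s * ‖ν‖ := by rw [norm_smul, Real.norm_of_nonneg hs0.le]
    have e3 : s * ‖ν‖ = r / 2 := by rw [hs]; field_simp
    have hO : IsOpen (ball x r ∩ {y | inner ℝ ν (y - x) + ‖ν‖ / 2 * ‖y - x‖ < 0}) :=
      isOpen_ball.inter (isOpen_lt (by fun_prop) continuous_const)
    have hOK : ball x r ∩ {y | inner ℝ ν (y - x) + ‖ν‖ / 2 * ‖y - x‖ < 0} ⊆ K :=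
      fun y hy => ⟨hy.1, le_of_lt (b := 0) (show inner ℝ ν (y - x) + ‖ν‖ / 2 * ‖y - x‖ < 0 from hy.2)⟩
    refine ⟨x - s • ν, interior_maximal hOK hO ⟨?_, ?_⟩⟩
    · rw [mem_ball, dist_eq_norm, e1, norm_neg, e2, e3]; linarith
    · show inner ℝ ν (x - s • ν - x) + ‖ν‖ / 2 * ‖x - s • ν - x‖ < 0
      rw [e1, norm_neg, e2, inner_neg_right, inner_smul_right, real_inner_self_eq_norm_sq]
      have h4 : 0 < s * ‖ν‖ ^ 2 := by positivity
      nlinarith
  exact (uniqueDiffWithinAt_convex hconv hint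
    (subset_closure ⟨mem_ball_self hr, by simp⟩)).mono hsub

end DefF

namespace IsDom

theorem isOpen (h : IsDom Ω) : IsOpen Ω :=
  h.exists_defF.elim fun _ hρ => hρ.isOpen

theorem measurableSet (h : IsDom Ω) : MeasurableSet Ω :=
  h.isOpen.measurableSet

theorem isCompact_closure (h : IsDom Ω) : IsCompact (closure Ω) :=
  h.1.isCompact_closure

theorem exists_ball (h : IsDom Ω) : ∃ r : ℝ, 0 < r ∧ closure Ω ⊆ ball 0 r := by
  obtain ⟨r, hr, h1⟩ := h.1.closure.subset_ball_lt 0 0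
  exact ⟨r, hr, h1⟩

theorem integrableOn (h : IsDom Ω) {E : Type*} [NormedAddCommGroup E] {f : R3 → E}
    (hf : ContinuousOn f (closure Ω)) : IntegrableOn f Ω :=
  (hf.integrableOn_compact h.isCompact_closure).mono_set subset_closure

end IsDom

end Crest.Agent.R80
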