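import Crest.Agent.R80.L2b
import Crest.Agent.R80.Dom

/-!
# Row 80: properties of the coefficients
-/

namespace Crest.Agent.R80

open MeasureTheory Set Metric Filter Topology Complex
open scoped ContDiff
open Crest.AnalysisR.VecCalc3 Crest.AnalysisR.PDE Crest.AnalysisR.PDE.Elasticity

theorem Coef_tk {n : WithTop ℕ∞} {f : R3 → ℂ} (h : ContDiff ℝ n f) (hc : HasCompactSupport f) :
    Tk n univ f := ⟨h, hc, subset_univ _⟩

theorem Coef_bd_of_tk {n : WithTop ℕ∞} {f : R3 → ℂ} (s : ℂ) (h : Tk n univ fun x => f x - s) :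
    Bd f := by
  have := h.bd.add (Bd.const s)
  simpa using this

theorem Coef_cexp {n : WithTop ℕ∞} {f : R3 → ℂ} (h : ContDiff ℝ n f) :
    ContDiff ℝ n fun x => Complex.exp (f x) :=
  (Complex.contDiff_exp (𝕜 := ℝ)).comp h

namespace Co

variable (c : Co)

theorem contDiff_mc : ContDiff ℝ 6 c.mc := by
  exact contDiff_ofReal c.hm

theorem tk_mc : Tk 6 univ c.mc := by
  exact Coef_tk c.contDiff_mc (c.cm.comp_left (g := fun t : ℝ => (t : ℂ)) (by simp))

theorem tk_a (i : Fin 3) : Tk 5 univ (c.a i) := by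
  exact c.tk_mc.pd (by norm_num) i

theorem tk_H (i j : Fin 3) : Tk 4 univ (c.H i j) := by
  exact (((c.tk_a i).of_le (by norm_num)).mul_right ((c.tk_a j).of_le (by norm_num)).cd).sub'
    ((c.tk_a j).pd (by norm_num) i)

theorem tk_trH : Tk 4 univ c.trH := by
  exact Tk.sum Finset.univ fun i _ => c.tk_H i i

theorem tk_ka : Tk 6 univ c.ka := by
  refine Coef_tk ((contDiff_const.sub (Coef_cexp (contDiff_ofReal c.hl))).div_const 2) ?_
  exact c.cl.comp_left (g := fun t : ℝ => (1 - Complex.exp (t : ℂ)) / 2) (by simp)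

theorem tk_IA (k : Fin 3) (i j : Option (Fin 3)) : Tk 4 univ (c.IA k i j) := by
  have ha : ∀ i, Tk 4 univ (c.a i) := fun i => (c.tk_a i).of_le (by norm_num)
  rcases i with _ | i <;> rcases j with _ | j
  · exact Tk.zero _ _
  · exact ((c.tk_ka.of_le (by norm_num)).const_mul 2).ite _
  · exact (c.tk_H k i).const_mul (-2)
  · exact (((ha k).ite _).add ((ha i).ite _)).neg

theorem tk_IB (i j : Option (Fin 3)) : Tk 3 univ (c.IB i j) := by
  have ha : ∀ i j, Tk 3 univ (pd i (c.a j)) := fun i j => (c.tk_a j).pd (by norm_num) i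
  have hk : ContDiff ℝ 3 fun x => -(4 * c.ka x - 1) :=
    ((contDiff_const.mul (c.tk_ka.of_le (by norm_num)).cd).sub contDiff_const).neg
  rcases i with _ | i <;> rcases j with _ | j
  · exact (c.tk_trH.of_le (by norm_num)).mul_left hk
  · exact ((c.tk_a j).of_le (by norm_num)).mul_left hk
  · exact (Tk.sum Finset.univ fun k _ => (c.tk_H k i).pd (by norm_num) k).const_mul (-2)
  · exact (((Tk.sum Finset.univ fun k _ => ha k k).ite _).add (ha j i)).neg

theorem H_symm (i j : Fin 3) (x : R3) : c.H i j x = c.H j i x := by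
  unfold H a
  rw [pd_comm i j (c.contDiff_mc.of_le (by norm_num)).contDiffAt, mul_comm]

theorem pd_a_symm (i j : Fin 3) (x : R3) : pd i (c.a j) x = pd j (c.a i) x := by
  exact pd_comm i j (c.contDiff_mc.of_le (by norm_num)).contDiffAt

theorem contDiff_exp (s : ℂ) : ContDiff ℝ 6 fun x => Complex.exp (s * c.mc x) := by
  exact Coef_cexp (contDiff_const.mul c.contDiff_mc)

theorem contDiff_expneg : ContDiff ℝ 6 fun x => Complex.exp (-c.mc x) := by
  exact Coef_cexp c.contDiff_mc.neg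

theorem pd_expneg (i : Fin 3) (x : R3) :
    pd i (fun y => Complex.exp (-c.mc y)) x = -c.a i x * Complex.exp (-c.mc x) := by
  rw [pd_cexp i (f := fun y => -c.mc y) (c.contDiff_mc.differentiable (by norm_num) x).neg, pd_neg]
  unfold a
  ring

theorem bd_expneg : Bd fun x => Complex.exp (-c.mc x) := by
  refine Coef_bd_of_tk (n := 6) 1 (Coef_tk (c.contDiff_expneg.sub contDiff_const) ?_)
  exact c.cm.comp_left (g := fun t : ℝ => Complex.exp (-(t : ℂ)) - 1) (by simp)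

theorem contDiff_mu : ContDiff ℝ 6 c.mu := by
  exact Real.contDiff_exp.comp c.hm

theorem contDiff_lam : ContDiff ℝ 6 c.lam := by
  exact (Real.contDiff_exp.comp c.hm).mul ((Real.contDiff_exp.comp c.hl.neg).sub contDiff_const)

theorem mu_pos (x : R3) : 0 < c.mu x := by
  exact Real.exp_pos _

theorem Coef_tk_mu : Tk 6 univ fun x => (c.mu x : ℂ) - 1 := by
  refine Coef_tk ((contDiff_ofReal c.contDiff_mu).sub contDiff_const) ?_
  exact c.cm.comp_left (g := fun t : ℝ => ((Real.exp t : ℝ) : ℂ) - 1) (by simp)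

theorem Coef_tk_lam : Tk 6 univ fun x => (c.lam x : ℂ) - (-1) := by
  refine Coef_tk ((contDiff_ofReal c.contDiff_lam).sub contDiff_const) ?_
  refine HasCompactSupport.intro (c.cm.isCompact.union c.cl.isCompact) fun x hx => ?_
  rw [mem_union, not_or] at hx
  have h1 : c.m x = 0 := image_eq_zero_of_notMem_tsupport hx.1
  have h2 : c.l x = 0 := image_eq_zero_of_notMem_tsupport hx.2
  simp only [lam, h1, h2, neg_zero, Real.exp_zero]
  push_cast
  ring

theorem bd_mu : Bd fun x => (c.mu x : ℂ) := by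
  exact Coef_bd_of_tk 1 c.Coef_tk_mu

theorem bd_lam : Bd fun x => (c.lam x : ℂ) := by
  exact Coef_bd_of_tk (-1) c.Coef_tk_lam

theorem Coef_pd_mu (i : Fin 3) (x : R3) :
    (pderiv c.mu i x : ℂ) = pd i (fun y => (c.mu y : ℂ) - 1) x := by
  have hd : DifferentiableAt ℝ c.mu x := c.contDiff_mu.differentiable (by norm_num) x
  rw [← pd_ofReal i hd, pd_sub i ((contDiff_ofReal c.contDiff_mu).differentiable (by norm_num) x)
    (differentiableAt_const _)]
  simp [pd]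

theorem Coef_pd_pd_mu (i j : Fin 3) (x : R3) :
    (pderiv (pderiv c.mu i) j x : ℂ) = pd j (pd i fun y => (c.mu y : ℂ) - 1) x := by
  have hd : DifferentiableAt ℝ (pderiv c.mu i) x :=
    (contDiff_pderiv (m := 5) i c.contDiff_mu (by norm_num)).differentiable (by norm_num) x
  rw [← pd_ofReal j hd]
  congr 1
  funext y
  exact c.Coef_pd_mu i y

theorem Coef_abs_le {a : ℝ} {z : ℂ} {L : ℝ} (h : (a : ℂ) = z) (hz : ‖z‖ ≤ L) : |a| ≤ L := by
  rw [← h, Complex.norm_real, Real.norm_eq_abs] at hz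
  exact hz

/-- global bounds and Lipschitz bounds for the moduli. -/
theorem exists_bound : ∃ L : ℝ, 0 ≤ L ∧ (∀ x, |c.mu x| ≤ L ∧ |c.lam x| ≤ L ∧
    ∀ i, |pderiv c.mu i x| ≤ L ∧ ∀ j, |pderiv (pderiv c.mu i) j x| ≤ L) ∧
    ∀ x y, |c.mu x - c.mu y| ≤ L * ‖x - y‖ ∧ |c.lam x - c.lam y| ≤ L * ‖x - y‖ := by
  obtain ⟨C1, h10, h1⟩ := c.bd_mu.exists_bound
  obtain ⟨C2, h20, h2⟩ := c.bd_lam.exists_bound
  obtain ⟨C3, h30, h3⟩ := Bd.exists_bound_fin
    (F := fun i : Fin 3 => pd i fun y => (c.mu y : ℂ) - 1)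
    fun i => (c.Coef_tk_mu.pd (m := 5) (by norm_num) i).bd
  obtain ⟨C4, h40, h4⟩ := Bd.exists_bound_fin
    (F := fun p : Fin 3 × Fin 3 => pd p.2 (pd p.1 fun y => (c.mu y : ℂ) - 1))
    fun p => ((c.Coef_tk_mu.pd (m := 5) (by norm_num) p.1).pd (m := 4) (by norm_num) p.2).bd
  obtain ⟨L1, hL1⟩ := (c.Coef_tk_mu.of_le (m := 1) (by norm_num)).exists_bl
  obtain ⟨L2, hL2⟩ := (c.Coef_tk_lam.of_le (m := 1) (by norm_num)).exists_bl
  have h50 : 0 ≤ L1 := (norm_nonneg _).trans (hL1.1 0)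
  have h60 : 0 ≤ L2 := (norm_nonneg _).trans (hL2.1 0)
  refine ⟨C1 + C2 + C3 + C4 + L1 + L2, by positivity, fun x => ⟨?_, ?_, fun i => ⟨?_, fun j => ?_⟩⟩,
    fun x y => ⟨?_, ?_⟩⟩
  · have := Coef_abs_le rfl (h1 x); linarith
  · have := Coef_abs_le rfl (h2 x); linarith
  · have := Coef_abs_le (c.Coef_pd_mu i x) (h3 i x); linarith
  · have := Coef_abs_le (c.Coef_pd_pd_mu i j x) (h4 (i, j) x); linarith
  · have := Coef_abs_le (a := c.mu x - c.mu y) (by push_cast; ring) (hL1.2 x y)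
    refine this.trans (mul_le_mul_of_nonneg_right (by linarith) (norm_nonneg _))
  · have := Coef_abs_le (a := c.lam x - c.lam y) (by push_cast; ring) (hL2.2 x y)
    refine this.trans (mul_le_mul_of_nonneg_right (by linarith) (norm_nonneg _))

theorem mu_eq (x : R3) : (c.mu x : ℂ) = Complex.exp (c.mc x) := by
  simp [mu, mc]

theorem mu_mul_expneg (x : R3) : (c.mu x : ℂ) * Complex.exp (-c.mc x) = 1 := by
  rw [mu_eq, ← Complex.exp_add, add_neg_cancel, Complex.exp_zero]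

theorem one_sub_two_ka (x : R3) : 1 - 2 * c.ka x = Complex.exp (c.l x : ℂ) := by
  unfold ka
  ring

theorem one_sub_two_ka_ne (x : R3) : 1 - 2 * c.ka x ≠ 0 := by
  rw [one_sub_two_ka]
  exact Complex.exp_ne_zero _

theorem lam_mul (x : R3) : (c.lam x : ℂ) * (1 - 2 * c.ka x) = c.mu x * (4 * c.ka x - 1) := by
  have h : Complex.exp (-(c.l x : ℂ)) * Complex.exp (c.l x : ℂ) = 1 := by
    rw [← Complex.exp_add, neg_add_cancel, Complex.exp_zero]
  unfold lam mu ka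
  push_cast
  linear_combination Complex.exp (c.m x : ℂ) * h

theorem Coef_lower {f : R3 → ℝ} (hf : Continuous f) (hc : HasCompactSupport f) :
    ∃ δ : ℝ, 0 < δ ∧ ∀ x, δ ≤ Real.exp (f x) := by
  obtain ⟨C, hC⟩ := hf.bounded_above_of_compact_support hc
  refine ⟨Real.exp (-C), Real.exp_pos _, fun x => Real.exp_le_exp.mpr ?_⟩
  have := hC x
  rw [Real.norm_eq_abs] at this
  linarith [neg_abs_le (f x)]

theorem exists_lower : ∃ δ : ℝ, 0 < δ ∧ ∀ x, δ ≤ c.mu x ∧ δ ≤ Real.exp (c.l x) := by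
  obtain ⟨δ1, h10, h1⟩ := Coef_lower c.hm.continuous c.cm
  obtain ⟨δ2, h20, h2⟩ := Coef_lower c.hl.continuous c.cl
  exact ⟨min δ1 δ2, lt_min h10 h20, fun x =>
    ⟨(min_le_left _ _).trans (h1 x), (min_le_right _ _).trans (h2 x)⟩⟩

theorem bd_inv_one_sub : Bd fun x => (1 - 2 * c.ka x)⁻¹ := by
  have e : (fun x => (1 - 2 * c.ka x)⁻¹) = fun x => Complex.exp (-(c.l x : ℂ)) := by
    funext x
    rw [one_sub_two_ka, Complex.exp_neg]
  rw [e]
  refine Coef_bd_of_tk (n := 6) 1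
    (Coef_tk ((Coef_cexp (contDiff_ofReal c.hl).neg).sub contDiff_const) ?_)
  exact c.cl.comp_left (g := fun t : ℝ => Complex.exp (-(t : ℂ)) - 1) (by simp)

/-- `3λ + 2μ > 0 ↔ e^l < 3/4 ↔ κ > 1/8`. -/
theorem norm_ka_ge {x : R3} (h : 0 < 3 * c.lam x + 2 * c.mu x) : 1 / 8 ≤ ‖c.ka x‖ := by
  have e : c.ka x = (((1 - Real.exp (c.l x)) / 2 : ℝ) : ℂ) := by
    unfold ka; push_cast; ring
  have h1 : 0 < Real.exp (c.m x) := Real.exp_pos _
  have h2 : 0 < Real.exp (c.l x) := Real.exp_pos _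
  have h3 : Real.exp (-c.l x) * Real.exp (c.l x) = 1 := by
    rw [← Real.exp_add, neg_add_cancel, Real.exp_zero]
  unfold lam mu at h
  have h4 : 0 < 3 * Real.exp (-c.l x) - 4 := by
    by_contra hn
    push Not at hn
    nlinarith
  have h5 : Real.exp (c.l x) < 3 / 4 := by nlinarith
  rw [e, Complex.norm_real, Real.norm_eq_abs]
  exact le_trans (by linarith) (le_abs_self _)

theorem l_eq_of_ka_eq {c₁ c₂ : Co} {x : R3} (h : c₁.ka x = c₂.ka x) : c₁.l x = c₂.l x := by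
  have h1 : Complex.exp (c₁.l x : ℂ) = Complex.exp (c₂.l x : ℂ) := by
    rw [← one_sub_two_ka, ← one_sub_two_ka, h]
  rw [← Complex.ofReal_exp, ← Complex.ofReal_exp, Complex.ofReal_inj] at h1
  exact Real.exp_injective h1

theorem pd_mu (i : Fin 3) (x : R3) : (pderiv c.mu i x : ℂ) = c.mu x * c.a i x := by
  have hd : DifferentiableAt ℝ c.mu x := c.contDiff_mu.differentiable (by norm_num) x
  rw [← pd_ofReal i hd]
  have e : (fun y => (c.mu y : ℂ)) = fun y => Complex.exp (c.mc y) := funext c.mu_eq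
  rw [e, pd_cexp i (c.contDiff_mc.differentiable (by norm_num) x), mu_eq]
  rfl

theorem L2_bilc {U : Set R3} (hU : MeasurableSet U) {P : Fin 3 → Fin 3 → R3 → ℂ}
    (hP : ∀ i j, L2 U (P i j)) {ψ : Fin 3 → R3 → ℂ} (hψ : ∀ i j, L2 U (pd i (ψ j))) :
    IntegrableOn (c.bilc P ψ) U := by
  have h1 : IntegrableOn (fun x => ((c.lam x : ℂ) * ∑ i, P i i x) * ∑ i, pd i (ψ i) x) U :=
    L2.integrableOn_mul (L2.bd_mul c.bd_lam (L2.sum' Finset.univ fun i _ => hP i i))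
      (L2.sum' Finset.univ fun i _ => hψ i i)
  have h2 : IntegrableOn (fun x => ∑ i, ∑ j,
      ((c.mu x : ℂ) * (P i j x + P j i x)) * pd i (ψ j) x) U :=
    integrable_finsetSum _ fun i _ => integrable_finsetSum _ fun j _ =>
      L2.integrableOn_mul (L2.bd_mul c.bd_mu ((hP i j).add' (hP j i))) (hψ i j)
  refine (h1.add h2).congr (Eventually.of_forall fun x => ?_)
  simp only [Pi.add_apply, bilc, bil, mul_assoc]
  simp only [← Finset.mul_sum]

end Co

theorem L2.epsOf {U : Set R3} {κ : R3 → ℂ} (hκ : Bd fun x => (1 - 2 * κ x)⁻¹)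
    {Du : Fin 3 → Fin 3 → R3 → ℂ} (h : ∀ i j, L2 U (Du i j)) : L2 U (epsOf κ Du) := by
  have := L2.mul_bd (L2.sum' Finset.univ fun i _ => h i i) hκ
  exact this

namespace Setup

variable (S : Setup)

theorem bd_kh : Bd S.kh := by
  exact Bd.hat S.dom.measurableSet S.c₂.tk_ka.bd S.c₁.tk_ka.bd

theorem bd_ah (i : Fin 3) : Bd (S.ah i) := by
  exact Bd.hat S.dom.measurableSet (S.c₂.tk_a i).bd (S.c₁.tk_a i).bd

theorem bd_Hh (i j : Fin 3) : Bd (S.Hh i j) := by
  exact Bd.hat S.dom.measurableSet (S.c₂.tk_H i j).bd (S.c₁.tk_H i j).bd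

theorem bd_inv_one_sub : Bd fun x => (1 - 2 * S.kh x)⁻¹ := by
  have e : (fun x => (1 - 2 * S.kh x)⁻¹) =
      hat S.Ω (fun x => (1 - 2 * S.c₂.ka x)⁻¹) fun x => (1 - 2 * S.c₁.ka x)⁻¹ := by
    funext x
    by_cases hx : x ∈ S.Ω
    · rw [kh, hat_of_mem _ _ hx, hat_of_mem _ _ hx]
    · rw [kh, hat_of_notMem _ _ hx, hat_of_notMem _ _ hx]
  rw [e]
  exact Bd.hat S.dom.measurableSet S.c₂.bd_inv_one_sub S.c₁.bd_inv_one_sub

theorem exists_lower :
    ∃ δ : ℝ, 0 < δ ∧ ∀ x ∈ closure S.Ω, δ ≤ S.c₁.mu x ∧ δ ≤ 3 * S.c₁.lam x + 2 * S.c₁.mu x := by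
  obtain ⟨δ1, h10, h1⟩ := S.c₁.exists_lower
  have hc : Continuous fun x => 3 * S.c₁.lam x + 2 * S.c₁.mu x :=
    (continuous_const.mul S.c₁.contDiff_lam.continuous).add
      (continuous_const.mul S.c₁.contDiff_mu.continuous)
  obtain ⟨δ2, h20, h2⟩ := S.dom.isCompact_closure.exists_forall_le' hc.continuousOn S.pos₁
  exact ⟨min δ1 δ2, lt_min h10 h20, fun x hx =>
    ⟨(min_le_left _ _).trans (h1 x).1, (min_le_right _ _).trans (h2 x hx)⟩⟩

theorem exists_bl (hb : BDy S.Ω S.c₁ S.c₂) :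
    ∃ L : ℝ, BL L S.c₁.ka ∧ BL L S.kh ∧ ∀ i, BL L (S.c₁.a i) ∧ BL L (S.ah i) := by
  obtain ⟨L1, h1⟩ := (S.c₁.tk_ka.of_le (m := 1) (by norm_num)).exists_bl
  obtain ⟨L2, h2⟩ := (S.c₂.tk_ka.of_le (m := 1) (by norm_num)).exists_bl
  choose A1 hA1 using fun i => ((S.c₁.tk_a i).of_le (m := 1) (by norm_num)).exists_bl
  choose A2 hA2 using fun i => ((S.c₂.tk_a i).of_le (m := 1) (by norm_num)).exists_bl
  have n1 : 0 ≤ L1 := (norm_nonneg _).trans (h1.1 0)
  have n2 : 0 ≤ L2 := (norm_nonneg _).trans (h2.1 0)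
  have n3 : ∀ i, 0 ≤ A1 i := fun i => (norm_nonneg _).trans ((hA1 i).1 0)
  have n4 : ∀ i, 0 ≤ A2 i := fun i => (norm_nonneg _).trans ((hA2 i).1 0)
  have s3 : ∀ i, A1 i ≤ ∑ j, A1 j := fun i =>
    Finset.single_le_sum (fun j _ => n3 j) (Finset.mem_univ i)
  have s4 : ∀ i, A2 i ≤ ∑ j, A2 j := fun i =>
    Finset.single_le_sum (fun j _ => n4 j) (Finset.mem_univ i)
  have t3 : 0 ≤ ∑ j, A1 j := (n3 0).trans (s3 0)
  have t4 : 0 ≤ ∑ j, A2 j := (n4 0).trans (s4 0)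
  refine ⟨L1 + L2 + ∑ j, A1 j + ∑ j, A2 j, h1.mono (by linarith),
    BL.hat (h2.mono (by linarith)) (h1.mono (by linarith)) fun x hx => ?_, fun i =>
    ⟨(hA1 i).mono (by linarith [s3 i]), BL.hat ((hA2 i).mono (by linarith [s4 i]))
      ((hA1 i).mono (by linarith [s3 i])) fun x hx => (hb.a i x hx).symm⟩⟩
  simp only [Co.ka, hb.l x hx]

end Setup

end Crest.Agent.R80
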