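import Crest.Agent.R80.Weak

/-!
# Row 80: the spaces `H¹`, `H²`
-/

namespace Crest.Agent.R80

open MeasureTheory Set Metric Filter Topology Complex
open scoped ContDiff
open Crest.AnalysisR.VecCalc3 Crest.AnalysisR.PDE Crest.AnalysisR.PDE.Elasticity

variable {U V K : Set R3} {θ : C3} {f f' φ ψ : R3 → ℂ} {G G' : Fin 3 → R3 → ℂ}

namespace H1

theorem wd_dv (h : H1 U f G) (hU : MeasurableSet U) (θ : C3) :
    WD U θ f fun x => ∑ i, θ i * G i x := by
  intro ψ hψ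
  have h1 : ∀ i, ∫ x, f x * pd i ψ x = -∫ x, G i x * ψ x := fun i => by
    simpa only [dv_ee] using h.wd i ψ hψ
  have e1 : (fun x => f x * dv θ ψ x) = fun x => ∑ i, θ i * (f x * pd i ψ x) := by
    funext x
    rw [dv, Finset.mul_sum]
    exact Finset.sum_congr rfl fun i _ => by ring
  have e2 : (fun x => (∑ i, θ i * G i x) * ψ x) = fun x => ∑ i, θ i * (G i x * ψ x) := by
    funext x
    rw [Finset.sum_mul]
    exact Finset.sum_congr rfl fun i _ => by ring
  rw [e1, e2, integral_finsetSum _ fun i _ =>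
      (L2.integrable_mul_tk hU h.l2 (Tst.pd hψ i)).const_mul _,
    integral_finsetSum _ fun i _ => (L2.integrable_mul_tk hU (h.l2G i) hψ).const_mul _,
    ← Finset.sum_neg_distrib]
  refine Finset.sum_congr rfl fun i _ => ?_
  rw [integral_const_mul, integral_const_mul, h1, mul_neg]

theorem integral_pd (h : H1 U f G) (hψ : Tst U ψ) (i : Fin 3) :
    ∫ x, f x * pd i ψ x = -∫ x, G i x * ψ x := by
  simpa only [dv_ee] using h.wd i ψ hψ

theorem integral_pd_tk1 (h : H1 U f G) (hU : IsOpen U) (hψ : Tk 1 U ψ) (i : Fin 3) :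
    ∫ x, f x * pd i ψ x = -∫ x, G i x * ψ x := by
  simpa only [dv_ee] using WD.tk1 (h.wd i) hU h.l2 (h.l2G i) hψ

theorem of_contDiff (hU : MeasurableSet U) (hb : Bornology.IsBounded U) (hf : ContDiff ℝ 1 f) :
    H1 U f fun i => pd i f :=
  ⟨L2.of_continuous hU hb hf.continuous, fun i => L2.of_continuous hU hb (continuous_pd i hf),
    fun i => by simpa only [dv_ee] using WD.of_contDiff U (ee i) hf⟩

theorem of_tk (U : Set R3) (hf : Tk 1 V f) : H1 U f fun i => pd i f :=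
  ⟨hf.l2 U, fun i => (hf.pd (m := 0) (by simp) i).l2 U,
    fun i => by simpa only [dv_ee] using WD.of_contDiff U (ee i) hf.cd⟩

theorem mono (h : H1 U f G) (hVU : V ⊆ U) : H1 V f G :=
  ⟨L2.mono_set hVU h.l2, fun i => L2.mono_set hVU (h.l2G i), fun i => WD.mono (h.wd i) hVU⟩

theorem congr (h : H1 U f G) (hU : MeasurableSet U) (hf : ∀ᵐ x : R3, x ∈ U → f' x = f x)
    (hG : ∀ i, ∀ᵐ x : R3, x ∈ U → G' i x = G i x) : H1 U f' G' :=
  ⟨L2.congr' hU h.l2 hf, fun i => L2.congr' hU (h.l2G i) (hG i),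
    fun i => WD.congr (h.wd i) hU hf (hG i)⟩

theorem add (h : H1 U f G) (h' : H1 U f' G') (hU : MeasurableSet U) :
    H1 U (fun x => f x + f' x) fun i x => G i x + G' i x :=
  ⟨L2.add' h.l2 h'.l2, fun i => L2.add' (h.l2G i) (h'.l2G i),
    fun i => WD.add (h.wd i) (h'.wd i) hU h.l2 (h.l2G i) h'.l2 (h'.l2G i)⟩

theorem sub (h : H1 U f G) (h' : H1 U f' G') (hU : MeasurableSet U) :
    H1 U (fun x => f x - f' x) fun i x => G i x - G' i x :=
  ⟨L2.sub' h.l2 h'.l2, fun i => L2.sub' (h.l2G i) (h'.l2G i),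
    fun i => WD.sub (h.wd i) (h'.wd i) hU h.l2 (h.l2G i) h'.l2 (h'.l2G i)⟩

theorem const_mul (h : H1 U f G) (c : ℂ) : H1 U (fun x => c * f x) fun i x => c * G i x :=
  ⟨L2.cmul c h.l2, fun i => L2.cmul c (h.l2G i), fun i => WD.const_mul (h.wd i) c⟩

theorem sum {ι : Type*} (s : Finset ι) {F : ι → R3 → ℂ} {GF : ι → Fin 3 → R3 → ℂ}
    (hU : MeasurableSet U) (h : ∀ k ∈ s, H1 U (F k) (GF k)) :
    H1 U (fun x => ∑ k ∈ s, F k x) fun i x => ∑ k ∈ s, GF k i x :=
  ⟨L2.sum' s fun k hk => (h k hk).l2, fun i => L2.sum' s fun k hk => (h k hk).l2G i,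
    fun i => WD.sum s hU (fun k hk => (h k hk).wd i) (fun k hk => (h k hk).l2)
      fun k hk => (h k hk).l2G i⟩

/-- product with a bounded `C¹` function with bounded gradient. -/
theorem mul_bd (h : H1 U f G) (hU : IsOpen U) (hφ : ContDiff ℝ 1 φ) (h0 : Bd φ)
    (h1 : ∀ i, Bd (pd i φ)) :
    H1 U (fun x => φ x * f x) fun i x => pd i φ x * f x + φ x * G i x :=
  ⟨L2.bd_mul h0 h.l2, fun i => L2.add' (L2.bd_mul (h1 i) h.l2) (L2.bd_mul h0 (h.l2G i)),
    fun i => by simpa only [dv_ee] using WD.mul (h.wd i) hU h.l2 (h.l2G i) hφ⟩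

theorem mul_tk (h : H1 U f G) (hU : IsOpen U) (hφ : Tk 1 V φ) :
    H1 U (fun x => φ x * f x) fun i x => pd i φ x * f x + φ x * G i x :=
  h.mul_bd hU hφ.cd hφ.bd fun i => (hφ.pd (m := 0) (by simp) i).bd

theorem mul_of_bounded (h : H1 U f G) (hU : IsOpen U) (hb : Bornology.IsBounded U)
    (hφ : ContDiff ℝ 1 φ) :
    H1 U (fun x => φ x * f x) fun i x => pd i φ x * f x + φ x * G i x :=
  ⟨L2.cont_mul hU.measurableSet hb hφ.continuous h.l2,
    fun i => L2.add' (L2.cont_mul hU.measurableSet hb (continuous_pd i hφ) h.l2)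
      (L2.cont_mul hU.measurableSet hb hφ.continuous (h.l2G i)),
    fun i => by simpa only [dv_ee] using WD.mul (h.wd i) hU h.l2 (h.l2G i) hφ⟩

theorem tk_mul_univ (h : H1 U f G) (hU : IsOpen U) (hφ : Tk 1 U φ) :
    H1 univ (fun x => φ x * f x) fun i x => pd i φ x * f x + φ x * G i x :=
  ⟨L2.tk_mul_univ hU.measurableSet hφ h.l2,
    fun i => L2.add' (L2.tk_mul_univ hU.measurableSet (hφ.pd (m := 0) (by simp) i) h.l2)
      (L2.tk_mul_univ hU.measurableSet hφ (h.l2G i)),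
    fun i => by simpa only [dv_ee] using WD.tk_mul_univ (h.wd i) hU h.l2 (h.l2G i) hφ⟩

theorem extend (h : H1 U f G) (hU : IsOpen U) (hK : IsCompact K) (hKU : K ⊆ U)
    (h0 : ∀ᵐ x : R3, x ∈ U → x ∉ K → f x = 0) :
    H1 univ (K.indicator f) fun i => K.indicator (G i) :=
  ⟨L2.indicator_univ hK.measurableSet (L2.mono_set hKU h.l2),
    fun i => L2.indicator_univ hK.measurableSet (L2.mono_set hKU (h.l2G i)),
    fun i => WD.extend (h.wd i) hU hK hKU h.l2 (h.l2G i) h0⟩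

theorem van (h : H1 univ f G) (hK : IsClosed K) (hf : Van K f) (i : Fin 3) : Van K (G i) :=
  WD.van (h.wd i) hK (h.l2G i) hf

theorem integral_lap (h : H1 U f G) (hU : MeasurableSet U) (hψ : Tst U ψ) :
    ∫ x, f x * lap ψ x = -∑ i, ∫ x, G i x * pd i ψ x := by
  have e1 : (fun x => f x * lap ψ x) = fun x => ∑ i, f x * pd i (pd i ψ) x := by
    funext x
    rw [lap, Finset.mul_sum]
  rw [e1, integral_finsetSum _ fun i _ => L2.integrable_mul_tk hU h.l2 (Tst.pd (Tst.pd hψ i) i),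
    ← Finset.sum_neg_distrib]
  exact Finset.sum_congr rfl fun i _ => h.integral_pd (Tst.pd hψ i) i

theorem swap (h : H1 U f G) (hψ : Tst U ψ) (i j : Fin 3) :
    ∫ x, G i x * pd j ψ x = ∫ x, G j x * pd i ψ x := by
  have h1 := h.integral_pd (Tst.pd hψ j) i
  have h2 := h.integral_pd (Tst.pd hψ i) j
  have e : pd i (pd j ψ) = pd j (pd i ψ) := funext fun x => pd_comm i j (Tst.tk2 hψ).cd.contDiffAt
  rw [e, h2] at h1
  exact (neg_injective h1).symm

/-- `swap` for `C¹` test functions (`exists_tst_approx`). -/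
theorem swap_tk1 (h : H1 U f G) (hU : IsOpen U) (hψ : Tk 1 U ψ) (i j : Fin 3) :
    ∫ x, G i x * pd j ψ x = ∫ x, G j x * pd i ψ x := by
  obtain ⟨φ, hφ, -, h2⟩ := exists_tst_approx hU hψ
  have hm := hU.measurableSet
  have hψ' : ∀ k, Tk 0 U (pd k ψ) := fun k => hψ.pd (m := 0) (by simp) k
  have key : ∀ a b : Fin 3, Tendsto (fun n => ∫ x, G a x * pd b (φ n) x) atTop
      (𝓝 (∫ x, G a x * pd b ψ x)) := by
    intro a b
    rw [integral_mul_tk_eq hm _ (hψ' b)]
    refine Tendsto.congr (fun n => (integral_mul_tk_eq hm _ (Tst.pd (hφ n) b)).symm) ?_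
    refine tendsto_setIntegral_mul (f := fun _ => G a) (Eventually.of_forall fun _ => h.l2G a)
      (Eventually.of_forall fun n => (Tst.pd (hφ n) b).l2 U) (h.l2G a) ((hψ' b).l2 U)
      (by simp) ?_
    exact squeeze_zero (fun n => nr_nonneg _ _) (fun n => nr_mono_set (subset_univ U)
      (L2.sub' ((Tst.pd (hφ n) b).l2 univ) ((hψ' b).l2 univ))) (h2 b)
  exact tendsto_nhds_unique ((key i j).congr fun n => h.swap (hφ n) i j) (key j i)

/-- `swap` for two `H¹` functions, one with compact support (mollify it). -/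
theorem swap_h1 {R : ℝ} (h : H1 univ f G) (h' : H1 univ f' G') (hv : Van (closedBall 0 R) f')
    (i j : Fin 3) : ∫ x, G i x * G' j x = ∫ x, G j x * G' i x := by
  have key : ∀ a b : Fin 3, Tendsto (fun n => ∫ x, G a x * pd b (mol n f') x) atTop
      (𝓝 (∫ x, G a x * G' b x)) := by
    intro a b
    have := tendsto_setIntegral_mul (U := univ) (f := fun _ => G a) (g := fun n => mol n (G' b))
      (Eventually.of_forall fun _ => h.l2G a)
      (Eventually.of_forall fun n => (l2_mol (h'.l2G b) n).1) (h.l2G a) (h'.l2G b)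
      (by simp) (tendsto_nr_mol_sub (h'.l2G b))
    simpa only [Measure.restrict_univ, h'.pd_mol] using this
  exact tendsto_nhds_unique ((key i j).congr fun n =>
    h.swap ((tst_mol h'.l2 hv n).mono (subset_univ _)) i j) (key j i)

/-- smooth approximation near a compact set: `φ n = mol n (χ f)`. -/
theorem exists_smooth_approx (h : H1 U f G) (hU : IsOpen U) (hK : IsCompact K) (hKU : K ⊆ U) :
    ∃ φ : ℕ → R3 → ℂ, (∀ n, ContDiff ℝ ∞ (φ n)) ∧
      Tendsto (fun n => nr K fun x => φ n x - f x) atTop (𝓝 0) ∧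
      ∀ i, Tendsto (fun n => nr K fun x => pd i (φ n) x - G i x) atTop (𝓝 0) := by
  obtain ⟨χ, hχ, h1, -⟩ := exists_cut hK hU hKU
  have hg := h.tk_mul_univ hU (Tst.tk1 hχ)
  have hm := hK.measurableSet
  have e1 : ∀ x ∈ K, χ x = 1 := fun x hx => (h1 x hx).eq_of_nhds
  have e2 : ∀ i, ∀ x ∈ K, pd i χ x = 0 := fun i x hx => by rw [pd_congr i (h1 x hx), pd_const]
  have key : ∀ g g' : R3 → ℂ, L2 univ g → (∀ x ∈ K, g x = g' x) →
      Tendsto (fun n => nr K fun x => mol n g x - g' x) atTop (𝓝 0) := by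
    intro g g' hg he
    refine squeeze_zero (fun n => nr_nonneg _ _) (fun n => ?_) (tendsto_nr_mol_sub hg)
    rw [nr_congr (g := fun x => mol n g x - g x) hm
      (Eventually.of_forall fun x hx => by rw [he x hx])]
    exact nr_mono_set (subset_univ K) (L2.sub' (l2_mol hg n).1 hg)
  refine ⟨fun n => mol n fun x => χ x * f x, fun n => contDiff_mol hg.l2 n,
    key _ _ hg.l2 fun x hx => by rw [e1 x hx, one_mul], fun i => ?_⟩
  simp only [hg.pd_mol]
  exact key _ _ (hg.l2G i) fun x hx => by rw [e1 x hx, e2 i x hx, one_mul, zero_mul, zero_add]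

end H1

namespace H2

variable {G2 G2' : Fin 3 → Fin 3 → R3 → ℂ}

theorem wl (h : H2 U f G G2) (hU : MeasurableSet U) : WL U f fun x => ∑ k, G2 k k x := by
  intro ψ hψ
  have e : (fun x => (∑ k, G2 k k x) * ψ x) = fun x => ∑ k, G2 k k x * ψ x := by
    funext x
    rw [Finset.sum_mul]
  rw [h.h1.integral_lap hU hψ, e,
    integral_finsetSum _ fun k _ => L2.integrable_mul_tk hU ((h.h2 k).l2G k) hψ,
    ← Finset.sum_neg_distrib]
  refine Finset.sum_congr rfl fun k _ => ?_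
  rw [(h.h2 k).integral_pd hψ k, neg_neg]

theorem symm (h : H2 U f G G2) (hU : IsOpen U) (k l : Fin 3) :
    ∀ᵐ x : R3, x ∈ U → G2 k l x = G2 l k x := by
  refine ae_eq_of_tst hU ((h.h2 k).l2G l) ((h.h2 l).l2G k) fun ψ hψ => ?_
  have h1 := (h.h2 k).integral_pd hψ l
  rw [h.h1.swap hψ k l, (h.h2 l).integral_pd hψ k] at h1
  exact (neg_injective h1).symm

theorem of_contDiff (hU : MeasurableSet U) (hb : Bornology.IsBounded U) (hf : ContDiff ℝ 2 f) :
    H2 U f (fun k => pd k f) fun k l => pd l (pd k f) :=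
  ⟨H1.of_contDiff hU hb (hf.of_le (by norm_num)),
    fun k => H1.of_contDiff hU hb (contDiff_pd k hf (by norm_num))⟩

theorem add (h : H2 U f G G2) (h' : H2 U f' G' G2') (hU : MeasurableSet U) :
    H2 U (fun x => f x + f' x) (fun i x => G i x + G' i x) fun k l x => G2 k l x + G2' k l x :=
  ⟨h.h1.add h'.h1 hU, fun k => (h.h2 k).add (h'.h2 k) hU⟩

theorem mono (h : H2 U f G G2) (hVU : V ⊆ U) : H2 V f G G2 :=
  ⟨h.h1.mono hVU, fun k => (h.h2 k).mono hVU⟩

end H2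

/-- a divergence form right hand side with `H¹` fluxes. -/
theorem WLd.wl {y f₀ : R3 → ℂ} {F : Fin 3 → R3 → ℂ} {dF : Fin 3 → R3 → ℂ} (h : WLd U y f₀ F)
    (hU : MeasurableSet U) (hf₀ : L2 U f₀) (hd : ∀ i, L2 U (dF i))
    (hF : ∀ i, WD U (ee i) (F i) (dF i)) : WL U y fun x => f₀ x + ∑ i, dF i x := by
  intro ψ hψ
  have e : (fun x => (f₀ x + ∑ i, dF i x) * ψ x) = fun x => f₀ x * ψ x + ∑ i, dF i x * ψ x := by
    funext x
    rw [add_mul, Finset.sum_mul]
  rw [h ψ hψ, e, integral_add (L2.integrable_mul_tk hU hf₀ hψ)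
      (integrable_finsetSum _ fun i _ => L2.integrable_mul_tk hU (hd i) hψ),
    integral_finsetSum _ fun i _ => L2.integrable_mul_tk hU (hd i) hψ, sub_eq_add_neg,
    ← Finset.sum_neg_distrib]
  congr 1
  refine Finset.sum_congr rfl fun i _ => ?_
  have := hF i ψ hψ
  rw [dv_ee] at this
  rw [this, neg_neg]

theorem PS.mono {κ ε : R3 → ℂ} {a u : Fin 3 → R3 → ℂ} {H Du : Fin 3 → Fin 3 → R3 → ℂ}
    (h : PS U κ a H u Du ε) (hVU : V ⊆ U) : PS V κ a H u Du ε :=
  ⟨fun j => (h.h1 j).mono hVU, L2.mono_set hVU h.l2, fun j ψ hψ => h.e1 j ψ (hψ.mono hVU),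
    WL.mono h.e2 hVU, h.e3.mono fun _ hx hV => hx (hVU hV)⟩

theorem L2.q1 {κ ε : R3 → ℂ} {a : Fin 3 → R3 → ℂ} {Du : Fin 3 → Fin 3 → R3 → ℂ} (hκ : Bd κ)
    (ha : ∀ i, Bd (a i)) (hD : ∀ i j, L2 U (Du i j)) (hε : L2 U ε) (j : Fin 3) :
    L2 U (q1 κ a Du ε j) := by
  have h1 : Bd fun x => 4 * κ x - 1 := (hκ.const_mul 4).sub (Bd.const 1)
  exact L2.add' (L2.sum' _ fun i _ => L2.mul_bd (L2.add' (hD i j) (hD j i)) (ha i))
    (L2.mul_bd (L2.bd_mul h1 hε) (ha j))

theorem L2.q2 {κ ε : R3 → ℂ} {H Du : Fin 3 → Fin 3 → R3 → ℂ} (hκ : Bd κ)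
    (hH : ∀ i j, Bd (H i j)) (hD : ∀ i j, L2 U (Du i j)) (hε : L2 U ε) : L2 U (q2 κ H Du ε) := by
  have h1 : Bd fun x => 4 * κ x - 1 := (hκ.const_mul 4).sub (Bd.const 1)
  exact L2.add' (L2.sum' _ fun i _ => L2.sum' _ fun j _ =>
    L2.mul_bd (L2.add' (hD i j) (hD j i)) (hH i j))
    (L2.mul_bd (L2.bd_mul h1 hε) (Bd.sum _ fun i _ => hH i i))

end Crest.Agent.R80
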