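import Crest.Agent.R80.Dom
import Crest.Agent.R80.Weak2

/-!
# Row 80: functions vanishing on the boundary
-/

namespace Crest.Agent.R80

open MeasureTheory Set Metric Filter Topology Complex
open scoped ContDiff
open Crest.AnalysisR.VecCalc3 Crest.AnalysisR.PDE Crest.AnalysisR.PDE.Elasticity

variable {Ω U : Set R3} {ρ : R3 → ℝ} {F k f g : R3 → ℂ} {θ : C3}

theorem DefF.norm_le_rho (h : DefF Ω ρ) (hF : ContDiff ℝ 1 F) (h0 : ∀ x ∈ frontier Ω, F x = 0) :
    ∃ C : ℝ, 0 ≤ C ∧ ∀ x ∈ Ω, ‖F x‖ ≤ C * |ρ x| := by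
  obtain ⟨C, hC, hd⟩ := h.dist_bound
  obtain ⟨r, hr⟩ := h.bd.closure.subset_closedBall (0 : R3)
  obtain ⟨L, hL⟩ := (isCompact_closedBall (0 : R3) r).exists_bound_of_continuousOn
    (hF.continuous_fderiv one_ne_zero).continuousOn
  refine ⟨max L 0 * C, by positivity, fun x hx => ?_⟩
  obtain ⟨z, hz, hxz⟩ := hd x hx
  have h1 : ‖F x - F z‖ ≤ max L 0 * ‖x - z‖ :=
    (convex_closedBall (0 : R3) r).norm_image_sub_le_of_norm_fderiv_le
      (fun y _ => hF.differentiable one_ne_zero y) (fun y hy => (hL y hy).trans (le_max_left _ _))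
      (hr (frontier_subset_closure hz)) (hr (subset_closure hx))
  rw [h0 z hz, sub_zero] at h1
  refine h1.trans ?_
  rw [mul_assoc]
  exact mul_le_mul_of_nonneg_left hxz (le_max_right _ _)

/-- the cut-off: `1` on `(-∞, -2]`, `0` on `[-1, ∞)`. -/
private noncomputable def indChi (s : ℝ) : ℝ := Real.smoothTransition (-s - 1)

private theorem ind_contDiff_chi : ContDiff ℝ 1 indChi :=
  Real.smoothTransition.contDiff.comp (contDiff_id.neg.sub contDiff_const)

private theorem ind_chi_one {s : ℝ} (hs : s ≤ -2) : indChi s = 1 :=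
  Real.smoothTransition.one_of_one_le (by linarith)

private theorem ind_chi_zero {s : ℝ} (hs : -1 ≤ s) : indChi s = 0 :=
  Real.smoothTransition.zero_of_nonpos (by linarith)

private theorem ind_chi_sub_one (s : ℝ) : ‖indChi s - 1‖ ≤ 1 := by
  have h1 : 0 ≤ indChi s := Real.smoothTransition.nonneg _
  have h2 : indChi s ≤ 1 := Real.smoothTransition.le_one _
  rw [Real.norm_eq_abs, abs_le]
  constructor <;> linarith

private theorem ind_deriv_chi : ∃ M : ℝ, 0 ≤ M ∧ ∀ s, |deriv indChi s| * |s| ≤ M := by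
  have hc : Continuous fun s => deriv indChi s * s :=
    (ind_contDiff_chi.continuous_deriv le_rfl).mul continuous_id
  obtain ⟨M, hM⟩ := (isCompact_Icc (a := (-2 : ℝ)) (b := -1)).exists_bound_of_continuousOn
    hc.continuousOn
  refine ⟨max M 0, le_max_right _ _, fun s => ?_⟩
  rcases lt_or_ge s (-2) with h | h
  · have : indChi =ᶠ[𝓝 s] fun _ => 1 := by
      filter_upwards [Iio_mem_nhds h] with t ht using ind_chi_one (le_of_lt ht)
    rw [this.deriv_eq]
    simp
  rcases lt_or_ge (-1) s with h' | h'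
  · have : indChi =ᶠ[𝓝 s] fun _ => 0 := by
      filter_upwards [Ioi_mem_nhds h'] with t ht using ind_chi_zero (le_of_lt ht)
    rw [this.deriv_eq]
    simp
  · rw [← abs_mul]
    exact (hM s ⟨h, h'⟩).trans (le_max_left _ _)

/-- bounded convergence in `L²(Ω)`. -/
private theorem ind_tendsto_nr (h : IsDom Ω) {u : ℕ → R3 → ℂ} {B : ℝ} (hu : ∀ n, Continuous (u n))
    (hB : ∀ n, ∀ x ∈ Ω, ‖u n x‖ ≤ B) (h0 : ∀ x ∈ Ω, ∀ᶠ n in atTop, u n x = 0) :
    Tendsto (fun n => nr Ω (u n)) atTop (𝓝 0) := by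
  have hm := h.measurableSet
  have t : Tendsto (fun n => ∫ x in Ω, ‖u n x‖ ^ 2) atTop (𝓝 (∫ _ in Ω, (0 : ℝ))) := by
    refine tendsto_integral_of_dominated_convergence (fun _ => B ^ 2)
      (fun n => ((hu n).norm.pow 2).aestronglyMeasurable) (h.integrableOn continuousOn_const)
      (fun n => ae_restrict_of hm (Eventually.of_forall fun x hx => ?_))
      (ae_restrict_of hm (Eventually.of_forall fun x hx => ?_))
    · rw [Real.norm_eq_abs, abs_of_nonneg (sq_nonneg _)]
      exact pow_le_pow_left₀ (norm_nonneg _) (hB n x hx) 2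
    · refine tendsto_const_nhds.congr' ?_
      filter_upwards [h0 x hx] with n hn
      simp [hn]
  rw [integral_zero] at t
  have t' := t.sqrt
  rw [Real.sqrt_zero] at t'
  refine t'.congr fun n => ?_
  rw [← nr_sq (L2.of_continuous hm h.1 (hu n)), Real.sqrt_sq (nr_nonneg _ _)]

/-- `φ n = χ ((n + 1) ρ) F` with `χ` smooth, `χ s = 1` for `s ≤ -2`, `χ s = 0` for `s ≥ -1`
(`Real.smoothTransition`); dominated convergence on `Ω`, using `norm_le_rho`. -/
theorem IsDom.exists_approx (h : IsDom Ω) (hF : ContDiff ℝ 1 F) (h0 : ∀ x ∈ frontier Ω, F x = 0) :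
    ∃ φ : ℕ → R3 → ℂ, (∀ n, Tk 1 Ω (φ n) ∧ tsupport (φ n) ⊆ tsupport F) ∧
      Tendsto (fun n => nr Ω fun x => φ n x - F x) atTop (𝓝 0) ∧
      ∀ i, Tendsto (fun n => nr Ω fun x => pd i (φ n) x - pd i F x) atTop (𝓝 0) := by
  obtain ⟨ρ, hρ⟩ := h.exists_defF
  obtain ⟨C, hC, hFC⟩ := hρ.norm_le_rho hF h0
  obtain ⟨M, hM, hχ⟩ := ind_deriv_chi
  have hρ1 : ContDiff ℝ 1 ρ := hρ.cd.of_le (by exact_mod_cast le_top)
  have hρc : Continuous ρ := hρ1.continuous
  set c : ℕ → R3 → ℝ := fun n x => indChi (((n : ℝ) + 1) * ρ x) with hc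
  have hc1 : ∀ n, ContDiff ℝ 1 (c n) := fun n => ind_contDiff_chi.comp (contDiff_const.mul hρ1)
  have hcc : ∀ n, ContDiff ℝ 1 fun x => (c n x : ℂ) := fun n => contDiff_ofReal (hc1 n)
  have hφ : ∀ n, ContDiff ℝ 1 fun x => (c n x : ℂ) * F x := fun n => (hcc n).mul hF
  have hmem : ∀ {x}, x ∈ Ω ↔ ρ x < 0 := fun {x} => by rw [hρ.eq]; rfl
  have hev : ∀ x ∈ Ω, ∀ᶠ n in atTop, (fun y => (c n y : ℂ) * F y) =ᶠ[𝓝 x] F := by
    intro x hx
    have hx' : ρ x < 0 := hmem.1 hx
    have ht : Tendsto (fun n : ℕ => ((n : ℝ) + 1) * ρ x) atTop atBot :=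
      (tendsto_natCast_atTop_atTop.atTop_add tendsto_const_nhds).atTop_mul_const_of_neg hx'
    filter_upwards [ht.eventually (eventually_lt_atBot (-2))] with n hn
    have : ∀ᶠ y in 𝓝 x, ((n : ℝ) + 1) * ρ y < -2 :=
      (continuous_const.mul hρc).continuousAt.eventually_lt continuousAt_const hn
    filter_upwards [this] with y hy
    simp only [hc, ind_chi_one hy.le, ofReal_one, one_mul]
  refine ⟨fun n x => (c n x : ℂ) * F x, fun n => ⟨?_, tsupport_mul_subset_right⟩, ?_, fun i => ?_⟩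
  · have hn : (0 : ℝ) < (n : ℝ) + 1 := by positivity
    have hsub : tsupport (fun x => (c n x : ℂ) * F x) ⊆ {x | ((n : ℝ) + 1) * ρ x ≤ -1} := by
      refine closure_minimal (fun x hx => ?_) (isClosed_le (continuous_const.mul hρc) continuous_const)
      by_contra hlt
      have hlt' : -1 ≤ ((n : ℝ) + 1) * ρ x := (not_le.1 hlt).le
      exact hx (by simp only [hc, ind_chi_zero hlt', ofReal_zero, zero_mul])
    have hsub' : tsupport (fun x => (c n x : ℂ) * F x) ⊆ Ω := fun x hx => by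
      have h1 : ((n : ℝ) + 1) * ρ x ≤ -1 := hsub hx
      exact hmem.2 (by by_contra h2; nlinarith [mul_nonneg hn.le (not_lt.1 h2)])
    exact ⟨hφ n, Metric.isCompact_of_isClosed_isBounded (isClosed_tsupport _) (hρ.bd.subset hsub'),
      hsub'⟩
  · obtain ⟨B, hB⟩ := h.isCompact_closure.exists_bound_of_continuousOn hF.continuous.continuousOn
    refine ind_tendsto_nr h (B := B) (fun n => (hφ n).continuous.sub hF.continuous)
      (fun n x hx => ?_) fun x hx => ?_
    · have e : (c n x : ℂ) * F x - F x = ((c n x - 1 : ℝ) : ℂ) * F x := by push_cast; ring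
      rw [e, norm_mul, Complex.norm_real]
      refine (mul_le_of_le_one_left (norm_nonneg _) (ind_chi_sub_one _)).trans
        (hB x (subset_closure hx))
    · filter_upwards [hev x hx] with n hn
      exact sub_eq_zero.2 hn.self_of_nhds
  · obtain ⟨B, hB⟩ := h.isCompact_closure.exists_bound_of_continuousOn
      (continuous_pd i hF).continuousOn
    obtain ⟨D, hD⟩ := h.isCompact_closure.exists_bound_of_continuousOn
      (contDiff_pderiv (m := 0) i hρ1 (by norm_num)).continuous.continuousOn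
    refine ind_tendsto_nr h (B := M * D * C + B)
      (fun n => (continuous_pd i (hφ n)).sub (continuous_pd i hF)) (fun n x hx => ?_) fun x hx => ?_
    · have hn : (0 : ℝ) < (n : ℝ) + 1 := by positivity
      have hd : pderiv (c n) i x =
          deriv indChi (((n : ℝ) + 1) * ρ x) * (((n : ℝ) + 1) * pderiv ρ i x) := by
        have h1 : HasFDerivAt (fun y => ((n : ℝ) + 1) * ρ y) (((n : ℝ) + 1) • fderiv ℝ ρ x) x :=
          (hρ1.differentiable one_ne_zero x).hasFDerivAt.const_mul _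
        have h2 := (ind_contDiff_chi.differentiable one_ne_zero
          (((n : ℝ) + 1) * ρ x)).hasDerivAt.comp_hasFDerivAt x h1
        have h3 : fderiv ℝ (c n) x = _ := h2.fderiv
        unfold pderiv
        rw [h3]
        simp
      rw [pd_mul i ((hcc n).differentiable one_ne_zero x) (hF.differentiable one_ne_zero x),
        pd_ofReal i ((hc1 n).differentiable one_ne_zero x), hd]
      have e : ∀ A : ℂ, A + (c n x : ℂ) * pd i F x - pd i F x =
          A + ((c n x - 1 : ℝ) : ℂ) * pd i F x := fun A => by push_cast; ring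
      rw [e]
      refine (norm_add_le _ _).trans (add_le_add ?_ ?_)
      · rw [norm_mul, Complex.norm_real, Real.norm_eq_abs, abs_mul, abs_mul, abs_of_pos hn]
        have h1 := hχ (((n : ℝ) + 1) * ρ x)
        rw [abs_mul, abs_of_pos hn] at h1
        have h2 : |pderiv ρ i x| ≤ D := hD x (subset_closure hx)
        have h3 := hFC x hx
        have h4 : 0 ≤ |deriv indChi (((n : ℝ) + 1) * ρ x)| := abs_nonneg _
        have h5 : 0 ≤ |pderiv ρ i x| := abs_nonneg _
        calc |deriv indChi (((n : ℝ) + 1) * ρ x)| * (((n : ℝ) + 1) * |pderiv ρ i x|) * ‖F x‖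
            ≤ |deriv indChi (((n : ℝ) + 1) * ρ x)| * (((n : ℝ) + 1) * |pderiv ρ i x|) *
              (C * |ρ x|) := by gcongr
          _ = |deriv indChi (((n : ℝ) + 1) * ρ x)| * (((n : ℝ) + 1) * |ρ x|) * |pderiv ρ i x| * C := by
              ring
          _ ≤ M * D * C := by gcongr
      · rw [norm_mul, Complex.norm_real]
        exact (mul_le_of_le_one_left (norm_nonneg _) (ind_chi_sub_one _)).trans
          (hB x (subset_closure hx))
    · filter_upwards [hev x hx] with n hn
      rw [pd_congr i hn, sub_self]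

theorem IsDom.setIntegral_mul_pd (h : IsDom Ω) (hk : ContDiff ℝ 1 k) (hF : ContDiff ℝ 1 F)
    (h0 : ∀ x ∈ frontier Ω, F x = 0) (i : Fin 3) :
    ∫ x in Ω, k x * pd i F x = -∫ x in Ω, pd i k x * F x := by
  obtain ⟨φ, hφ, h1, h2⟩ := h.exists_approx hF h0
  have hm := h.measurableSet
  have hl : ∀ {u : R3 → ℂ}, Continuous u → L2 Ω u := fun hu => L2.of_continuous hm h.1 hu
  have hz : ∀ u : R3 → ℂ, Tendsto (fun _ : ℕ => nr Ω fun x => u x - u x) atTop (𝓝 0) := fun u => by
    simp only [sub_self, nr_zero]; exact tendsto_const_nhds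
  have t1 := tendsto_setIntegral_mul (l := atTop) (f := fun _ : ℕ => k) (g := fun n => pd i (φ n))
    (Eventually.of_forall fun _ => hl hk.continuous)
    (Eventually.of_forall fun n => hl (continuous_pd i (hφ n).1.cd)) (hl hk.continuous)
    (hl (continuous_pd i hF)) (hz k) (h2 i)
  have t2 := tendsto_setIntegral_mul (l := atTop) (f := fun _ : ℕ => pd i k) (g := φ)
    (Eventually.of_forall fun _ => hl (continuous_pd i hk))
    (Eventually.of_forall fun n => hl (hφ n).1.continuous) (hl (continuous_pd i hk))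
    (hl hF.continuous) (hz _) h1
  refine tendsto_nhds_unique t1 (t2.neg.congr fun n => ?_)
  rw [← integral_mul_tk_eq hm _ (hφ n).1,
    ← integral_mul_tk_eq hm _ ((hφ n).1.pd (m := 0) (by norm_num) i), integral_mul_pd hk (hφ n).1]

/-- real version. -/
theorem IsDom.setIntegral_mul_pderiv (h : IsDom Ω) {k F : R3 → ℝ} (hk : ContDiff ℝ 1 k)
    (hF : ContDiff ℝ 1 F) (h0 : ∀ x ∈ frontier Ω, F x = 0) (i : Fin 3) :
    ∫ x in Ω, k x * pderiv F i x = -∫ x in Ω, pderiv k i x * F x := by
  have := h.setIntegral_mul_pd (contDiff_ofReal hk) (contDiff_ofReal hF)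
    (fun x hx => by simp [h0 x hx]) i
  simp only [pd_ofReal i (hk.differentiable one_ne_zero _),
    pd_ofReal i (hF.differentiable one_ne_zero _), ← ofReal_mul] at this
  exact_mod_cast this

/-- product rule with `1_Ω k`: approximate `k ψ` by `exists_approx`, use `WD.tk1`. -/
theorem WD.ind_mul (hfg : WD U θ f g) (h : IsDom Ω) (hU : IsOpen U) (hf : L2 U f) (hg : L2 U g)
    (hk : ContDiff ℝ 1 k) (h0 : ∀ x ∈ frontier Ω, k x = 0) :
    WD U θ (Ω.indicator fun x => k x * f x) (Ω.indicator fun x => dv θ k x * f x + k x * g x) := by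
  intro ψ hψ
  have hψ1 : ContDiff ℝ 1 ψ := hψ.tk1.cd
  have hkψ : ContDiff ℝ 1 fun x => k x * ψ x := hk.mul hψ1
  obtain ⟨φ, hφ, h1, h2⟩ := h.exists_approx hkψ fun x hx => by rw [h0 x hx, zero_mul]
  have hmΩ := h.measurableSet
  have hmU := hU.measurableSet
  have hm : MeasurableSet (Ω ∩ U) := hmΩ.inter hmU
  have hb : Bornology.IsBounded (Ω ∩ U) := h.1.subset inter_subset_left
  have hl : ∀ {u : R3 → ℂ}, Continuous u → L2 (Ω ∩ U) u := fun hu => L2.of_continuous hm hb hu
  have hlΩ : ∀ {u : R3 → ℂ}, Continuous u → L2 Ω u := fun hu => L2.of_continuous hmΩ h.1 hu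
  have hf' : L2 (Ω ∩ U) f := hf.mono_set inter_subset_right
  have hg' : L2 (Ω ∩ U) g := hg.mono_set inter_subset_right
  have hφU : ∀ n, Tk 1 (Ω ∩ U) (φ n) := fun n => ⟨(hφ n).1.cd, (hφ n).1.cs,
    subset_inter (hφ n).1.sub (((hφ n).2.trans tsupport_mul_subset_right).trans hψ.sub)⟩
  have hz : ∀ u : R3 → ℂ, Tendsto (fun _ : ℕ => nr (Ω ∩ U) fun x => u x - u x) atTop (𝓝 0) :=
    fun u => by simp only [sub_self, nr_zero]; exact tendsto_const_nhds
  have h1' : Tendsto (fun n => nr (Ω ∩ U) fun x => φ n x - k x * ψ x) atTop (𝓝 0) :=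
    squeeze_zero (fun n => nr_nonneg _ _) (fun n => nr_mono_set inter_subset_left
      (hlΩ ((hφ n).1.continuous.sub hkψ.continuous))) h1
  have h2' : Tendsto (fun n => nr (Ω ∩ U) fun x => dv θ (φ n) x - dv θ (fun x => k x * ψ x) x)
      atTop (𝓝 0) := by
    have hs : Tendsto (fun n => ∑ i, ‖θ i‖ *
        nr Ω fun x => pd i (φ n) x - pd i (fun x => k x * ψ x) x) atTop (𝓝 0) := by
      have := tendsto_finsetSum (Finset.univ : Finset (Fin 3))
        fun i _ => (h2 i).const_mul ‖θ i‖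
      simpa using this
    refine squeeze_zero (fun n => nr_nonneg _ _) (fun n => ?_) hs
    refine (nr_mono_set inter_subset_left (f := fun x => dv θ (φ n) x - dv θ (fun x => k x * ψ x) x)
      (hlΩ ((continuous_dv θ (hφ n).1.cd).sub (continuous_dv θ hkψ)))).trans ?_
    have e : (fun x => dv θ (φ n) x - dv θ (fun x => k x * ψ x) x) =
        fun x => ∑ i, θ i * (pd i (φ n) x - pd i (fun x => k x * ψ x) x) := by
      funext x
      simp only [dv, mul_sub, Finset.sum_sub_distrib]
    rw [e]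
    refine (nr_sum_le _ fun i _ => hlΩ (continuous_const.mul
      ((continuous_pd i (hφ n).1.cd).sub (continuous_pd i hkψ)))).trans (le_of_eq ?_)
    exact Finset.sum_congr rfl fun i _ => nr_const_mul _ _ _
  have t1 := tendsto_setIntegral_mul (l := atTop) (f := fun _ : ℕ => f) (g := fun n => dv θ (φ n))
    (Eventually.of_forall fun _ => hf')
    (Eventually.of_forall fun n => hl (continuous_dv θ (hφ n).1.cd)) hf'
    (hl (continuous_dv θ hkψ)) (hz f) h2'
  have t2 := tendsto_setIntegral_mul (l := atTop) (f := fun _ : ℕ => g) (g := φ)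
    (Eventually.of_forall fun _ => hg')
    (Eventually.of_forall fun n => hl (hφ n).1.continuous) hg' (hl hkψ.continuous) (hz g) h1'
  have key : ∫ x in Ω ∩ U, f x * dv θ (fun x => k x * ψ x) x =
      -∫ x in Ω ∩ U, g x * (k x * ψ x) := by
    refine tendsto_nhds_unique t1 (t2.neg.congr fun n => ?_)
    rw [← integral_mul_tk_eq hm _ (hφU n),
      ← integral_mul_tk_eq hm _ ((hφU n).dv (m := 0) (by norm_num) θ),
      hfg.tk1 hU hf hg ((hφU n).mono inter_subset_right)]
  have hI : ∀ (u : R3 → ℂ) {χ : R3 → ℂ}, Tst U χ →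
      ∫ x, Ω.indicator u x * χ x = ∫ x in Ω ∩ U, u x * χ x := by
    intro u χ hχ
    rw [integral_mul_tk_eq hmU _ hχ, inter_comm, ← setIntegral_indicator hmΩ]
    refine integral_congr_ae (Eventually.of_forall fun x => ?_)
    by_cases hx : x ∈ Ω <;> simp [hx]
  rw [hI _ (hψ.dv θ), hI _ hψ]
  have i1 : IntegrableOn (fun x => f x * (dv θ k x * ψ x)) (Ω ∩ U) :=
    hf'.integrableOn_mul (hl ((continuous_dv θ hk).mul hψ1.continuous))
  have i2 : IntegrableOn (fun x => f x * (k x * dv θ ψ x)) (Ω ∩ U) :=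
    hf'.integrableOn_mul (hl (hk.continuous.mul (continuous_dv θ hψ1)))
  have i3 : IntegrableOn (fun x => g x * (k x * ψ x)) (Ω ∩ U) :=
    hg'.integrableOn_mul (hl hkψ.continuous)
  have e1 : ∫ x in Ω ∩ U, f x * dv θ (fun x => k x * ψ x) x =
      (∫ x in Ω ∩ U, f x * (dv θ k x * ψ x)) + ∫ x in Ω ∩ U, f x * (k x * dv θ ψ x) := by
    rw [← integral_add i1 i2]
    refine integral_congr_ae (Eventually.of_forall fun x => ?_)
    simp only
    rw [dv_mul θ (hk.differentiable one_ne_zero x) (hψ1.differentiable one_ne_zero x)]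
    ring
  have e2 : ∫ x in Ω ∩ U, (dv θ k x * f x + k x * g x) * ψ x =
      (∫ x in Ω ∩ U, f x * (dv θ k x * ψ x)) + ∫ x in Ω ∩ U, g x * (k x * ψ x) := by
    rw [← integral_add i1 i3]
    exact integral_congr_ae (Eventually.of_forall fun x => by simp only; ring)
  have e3 : ∫ x in Ω ∩ U, k x * f x * dv θ ψ x = ∫ x in Ω ∩ U, f x * (k x * dv θ ψ x) :=
    integral_congr_ae (Eventually.of_forall fun x => by simp only; ring)
  rw [e2, e3]
  rw [e1] at key
  linear_combination key

theorem WD.ind (h : IsDom Ω) (θ : C3) (hF : ContDiff ℝ 1 F) (h0 : ∀ x ∈ frontier Ω, F x = 0) :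
    WD univ θ (Ω.indicator F) (Ω.indicator (dv θ F)) := by
  intro ψ hψ
  have hψ1 : ContDiff ℝ 1 ψ := hψ.tk1.cd
  have hm := h.measurableSet
  have hI : ∀ u χ : R3 → ℂ, ∫ x, Ω.indicator u x * χ x = ∫ x in Ω, u x * χ x := by
    intro u χ
    rw [← integral_indicator hm]
    refine integral_congr_ae (Eventually.of_forall fun x => ?_)
    by_cases hx : x ∈ Ω <;> simp [hx]
  have e1 : ∫ x in Ω, F x * dv θ ψ x = ∑ i, θ i * ∫ x in Ω, pd i ψ x * F x := by
    simp only [← integral_const_mul]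
    rw [← integral_finsetSum (f := fun i x => θ i * (pd i ψ x * F x)) _ fun i _ => h.integrableOn
      (continuous_const.mul ((continuous_pd i hψ1).mul hF.continuous)).continuousOn]
    refine integral_congr_ae (Eventually.of_forall fun x => ?_)
    simp only [dv, Finset.mul_sum]
    exact Finset.sum_congr rfl fun i _ => by ring
  have e2 : ∫ x in Ω, dv θ F x * ψ x = ∑ i, θ i * ∫ x in Ω, ψ x * pd i F x := by
    simp only [← integral_const_mul]
    rw [← integral_finsetSum (f := fun i x => θ i * (ψ x * pd i F x)) _ fun i _ => h.integrableOn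
      (continuous_const.mul (hψ1.continuous.mul (continuous_pd i hF))).continuousOn]
    refine integral_congr_ae (Eventually.of_forall fun x => ?_)
    simp only [dv, Finset.sum_mul]
    exact Finset.sum_congr rfl fun i _ => by ring
  rw [hI, hI, e1, e2, ← Finset.sum_neg_distrib]
  refine Finset.sum_congr rfl fun i _ => ?_
  rw [h.setIntegral_mul_pd hψ1 hF h0 i]
  ring

theorem H1.ind (h : IsDom Ω) (hF : ContDiff ℝ 1 F) (h0 : ∀ x ∈ frontier Ω, F x = 0) :
    H1 univ (Ω.indicator F) fun i => Ω.indicator (pd i F) := by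
  have hm := h.measurableSet
  refine ⟨L2.indicator_univ hm (L2.of_continuous hm h.1 hF.continuous),
    fun i => L2.indicator_univ hm (L2.of_continuous hm h.1 (continuous_pd i hF)), fun i => ?_⟩
  simpa only [dv_ee] using WD.ind h (ee i) hF h0

theorem WD.hat_mul (hfg : WD U θ f g) (h : IsDom Ω) (hU : IsOpen U) (hf : L2 U f) (hg : L2 U g)
    {k₂ k₁ : R3 → ℂ} (h₂ : Tk 1 univ k₂) (h₁ : Tk 1 univ k₁) (h0 : ∀ x ∈ frontier Ω, k₂ x = k₁ x) :
    WD U θ (fun x => hat Ω k₂ k₁ x * f x)
      fun x => hat Ω (dv θ k₂) (dv θ k₁) x * f x + hat Ω k₂ k₁ x * g x := by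
  have hd := h₂.sub' h₁
  have hmΩ := h.measurableSet
  have hmU := hU.measurableSet
  have w1 := hfg.mul hU hf hg h₁.cd
  have w2 := hfg.ind_mul h hU hf hg hd.cd fun x hx => by rw [h0 x hx, sub_self]
  have w := w1.add w2 hmU (L2.bd_mul h₁.bd hf)
    ((L2.bd_mul (h₁.dv (m := 0) (by norm_num) θ).bd hf).add' (L2.bd_mul h₁.bd hg))
    ((L2.bd_mul hd.bd hf).indicator' hmΩ)
    (((L2.bd_mul (hd.dv (m := 0) (by norm_num) θ).bd hf).add' (L2.bd_mul hd.bd hg)).indicator' hmΩ)
  refine w.congr hmU (Eventually.of_forall fun x _ => ?_) (Eventually.of_forall fun x _ => ?_)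
  · by_cases hx : x ∈ Ω
    · simp only [hat_of_mem _ _ hx, indicator_of_mem hx]; ring
    · simp only [hat_of_notMem _ _ hx, indicator_of_notMem hx]; ring
  · by_cases hx : x ∈ Ω
    · simp only [hat_of_mem _ _ hx, indicator_of_mem hx,
        dv_sub θ (h₂.cd.differentiable one_ne_zero x) (h₁.cd.differentiable one_ne_zero x)]
      ring
    · simp only [hat_of_notMem _ _ hx, indicator_of_notMem hx]; ring

end Crest.Agent.R80
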