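import Crest.Agent.R80.Alg1
import Crest.Agent.R80.Car1
import Crest.Agent.R80.Coef
import Crest.Agent.R80.Ind

/-!
# Row 80: the end of the argument
-/

namespace Crest.Agent.R80

open MeasureTheory Set Metric Filter Topology Complex
open scoped ContDiff
open Crest.AnalysisR.VecCalc3 Crest.AnalysisR.PDE Crest.AnalysisR.PDE.Elasticity

theorem alg_th_ne : th 0 ≠ 0 := fun h => by
  have := congrFun h 0
  simp [th] at this

theorem alg_aσ (a : C3) : aσ a 0 = a 0 + I * a 1 := by simp [aσ, aα]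

theorem alg_dv (f : R3 → ℂ) (x : R3) : dv (th 0) f x = pd 0 f x + I * pd 1 f x := by
  simp [dv, th, Fin.sum_univ_three]

theorem alg_bd_σ {a : Fin 3 → R3 → ℂ} (ha : ∀ i, Bd (a i)) : Bd fun x => aσ (fun k => a k x) 0 := by
  simp only [alg_aσ]
  exact (ha 0).add ((ha 1).const_mul I)

theorem alg_zero {R : ℝ} {θ : C3} (hθ : θ ≠ 0) {y g : R3 → ℂ} (hy : L2 univ y) (hg : Bd g)
    (h : WD univ θ y fun x => y x * g x) (hv : Van (closedBall 0 R) y) : ∀ᵐ x : R3, y x = 0 := by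
  obtain ⟨C, -, hC⟩ := hg.exists_bound
  refine car1_zero_scalar (C₀ := C) hθ hy (hy.mul_bd hg) h hv (Eventually.of_forall fun x => ?_)
  rw [norm_mul, mul_comm]
  exact mul_le_mul_of_nonneg_right (hC x) (norm_nonneg _)

theorem alg_uniq {R : ℝ} {θ : C3} (hθ : θ ≠ 0) {y y' d : R3 → ℂ} (hy : L2 univ y) (hy' : L2 univ y')
    (hd : Bd d) (hd' : L2 univ d) (h : WD univ θ y fun x => (1 + y x) * d x)
    (h' : WD univ θ y' fun x => (1 + y' x) * d x) (hv : Van (closedBall 0 R) y)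
    (hv' : Van (closedBall 0 R) y') : ∀ᵐ x : R3, y x = y' x := by
  have l2 : ∀ {z : R3 → ℂ}, L2 univ z → L2 univ fun x => (1 + z x) * d x := fun hz => by
    simpa only [add_mul, one_mul] using hd'.add' (hz.mul_bd hd)
  have h1 := h.sub h' MeasurableSet.univ hy (l2 hy) hy' (l2 hy')
  have h2 : WD univ θ (fun x => y x - y' x) fun x => (y x - y' x) * d x :=
    h1.congr MeasurableSet.univ (Eventually.of_forall fun _ _ => rfl)
      (Eventually.of_forall fun _ _ => by ring)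
  filter_upwards [alg_zero hθ (hy.sub' hy') hd h2 (hv.sub hv')] with x hx using sub_eq_zero.1 hx

theorem alg_l2 {Ω : Set R3} (h : IsDom Ω) {d : R3 → ℂ} (hd : Bd d) (h0 : ∀ x ∉ Ω, d x = 0) :
    L2 univ d := by
  have h1 : L2 Ω fun x => d x * 1 :=
    L2.bd_mul hd (L2.of_continuous h.measurableSet h.1 continuous_const)
  exact Van.l2_univ h.measurableSet (Eventually.of_forall h0) (by simpa using h1)

/-- Let `e = 1_Ω (exp ((m₁ - m₂)/2) - 1)`; `WD.ind` gives `D e = (1 + e)(σ - σ')/2`.  By `alg1` and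
`car1_zero_scalar`, `H₁₁ = H₂₂ = e` a.e., so `κ₁ = κ̂` a.e.; then the right hand side of the equation for
`b = H₂₀` is bounded by `C ‖b‖` (on `closure Ω`: `c (σ - σ') = κ b / (1/2 - κ)` and `1/2 - κ = e^l / 2` is bounded
below; outside it vanishes), so `b = 0`, `σ = σ'` a.e., `D e = 0`, `e = 0` a.e.; conclude by continuity on the
open set `Ω` (`Measure.eqOn_open_of_ae_eq`). -/
theorem alg (S : Setup) (hb : BDy S.Ω S.c₁ S.c₂) {H₀ H₁ : Fin 3 → Fin 3 → R3 → ℂ}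
    (h₀ : GE (th 0) (AF S.c₁.ka S.c₁.a 0) (AF S.kh S.ah 0) (closure S.Ω) H₀)
    (h₁ : GE (th 1) (AF S.c₁.ka S.c₁.a 1) (AF S.kh S.ah 1) (closure S.Ω) H₁)
    (z₀ : ∀ᵐ x : R3, H₀ 0 2 x = 0 ∧ H₀ 1 2 x = 0)
    (z₁ : ∀ᵐ x : R3, H₁ 0 2 x = 0 ∧ H₁ 1 2 x = 0 ∧ H₁ 0 0 x = H₀ 0 0 x ∧ H₁ 0 1 x = H₀ 0 1 x ∧
      H₁ 1 0 x = H₀ 1 0 x ∧ H₁ 1 1 x = H₀ 1 1 x ∧ H₁ 2 2 x = H₀ 2 2 x) :
    ∀ x ∈ S.Ω, S.c₁.m x = S.c₂.m x ∧ S.c₁.l x = S.c₂.l x := by
  have hΩ := S.dom
  obtain ⟨R, -, hR⟩ := hΩ.exists_ball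
  have hK : closure S.Ω ⊆ closedBall 0 R := hR.trans ball_subset_closedBall
  have ne0 : ∀ {c : Co} {x : R3}, 0 < 3 * c.lam x + 2 * c.mu x → c.ka x ≠ 0 := fun h e => by
    have := Co.norm_ka_ge _ h
    rw [e, norm_zero] at this
    norm_num at this
  have b1 : ∀ i, Bd (S.c₁.a i) := fun i => (S.c₁.tk_a i).bd
  have bκ : Bd S.c₁.ka := S.c₁.tk_ka.bd
  obtain ⟨w1, w2, w3, w4⟩ := alg1 bκ S.bd_kh b1 S.bd_ah hK
    (fun x hx => ⟨ne0 (S.pos₁ x hx), by
      by_cases h : x ∈ S.Ω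
      · rw [Setup.kh, hat_of_mem _ _ h]; exact ne0 (S.pos₂ x hx)
      · rw [Setup.kh, hat_of_notMem _ _ h]; exact ne0 (S.pos₁ x hx)⟩)
    (fun x hx => ⟨hat_of_notMem _ _ fun h => hx (subset_closure h),
      fun i => hat_of_notMem _ _ fun h => hx (subset_closure h)⟩) h₀ h₁ z₀ z₁
  set σ : R3 → ℂ := fun x => aσ (fun k => S.c₁.a k x) 0 with hσ
  set σ' : R3 → ℂ := fun x => aσ (fun k => S.ah k x) 0 with hσ'
  have bσ : Bd σ := alg_bd_σ b1
  have bσ' : Bd σ' := alg_bd_σ S.bd_ah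
  set d : R3 → ℂ := fun x => (σ x - σ' x) / 2 with hd
  have bd : Bd d := by
    have := (bσ.sub bσ').const_mul (1 / 2)
    convert this using 2 with x
    simp only [hd]; ring
  have d0 : ∀ x ∉ S.Ω, d x = 0 := fun x hx => by
    simp only [hd, hσ, hσ', Setup.ah, hat_of_notMem _ _ hx, sub_self, zero_div]
  have ld : L2 univ d := alg_l2 hΩ bd d0
  set F : R3 → ℂ := fun x => Complex.exp ((1 / 2) * (S.c₁.mc x - S.c₂.mc x)) - 1 with hF
  have m1 : ContDiff ℝ 1 S.c₁.mc := S.c₁.contDiff_mc.of_le (by norm_num)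
  have m2 : ContDiff ℝ 1 S.c₂.mc := S.c₂.contDiff_mc.of_le (by norm_num)
  have m3 : ContDiff ℝ 1 fun x => (1 / 2 : ℂ) * (S.c₁.mc x - S.c₂.mc x) :=
    contDiff_const.mul (m1.sub m2)
  have cF : ContDiff ℝ 1 F := m3.cexp.sub contDiff_const
  have F0 : ∀ x ∈ frontier S.Ω, F x = 0 := fun x hx => by
    simp [hF, Co.mc, hb.m x hx]
  set e : R3 → ℂ := S.Ω.indicator F with he
  have le : L2 univ e :=
    L2.indicator_univ hΩ.measurableSet (L2.of_continuous hΩ.measurableSet hΩ.1 cF.continuous)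
  have ve : Van (closedBall 0 R) e := (Van.indicator _ _).mono (subset_closure.trans hK)
  have e1 : ∀ x, 1 + e x ≠ 0 := fun x => by
    by_cases hx : x ∈ S.Ω
    · simp [he, hx, hF]
    · simp [he, hx]
  have we : WD univ (th 0) e fun x => (1 + e x) * d x := by
    refine (WD.ind hΩ (th 0) cF F0).congr MeasurableSet.univ (Eventually.of_forall fun _ _ => rfl)
      (Eventually.of_forall fun x _ => ?_)
    by_cases hx : x ∈ S.Ω
    · have d1 := m1.differentiable (by norm_num) x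
      have d2 := m2.differentiable (by norm_num) x
      have d3 := m3.differentiable (by norm_num) x
      rw [he, indicator_of_mem hx, indicator_of_mem hx, hF]
      rw [dv_sub _ d3.cexp (differentiableAt_const _), dv_const, dv_cexp _ d3,
        dv_const_mul _ _ (d1.fun_sub d2), dv_sub _ d1 d2, alg_dv, alg_dv]
      simp only [hd, hσ, hσ', alg_aσ, Setup.ah, hat_of_mem _ _ hx, Co.a]
      ring
    · rw [indicator_of_notMem hx, d0 x hx, mul_zero]
  have u1 := alg_uniq alg_th_ne (h₀.l2 1 1) le bd ld w1 we ((h₀.van 1 1).mono hK) ve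
  have u2 := alg_uniq alg_th_ne (h₀.l2 2 2) le bd ld w2 we ((h₀.van 2 2).mono hK) ve
  have k1 : ∀ᵐ x : R3, S.kh x = S.c₁.ka x ∧
      2 * S.c₁.ka x * H₀ 2 0 x = (1 + e x) * (σ x - σ' x) * (1 - 2 * S.c₁.ka x) := by
    filter_upwards [u1, u2, w4] with x x1 x2 x4
    rw [x1, x2] at x4
    have k : S.kh x = S.c₁.ka x := (mul_right_cancel₀ (e1 x) x4.1).symm
    refine ⟨k, ?_⟩
    have := x4.2
    rw [k] at this
    simp only [hσ, hσ']
    linear_combination 2 * this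
  have bg : Bd fun x => σ x * (1 - S.c₁.ka x) - S.c₁.ka x * σ' x -
      S.c₁.ka x * (σ x + σ' x) * (2 * S.c₁.ka x) * (1 - 2 * S.c₁.ka x)⁻¹ :=
    ((bσ.mul ((Bd.const 1).sub bκ)).sub (bκ.mul bσ')).sub
      (((bκ.mul (bσ.add bσ')).mul (bκ.const_mul 2)).mul S.c₁.bd_inv_one_sub)
  have u3 := alg_zero alg_th_ne (h₀.l2 2 0) bg (w3.congr MeasurableSet.univ
    (Eventually.of_forall fun _ _ => rfl) (by
      filter_upwards [u1, u2, k1] with x x1 x2 x3 _
      rw [x1, x2, x3.1]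
      have h4 := x3.2
      have h5 := mul_inv_cancel₀ (S.c₁.one_sub_two_ka_ne x)
      simp only [hσ, hσ'] at h4 ⊢
      linear_combination (-(S.c₁.ka x * (aσ (fun k => S.c₁.a k x) 0 + aσ (fun k => S.ah k x) 0)) *
        (1 - 2 * S.c₁.ka x)⁻¹) * h4 - (S.c₁.ka x * (1 + e x) *
          (aσ (fun k => S.c₁.a k x) 0 ^ 2 - aσ (fun k => S.ah k x) 0 ^ 2)) * h5))
    ((h₀.van 2 0).mono hK)
  have u4 : ∀ᵐ x : R3, e x = 0 := by
    refine alg_zero alg_th_ne le (Bd.const 0) (we.congr MeasurableSet.univ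
      (Eventually.of_forall fun _ _ => rfl) ?_) ve
    filter_upwards [k1, u3] with x x1 x2 _
    have h4 := x1.2
    rw [x2, mul_zero] at h4
    have h5 : σ x - σ' x = 0 := by
      rcases mul_eq_zero.1 h4.symm with h | h
      · exact (mul_eq_zero.1 h).resolve_left (e1 x)
      · exact absurd h (S.c₁.one_sub_two_ka_ne x)
    simp only [hd, h5, zero_div, mul_zero]
  have f1 : EqOn F (fun _ => 0) S.Ω :=
    Measure.eqOn_open_of_ae_eq (μ := volume) (ae_restrict_of hΩ.measurableSet (by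
      filter_upwards [u4] with x x1 hx
      rwa [he, indicator_of_mem hx] at x1)) hΩ.isOpen cF.continuous.continuousOn continuousOn_const
  have f2 : EqOn S.c₁.ka S.c₂.ka S.Ω :=
    Measure.eqOn_open_of_ae_eq (μ := volume) (ae_restrict_of hΩ.measurableSet (by
      filter_upwards [k1] with x x1 hx
      rw [← x1.1, Setup.kh, hat_of_mem _ _ hx])) hΩ.isOpen
      S.c₁.tk_ka.cd.continuous.continuousOn S.c₂.tk_ka.cd.continuous.continuousOn
  intro x hx
  refine ⟨?_, Co.l_eq_of_ka_eq (f2 hx)⟩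
  have h1 : Complex.exp ((1 / 2) * (S.c₁.mc x - S.c₂.mc x)) = 1 := sub_eq_zero.1 (f1 hx)
  have h2 := congrArg norm h1
  rw [Complex.norm_exp, norm_one, Real.exp_eq_one_iff] at h2
  simp [Co.mc] at h2
  linarith

end Crest.Agent.R80
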