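import Crest.Agent.R80.Weak2

/-!
# Row 80: the algebraic consequences of the gauge equation
-/

namespace Crest.Agent.R80

open MeasureTheory Set Metric Filter Topology Complex
open scoped ContDiff
open Crest.AnalysisR.VecCalc3 Crest.AnalysisR.PDE Crest.AnalysisR.PDE.Elasticity

section entries

variable {κ κ' : R3 → ℂ} {a a' : Fin 3 → R3 → ℂ} {H : Fin 3 → Fin 3 → R3 → ℂ} {x : R3}

theorem alg1_α (a : C3) : aα a 0 = aσ a 0 := by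
  simp [aσ]

theorem alg1_02 (t : ℂ) (h1 : H 0 2 x = 0) (h2 : H 1 2 x = 0) :
    gr (AF κ a t) (AF κ' a' t) H 0 2 x =
      κ x * (1 + H 0 0 x + t * H 0 1 x) - κ' x * (1 + H 2 2 x) := by
  simp [gr, AF, Am, Fin.sum_univ_three, h1, h2]
  ring

theorem alg1_12 (t : ℂ) (h1 : H 0 2 x = 0) (h2 : H 1 2 x = 0) :
    gr (AF κ a t) (AF κ' a' t) H 1 2 x =
      κ x * (H 1 0 x + t * (1 + H 1 1 x)) - t * κ' x * (1 + H 2 2 x) := by
  simp [gr, AF, Am, Fin.sum_univ_three, h1, h2]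
  ring

theorem alg1_11 (h1 : H 1 0 x = 0) (h2 : H 1 2 x = 0) :
    gr (AF κ a 0) (AF κ' a' 0) H 1 1 x =
      (1 + H 1 1 x) * ((aσ (fun k => a k x) 0 - aσ (fun k => a' k x) 0) / 2) := by
  simp [gr, AF, Am, Fin.sum_univ_three, h1, h2]
  ring

theorem alg1_00 (h1 : H 1 0 x = 0) (h2 : H 0 1 x = 0) (h3 : H 0 2 x = 0) :
    gr (AF κ a 0) (AF κ' a' 0) H 0 0 x =
      (1 + H 0 0 x) * (aσ (fun k => a k x) 0 * (1 - κ x) - aσ (fun k => a' k x) 0 * (1 - κ' x)) -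
        κ' x * H 2 0 x := by
  simp [gr, AF, Am, Fin.sum_univ_three, h1, h2, h3, alg1_α]
  ring

theorem alg1_22 (h1 : H 0 2 x = 0) (h2 : H 1 2 x = 0) :
    gr (AF κ a 0) (AF κ' a' 0) H 2 2 x =
      (1 + H 2 2 x) * (κ x * aσ (fun k => a k x) 0 - κ' x * aσ (fun k => a' k x) 0) +
        κ x * H 2 0 x := by
  simp [gr, AF, Am, Fin.sum_univ_three, h1, h2]
  ring

theorem alg1_20 (h1 : H 1 0 x = 0) :
    gr (AF κ a 0) (AF κ' a' 0) H 2 0 x =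
      κ' x * aσ (fun k => a' k x) 0 ^ 2 * (1 + H 0 0 x) -
        κ' x * aσ (fun k => a' k x) 0 * H 2 0 x + H 2 0 x * aσ (fun k => a k x) 0 * (1 - κ x) -
        (1 + H 2 2 x) * κ x * aσ (fun k => a k x) 0 ^ 2 := by
  simp [gr, AF, Am, Fin.sum_univ_three, h1, alg1_α]
  ring

end entries

/-- Write `G = 1 + H`, `n = G₂₂`.  Since `H t i 2 = 0` a.e. (`i = 0, 1`), its weak derivative vanishes
(`WD.unique` with `WD.zero`): `κ (G_{i0} + t G_{i1}) = κ' πᵢ n`, `π = (1, t)`, for `t = 0, 1`.  Hence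
`G₀₁ = G₁₀ = 0`, `G₀₀ = G₁₁ = c`, `κ c = κ' n` where `κ ≠ 0` (off `K` everything is trivial).  At `t = 0`, with
`σ = aσ a 0`, `σ' = aσ a' 0`, `b = H₂₀`: the `(1,1)` entry is `D c = c (σ - σ')/2`; comparing with the `(0,0)` entry,
`κ' b = c (σ (1/2 - κ) - σ' (1/2 - κ'))`; the `(2,2)` entry becomes `D n = n (σ - σ')/2`; the `(2,0)` entry is
`D b = κ' σ'² c - κ' σ' b + b σ (1 - κ) - n κ σ²`. -/
theorem alg1 {κ κ' : R3 → ℂ} {a a' : Fin 3 → R3 → ℂ} {K : Set R3} {R : ℝ} (hκ : Bd κ) (hκ' : Bd κ')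
    (ha : ∀ i, Bd (a i)) (ha' : ∀ i, Bd (a' i)) (hK : K ⊆ closedBall 0 R)
    (hne : ∀ x ∈ K, κ x ≠ 0 ∧ κ' x ≠ 0)
    (hout : ∀ x ∉ K, κ' x = κ x ∧ ∀ i, a' i x = a i x) {H₀ H₁ : Fin 3 → Fin 3 → R3 → ℂ}
    (h₀ : GE (th 0) (AF κ a 0) (AF κ' a' 0) K H₀) (h₁ : GE (th 1) (AF κ a 1) (AF κ' a' 1) K H₁)
    (z₀ : ∀ᵐ x : R3, H₀ 0 2 x = 0 ∧ H₀ 1 2 x = 0)
    (z₁ : ∀ᵐ x : R3, H₁ 0 2 x = 0 ∧ H₁ 1 2 x = 0 ∧ H₁ 0 0 x = H₀ 0 0 x ∧ H₁ 0 1 x = H₀ 0 1 x ∧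
      H₁ 1 0 x = H₀ 1 0 x ∧ H₁ 1 1 x = H₀ 1 1 x ∧ H₁ 2 2 x = H₀ 2 2 x) :
    WD univ (th 0) (H₀ 1 1)
        (fun x => (1 + H₀ 1 1 x) * ((aσ (fun k => a k x) 0 - aσ (fun k => a' k x) 0) / 2)) ∧
      WD univ (th 0) (H₀ 2 2)
        (fun x => (1 + H₀ 2 2 x) * ((aσ (fun k => a k x) 0 - aσ (fun k => a' k x) 0) / 2)) ∧
      WD univ (th 0) (H₀ 2 0)
        (fun x => κ' x * aσ (fun k => a' k x) 0 ^ 2 * (1 + H₀ 1 1 x) -
          κ' x * aσ (fun k => a' k x) 0 * H₀ 2 0 x + H₀ 2 0 x * aσ (fun k => a k x) 0 * (1 - κ x) -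
          (1 + H₀ 2 2 x) * κ x * aσ (fun k => a k x) 0 ^ 2) ∧
      ∀ᵐ x : R3, κ x * (1 + H₀ 1 1 x) = κ' x * (1 + H₀ 2 2 x) ∧
        κ' x * H₀ 2 0 x = (1 + H₀ 1 1 x) *
          (aσ (fun k => a k x) 0 * (1 / 2 - κ x) - aσ (fun k => a' k x) 0 * (1 / 2 - κ' x)) := by
  have g₀ := L2.gr (bd_AF hκ ha 0) (bd_AF hκ' ha' 0) hK
    (fun i j x hx => AF_congr (hout x hx).1 (hout x hx).2 0 i j) h₀.l2
  have g₁ := L2.gr (bd_AF hκ ha 1) (bd_AF hκ' ha' 1) hK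
    (fun i j x hx => AF_congr (hout x hx).1 (hout x hx).2 1 i j) h₁.l2
  have u02 := (h₀.eq 0 2).unique (WD.zero univ _) isOpen_univ (g₀ 0 2) (L2.zero' _)
    (z₀.mono fun x hx _ => hx.1)
  have u12 := (h₀.eq 1 2).unique (WD.zero univ _) isOpen_univ (g₀ 1 2) (L2.zero' _)
    (z₀.mono fun x hx _ => hx.2)
  have v02 := (h₁.eq 0 2).unique (WD.zero univ _) isOpen_univ (g₁ 0 2) (L2.zero' _)
    (z₁.mono fun x hx _ => hx.1)
  have v12 := (h₁.eq 1 2).unique (WD.zero univ _) isOpen_univ (g₁ 1 2) (L2.zero' _)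
    (z₁.mono fun x hx _ => hx.2.1)
  have hv : ∀ᵐ x : R3, ∀ i j, x ∉ K → H₀ i j x = 0 := ae_all_iff.2 fun i => ae_all_iff.2 (h₀.van i)
  have p1 : ∀ᵐ x : R3, H₀ 1 0 x = 0 ∧ H₀ 0 1 x = 0 ∧ H₀ 0 0 x = H₀ 1 1 x ∧
      κ x * (1 + H₀ 1 1 x) = κ' x * (1 + H₀ 2 2 x) := by
    filter_upwards [u02, u12, v02, v12, z₀, z₁, hv] with x e1 e2 e3 e4 hz ⟨y1, y2, y3, y4, y5, y6, y7⟩ hx
    have e1 := (alg1_02 0 hz.1 hz.2).symm.trans (e1 trivial)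
    have e2 := (alg1_12 0 hz.1 hz.2).symm.trans (e2 trivial)
    have e3 := (alg1_02 1 y1 y2).symm.trans (e3 trivial)
    have e4 := (alg1_12 1 y1 y2).symm.trans (e4 trivial)
    rw [y3, y4, y7] at e3
    rw [y5, y6, y7] at e4
    by_cases hK : x ∈ K
    · have h0 := (hne x hK).1
      refine ⟨mul_left_cancel₀ h0 ?_, mul_left_cancel₀ h0 ?_, mul_left_cancel₀ h0 ?_, ?_⟩
      · linear_combination e2
      · linear_combination e3 - e1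
      · linear_combination e1 - e4 + e2
      · linear_combination e4 - e2
    · simp [fun i j => hx i j hK, (hout x hK).1]
  have u00 := (h₀.eq 0 0).unique (h₀.eq 1 1) isOpen_univ (g₀ 0 0) (g₀ 1 1)
    (p1.mono fun x hx _ => hx.2.2.1)
  have p2 : ∀ᵐ x : R3, κ' x * H₀ 2 0 x = (1 + H₀ 1 1 x) *
      (aσ (fun k => a k x) 0 * (1 / 2 - κ x) - aσ (fun k => a' k x) 0 * (1 / 2 - κ' x)) := by
    filter_upwards [u00, p1, z₀] with x e ⟨q1, q2, q3, _⟩ hz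
    have e := e trivial
    rw [alg1_00 q1 q2 hz.1, alg1_11 q1 hz.2, q3] at e
    linear_combination -e
  refine ⟨(h₀.eq 1 1).congr MeasurableSet.univ (Eventually.of_forall fun _ _ => rfl) ?_,
    (h₀.eq 2 2).congr MeasurableSet.univ (Eventually.of_forall fun _ _ => rfl) ?_,
    (h₀.eq 2 0).congr MeasurableSet.univ (Eventually.of_forall fun _ _ => rfl) ?_, ?_⟩
  · filter_upwards [p1, z₀] with x hx hz _
    exact (alg1_11 hx.1 hz.2).symm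
  · filter_upwards [p1, p2, z₀, hv] with x hx e hz h0 _
    rw [alg1_22 hz.1 hz.2]
    by_cases hK : x ∈ K
    · refine mul_left_cancel₀ (hne x hK).2 ?_
      linear_combination -κ x * e - (aσ (fun k => a k x) 0 * (1 / 2 - κ x) -
        aσ (fun k => a' k x) 0 * (1 / 2 - κ' x)) * hx.2.2.2
    · simp [fun i j => h0 i j hK, (hout x hK).1, (hout x hK).2]
  · filter_upwards [p1] with x hx _
    rw [alg1_20 hx.1, hx.2.2.1]
  · filter_upwards [p1, p2] with x hx e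
    exact ⟨hx.2.2.2, e⟩

end Crest.Agent.R80
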