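import Crest.Agent.R80.Newton
import Crest.Agent.R80.Dom

/-!
# Row 80: boundary determination of `μ`: conclusion
-/

namespace Crest.Agent.R80

open MeasureTheory Set Metric Filter Topology Complex
open scoped ContDiff
open Crest.AnalysisR.VecCalc3 Crest.AnalysisR.PDE Crest.AnalysisR.PDE.Elasticity

variable {Ω : Set R3} {ρ δ : R3 → ℝ}

/-- The basic contradiction.  Suppose `δ ≥ κ |ρ|` on `Ω ∩ ball x₀ r₀` with `κ > 0`.  With
`y = x₀ + ε ν` (`normal_points`) the integral over `Ω ∩ ball x₀ r₀` is at least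
`v (cε)³ · κ c ε · (C' ε)⁻⁶ ≳ ε⁻²`, the integral over the rest is bounded independently of `ε`, and the right hand
side is `≤ C'' / ε` (`integral_inv_four_le`). -/
theorem not_ge_rho (h : DefF Ω ρ) (hδ : Continuous δ) {C : ℝ}
    (hI : ∀ y ∉ closure Ω, ∫ x in Ω, δ x * ‖x - y‖⁻¹ ^ 6 ≤ C * ∫ x in Ω, ‖x - y‖⁻¹ ^ 4)
    {x₀ : R3} (hx₀ : x₀ ∈ frontier Ω) {κ r₀ : ℝ} (hκ : 0 < κ) (hr₀ : 0 < r₀)
    (hge : ∀ x ∈ Ω, ‖x - x₀‖ < r₀ → κ * |ρ x| ≤ δ x) : False := by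
  set ν := gradient ρ x₀ with hν
  set n := ‖ν‖ with hn
  have hn0 : 0 ≤ n := norm_nonneg _
  obtain ⟨c, ε₁, hc, hε₁, hnp⟩ := h.normal_points hx₀
  obtain ⟨C₄, hC₄, hfour⟩ := integral_inv_four_le
  obtain ⟨v, hv, hball⟩ := exists_le_integral_ball
  have hΩo := h.isOpen
  have hΩm : MeasurableSet Ω := hΩo.measurableSet
  have hK : IsCompact (closure Ω) := h.bd.isCompact_closure
  obtain ⟨B, hB⟩ := hK.exists_bound_of_continuousOn hδ.continuousOn
  have hfin : volume Ω < ⊤ := h.bd.measure_lt_top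
  set M₁ : ℝ := |B| * (r₀ / 2)⁻¹ ^ 6 * volume.real Ω with hM₁
  set M₂ : ℝ := |C| * C₄ / c with hM₂
  set A : ℝ := v * κ * c ^ 4 / (c + 2 * n) ^ 6 with hA
  have hA0 : 0 < A := by positivity
  have key : ∀ ε : ℝ, 0 < ε → ε ≤ ε₁ → ε * (c + n) < r₀ / 2 → A ≤ M₁ * ε ^ 2 + M₂ * ε := by
    intro ε hε hε1 hεr
    obtain ⟨hout, hin⟩ := hnp ε hε hε1
    set y := x₀ + ε • ν with hy
    set z := x₀ - ε • ν with hz
    have hcε : 0 < c * ε := mul_pos hc hε
    have hεn : ‖ε • ν‖ = ε * n := by rw [norm_smul, Real.norm_of_nonneg hε.le]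
    have hyc : y ∉ closure Ω := fun hyc => by
      have := hout y hyc
      rw [sub_self, norm_zero] at this
      linarith
    set f : R3 → ℝ := fun x => δ x * ‖x - y‖⁻¹ ^ 6 with hf
    have hfc : ContinuousOn f (closure Ω) := hδ.continuousOn.mul (continuousOn_inv_pow hyc 6)
    have hfi : IntegrableOn f Ω := (hfc.integrableOn_compact hK).mono_set subset_closure
    have hsplit := integral_inter_add_sdiff (μ := volume) (s := Ω) (t := ball x₀ r₀) (f := f)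
      measurableSet_ball hfi
    -- the far part
    have hfar : ‖∫ x in Ω \ ball x₀ r₀, f x‖ ≤ M₁ := by
      have h1 := norm_setIntegral_le_of_norm_le_const (μ := volume) (s := Ω \ ball x₀ r₀) (f := f)
        (C := |B| * (r₀ / 2)⁻¹ ^ 6) ((measure_mono sdiff_subset).trans_lt hfin) (by
          intro x hx
          have hx1 : r₀ ≤ ‖x - x₀‖ := by
            have := hx.2
            rwa [mem_ball, dist_eq_norm, not_lt] at this
          have hx2 : r₀ / 2 ≤ ‖x - y‖ := by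
            have e : x - x₀ = (x - y) + ε • ν := by rw [hy]; abel
            have := norm_add_le (x - y) (ε • ν)
            rw [← e, hεn] at this
            nlinarith
          have hx3 : ‖x - y‖⁻¹ ≤ (r₀ / 2)⁻¹ := inv_anti₀ (by positivity) hx2
          have hx4 := (hB x (subset_closure hx.1)).trans (le_abs_self B)
          simp only [hf, norm_mul, norm_pow, norm_inv, norm_norm]
          exact mul_le_mul hx4 (pow_le_pow_left₀ (by positivity) hx3 6) (by positivity) (abs_nonneg _))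
      refine h1.trans ?_
      exact mul_le_mul_of_nonneg_left (measureReal_mono sdiff_subset hfin.ne) (by positivity)
    -- the near part
    have hsub : ball z (c * ε) ⊆ Ω ∩ ball x₀ r₀ := by
      intro x hx
      rw [mem_ball, dist_eq_norm] at hx
      refine ⟨?_, ?_⟩
      · rw [h.eq]
        have := hin x hx
        show ρ x < 0
        linarith
      · rw [mem_ball, dist_eq_norm]
        have e : x - x₀ = (x - z) - ε • ν := by rw [hz]; abel
        have := norm_sub_le (x - z) (ε • ν)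
        rw [← e, hεn] at this
        nlinarith
    have hnear := hball (Ω ∩ ball x₀ r₀) f z (c * ε) (κ * (c * ε) * ((c + 2 * n) * ε)⁻¹ ^ 6)
      (hΩm.inter measurableSet_ball) hcε (by positivity) hsub (hfi.mono_set inter_subset_left)
      (by
        intro x hx
        have h1 := hge x hx.1 (by have := hx.2; rwa [mem_ball, dist_eq_norm] at this)
        have h2 : 0 ≤ δ x := le_trans (by positivity) h1
        simp only [hf]
        positivity)
      (by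
        intro x hx
        have hx' := hsub hx
        rw [mem_ball, dist_eq_norm] at hx
        have h1 := hge x hx'.1 (by have := hx'.2; rwa [mem_ball, dist_eq_norm] at this)
        have h2 : c * ε ≤ |ρ x| := by
          have := hin x hx
          have := neg_le_abs (ρ x)
          linarith
        have h3 : κ * (c * ε) ≤ δ x := (mul_le_mul_of_nonneg_left h2 hκ.le).trans h1
        have h4 : ‖x - y‖ ≤ (c + 2 * n) * ε := by
          have e : x - y = (x - z) - ε • ν - ε • ν := by rw [hz, hy]; abel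
          have a1 := norm_sub_le (x - z - ε • ν) (ε • ν)
          have a2 := norm_sub_le (x - z) (ε • ν)
          rw [← e] at a1
          rw [hεn] at a1 a2
          nlinarith
        have h5 : 0 < ‖x - y‖ := hcε.trans_le (hout x (subset_closure hx'.1))
        have h6 : ((c + 2 * n) * ε)⁻¹ ≤ ‖x - y‖⁻¹ := inv_anti₀ h5 h4
        simp only [hf]
        exact mul_le_mul h3 (pow_le_pow_left₀ (by positivity) h6 6) (by positivity)
          (le_trans (by positivity) h3))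
    -- the right hand side
    have hR1 := hfour Ω y (c * ε) hΩm hcε fun x hx => hout x (subset_closure hx)
    have hR0 : 0 ≤ ∫ x in Ω, ‖x - y‖⁻¹ ^ 4 := integral_nonneg fun x => by positivity
    have hR : C * ∫ x in Ω, ‖x - y‖⁻¹ ^ 4 ≤ |C| * (C₄ / (c * ε)) :=
      mul_le_mul (le_abs_self C) hR1 hR0 (abs_nonneg _)
    have hIy := hI y hyc
    have hfar' := (abs_le.1 (show |∫ x in Ω \ ball x₀ r₀, f x| ≤ M₁ from hfar)).1
    have htot : v * (c * ε) ^ 3 * (κ * (c * ε) * ((c + 2 * n) * ε)⁻¹ ^ 6) ≤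
        M₁ + |C| * (C₄ / (c * ε)) := by
      have : ∫ x in Ω, f x ≤ C * ∫ x in Ω, ‖x - y‖⁻¹ ^ 4 := hIy
      linarith
    have hmul := mul_le_mul_of_nonneg_right htot (sq_nonneg ε)
    have e1 : v * (c * ε) ^ 3 * (κ * (c * ε) * ((c + 2 * n) * ε)⁻¹ ^ 6) * ε ^ 2 = A := by
      rw [hA]
      have : c + 2 * n ≠ 0 := by positivity
      field_simp
    have e2 : (M₁ + |C| * (C₄ / (c * ε))) * ε ^ 2 = M₁ * ε ^ 2 + M₂ * ε := by
      rw [hM₂]
      field_simp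
    rwa [e1, e2] at hmul
  have hlim : Tendsto (fun ε : ℝ => M₁ * ε ^ 2 + M₂ * ε) (𝓝[>] 0) (𝓝 0) := by
    have : Continuous fun ε : ℝ => M₁ * ε ^ 2 + M₂ * ε := by fun_prop
    have := this.tendsto' 0 0 (by simp)
    exact this.mono_left nhdsWithin_le_nhds
  have hlim2 : Tendsto (fun ε : ℝ => ε * (c + n)) (𝓝[>] 0) (𝓝 0) := by
    have : Continuous fun ε : ℝ => ε * (c + n) := by fun_prop
    have := this.tendsto' 0 0 (by simp)
    exact this.mono_left nhdsWithin_le_nhds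
  have hev : ∀ᶠ ε : ℝ in 𝓝[>] 0, A ≤ M₁ * ε ^ 2 + M₂ * ε := by
    filter_upwards [Ioc_mem_nhdsGT hε₁, hlim2.eventually (gt_mem_nhds (half_pos hr₀))] with ε h1 h2
    exact key ε h1.1 h1.2 h2
  have := ge_of_tendsto hlim hev
  linarith

theorem BD1f.hasDerivAt_line {g : R3 → ℝ} (hg : Differentiable ℝ g) (x v : R3) (t : ℝ) :
    HasDerivAt (fun t : ℝ => g (x + t • v)) (fderiv ℝ g (x + t • v) v) t := by
  have h1 : HasDerivAt (fun t : ℝ => x + t • v) v t := by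
    simpa using ((hasDerivAt_id t).smul_const v).const_add x
  exact (hg (x + t • v)).hasFDerivAt.comp_hasDerivAt t h1

/-- order zero, one sign -/
theorem BD1f.zero (h : DefF Ω ρ) (hδ : Continuous δ) {C : ℝ}
    (hI : ∀ y ∉ closure Ω, ∫ x in Ω, δ x * ‖x - y‖⁻¹ ^ 6 ≤ C * ∫ x in Ω, ‖x - y‖⁻¹ ^ 4)
    {x₀ : R3} (hx₀ : x₀ ∈ frontier Ω) : δ x₀ ≤ 0 := by
  by_contra hpos
  rw [not_le] at hpos
  have hρ0 : ρ x₀ = 0 := by rw [h.frontier_eq] at hx₀; exact hx₀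
  have hc : Continuous fun x => δ x - |ρ x| := hδ.sub h.cd.continuous.abs
  have hev : ∀ᶠ x in 𝓝 x₀, 0 < δ x - |ρ x| :=
    hc.continuousAt.eventually (lt_mem_nhds (by simpa [hρ0] using hpos))
  obtain ⟨r, hr, hb⟩ := Metric.eventually_nhds_iff.1 hev
  refine not_ge_rho h hδ hI hx₀ one_pos hr fun x _ hx => ?_
  have := hb (y := x) (by rwa [dist_eq_norm])
  linarith

/-- sliding to the boundary and the mean value theorem -/
theorem BD1f.slide (h : DefF Ω ρ) (hδ : Differentiable ℝ δ) (h0 : ∀ x ∈ frontier Ω, δ x = 0)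
    {x₀ : R3} (hx₀ : x₀ ∈ frontier Ω) {r : ℝ} (hr : 0 < r) :
    ∃ r' : ℝ, 0 < r' ∧ ∀ x ∈ Ω, ‖x - x₀‖ < r' → ∃ (s : ℝ) (z : R3), 0 < s ∧ ‖z - x₀‖ < r ∧
      δ x = -(s * fderiv ℝ δ z (gradient ρ x₀)) ∧
      |ρ x| ≤ 2 * ‖gradient ρ x₀‖ ^ 2 * s ∧ ‖gradient ρ x₀‖ ^ 2 * s ≤ 2 * |ρ x| := by
  obtain ⟨r', hr', hs⟩ := h.slide hx₀ hr
  refine ⟨r', hr', fun x hx hxr => ?_⟩
  obtain ⟨s, hs0, h1, h2, h3, h4⟩ := hs x hx hxr
  obtain ⟨t, ht, het⟩ := exists_hasDerivAt_eq_slope (fun t : ℝ => δ (x + t • gradient ρ x₀))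
    (fun t => fderiv ℝ δ (x + t • gradient ρ x₀) (gradient ρ x₀)) hs0
    (fun t _ => (BD1f.hasDerivAt_line hδ x _ t).continuousAt.continuousWithinAt)
    (fun t _ => BD1f.hasDerivAt_line hδ x _ t)
  refine ⟨s, x + t • gradient ρ x₀, hs0, h4 t ⟨ht.1.le, ht.2.le⟩, ?_, h1, h2⟩
  rw [het, h0 _ h3]
  simp only [zero_smul, add_zero, sub_zero]
  field_simp
  ring

/-- order one, normal direction, one sign -/
theorem BD1f.normal (h : DefF Ω ρ) (hδ : ContDiff ℝ 1 δ) (h0 : ∀ x ∈ frontier Ω, δ x = 0) {C : ℝ}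
    (hI : ∀ y ∉ closure Ω, ∫ x in Ω, δ x * ‖x - y‖⁻¹ ^ 6 ≤ C * ∫ x in Ω, ‖x - y‖⁻¹ ^ 4)
    {x₀ : R3} (hx₀ : x₀ ∈ frontier Ω) : 0 ≤ fderiv ℝ δ x₀ (gradient ρ x₀) := by
  by_contra hneg
  rw [not_le] at hneg
  set ν := gradient ρ x₀ with hν
  set a := -fderiv ℝ δ x₀ ν with ha
  have ha0 : 0 < a := by linarith
  have hn : 0 < ‖ν‖ := norm_pos_iff.2 (h.gradient_ne_zero hx₀)
  have hc : Continuous fun x => fderiv ℝ δ x ν :=
    (hδ.continuous_fderiv one_ne_zero).clm_apply continuous_const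
  have hev : ∀ᶠ x in 𝓝 x₀, fderiv ℝ δ x ν < -(a / 2) :=
    hc.continuousAt.eventually (gt_mem_nhds (by linarith))
  obtain ⟨r, hr, hb⟩ := Metric.eventually_nhds_iff.1 hev
  obtain ⟨r', hr', hs⟩ := BD1f.slide h (hδ.differentiable one_ne_zero) h0 hx₀ hr
  refine not_ge_rho h hδ.continuous hI hx₀ (κ := a / (4 * ‖ν‖ ^ 2)) (by positivity) hr'
    fun x hx hxr => ?_
  obtain ⟨s, z, hs0, hz, e, h1, -⟩ := hs x hx hxr
  have h2 := hb (y := z) (by rwa [dist_eq_norm])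
  have h3 : a / (4 * ‖ν‖ ^ 2) * |ρ x| ≤ a / (4 * ‖ν‖ ^ 2) * (2 * ‖ν‖ ^ 2 * s) :=
    mul_le_mul_of_nonneg_left h1 (by positivity)
  have h4 : a / (4 * ‖ν‖ ^ 2) * (2 * ‖ν‖ ^ 2 * s) = a / 2 * s := by field_simp; ring
  rw [e]
  nlinarith

/-- order one, directions pointing into the domain -/
theorem BD1f.inward (h : DefF Ω ρ) (hδ : ContDiff ℝ 1 δ) (h0 : ∀ x ∈ frontier Ω, δ x = 0)
    {x₀ : R3} (hx₀ : x₀ ∈ frontier Ω) (hn0 : fderiv ℝ δ x₀ (gradient ρ x₀) = 0) {v : R3}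
    (hv : fderiv ℝ ρ x₀ v < 0) : fderiv ℝ δ x₀ v = 0 := by
  set ν := gradient ρ x₀ with hν
  have hn : 0 < ‖ν‖ := norm_pos_iff.2 (h.gradient_ne_zero hx₀)
  have hρ0 : ρ x₀ = 0 := by rw [h.frontier_eq] at hx₀; exact hx₀
  have hδd := hδ.differentiable one_ne_zero
  have hρd : Differentiable ℝ ρ := h.cd.differentiable (by simp)
  have t1 : Tendsto (fun t : ℝ => t⁻¹ * δ (x₀ + t • v)) (𝓝[>] 0) (𝓝 (fderiv ℝ δ x₀ v)) := by
    have := (BD1f.hasDerivAt_line hδd x₀ v 0).tendsto_slope_zero_right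
    simpa [h0 x₀ hx₀] using this
  have t2 : Tendsto (fun t : ℝ => t⁻¹ * ρ (x₀ + t • v)) (𝓝[>] 0) (𝓝 (fderiv ℝ ρ x₀ v)) := by
    have := (BD1f.hasDerivAt_line hρd x₀ v 0).tendsto_slope_zero_right
    simpa [hρ0] using this
  have t3 : Tendsto (fun t : ℝ => ‖x₀ + t • v - x₀‖) (𝓝[>] 0) (𝓝 0) := by
    have : Continuous fun t : ℝ => ‖x₀ + t • v - x₀‖ := by fun_prop
    have := this.tendsto' 0 0 (by simp)
    exact this.mono_left nhdsWithin_le_nhds
  have hc : Continuous fun x => |fderiv ℝ δ x ν| :=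
    ((hδ.continuous_fderiv one_ne_zero).clm_apply continuous_const).abs
  have key : ∀ η : ℝ, 0 < η → |fderiv ℝ δ x₀ v| ≤ η * (2 / ‖ν‖ ^ 2 * |fderiv ℝ ρ x₀ v|) := by
    intro η hη
    have hev : ∀ᶠ x in 𝓝 x₀, |fderiv ℝ δ x ν| < η :=
      hc.continuousAt.eventually (gt_mem_nhds (by simpa [hn0] using hη))
    obtain ⟨r, hr, hb⟩ := Metric.eventually_nhds_iff.1 hev
    obtain ⟨r', hr', hs⟩ := BD1f.slide h hδd h0 hx₀ hr
    refine le_of_tendsto_of_tendsto t1.abs ((t2.abs.const_mul (2 / ‖ν‖ ^ 2)).const_mul η) ?_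
    filter_upwards [self_mem_nhdsWithin, t2.eventually (gt_mem_nhds hv),
      t3.eventually (gt_mem_nhds hr')] with t ht h1 h2
    have ht' : 0 < t := ht
    have hti : 0 < t⁻¹ := inv_pos.2 ht'
    have hx : x₀ + t • v ∈ Ω := by
      rw [h.eq]
      show ρ (x₀ + t • v) < 0
      by_contra hh
      rw [not_lt] at hh
      have := mul_nonneg hti.le hh
      linarith
    obtain ⟨s, z, hs0, hz, e, -, h3⟩ := hs _ hx h2
    have h4 := hb (y := z) (by rwa [dist_eq_norm])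
    have h5 : |δ (x₀ + t • v)| ≤ η * (2 / ‖ν‖ ^ 2 * |ρ (x₀ + t • v)|) := by
      rw [e, abs_neg, abs_mul, abs_of_pos hs0]
      have h6 : s ≤ 2 / ‖ν‖ ^ 2 * |ρ (x₀ + t • v)| := by
        rw [div_mul_eq_mul_div, le_div_iff₀ (by positivity)]
        linarith
      rw [mul_comm]
      exact mul_le_mul h4.le h6 hs0.le hη.le
    rw [abs_mul, abs_mul, abs_of_pos hti]
    have := mul_le_mul_of_nonneg_left h5 hti.le
    calc t⁻¹ * |δ (x₀ + t • v)| ≤ t⁻¹ * (η * (2 / ‖ν‖ ^ 2 * |ρ (x₀ + t • v)|)) := this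
      _ = η * (2 / ‖ν‖ ^ 2 * (t⁻¹ * |ρ (x₀ + t • v)|)) := by ring
  have hlim : Tendsto (fun η : ℝ => η * (2 / ‖ν‖ ^ 2 * |fderiv ℝ ρ x₀ v|)) (𝓝[>] 0) (𝓝 0) := by
    have : Continuous fun η : ℝ => η * (2 / ‖ν‖ ^ 2 * |fderiv ℝ ρ x₀ v|) := by fun_prop
    have := this.tendsto' 0 0 (by simp)
    exact this.mono_left nhdsWithin_le_nhds
  have : |fderiv ℝ δ x₀ v| ≤ 0 :=
    ge_of_tendsto hlim (by filter_upwards [self_mem_nhdsWithin] with η hη using key η hη)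
  exact abs_nonpos_iff.1 this

/-- Order zero: if `δ x₀ > 0` then `δ ≥ |ρ|` near `x₀`; apply also to `-δ`.  Order one: let `ν = ∇ρ x₀`.
If `∂_ν δ (x₀) < 0`, sliding to the boundary (`DefF.slide`) gives `δ x ≥ κ |ρ x|` near `x₀`; so `∂_ν δ = 0` at
`x₀`.  Then `|δ x| ≤ η C |ρ x| ≤ η C' ‖x - x₀‖` for `x ∈ Ω` near `x₀`, for every `η > 0`; so `fderiv δ x₀` vanishes
on all directions `v` with `⟪ν, v⟫ < 0`, hence everywhere. -/
theorem bd1_final (hΩ : IsDom Ω) (hδ : ContDiff ℝ 1 δ) {C : ℝ}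
    (hI : ∀ y ∉ closure Ω, |∫ x in Ω, δ x * ‖x - y‖⁻¹ ^ 6| ≤ C * ∫ x in Ω, ‖x - y‖⁻¹ ^ 4) :
    ∀ x ∈ frontier Ω, δ x = 0 ∧ fderiv ℝ δ x = 0 := by
  obtain ⟨ρ, h⟩ := hΩ.exists_defF
  have hI1 : ∀ y ∉ closure Ω, ∫ x in Ω, δ x * ‖x - y‖⁻¹ ^ 6 ≤ C * ∫ x in Ω, ‖x - y‖⁻¹ ^ 4 :=
    fun y hy => (le_abs_self _).trans (hI y hy)
  have hI2 : ∀ y ∉ closure Ω,
      ∫ x in Ω, (fun x => -δ x) x * ‖x - y‖⁻¹ ^ 6 ≤ C * ∫ x in Ω, ‖x - y‖⁻¹ ^ 4 := by
    intro y hy
    simp only [neg_mul, integral_neg]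
    exact (neg_le_abs _).trans (hI y hy)
  have h0 : ∀ x ∈ frontier Ω, δ x = 0 := fun x hx => by
    have a1 := BD1f.zero h hδ.continuous hI1 hx
    have a2 := BD1f.zero h (δ := fun x => -δ x) hδ.continuous.neg hI2 hx
    linarith
  intro x₀ hx₀
  refine ⟨h0 x₀ hx₀, ?_⟩
  have hn0 : fderiv ℝ δ x₀ (gradient ρ x₀) = 0 := by
    have a1 := BD1f.normal h hδ h0 hI1 hx₀
    have a2 := BD1f.normal h (δ := fun x => -δ x) hδ.neg (fun x hx => by rw [h0 x hx, neg_zero]) hI2 hx₀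
    rw [fderiv_fun_neg, _root_.neg_apply] at a2
    linarith
  set ν := gradient ρ x₀ with hν
  have hn : 0 < ‖ν‖ := norm_pos_iff.2 (h.gradient_ne_zero hx₀)
  have hνν : fderiv ℝ ρ x₀ ν = ‖ν‖ ^ 2 := by
    rw [← real_inner_self_eq_norm_sq, hν, gradient, InnerProductSpace.toDual_symm_apply]
  ext v
  set t : ℝ := (|fderiv ℝ ρ x₀ v| + 1) / ‖ν‖ ^ 2 with ht
  have h1 : fderiv ℝ ρ x₀ (v - t • ν) < 0 := by
    rw [map_sub, map_smul, hνν, smul_eq_mul, ht, div_mul_cancel₀ _ (by positivity)]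
    have := le_abs_self (fderiv ℝ ρ x₀ v)
    linarith
  have h2 := BD1f.inward h hδ h0 hx₀ hn0 h1
  rw [map_sub, map_smul, hn0, smul_zero, sub_zero] at h2
  simpa using h2

end Crest.Agent.R80
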