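import Crest.Agent.R80.Calc2

/-!
# Row 80: the Newton potential
-/

namespace Crest.Agent.R80

open MeasureTheory Set Metric Filter Topology Complex
open scoped ContDiff
open Crest.AnalysisR.VecCalc3 Crest.AnalysisR.PDE Crest.AnalysisR.PDE.Elasticity

theorem newton_hasFDerivAt {x y : R3} (h : x ≠ y) :
    HasFDerivAt (Nw y) ((-‖x - y‖⁻¹ ^ 3) • innerSL ℝ (x - y)) x := by
  have hr : 0 < ‖x - y‖ := norm_pos_iff.2 (sub_ne_zero.2 h)
  have h1 : HasFDerivAt (fun z : R3 => ‖z - y‖ ^ 2)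
      (2 • (innerSL ℝ (x - y)).comp (ContinuousLinearMap.id ℝ R3)) x :=
    ((hasFDerivAt_id x).sub_const y).norm_sq
  have hq : ‖x - y‖ ^ 2 ≠ 0 := by positivity
  have hs : √(‖x - y‖ ^ 2) = ‖x - y‖ := Real.sqrt_sq hr.le
  have h2 : HasDerivAt (fun t : ℝ => (√t)⁻¹) (-(1 / (2 * √(‖x - y‖ ^ 2))) / √(‖x - y‖ ^ 2) ^ 2)
      (‖x - y‖ ^ 2) := (Real.hasDerivAt_sqrt hq).inv (by rw [hs]; exact hr.ne')
  have h3 := h2.comp_hasFDerivAt x h1
  have e : Nw y = (fun t : ℝ => (√t)⁻¹) ∘ fun z : R3 => ‖z - y‖ ^ 2 := by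
    funext z
    simp [Nw, Real.sqrt_sq (norm_nonneg _)]
  rw [e]
  refine h3.congr_fderiv ?_
  ext v
  rw [hs]
  simp only [smul_apply, ContinuousLinearMap.comp_apply,
    ContinuousLinearMap.id_apply, smul_eq_mul, nsmul_eq_mul]
  field_simp
  norm_num

theorem newton_inner (v : R3) (i : Fin 3) :
    innerSL ℝ v (EuclideanSpace.single i (1 : ℝ)) = v i := by
  simp [innerSL_apply_apply, EuclideanSpace.inner_single_right]

theorem newton_contDiffAt {x y : R3} (h : x ≠ y) : ContDiffAt ℝ ∞ (Nw y) x := by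
  have h0 : x - y ≠ 0 := sub_ne_zero.2 h
  have h1 : ContDiffAt ℝ ∞ (fun z : R3 => ‖z - y‖) x :=
    (contDiffAt_id.sub contDiffAt_const).norm ℝ h0
  exact h1.inv (norm_ne_zero_iff.2 h0)

theorem newton_sum_sq (x y : R3) : ∑ i, (x i - y i) ^ 2 = ‖x - y‖ ^ 2 := by
  rw [EuclideanSpace.norm_sq_eq]
  simp

theorem newton_pderiv_congr {f g : R3 → ℝ} {x : R3} (h : f =ᶠ[𝓝 x] g) (i : Fin 3) :
    pderiv f i =ᶠ[𝓝 x] pderiv g i := by
  filter_upwards [h.fderiv (𝕜 := ℝ)] with z hz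
  unfold pderiv
  rw [hz]

theorem pderiv_Nw {x y : R3} (h : x ≠ y) (i : Fin 3) :
    pderiv (Nw y) i x = -(x i - y i) * ‖x - y‖⁻¹ ^ 3 := by
  unfold pderiv
  rw [(newton_hasFDerivAt h).fderiv, smul_apply, newton_inner]
  simp only [PiLp.sub_apply, smul_eq_mul]
  ring

theorem pderiv2_Nw {x y : R3} (h : x ≠ y) (i j : Fin 3) :
    pderiv (pderiv (Nw y) j) i x =
      3 * (x i - y i) * (x j - y j) * ‖x - y‖⁻¹ ^ 5 - (if i = j then 1 else 0) * ‖x - y‖⁻¹ ^ 3 := by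
  have e : pderiv (Nw y) j =ᶠ[𝓝 x] fun z => -(z j - y j) * Nw y z ^ 3 := by
    filter_upwards [isOpen_ne.mem_nhds h] with z hz
    exact pderiv_Nw hz j
  have h1 : HasFDerivAt (fun z : R3 => -(z j - y j)) (-(EuclideanSpace.proj j : R3 →L[ℝ] ℝ)) x :=
    (((EuclideanSpace.proj j : R3 →L[ℝ] ℝ).hasFDerivAt).sub_const (y j)).neg
  have h2 := (newton_hasFDerivAt h).pow 3
  have h3 := h1.mul h2
  have h4 : fderiv ℝ (pderiv (Nw y) j) x = _ := e.fderiv_eq.trans h3.fderiv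
  rw [pderiv, h4]
  simp only [add_apply, smul_apply, newton_inner,
    neg_apply, PiLp.sub_apply, smul_eq_mul, nsmul_eq_mul, Nw,
    EuclideanSpace.proj, PiLp.proj_apply, PiLp.single_apply]
  by_cases hij : i = j
  · subst hij
    simp only [if_true]
    push_cast
    ring
  · rw [if_neg hij, if_neg (Ne.symm hij)]
    push_cast
    ring

/-- cut the pole off: `h = (1 - χ) Nw y` with a bump `χ` at `y` supported in the complement of `K`. -/
theorem exists_newton {K : Set R3} (hK : IsClosed K) {y : R3} (hy : y ∉ K) :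
    ∃ h : R3 → ℝ, ContDiff ℝ ∞ h ∧ ∀ x ∈ K, ∑ i, pderiv (pderiv h i) i x = 0 ∧
      ∑ i, pderiv h i x ^ 2 = ‖x - y‖⁻¹ ^ 4 ∧
      ∑ i, ∑ j, pderiv (pderiv h j) i x ^ 2 = 6 * ‖x - y‖⁻¹ ^ 6 := by
  obtain ⟨ε, hε, hb⟩ := Metric.isOpen_iff.1 hK.isOpen_compl y hy
  let χ : ContDiffBump y := ⟨ε / 4, ε / 2, by positivity, by linarith⟩
  refine ⟨fun x => (1 - χ x) * Nw y x, ?_, ?_⟩
  · rw [contDiff_iff_contDiffAt]
    intro x
    by_cases hx : x = y
    · subst hx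
      have : (fun z => (1 - χ z) * Nw x z) =ᶠ[𝓝 x] fun _ => 0 := by
        filter_upwards [χ.eventuallyEq_one] with z hz
        simp [hz]
      exact contDiffAt_const.congr_of_eventuallyEq this
    · exact (contDiffAt_const.sub χ.contDiff.contDiffAt).mul (newton_contDiffAt hx)
  · intro x hx
    have hd : ε ≤ dist x y := by
      by_contra hlt
      exact hb (mem_ball.2 (not_le.1 hlt)) hx
    have hxy : x ≠ y := fun h => hy (h ▸ hx)
    have e : (fun z => (1 - χ z) * Nw y z) =ᶠ[𝓝 x] Nw y := by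
      have ho : IsOpen {z : R3 | ε / 2 < dist z y} := isOpen_lt continuous_const (by fun_prop)
      filter_upwards [ho.mem_nhds (show ε / 2 < dist x y by linarith)] with z hz
      rw [χ.zero_of_le_dist (le_of_lt hz)]
      simp
    have e1 : ∀ i, pderiv (fun z => (1 - χ z) * Nw y z) i x = -(x i - y i) * ‖x - y‖⁻¹ ^ 3 :=
      fun i => (newton_pderiv_congr e i).eq_of_nhds.trans (pderiv_Nw hxy i)
    have e2 : ∀ i j, pderiv (pderiv (fun z => (1 - χ z) * Nw y z) j) i x =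
        3 * (x i - y i) * (x j - y j) * ‖x - y‖⁻¹ ^ 5 -
          (if i = j then 1 else 0) * ‖x - y‖⁻¹ ^ 3 :=
      fun i j => (newton_pderiv_congr (newton_pderiv_congr e j) i).eq_of_nhds.trans
        (pderiv2_Nw hxy i j)
    have hr : ‖x - y‖ ≠ 0 := norm_ne_zero_iff.2 (sub_ne_zero.2 hxy)
    have hs := newton_sum_sq x y
    simp only [e1, e2]
    simp only [Fin.sum_univ_three] at hs ⊢
    have hu : ((x 0 - y 0) ^ 2 + (x 1 - y 1) ^ 2 + (x 2 - y 2) ^ 2) * ‖x - y‖⁻¹ ^ 2 = 1 := by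
      rw [hs]; field_simp
    generalize ‖x - y‖⁻¹ = u at hu ⊢
    generalize x 0 - y 0 = a at hu ⊢
    generalize x 1 - y 1 = b at hu ⊢
    generalize x 2 - y 2 = c at hu ⊢
    simp only [if_true, Fin.reduceEq, if_false]
    refine ⟨?_, ?_, ?_⟩
    · linear_combination (3 * u ^ 3) * hu
    · linear_combination (u ^ 4) * hu
    · linear_combination (9 * u ^ 8 * (a ^ 2 + b ^ 2 + c ^ 2) + 3 * u ^ 6) * hu

/-- scaling (`Measure.integral_comp_smul`) from `r = 1`, where integrability follows from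
`integrable_one_add_norm` (or `integrableOn_rpow...`). -/
theorem integral_inv_four_le :
    ∃ C : ℝ, 0 ≤ C ∧ ∀ (U : Set R3) (y : R3) (r : ℝ), MeasurableSet U → 0 < r →
      (∀ x ∈ U, r ≤ ‖x - y‖) → ∫ x in U, ‖x - y‖⁻¹ ^ 4 ≤ C / r := by
  have hI : Integrable (fun z : R3 => (1 + ‖z‖) ^ (-(4 : ℝ))) :=
    integrable_one_add_norm (by simp; norm_num)
  have hI0 : 0 ≤ ∫ z : R3, (1 + ‖z‖) ^ (-(4 : ℝ)) := integral_nonneg fun z => by positivity
  refine ⟨16 * ∫ z : R3, (1 + ‖z‖) ^ (-(4 : ℝ)), by positivity, fun U y r hU hr hUr => ?_⟩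
  have h1 : Integrable (fun z : R3 => (1 + ‖r⁻¹ • z‖) ^ (-(4 : ℝ))) :=
    hI.comp_smul (inv_ne_zero hr.ne')
  have h2 : Integrable (fun x : R3 => 16 / r ^ 4 * (1 + ‖r⁻¹ • (x - y)‖) ^ (-(4 : ℝ))) :=
    (h1.comp_sub_right y).const_mul _
  have h3 : ∫ x : R3, 16 / r ^ 4 * (1 + ‖r⁻¹ • (x - y)‖) ^ (-(4 : ℝ)) =
      (16 * ∫ z : R3, (1 + ‖z‖) ^ (-(4 : ℝ))) / r := by
    rw [integral_const_mul,
      integral_sub_right_eq_self (fun z : R3 => (1 + ‖r⁻¹ • z‖) ^ (-(4 : ℝ))) y,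
      Measure.integral_comp_inv_smul_of_nonneg volume
        (fun z : R3 => (1 + ‖z‖) ^ (-(4 : ℝ))) hr.le]
    simp only [finrank_euclideanSpace, Fintype.card_fin, smul_eq_mul]
    field_simp
  rw [← h3]
  refine le_trans ?_ (setIntegral_le_integral (s := U) h2 (ae_of_all _ fun x => by positivity))
  refine integral_mono_of_nonneg (ae_of_all _ fun x => by positivity) h2.integrableOn ?_
  refine (ae_restrict_iff' hU).2 (ae_of_all _ fun x hx => ?_)
  have hx' := hUr x hx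
  have hn : 0 < ‖x - y‖ := lt_of_lt_of_le hr hx'
  show ‖x - y‖⁻¹ ^ 4 ≤ 16 / r ^ 4 * (1 + ‖r⁻¹ • (x - y)‖) ^ (-(4 : ℝ))
  rw [norm_smul, Real.norm_eq_abs, abs_of_pos (inv_pos.2 hr), Real.rpow_neg (by positivity),
    show (4 : ℝ) = ((4 : ℕ) : ℝ) by norm_num, Real.rpow_natCast]
  have e : 16 / r ^ 4 * ((1 + r⁻¹ * ‖x - y‖) ^ 4)⁻¹ = (2 / (r + ‖x - y‖)) ^ 4 := by
    field_simp
    norm_num
  rw [e]
  refine pow_le_pow_left₀ (by positivity) ?_ 4
  rw [inv_eq_one_div, div_le_div_iff₀ hn (by positivity)]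
  linarith

theorem continuousOn_inv_pow {K : Set R3} {y : R3} (hy : y ∉ K) (n : ℕ) :
    ContinuousOn (fun x => ‖x - y‖⁻¹ ^ n) K := by
  refine ContinuousOn.pow (ContinuousOn.inv₀ (by fun_prop) fun x hx => ?_) n
  exact norm_ne_zero_iff.2 (sub_ne_zero.2 fun h => hy (h ▸ hx))

/-- lower bound from a small ball: the volume of `ball z s` is `v s³`. -/
theorem exists_le_integral_ball :
    ∃ v : ℝ, 0 < v ∧ ∀ (U : Set R3) (f : R3 → ℝ) (z : R3) (s M : ℝ), MeasurableSet U → 0 < s → 0 ≤ M →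
      ball z s ⊆ U → IntegrableOn f U → (∀ x ∈ U, 0 ≤ f x) → (∀ x ∈ ball z s, M ≤ f x) →
      v * s ^ 3 * M ≤ ∫ x in U, f x := by
  have hv : 0 < (volume : Measure R3).real (ball 0 1) :=
    ENNReal.toReal_pos (measure_ball_pos _ _ one_pos).ne' measure_ball_lt_top.ne
  refine ⟨_, hv, fun U f z s M hU hs hM hb hf h0 hfM => ?_⟩
  have h1 : M * (volume : Measure R3).real (ball z s) ≤ ∫ x in ball z s, f x :=
    setIntegral_ge_of_const_le_real measurableSet_ball measure_ball_lt_top.ne hfM (hf.mono_set hb)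
  have h2 : ∫ x in ball z s, f x ≤ ∫ x in U, f x :=
    setIntegral_mono_set hf ((ae_restrict_iff' hU).2 (ae_of_all _ h0)) hb.eventuallyLE
  rw [← Measure.addHaar_real_closedBall_eq_addHaar_real_ball,
    Measure.addHaar_real_closedBall _ _ hs.le] at h1
  simp only [finrank_euclideanSpace, Fintype.card_fin] at h1
  linarith

end Crest.Agent.R80
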