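import Crest.Agent.R80.Energy
import Crest.Agent.R80.Newton

/-!
# Row 80: boundary determination of `λ`: the functional inequality
-/

namespace Crest.Agent.R80

open MeasureTheory Set Metric Filter Topology Complex
open scoped ContDiff
open Crest.AnalysisR.VecCalc3 Crest.AnalysisR.PDE Crest.AnalysisR.PDE.Elasticity

/-- the Kelvin type field `h eₖ - κ₀ ∇ ((x - y)ₖ h)`. -/
noncomputable def kel (κ₀ : ℝ) (y : R3) (h : R3 → ℝ) (k : Fin 3) (x : R3) : R3 :=
  WithLp.toLp 2 fun j =>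
    (if j = k then (1 - κ₀) * h x else 0) - κ₀ * (x k - y k) * pderiv h j x

variable {κ₀ : ℝ} {y : R3} {h : R3 → ℝ} {Ω : Set R3}

private theorem BD2_top {h : R3 → ℝ} (hh : ContDiff ℝ ∞ h) (i : Fin 3) :
    ContDiff ℝ ∞ (pderiv h i) :=
  contDiff_pderiv i hh (by simp)

private theorem BD2_diff {h : R3 → ℝ} (hh : ContDiff ℝ ∞ h) : Differentiable ℝ h :=
  hh.differentiable (by simp)

private theorem BD2_coord (n : WithTop ℕ∞) (k : Fin 3) : ContDiff ℝ n fun x : R3 => x k :=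
  (EuclideanSpace.proj (𝕜 := ℝ) k).contDiff

private theorem BD2_form (c₁ c₂ κ : ℝ) {f g e : R3 → ℝ} (y : R3) (k l : Fin 3) (x : R3)
    (hf : DifferentiableAt ℝ f x) (hg : DifferentiableAt ℝ g x) (he : DifferentiableAt ℝ e x) :
    pderiv (fun z => c₁ * f z - c₂ * g z - κ * (z k - y k) * e z) l x =
      c₁ * pderiv f l x - c₂ * pderiv g l x - (if l = k then κ * e x else 0) -
        κ * (x k - y k) * pderiv e l x := by
  have h1 : HasFDerivAt (fun z : R3 => z k) (EuclideanSpace.proj (𝕜 := ℝ) k : R3 →L[ℝ] ℝ) x :=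
    (EuclideanSpace.proj (𝕜 := ℝ) k : R3 →L[ℝ] ℝ).hasFDerivAt
  have h2 := ((hf.hasFDerivAt.const_mul c₁).sub (hg.hasFDerivAt.const_mul c₂)).sub
    (((h1.sub_const (y k)).const_mul κ).mul he.hasFDerivAt)
  have h3 : fderiv ℝ (fun z => c₁ * f z - c₂ * g z - κ * (z k - y k) * e z) x = _ := h2.fderiv
  unfold pderiv
  rw [h3]
  by_cases hl : l = k
  · subst hl; simp; ring
  · simp [hl, Ne.symm hl]

private theorem BD2_comm {h : R3 → ℝ} (hh : ContDiff ℝ ∞ h) (i j : Fin 3) :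
    pderiv (pderiv h j) i = pderiv (pderiv h i) j := by
  funext x
  have e : ∀ k, pd k (fun y => (h y : ℂ)) = fun y => (pderiv h k y : ℂ) := fun k =>
    funext fun y => pd_ofReal k (BD2_diff hh y)
  have h1 := pd_comm (f := fun y => (h y : ℂ)) (x := x) i j
    ((contDiff_ofReal (by exact_mod_cast contDiff_infty.1 hh 2)).contDiffAt)
  rw [e, e, pd_ofReal i (BD2_diff (BD2_top hh j) x), pd_ofReal j (BD2_diff (BD2_top hh i) x)] at h1
  exact_mod_cast h1

theorem contDiff_kel (hh : ContDiff ℝ ∞ h) (κ₀ : ℝ) (y : R3) (k : Fin 3) :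
    ContDiff ℝ ∞ (kel κ₀ y h k) := by
  rw [contDiff_euclidean]
  intro j
  have h1 : ContDiff ℝ ∞ fun x : R3 => (if j = k then (1 - κ₀) * h x else 0) := by
    by_cases hj : j = k
    · simp only [hj, if_true]; exact contDiff_const.mul hh
    · simp only [hj, if_false]; exact contDiff_const
  exact h1.sub ((contDiff_const.mul ((BD2_coord _ k).sub contDiff_const)).mul (BD2_top hh j))

theorem Dr_kel (hh : ContDiff ℝ ∞ h) (κ₀ : ℝ) (y : R3) (k i j : Fin 3) (x : R3) :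
    Dr (kel κ₀ y h k) i j x = (if j = k then (1 - κ₀) * pderiv h i x else 0) -
      (if i = k then κ₀ * pderiv h j x else 0) - κ₀ * (x k - y k) * pderiv (pderiv h j) i x := by
  have e : (fun z => kel κ₀ y h k z j) = fun z => (if j = k then 1 - κ₀ else 0) * h z - 0 * h z -
      κ₀ * (z k - y k) * pderiv h j z := by
    funext z
    by_cases hj : j = k <;> simp [kel, hj]
  unfold Dr
  rw [e, BD2_form _ _ _ y k i x (BD2_diff hh x) (BD2_diff hh x) (BD2_diff (BD2_top hh j) x)]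
  by_cases hj : j = k <;> simp [hj]

private theorem BD2_Dr_top (hh : ContDiff ℝ ∞ h) (κ₀ : ℝ) (y : R3) (k i j : Fin 3) :
    ContDiff ℝ ∞ (Dr (kel κ₀ y h k) i j) :=
  BD2_top (contDiff_comp_coord (contDiff_kel hh κ₀ y k) j) i

private theorem BD2_DDr (hh : ContDiff ℝ ∞ h) (κ₀ : ℝ) (y : R3) (k i j l : Fin 3) (x : R3) :
    pderiv (Dr (kel κ₀ y h k) i j) l x = (if j = k then (1 - κ₀) * pderiv (pderiv h i) l x else 0) -
      (if i = k then κ₀ * pderiv (pderiv h j) l x else 0) -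
      (if l = k then κ₀ * pderiv (pderiv h j) i x else 0) -
      κ₀ * (x k - y k) * pderiv (pderiv (pderiv h j) i) l x := by
  have e : Dr (kel κ₀ y h k) i j = fun z => (if j = k then 1 - κ₀ else 0) * pderiv h i z -
      (if i = k then κ₀ else 0) * pderiv h j z - κ₀ * (z k - y k) * pderiv (pderiv h j) i z := by
    funext z
    rw [Dr_kel hh]
    by_cases hj : j = k <;> by_cases hi : i = k <;> simp [hj, hi]
  rw [e, BD2_form _ _ _ y k l x (BD2_diff (BD2_top hh i) x) (BD2_diff (BD2_top hh j) x)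
    (BD2_diff (BD2_top (BD2_top hh j) i) x)]
  by_cases hj : j = k <;> by_cases hi : i = k <;> simp [hj, hi]

private theorem BD2_harm3 (hΩ : IsOpen Ω) (hh : ContDiff ℝ ∞ h)
    (h0 : ∀ x ∈ Ω, ∑ i, pderiv (pderiv h i) i x = 0) (l : Fin 3) {x : R3} (hx : x ∈ Ω) :
    ∑ i, pderiv (pderiv (pderiv h i) i) l x = 0 := by
  have h1 : (fun z => ∑ i, pderiv (pderiv h i) i z) =ᶠ[𝓝 x] fun _ => (0 : ℝ) := by
    filter_upwards [hΩ.mem_nhds hx] with z hz using h0 z hz
  have h2 : fderiv ℝ (fun z => ∑ i, pderiv (pderiv h i) i z) x = 0 := by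
    rw [h1.fderiv_eq]; simp
  rw [fderiv_fun_sum fun i _ => BD2_diff (BD2_top (BD2_top hh i) i) x] at h2
  have h3 := congrArg (fun L : R3 →L[ℝ] ℝ => L (EuclideanSpace.single l 1)) h2
  simpa [pderiv] using h3

/-- integration by parts in the bilinear form -/
private theorem BD2_parts (hΩ : IsDom Ω) (lam mu : ℝ) {P : Fin 3 → Fin 3 → R3 → ℝ}
    (hP : ∀ i j, ContDiff ℝ ∞ (P i j)) {ψ : R3 → R3} (hψ : V0 Ω ψ) :
    ∫ x in Ω, bil lam mu (fun i j => P i j x) (fun i j => Dr ψ i j x) =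
      -∫ x in Ω, ∑ j, (∑ i, (lam * pderiv (P i i) j x + mu * pderiv (P i j) i x +
        mu * pderiv (P j i) i x)) * ψ x j := by
  have hψj : ∀ j, ContDiff ℝ 1 fun z => ψ z j := fun j => contDiff_comp_coord hψ.1 j
  have hψ0 : ∀ j, ∀ x ∈ frontier Ω, ψ x j = 0 := fun j x hx => by rw [hψ.2 x hx]; rfl
  have hP1 : ∀ i j, ContDiff ℝ 1 (P i j) := fun i j => (hP i j).of_le (by exact_mod_cast le_top)
  have key : ∀ a b i j, ∫ x in Ω, P a b x * Dr ψ i j x = -∫ x in Ω, pderiv (P a b) i x * ψ x j :=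
    fun a b i j => hΩ.setIntegral_mul_pderiv (hP1 a b) (hψj j) (hψ0 j) i
  have i1 : ∀ a b i j, IntegrableOn (fun x => P a b x * Dr ψ i j x) Ω := fun a b i j =>
    hΩ.integrableOn ((hP a b).continuous.mul (continuous_Dr hψ.1 i j)).continuousOn
  have i2 : ∀ a b i j, IntegrableOn (fun x => pderiv (P a b) i x * ψ x j) Ω := fun a b i j =>
    hΩ.integrableOn ((BD2_top (hP a b) i).continuous.mul (hψj j).continuous).continuousOn
  have e1 : ∀ x, bil lam mu (fun i j => P i j x) (fun i j => Dr ψ i j x) =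
      ∑ j, ∑ i, (lam * (P i i x * Dr ψ j j x) + mu * (P i j x * Dr ψ i j x) +
        mu * (P j i x * Dr ψ i j x)) := fun x => by
    simp only [bil, Fin.sum_univ_three]; ring
  have e2 : ∀ x, ∑ j, (∑ i, (lam * pderiv (P i i) j x + mu * pderiv (P i j) i x +
        mu * pderiv (P j i) i x)) * ψ x j =
      ∑ j, ∑ i, (lam * (pderiv (P i i) j x * ψ x j) + mu * (pderiv (P i j) i x * ψ x j) +
        mu * (pderiv (P j i) i x * ψ x j)) := fun x => by
    simp only [Fin.sum_univ_three]; ring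
  simp only [e1, e2]
  have s : ∀ {f g k : Fin 3 → Fin 3 → R3 → ℝ}, (∀ i j, IntegrableOn (f i j) Ω) →
      (∀ i j, IntegrableOn (g i j) Ω) → (∀ i j, IntegrableOn (k i j) Ω) →
      ∫ x in Ω, ∑ j, ∑ i, (lam * f i j x + mu * g i j x + mu * k i j x) =
        ∑ j, ∑ i, (lam * (∫ x in Ω, f i j x) + mu * (∫ x in Ω, g i j x) +
          mu * ∫ x in Ω, k i j x) := by
    intro f g k hf hg hk
    have hi : ∀ i j, Integrable (fun x => lam * f i j x + mu * g i j x + mu * k i j x)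
        (volume.restrict Ω) := fun i j =>
      (((hf i j).const_mul lam).add ((hg i j).const_mul mu)).add ((hk i j).const_mul mu)
    rw [integral_finsetSum _ fun j _ => integrable_finsetSum _ fun i _ => hi i j]
    refine Finset.sum_congr rfl fun j _ => ?_
    rw [integral_finsetSum _ fun i _ => hi i j]
    refine Finset.sum_congr rfl fun i _ => ?_
    have hj : Integrable (fun x => lam * f i j x + mu * g i j x) (volume.restrict Ω) :=
      ((hf i j).const_mul lam).add ((hg i j).const_mul mu)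
    rw [integral_add hj ((hk i j).const_mul mu),
      integral_add ((hf i j).const_mul lam) ((hg i j).const_mul mu), integral_const_mul,
      integral_const_mul, integral_const_mul]
  rw [s (fun i j => i1 i i j j) (fun i j => i1 i j i j) (fun i j => i1 j i i j),
    s (fun i j => i2 i i j j) (fun i j => i2 i j i j) (fun i j => i2 j i i j)]
  simp only [key, Fin.sum_univ_three]
  ring

/-- The field solves the constant coefficient system when `(λ₀ + μ₀)(1 - 2κ₀) = 2 κ₀ μ₀`: in `Ω`,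
`div φ = (1 - 2κ₀) ∂ₖh`, `Δ φⱼ = -2 κ₀ ∂ⱼ∂ₖh`; integrate by parts (`IsDom.setIntegral_mul_pderiv`). -/
theorem kel_orth (hΩ : IsDom Ω) (hh : ContDiff ℝ ∞ h)
    (h0 : ∀ x ∈ Ω, ∑ i, pderiv (pderiv h i) i x = 0) {lam₀ mu₀ : ℝ}
    (hκ : (lam₀ + mu₀) * (1 - 2 * κ₀) = 2 * κ₀ * mu₀) (y : R3) (k : Fin 3) {ψ : R3 → R3}
    (hψ : V0 Ω ψ) :
    ∫ x in Ω, bil lam₀ mu₀ (fun i j => Dr (kel κ₀ y h k) i j x) (fun i j => Dr ψ i j x) = 0 := by
  rw [BD2_parts hΩ lam₀ mu₀ (fun i j => BD2_Dr_top hh κ₀ y k i j) hψ, neg_eq_zero]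
  refine setIntegral_eq_zero_of_forall_eq_zero fun x hx => Finset.sum_eq_zero fun j _ => ?_
  refine mul_eq_zero_of_left ?_ _
  have h2 := h0 x hx
  have h3 := BD2_harm3 hΩ.isOpen hh h0 j hx
  have c1 : ∀ i, pderiv (pderiv (pderiv h j) i) i x = pderiv (pderiv (pderiv h i) i) j x := by
    intro i
    rw [BD2_comm hh i j, BD2_comm (BD2_top hh i) i j]
  have c2 : ∀ i, pderiv (pderiv (pderiv h i) j) i x = pderiv (pderiv (pderiv h i) i) j x := by
    intro i
    rw [BD2_comm (BD2_top hh i) i j]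
  have c3 : pderiv (pderiv h k) j x = pderiv (pderiv h j) k x := by rw [BD2_comm hh]
  have t1 : ∑ i, pderiv (Dr (kel κ₀ y h k) i i) j x = (1 - 2 * κ₀) * pderiv (pderiv h j) k x := by
    simp only [BD2_DDr hh, Finset.sum_sub_distrib, Finset.sum_ite_eq', Finset.mem_univ, if_true,
      ← Finset.mul_sum, h3, c3]
    by_cases hj : j = k
    · simp only [hj, if_true, ← Finset.mul_sum, h2]; ring
    · simp only [hj, if_false, Finset.sum_const_zero]; ring
  have t2 : ∑ i, pderiv (Dr (kel κ₀ y h k) i j) i x = -(2 * κ₀) * pderiv (pderiv h j) k x := by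
    simp only [BD2_DDr hh, Finset.sum_sub_distrib, Finset.sum_ite_eq', Finset.mem_univ, if_true,
      ← Finset.mul_sum, c1, h3]
    by_cases hj : j = k
    · simp only [hj, if_true, ← Finset.mul_sum, h2]; ring
    · simp only [hj, if_false, Finset.sum_const_zero]; ring
  have t3 : ∑ i, pderiv (Dr (kel κ₀ y h k) j i) i x = (1 - 2 * κ₀) * pderiv (pderiv h j) k x := by
    simp only [BD2_DDr hh, Finset.sum_sub_distrib, Finset.sum_ite_eq', Finset.mem_univ, if_true,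
      ← Finset.mul_sum, c2, h3, c3]
    by_cases hj : j = k
    · simp only [hj, if_true, ← Finset.mul_sum, h2]; ring
    · simp only [hj, if_false, Finset.sum_const_zero]; ring
  simp only [Finset.sum_add_distrib, ← Finset.mul_sum, t1, t2, t3]
  linear_combination (pderiv (pderiv h j) k x) * hκ

/-- the density on the right hand side -/
private noncomputable def BD2_T (y : R3) (h : R3 → ℝ) (x : R3) : ℝ :=
  ∑ i, pderiv h i x ^ 2 + ‖x - y‖ ^ 2 * ∑ i, ∑ j, pderiv (pderiv h j) i x ^ 2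

private theorem BD2_T_nonneg (y : R3) (h : R3 → ℝ) (x : R3) : 0 ≤ BD2_T y h x := by
  unfold BD2_T; positivity

private theorem BD2_T_cont (hh : ContDiff ℝ ∞ h) (y : R3) : Continuous (BD2_T y h) := by
  have h1 := fun i => (BD2_top hh i).continuous
  have h2 := fun i j => (BD2_top (BD2_top hh j) i).continuous
  unfold BD2_T
  exact (continuous_finsetSum _ fun i _ => (h1 i).pow 2).add
    (((continuous_id.sub continuous_const).norm.pow 2).mul
      (continuous_finsetSum _ fun i _ => continuous_finsetSum _ fun j _ => (h2 i j).pow 2))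

private theorem BD2_N_le (hh : ContDiff ℝ ∞ h) (h0 : 0 ≤ κ₀) (h1 : κ₀ ≤ 1) (y : R3) (k : Fin 3)
    (x : R3) : ∑ i, ∑ j, Dr (kel κ₀ y h k) i j x ^ 2 ≤ 6 * BD2_T y h x := by
  have hk : (x k - y k) ^ 2 ≤ ‖x - y‖ ^ 2 := by
    have := PiLp.norm_apply_le (x - y) k
    rw [Real.norm_eq_abs, PiLp.sub_apply] at this
    rw [← sq_abs]
    exact pow_le_pow_left₀ (abs_nonneg _) this 2
  have hκ2 : κ₀ ^ 2 ≤ 1 := by nlinarith
  have hκ3 : (1 - κ₀) ^ 2 ≤ 1 := by nlinarith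
  have e : ∀ i j, Dr (kel κ₀ y h k) i j x ^ 2 ≤ 3 * ((if j = k then pderiv h i x ^ 2 else 0) +
      (if i = k then pderiv h j x ^ 2 else 0) + ‖x - y‖ ^ 2 * pderiv (pderiv h j) i x ^ 2) := by
    intro i j
    rw [Dr_kel hh]
    have a1 : (if j = k then (1 - κ₀) * pderiv h i x else 0) ^ 2 ≤
        if j = k then pderiv h i x ^ 2 else 0 := by
      split_ifs
      · rw [mul_pow]; exact mul_le_of_le_one_left (sq_nonneg _) hκ3
      · simp
    have a2 : (if i = k then κ₀ * pderiv h j x else 0) ^ 2 ≤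
        if i = k then pderiv h j x ^ 2 else 0 := by
      split_ifs
      · rw [mul_pow]; exact mul_le_of_le_one_left (sq_nonneg _) hκ2
      · simp
    have a3 : (κ₀ * (x k - y k) * pderiv (pderiv h j) i x) ^ 2 ≤
        ‖x - y‖ ^ 2 * pderiv (pderiv h j) i x ^ 2 := by
      rw [mul_pow, mul_pow]
      exact mul_le_mul_of_nonneg_right
        ((mul_le_of_le_one_left (sq_nonneg _) hκ2).trans hk) (sq_nonneg _)
    have a4 : ∀ a b c : ℝ, (a - b - c) ^ 2 ≤ 3 * (a ^ 2 + b ^ 2 + c ^ 2) := fun a b c => by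
      nlinarith [sq_nonneg (a + b), sq_nonneg (a + c), sq_nonneg (b - c)]
    exact (a4 _ _ _).trans (by linarith)
  refine (Finset.sum_le_sum fun i _ => Finset.sum_le_sum fun j _ => e i j).trans ?_
  have e2 : ∑ i, ∑ j, (if i = k then pderiv h j x ^ 2 else 0) = ∑ j, pderiv h j x ^ 2 := by
    rw [Finset.sum_comm]; simp
  simp only [← Finset.mul_sum, Finset.sum_add_distrib, Finset.sum_ite_eq', Finset.mem_univ,
    if_true, e2]
  have : 0 ≤ ‖x - y‖ ^ 2 * ∑ i, ∑ j, pderiv (pderiv h j) i x ^ 2 := by positivity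
  unfold BD2_T
  linarith

private theorem BD2_tr (hh : ContDiff ℝ ∞ h) (y : R3) (k : Fin 3) {x : R3}
    (h0 : ∑ i, pderiv (pderiv h i) i x = 0) :
    ∑ i, Dr (kel κ₀ y h k) i i x = (1 - 2 * κ₀) * pderiv h k x := by
  simp only [Dr_kel hh, Finset.sum_sub_distrib, Finset.sum_ite_eq', Finset.mem_univ, if_true,
    ← Finset.mul_sum, h0]
  ring

private theorem BD2_bil_sub (l₁ m₁ l₂ m₂ : ℝ) (P Q : Fin 3 → Fin 3 → ℝ) :
    bil l₁ m₁ P Q - bil l₂ m₂ P Q = bil (l₁ - l₂) (m₁ - m₂) P Q := by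
  unfold bil; ring

private theorem BD2_bil_cont {l m : R3 → ℝ} (hl : Continuous l) (hm : Continuous m)
    {P Q : Fin 3 → Fin 3 → R3 → ℝ} (hP : ∀ i j, Continuous (P i j)) (hQ : ∀ i j, Continuous (Q i j)) :
    Continuous fun x => bil (l x) (m x) (fun i j => P i j x) fun i j => Q i j x := by
  unfold bil
  exact (hl.mul ((continuous_finsetSum _ fun i _ => hP i i).mul
    (continuous_finsetSum _ fun i _ => hQ i i))).add (hm.mul (continuous_finsetSum _ fun i _ =>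
      continuous_finsetSum _ fun j _ => ((hP i j).add (hP j i)).mul (hQ i j)))

private theorem BD2_cs (hΩ : IsDom Ω) {f g : R3 → ℝ} (hf : Continuous f) (hg : Continuous g) :
    ∫ x in Ω, f x * g x ≤ √(∫ x in Ω, f x ^ 2) * √(∫ x in Ω, g x ^ 2) := by
  have l1 : L2 Ω f := L2.of_continuous hΩ.measurableSet hΩ.1 hf
  have l2 : L2 Ω g := L2.of_continuous hΩ.measurableSet hΩ.1 hg
  have e : ∀ {f : R3 → ℝ}, L2 Ω f → √(∫ x in Ω, f x ^ 2) = nr Ω f := by
    intro f hf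
    have := nr_sq hf
    simp only [Real.norm_eq_abs, sq_abs] at this
    rw [← this, Real.sqrt_sq (nr_nonneg _ _)]
  rw [e l1, e l2]
  exact (le_abs_self _).trans (abs_setIntegral_mul_le l1 l2)

/-- the residual of a field that solves the frozen system -/
private theorem BD2_res (hΩ : IsDom Ω) (c : Co) {L : ℝ}
    (hL : ∀ x y, |c.mu x - c.mu y| ≤ L * ‖x - y‖ ∧ |c.lam x - c.lam y| ≤ L * ‖x - y‖) (x₀ : R3)
    {P Q : Fin 3 → Fin 3 → R3 → ℝ} (hP : ∀ i j, Continuous (P i j)) (hQ : ∀ i j, Continuous (Q i j))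
    (h0 : ∫ x in Ω, bil (c.lam x₀) (c.mu x₀) (fun i j => P i j x) (fun i j => Q i j x) = 0) :
    |BR Ω c P Q| ≤ √(∫ x in Ω, 25 * L ^ 2 * ‖x - x₀‖ ^ 2 * ∑ i, ∑ j, P i j x ^ 2) * √(g2 Ω Q) := by
  have cl := c.contDiff_lam.continuous
  have cm := c.contDiff_mu.continuous
  have cP : Continuous fun x => ∑ i, ∑ j, P i j x ^ 2 :=
    continuous_finsetSum _ fun i _ => continuous_finsetSum _ fun j _ => (hP i j).pow 2
  have cQ : Continuous fun x => ∑ i, ∑ j, Q i j x ^ 2 :=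
    continuous_finsetSum _ fun i _ => continuous_finsetSum _ fun j _ => (hQ i j).pow 2
  have cf : Continuous fun x => 5 * L * ‖x - x₀‖ * √(∑ i, ∑ j, P i j x ^ 2) :=
    (continuous_const.mul (continuous_id.sub continuous_const).norm).mul cP.sqrt
  have cb := BD2_bil_cont (cl.sub (continuous_const (y := c.lam x₀)))
    (cm.sub (continuous_const (y := c.mu x₀))) hP hQ
  have e1 : BR Ω c P Q = ∫ x in Ω, bil (c.lam x - c.lam x₀) (c.mu x - c.mu x₀) (fun i j => P i j x)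
      fun i j => Q i j x := by
    simp only [← BD2_bil_sub]
    rw [integral_sub (hΩ.integrableOn (BD2_bil_cont cl cm hP hQ).continuousOn)
      (hΩ.integrableOn (BD2_bil_cont continuous_const continuous_const hP hQ).continuousOn), h0,
      sub_zero]
    rfl
  have h1 := BD2_cs hΩ cf cQ.sqrt
  have e2 : ∀ x, (5 * L * ‖x - x₀‖ * √(∑ i, ∑ j, P i j x ^ 2)) ^ 2 =
      25 * L ^ 2 * ‖x - x₀‖ ^ 2 * ∑ i, ∑ j, P i j x ^ 2 := fun x => by
    rw [mul_pow, Real.sq_sqrt (by positivity)]; ring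
  have e3 : ∀ x, √(∑ i, ∑ j, Q i j x ^ 2) ^ 2 = ∑ i, ∑ j, Q i j x ^ 2 := fun x =>
    Real.sq_sqrt (by positivity)
  simp only [e2, e3] at h1
  rw [e1]
  refine (abs_integral_le_integral_abs.trans ?_).trans h1
  refine setIntegral_mono_on (hΩ.integrableOn cb.abs.continuousOn)
    (hΩ.integrableOn (cf.mul cQ.sqrt).continuousOn) hΩ.measurableSet fun x _ => ?_
  refine (abs_bil_le _ _ _ _).trans ?_
  have := hL x x₀
  rw [mul_assoc (5 * L * ‖x - x₀‖)]
  exact mul_le_mul_of_nonneg_right (by linarith [this.1, this.2]) (by positivity)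

/-- Freeze the first pair at `x₀`: `κ₀ = (1 - e^{l₁(x₀)}) / 2`.  By `kel_orth` and the Lipschitz bounds,
`|B₁(φᵏ, ψ)| ≤ C √(∫ ‖x - x₀‖² |∇φᵏ|²) √g`; `energy_cmp` gives
`∫ (λ₁ - λ₂)(div φᵏ)² ≤ C ∫ ‖x - x₀‖² |∇φᵏ|² + ∫ 2 |μ₁ - μ₂| |∇φᵏ|²`; sum over `k`; `(1 - 2κ₀)²` is bounded
below, `|κ₀|` is bounded above, `Ω` is bounded. -/
theorem bd2_ineq (S : Setup) (hm : ∀ x ∈ frontier S.Ω, S.c₁.mu x = S.c₂.mu x) :
    ∃ C : ℝ, 0 ≤ C ∧ ∀ x₀ ∈ frontier S.Ω, ∀ (y : R3) (h : R3 → ℝ), ContDiff ℝ ∞ h →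
      (∀ x ∈ S.Ω, ∑ i, pderiv (pderiv h i) i x = 0) →
      ∫ x in S.Ω, (S.c₁.lam x - S.c₂.lam x) * ∑ i, pderiv h i x ^ 2 ≤
        C * ∫ x in S.Ω, ‖x - x₀‖ *
          (∑ i, pderiv h i x ^ 2 + ‖x - y‖ ^ 2 * ∑ i, ∑ j, pderiv (pderiv h j) i x ^ 2) := by
  obtain ⟨CE, hCE0, hCE⟩ := S.energy_cmp
  obtain ⟨L₁, hL₁, -, hl₁⟩ := S.c₁.exists_bound
  obtain ⟨L₂, hL₂, -, hl₂⟩ := S.c₂.exists_bound
  obtain ⟨δ, hδ, hδl⟩ := S.c₁.exists_lower
  obtain ⟨r, hr, hball⟩ := S.dom.exists_ball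
  set A : ℝ := 6 * (CE * (25 * L₁ ^ 2 * (2 * r)) + 2 * (L₁ + L₂)) with hA
  have hA0 : 0 ≤ A := by positivity
  refine ⟨3 * A / δ ^ 2, by positivity, fun x₀ hx₀ y h hh h0 => ?_⟩
  have hΩ := S.dom
  have hx₀c : x₀ ∈ closure S.Ω := frontier_subset_closure hx₀
  set e : ℝ := Real.exp (S.c₁.l x₀) with he
  have he0 : 0 < e := Real.exp_pos _
  have hmu := S.c₁.mu_pos x₀
  have hlam : S.c₁.lam x₀ = S.c₁.mu x₀ * (e⁻¹ - 2) := by
    simp only [Co.lam, Co.mu, he, Real.exp_neg]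
  have he1 : e ≤ 1 := by
    have h1 := S.pos₁ x₀ hx₀c
    rw [hlam] at h1
    by_contra hc
    have h2 : e⁻¹ ≤ 1 := inv_le_one_of_one_le₀ (by linarith)
    nlinarith
  set κ₀ : ℝ := (1 - e) / 2 with hκ₀
  have hκe : 1 - 2 * κ₀ = e := by rw [hκ₀]; ring
  have hκ : (S.c₁.lam x₀ + S.c₁.mu x₀) * (1 - 2 * κ₀) = 2 * κ₀ * S.c₁.mu x₀ := by
    rw [hκe, hlam, hκ₀]; field_simp; ring
  have hdist : ∀ x ∈ S.Ω, ‖x - x₀‖ ≤ 2 * r := fun x hx => by
    have a1 := mem_ball_zero_iff.1 (hball (subset_closure hx))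
    have a2 := mem_ball_zero_iff.1 (hball hx₀c)
    linarith [norm_sub_le x x₀]
  have cT := BD2_T_cont hh y
  have cn : Continuous fun x : R3 => ‖x - x₀‖ := (continuous_id.sub continuous_const).norm
  have cl₁ := S.c₁.contDiff_lam.continuous
  have cm₁ := S.c₁.contDiff_mu.continuous
  have cl₂ := S.c₂.contDiff_lam.continuous
  have cm₂ := S.c₂.contDiff_mu.continuous
  change _ ≤ 3 * A / δ ^ 2 * ∫ x in S.Ω, ‖x - x₀‖ * BD2_T y h x
  set J := ∫ x in S.Ω, ‖x - x₀‖ * BD2_T y h x with hJ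
  have iJ : IntegrableOn (fun x => ‖x - x₀‖ * BD2_T y h x) S.Ω :=
    hΩ.integrableOn (cn.mul cT).continuousOn
  have hJ0 : 0 ≤ J := integral_nonneg fun x => mul_nonneg (norm_nonneg _) (BD2_T_nonneg y h x)
  have ik : ∀ k, IntegrableOn (fun x => (S.c₁.lam x - S.c₂.lam x) * pderiv h k x ^ 2) S.Ω :=
    fun k => hΩ.integrableOn ((cl₁.sub cl₂).mul ((BD2_top hh k).continuous.pow 2)).continuousOn
  have key : ∀ k, e ^ 2 * ∫ x in S.Ω, (S.c₁.lam x - S.c₂.lam x) * pderiv h k x ^ 2 ≤ A * J := by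
    intro k
    have hφ : ContDiff ℝ 1 (kel κ₀ y h k) :=
      (contDiff_kel hh κ₀ y k).of_le (by exact_mod_cast le_top)
    have cP := continuous_Dr hφ
    have hN := BD2_N_le hh (κ₀ := κ₀) (by rw [hκ₀]; linarith) (by rw [hκ₀]; linarith) y k
    have cN : Continuous fun x => ∑ i, ∑ j, Dr (kel κ₀ y h k) i j x ^ 2 :=
      continuous_finsetSum _ fun i _ => continuous_finsetSum _ fun j _ => (cP i j).pow 2
    have h1 := hCE _ hφ _ fun ψ hψ => BD2_res hΩ S.c₁ hl₁ x₀ cP (continuous_Dr hψ.1)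
      (kel_orth hΩ hh h0 hκ y k hψ)
    rw [Real.sq_sqrt (integral_nonneg fun x => by positivity)] at h1
    have h2 : ∫ x in S.Ω, 25 * L₁ ^ 2 * ‖x - x₀‖ ^ 2 * ∑ i, ∑ j, Dr (kel κ₀ y h k) i j x ^ 2 ≤
        6 * (25 * L₁ ^ 2 * (2 * r)) * J := by
      rw [hJ, ← integral_const_mul]
      refine setIntegral_mono_on
        (hΩ.integrableOn ((continuous_const.mul (cn.pow 2)).mul cN).continuousOn)
        (iJ.const_mul _) hΩ.measurableSet fun x hx => ?_
      have a1 : ‖x - x₀‖ ^ 2 ≤ 2 * r * ‖x - x₀‖ := by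
        rw [sq]; exact mul_le_mul_of_nonneg_right (hdist x hx) (norm_nonneg _)
      calc _ ≤ 25 * L₁ ^ 2 * (2 * r * ‖x - x₀‖) * (6 * BD2_T y h x) :=
            mul_le_mul (mul_le_mul_of_nonneg_left a1 (by positivity)) (hN x) (by positivity)
              (by positivity)
        _ = _ := by ring
    have i₁ := hΩ.integrableOn (BD2_bil_cont cl₁ cm₁ cP cP).continuousOn
    have i₂ := hΩ.integrableOn (BD2_bil_cont cl₂ cm₂ cP cP).continuousOn
    have h3 : e ^ 2 * ∫ x in S.Ω, (S.c₁.lam x - S.c₂.lam x) * pderiv h k x ^ 2 ≤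
        BR S.Ω S.c₁ (Dr (kel κ₀ y h k)) (Dr (kel κ₀ y h k)) -
          BR S.Ω S.c₂ (Dr (kel κ₀ y h k)) (Dr (kel κ₀ y h k)) + 12 * (L₁ + L₂) * J := by
      unfold BR
      rw [hJ, ← integral_const_mul, ← integral_const_mul, ← integral_sub' i₁ i₂,
        ← integral_add' (i₁.sub i₂) (iJ.const_mul _)]
      refine setIntegral_mono_on ((ik k).const_mul _) ((i₁.sub i₂).add (iJ.const_mul _))
        hΩ.measurableSet fun x hx => ?_
      have a1 := abs_bil_le 0 (S.c₁.mu x - S.c₂.mu x) (fun i j => Dr (kel κ₀ y h k) i j x)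
        (fun i j => Dr (kel κ₀ y h k) i j x)
      rw [Real.mul_self_sqrt (by positivity), abs_zero, mul_zero, zero_add] at a1
      have a2 : |S.c₁.mu x - S.c₂.mu x| ≤ (L₁ + L₂) * ‖x - x₀‖ := by
        have b1 := (hl₁ x x₀).1
        have b2 := (hl₂ x x₀).1
        have b3 := hm x₀ hx₀
        rw [abs_le] at b1 b2 ⊢
        constructor <;> linarith [b1.1, b1.2, b2.1, b2.2]
      have a3 : 2 * |S.c₁.mu x - S.c₂.mu x| * ∑ i, ∑ j, Dr (kel κ₀ y h k) i j x ^ 2 ≤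
          2 * ((L₁ + L₂) * ‖x - x₀‖) * (6 * BD2_T y h x) :=
        mul_le_mul (by linarith) (hN x) (by positivity) (by positivity)
      have a4 := BD2_tr (κ₀ := κ₀) hh y k (h0 x hx)
      rw [hκe] at a4
      have a5 := (abs_le.1 (a1.trans a3)).1
      simp only [Pi.sub_apply, Pi.add_apply]
      simp only [bil, a4] at a5 ⊢
      linarith
    have h4 := mul_le_mul_of_nonneg_left h2 hCE0
    rw [hA]
    linarith
  have hsum : e ^ 2 * ∫ x in S.Ω, (S.c₁.lam x - S.c₂.lam x) * ∑ i, pderiv h i x ^ 2 ≤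
      3 * (A * J) := by
    simp only [Finset.mul_sum]
    rw [integral_finsetSum _ fun k _ => ik k, Fin.sum_univ_three]
    linarith [key 0, key 1, key 2]
  have hδe : δ ^ 2 ≤ e ^ 2 := pow_le_pow_left₀ hδ.le (hδl x₀).2 2
  rw [div_mul_eq_mul_div, le_div_iff₀ (by positivity)]
  by_cases hI : 0 ≤ ∫ x in S.Ω, (S.c₁.lam x - S.c₂.lam x) * ∑ i, pderiv h i x ^ 2
  · have := mul_le_mul_of_nonneg_left hδe hI
    linarith
  · have h1 : 0 ≤ A * J := by positivity
    have h2 : 0 < δ ^ 2 := by positivity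
    nlinarith

end Crest.Agent.R80
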