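import Crest.Agent.R80.BD1
import Crest.Agent.R80.BD1f
import Crest.Agent.R80.BD2

/-!
# Row 80: boundary determination
-/

namespace Crest.Agent.R80

open MeasureTheory Set Metric Filter Topology Complex
open scoped ContDiff
open Crest.AnalysisR.VecCalc3 Crest.AnalysisR.PDE Crest.AnalysisR.PDE.Elasticity

theorem bd2_newton (S : Setup) (hm : ∀ x ∈ frontier S.Ω, S.c₁.mu x = S.c₂.mu x) :
    ∃ C : ℝ, 0 ≤ C ∧ ∀ x₀ ∈ frontier S.Ω, ∀ y ∉ closure S.Ω,
      ∫ x in S.Ω, (S.c₁.lam x - S.c₂.lam x) * ‖x - y‖⁻¹ ^ 4 ≤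
        C * ∫ x in S.Ω, ‖x - x₀‖ * ‖x - y‖⁻¹ ^ 4 := by
  obtain ⟨C, hC, H⟩ := bd2_ineq S hm
  refine ⟨7 * C, by positivity, fun x₀ hx₀ y hy => ?_⟩
  obtain ⟨h, hh, hK⟩ := exists_newton isClosed_closure hy
  have H1 := H x₀ hx₀ y h hh fun x hx => (hK x (subset_closure hx)).1
  have e1 : ∫ x in S.Ω, (S.c₁.lam x - S.c₂.lam x) * ∑ i, pderiv h i x ^ 2 =
      ∫ x in S.Ω, (S.c₁.lam x - S.c₂.lam x) * ‖x - y‖⁻¹ ^ 4 :=
    setIntegral_congr_fun S.dom.measurableSet fun x hx => by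
      simp only [(hK x (subset_closure hx)).2.1]
  have e2 : ∫ x in S.Ω, ‖x - x₀‖ *
      (∑ i, pderiv h i x ^ 2 + ‖x - y‖ ^ 2 * ∑ i, ∑ j, pderiv (pderiv h j) i x ^ 2) =
      ∫ x in S.Ω, 7 * (‖x - x₀‖ * ‖x - y‖⁻¹ ^ 4) :=
    setIntegral_congr_fun S.dom.measurableSet fun x hx => by
      have hne : ‖x - y‖ ≠ 0 := by
        rw [norm_ne_zero_iff, sub_ne_zero]
        rintro rfl
        exact hy (subset_closure hx)
      simp only [(hK x (subset_closure hx)).2.1, (hK x (subset_closure hx)).2.2]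
      field_simp
      ring
  rw [e1, e2, integral_const_mul] at H1
  linarith

/-- If `δ x₀ > 0` then `δ x - C ‖x - x₀‖ ≥ η > 0` on a ball `ball x₀ r`; with `y = x₀ + ε ν` the integral of
`(δ - C ‖x - x₀‖) ‖x - y‖⁻⁴` over the ball is `≳ η / ε`, over the rest it is bounded independently of `ε`. -/
theorem bd2_final {Ω : Set R3} (hΩ : IsDom Ω) {δ : R3 → ℝ} (hδ : Continuous δ) {C : ℝ} {x₀ : R3}
    (hx₀ : x₀ ∈ frontier Ω)
    (hI : ∀ y ∉ closure Ω,
      ∫ x in Ω, δ x * ‖x - y‖⁻¹ ^ 4 ≤ C * ∫ x in Ω, ‖x - x₀‖ * ‖x - y‖⁻¹ ^ 4) : δ x₀ ≤ 0 := by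
  by_contra hpos
  push Not at hpos
  obtain ⟨ρ, hρ⟩ := hΩ.exists_defF
  obtain ⟨c, ε₁, hc, hε₁, hN⟩ := hρ.normal_points hx₀
  obtain ⟨v, hv, hV⟩ := exists_le_integral_ball
  obtain ⟨D, hD, hDle⟩ := integral_inv_four_le
  set ν := gradient ρ x₀ with hν
  set g : R3 → ℝ := fun x => δ x - C * ‖x - x₀‖ with hg
  have hgc : Continuous g := by
    rw [hg]
    fun_prop
  have hg0 : δ x₀ / 2 < g x₀ := by
    simp only [hg, sub_self, norm_zero, mul_zero, sub_zero]
    linarith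
  obtain ⟨r, hr, hrg⟩ : ∃ r > 0, ∀ x, ‖x - x₀‖ < r → δ x₀ / 2 ≤ g x := by
    have h1 : ∀ᶠ x in 𝓝 x₀, δ x₀ / 2 < g x := hgc.continuousAt.eventually (lt_mem_nhds hg0)
    obtain ⟨r, hr, h2⟩ := Metric.eventually_nhds_iff.1 h1
    exact ⟨r, hr, fun x hx => (h2 (by rwa [dist_eq_norm])).le⟩
  obtain ⟨B, hB⟩ := hΩ.isCompact_closure.exists_bound_of_continuousOn hgc.continuousOn
  have hB0 : 0 ≤ B := (norm_nonneg _).trans (hB x₀ (frontier_subset_closure hx₀))
  set n := ‖ν‖ with hn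
  have hn0 : 0 ≤ n := norm_nonneg _
  set A : ℝ := v * c ^ 3 * (δ x₀ / 2) * (c + 2 * n)⁻¹ ^ 4 with hA
  have hA0 : 0 < A := by positivity
  set K : ℝ := B * (D / (r / 2)) with hK
  have hK0 : 0 ≤ K := by positivity
  -- the key estimate for small `ε`
  have key : ∀ ε : ℝ, 0 < ε → ε ≤ ε₁ → ε * (c + 2 * n) ≤ r → A / ε ≤ K := by
    intro ε hε hε1 hεr
    obtain ⟨hout, hin⟩ := hN ε hε hε1
    set y := x₀ + ε • ν with hy
    set z := x₀ - ε • ν with hz
    have hyn : y ∉ closure Ω := fun h => by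
      have := hout y h
      rw [sub_self, norm_zero] at this
      nlinarith [mul_pos hc hε]
    have hw : ContinuousOn (fun x => ‖x - y‖⁻¹ ^ 4) (closure Ω) := continuousOn_inv_pow hyn 4
    have hi1 : IntegrableOn (fun x => δ x * ‖x - y‖⁻¹ ^ 4) Ω :=
      hΩ.integrableOn (hδ.continuousOn.mul hw)
    have hi2 : IntegrableOn (fun x => ‖x - x₀‖ * ‖x - y‖⁻¹ ^ 4) Ω :=
      hΩ.integrableOn ((by fun_prop : Continuous fun x : R3 => ‖x - x₀‖).continuousOn.mul hw)
    have hi3 : IntegrableOn (fun x => g x * ‖x - y‖⁻¹ ^ 4) Ω :=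
      hΩ.integrableOn (hgc.continuousOn.mul hw)
    have hi4 : IntegrableOn (fun x => ‖x - y‖⁻¹ ^ 4) Ω := hΩ.integrableOn hw
    have hle : ∫ x in Ω, g x * ‖x - y‖⁻¹ ^ 4 ≤ 0 := by
      have e : ∫ x in Ω, g x * ‖x - y‖⁻¹ ^ 4 =
          (∫ x in Ω, δ x * ‖x - y‖⁻¹ ^ 4) - C * ∫ x in Ω, ‖x - x₀‖ * ‖x - y‖⁻¹ ^ 4 := by
        rw [← integral_const_mul, ← integral_sub hi1 (hi2.const_mul C)]
        refine integral_congr_ae (Eventually.of_forall fun x => ?_)
        simp only [hg]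
        ring
      rw [e]
      linarith [hI y hyn]
    have hsplit := integral_inter_add_sdiff (μ := volume) (s := Ω) (t := ball x₀ r)
      measurableSet_ball hi3
    have hεν : ‖ε • ν‖ = ε * n := by rw [norm_smul, Real.norm_of_nonneg hε.le]
    -- lower bound near `x₀`
    have hnear : A / ε ≤ ∫ x in Ω ∩ ball x₀ r, g x * ‖x - y‖⁻¹ ^ 4 := by
      have hball : ∀ x ∈ ball z (c * ε), x ∈ Ω ∧ ‖x - x₀‖ < r ∧ ‖x - y‖ ≤ (c + 2 * n) * ε := by
        intro x hx
        rw [mem_ball, dist_eq_norm] at hx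
        refine ⟨?_, ?_, ?_⟩
        · rw [hρ.eq]
          have := hin x hx
          have h2 := mul_pos hc hε
          show ρ x < 0
          linarith
        · have e : x - x₀ = (x - z) - ε • ν := by rw [hz]; abel
          have := norm_sub_le (x - z) (ε • ν)
          rw [← e, hεν] at this
          nlinarith [mul_nonneg hε.le hn0]
        · have e : x - y = (x - z) - ε • ν - ε • ν := by rw [hz, hy]; abel
          have h1 := norm_sub_le (x - z - ε • ν) (ε • ν)
          have h2 := norm_sub_le (x - z) (ε • ν)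
          rw [← e] at h1
          rw [hεν] at h1 h2
          nlinarith
      have h1 := hV (Ω ∩ ball x₀ r) (fun x => g x * ‖x - y‖⁻¹ ^ 4) z (c * ε)
        (δ x₀ / 2 * ((c + 2 * n) * ε)⁻¹ ^ 4) (hΩ.measurableSet.inter measurableSet_ball)
        (mul_pos hc hε) (by positivity)
        (fun x hx => ⟨(hball x hx).1, by rw [mem_ball, dist_eq_norm]; exact (hball x hx).2.1⟩)
        (hi3.mono_set inter_subset_left)
        (fun x hx => by
          have h2 := hrg x (by have := hx.2; rwa [mem_ball, dist_eq_norm] at this)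
          exact mul_nonneg (by linarith) (by positivity))
        (fun x hx => by
          obtain ⟨h2, h3, h4⟩ := hball x hx
          have h5 := hrg x h3
          have h6 : 0 < ‖x - y‖ := lt_of_lt_of_le (mul_pos hc hε) (hout x (subset_closure h2))
          have h7 : ((c + 2 * n) * ε)⁻¹ ≤ ‖x - y‖⁻¹ := inv_anti₀ h6 h4
          exact mul_le_mul h5 (pow_le_pow_left₀ (by positivity) h7 4) (by positivity) (by linarith))
      refine le_trans (le_of_eq ?_) h1
      rw [hA]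
      field_simp
    -- bound away from `x₀`
    have hfar : -K ≤ ∫ x in Ω \ ball x₀ r, g x * ‖x - y‖⁻¹ ^ 4 := by
      have hm : MeasurableSet (Ω \ ball x₀ r) := hΩ.measurableSet.diff measurableSet_ball
      have h1 := hDle (Ω \ ball x₀ r) y (r / 2) hm (by positivity) fun x hx => by
        have h2 : r ≤ ‖x - x₀‖ := by
          have := hx.2
          rwa [mem_ball, dist_eq_norm, not_lt] at this
        have e : x - x₀ = (x - y) + ε • ν := by rw [hy]; abel
        have h3 := norm_add_le (x - y) (ε • ν)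
        rw [← e, hεν] at h3
        nlinarith [mul_pos hc hε]
      have h2 : ∫ x in Ω \ ball x₀ r, -B * ‖x - y‖⁻¹ ^ 4 ≤
          ∫ x in Ω \ ball x₀ r, g x * ‖x - y‖⁻¹ ^ 4 := by
        refine setIntegral_mono_on ((hi4.mono_set sdiff_subset).const_mul _)
          (hi3.mono_set sdiff_subset) hm fun x hx => ?_
        have h3 := hB x (subset_closure hx.1)
        rw [Real.norm_eq_abs, abs_le] at h3
        exact mul_le_mul_of_nonneg_right h3.1 (by positivity)
      rw [integral_const_mul] at h2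
      have h3 := mul_le_mul_of_nonneg_left h1 hB0
      rw [hK]
      linarith
    linarith
  -- choose `ε`
  have hcn : 0 < c + 2 * n := by positivity
  set ε := min (min ε₁ (r / (c + 2 * n))) (A / (K + 1)) with hε
  have hε0 : 0 < ε := by positivity
  have h1 : ε ≤ ε₁ := (min_le_left _ _).trans (min_le_left _ _)
  have h2 : ε ≤ r / (c + 2 * n) := (min_le_left _ _).trans (min_le_right _ _)
  have h3 : ε ≤ A / (K + 1) := min_le_right _ _
  have h4 := key ε hε0 h1 (by rwa [le_div_iff₀ hcn] at h2)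
  rw [div_le_iff₀ hε0] at h4
  rw [le_div_iff₀ (by positivity)] at h3
  nlinarith

theorem bdy (S : Setup) : BDy S.Ω S.c₁ S.c₂ := by
  obtain ⟨C, -, hC⟩ := bd1_newton S
  have hc1 : ContDiff ℝ 1 S.c₁.mu := S.c₁.contDiff_mu.of_le (by norm_num)
  have hc2 : ContDiff ℝ 1 S.c₂.mu := S.c₂.contDiff_mu.of_le (by norm_num)
  have h1 := bd1_final (δ := fun x => S.c₁.mu x - S.c₂.mu x) S.dom (hc1.sub hc2) hC
  have hm : ∀ x ∈ frontier S.Ω, S.c₁.mu x = S.c₂.mu x := fun x hx => sub_eq_zero.1 (h1 x hx).1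
  have hlam : ∀ x ∈ frontier S.Ω, S.c₁.lam x = S.c₂.lam x := by
    intro x hx
    obtain ⟨C₁, -, hC₁⟩ := bd2_newton S hm
    obtain ⟨C₂, -, hC₂⟩ := bd2_newton S.swap fun x hx => (hm x hx).symm
    have a1 := bd2_final (δ := fun x => S.c₁.lam x - S.c₂.lam x) S.dom
      (S.c₁.contDiff_lam.continuous.sub S.c₂.contDiff_lam.continuous) hx (hC₁ x hx)
    have a2 := bd2_final (δ := fun x => S.c₂.lam x - S.c₁.lam x) S.dom
      (S.c₂.contDiff_lam.continuous.sub S.c₁.contDiff_lam.continuous) hx (hC₂ x hx)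
    linarith
  refine ⟨fun x hx => Real.exp_injective (hm x hx), fun i x hx => ?_, fun x hx => ?_⟩
  · have e1 := S.c₁.pd_mu i x
    have e2 := S.c₂.pd_mu i x
    have e3 : pderiv S.c₁.mu i x = pderiv S.c₂.mu i x := by
      have h2 := (h1 x hx).2
      rw [fderiv_fun_sub (hc1.differentiable one_ne_zero x) (hc2.differentiable one_ne_zero x),
        sub_eq_zero] at h2
      simp only [pderiv, h2]
    rw [e3, e2, ← hm x hx] at e1
    have hne : (S.c₁.mu x : ℂ) ≠ 0 := by exact_mod_cast (S.c₁.mu_pos x).ne'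
    exact (mul_left_cancel₀ hne e1).symm
  · have e1 := hlam x hx
    have e2 : S.c₁.m x = S.c₂.m x := Real.exp_injective (hm x hx)
    simp only [Co.lam, e2] at e1
    have e3 := mul_left_cancel₀ (Real.exp_pos _).ne' e1
    have e4 : Real.exp (-S.c₁.l x) = Real.exp (-S.c₂.l x) := by linarith
    exact neg_injective (Real.exp_injective e4)

end Crest.Agent.R80
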