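import Crest.Agent.R80.Energy
import Crest.Agent.R80.Newton

/-!
# Row 80: boundary determination of `μ`: the functional inequality
-/

namespace Crest.Agent.R80

open MeasureTheory Set Metric Filter Topology Complex
open scoped ContDiff
open Crest.AnalysisR.VecCalc3 Crest.AnalysisR.PDE Crest.AnalysisR.PDE.Elasticity

/-- the gradient field of `h`. -/
noncomputable def gradF (h : R3 → ℝ) (x : R3) : R3 := WithLp.toLp 2 fun j => pderiv h j x

theorem contDiff_gradF {h : R3 → ℝ} (hh : ContDiff ℝ ∞ h) : ContDiff ℝ ∞ (gradF h) := by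
  rw [contDiff_euclidean]
  intro j
  exact contDiff_pderiv j hh (by simp)

theorem Dr_gradF (h : R3 → ℝ) (i j : Fin 3) : Dr (gradF h) i j = pderiv (pderiv h j) i := by
  rfl

theorem BD1_mul {f g : R3 → ℝ} {x : R3} (i : Fin 3) (hf : DifferentiableAt ℝ f x)
    (hg : DifferentiableAt ℝ g x) :
    pderiv (fun y => f y * g y) i x = pderiv f i x * g x + f x * pderiv g i x := by
  unfold pderiv
  rw [fderiv_fun_mul hf hg]
  simp only [add_apply, smul_apply, smul_eq_mul]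
  ring

theorem BD1_top {h : R3 → ℝ} (hh : ContDiff ℝ ∞ h) (i : Fin 3) : ContDiff ℝ ∞ (pderiv h i) :=
  contDiff_pderiv i hh (by simp)

theorem BD1_one {h : R3 → ℝ} (hh : ContDiff ℝ ∞ h) : ContDiff ℝ 1 h :=
  hh.of_le (by exact_mod_cast le_top)

theorem BD1_diff {h : R3 → ℝ} (hh : ContDiff ℝ 1 h) (x : R3) : DifferentiableAt ℝ h x :=
  (hh.differentiable (by simp)) x

theorem BD1_comm {h : R3 → ℝ} (hh : ContDiff ℝ ∞ h) (i j : Fin 3) :
    pderiv (pderiv h i) j = pderiv (pderiv h j) i := by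
  funext x
  have h1 : ∀ k, pd k (fun y => (h y : ℂ)) = fun y => (pderiv h k y : ℂ) := fun k =>
    funext fun y => pd_ofReal k (BD1_diff (BD1_one hh) y)
  have h2 : ∀ k l, pd l (pd k fun y => (h y : ℂ)) x = (pderiv (pderiv h k) l x : ℂ) := by
    intro k l
    rw [h1 k]
    exact pd_ofReal l (BD1_diff (BD1_one (BD1_top hh k)) x)
  have h3 : ContDiffAt ℝ 2 (fun y => (h y : ℂ)) x :=
    (contDiff_ofReal (hh.of_le (WithTop.coe_le_coe.2 (le_top : (2 : ℕ∞) ≤ ⊤)))).contDiffAt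
  have h4 := pd_comm j i h3
  rw [h2, h2] at h4
  exact_mod_cast h4

theorem BD1_sum3 {Ω : Set R3} (hΩ : IsOpen Ω) {h : R3 → ℝ} (hh : ContDiff ℝ ∞ h)
    (h0 : ∀ x ∈ Ω, ∑ i, pderiv (pderiv h i) i x = 0) {x : R3} (hx : x ∈ Ω) (j : Fin 3) :
    ∑ i, pderiv (pderiv (pderiv h j) i) i x = 0 := by
  have h1 : ∀ i, pderiv (pderiv (pderiv h j) i) i x = pderiv (pderiv (pderiv h i) i) j x := by
    intro i
    rw [BD1_comm hh j i, BD1_comm (BD1_top hh i) j i]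
  simp only [h1]
  have h2 : (fun y => ∑ i, pderiv (pderiv h i) i y) =ᶠ[𝓝 x] fun _ => (0 : ℝ) := by
    filter_upwards [hΩ.mem_nhds hx] with y hy using h0 y hy
  have h3 : fderiv ℝ (fun y => ∑ i, pderiv (pderiv h i) i y) x = 0 := by
    rw [h2.fderiv_eq]; simp
  rw [fderiv_fun_sum (fun i _ => BD1_diff (BD1_one (BD1_top (BD1_top hh i) i)) x)] at h3
  have h4 := congrArg (fun T : R3 →L[ℝ] ℝ => T (EuclideanSpace.single j 1)) h3
  simpa [pderiv, sum_apply] using h4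

theorem BD1_bil {Ω : Set R3} {h : R3 → ℝ} (hh : ContDiff ℝ ∞ h)
    (h0 : ∀ x ∈ Ω, ∑ i, pderiv (pderiv h i) i x = 0) {x : R3} (hx : x ∈ Ω) (lam mu : ℝ)
    (Q : Fin 3 → Fin 3 → ℝ) :
    bil lam mu (fun i j => Dr (gradF h) i j x) Q =
      ∑ j, ∑ i, 2 * (mu * pderiv (pderiv h j) i x * Q i j) := by
  unfold bil
  simp only [Dr_gradF]
  rw [h0 x hx, Finset.sum_comm]
  simp only [zero_mul, mul_zero, zero_add]
  simp only [Finset.mul_sum]
  refine Finset.sum_congr rfl fun j _ => Finset.sum_congr rfl fun i _ => ?_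
  rw [BD1_comm hh i j]
  ring

theorem BD1_int {Ω : Set R3} (hΩ : IsDom Ω) {f : R3 → ℝ} (hf : Continuous f) :
    IntegrableOn f Ω := hΩ.integrableOn hf.continuousOn

theorem BD1_cont {f : R3 → ℝ} (hf : ContDiff ℝ 1 f) (i : Fin 3) : Continuous (pderiv f i) :=
  (contDiff_pderiv (m := 0) i hf (by simp)).continuous

theorem BD1_col {Ω : Set R3} (hΩ : IsDom Ω) {μ : R3 → ℝ} (hμ : ContDiff ℝ 2 μ) {h : R3 → ℝ}
    (hh : ContDiff ℝ ∞ h) (h0 : ∀ x ∈ Ω, ∑ i, pderiv (pderiv h i) i x = 0) {F : R3 → ℝ}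
    (hF : ContDiff ℝ 1 F) (hF0 : ∀ x ∈ frontier Ω, F x = 0) (j : Fin 3) :
    ∑ i, ∫ x in Ω, μ x * pderiv (pderiv h j) i x * pderiv F i x =
      ∑ i, ∫ x in Ω, pderiv h i x * pderiv (fun y => pderiv μ i y * F y) j x := by
  have hμ1 : ContDiff ℝ 1 μ := hμ.of_le (by norm_num)
  have hdμ : ∀ i, ContDiff ℝ 1 (pderiv μ i) := fun i => contDiff_pderiv i hμ (by norm_num)
  have h2 : ∀ i k, ContDiff ℝ 1 (pderiv (pderiv h i) k) := fun i k =>
    BD1_one (BD1_top (BD1_top hh i) k)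
  have e1 : ∀ i, ∫ x in Ω, μ x * pderiv (pderiv h j) i x * pderiv F i x =
      -((∫ x in Ω, pderiv (pderiv h i) j x * (pderiv μ i x * F x)) +
        ∫ x in Ω, μ x * F x * pderiv (pderiv (pderiv h j) i) i x) := by
    intro i
    rw [hΩ.setIntegral_mul_pderiv (hμ1.mul (h2 j i)) hF hF0 i, ← integral_add]
    · congr 1
      refine integral_congr_ae (Eventually.of_forall fun x => ?_)
      simp only
      rw [BD1_mul i (BD1_diff hμ1 x) (BD1_diff (h2 j i) x), BD1_comm hh j i]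
      ring
    · exact BD1_int hΩ ((h2 i j).continuous.mul ((hdμ i).continuous.mul hF.continuous))
    · exact BD1_int hΩ ((hμ1.continuous.mul hF.continuous).mul (BD1_cont (h2 j i) i))
  have e2 : ∀ i, ∫ x in Ω, pderiv h i x * pderiv (fun y => pderiv μ i y * F y) j x =
      -∫ x in Ω, pderiv (pderiv h i) j x * (pderiv μ i x * F x) := by
    intro i
    exact hΩ.setIntegral_mul_pderiv (BD1_one (BD1_top hh i)) ((hdμ i).mul hF)
      (fun x hx => by simp [hF0 x hx]) j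
  have e3 : ∑ i, ∫ x in Ω, μ x * F x * pderiv (pderiv (pderiv h j) i) i x = 0 := by
    rw [← integral_finsetSum]
    · rw [setIntegral_congr_fun hΩ.measurableSet (g := fun _ => (0 : ℝ))]
      · simp
      · intro x hx
        simp only
        rw [← Finset.mul_sum, BD1_sum3 hΩ.isOpen hh h0 hx j, mul_zero]
    · intro i _
      exact BD1_int hΩ ((hμ1.continuous.mul hF.continuous).mul (BD1_cont (h2 j i) i))
  simp only [e1, e2, neg_add, Finset.sum_add_distrib, Finset.sum_neg_distrib, e3]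
  simp

theorem BD1_BR {Ω : Set R3} (hΩ : IsDom Ω) (c : Co) {h : R3 → ℝ}
    (hh : ContDiff ℝ ∞ h) (h0 : ∀ x ∈ Ω, ∑ i, pderiv (pderiv h i) i x = 0) {ψ : R3 → R3}
    (hψ : V0 Ω ψ) :
    BR Ω c (Dr (gradF h)) (Dr ψ) =
      2 * ∑ j, ∑ i, ∫ x in Ω, pderiv h i x * pderiv (fun y => pderiv c.mu i y * ψ y j) j x := by
  have hμ : ContDiff ℝ 2 c.mu := c.contDiff_mu.of_le (by norm_num)
  have hint : ∀ i j, IntegrableOn
      (fun x => 2 * (c.mu x * pderiv (pderiv h j) i x * Dr ψ i j x)) Ω := fun i j =>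
    BD1_int hΩ (continuous_const.mul ((hμ.continuous.mul (BD1_top (BD1_top hh j) i).continuous).mul
      (continuous_Dr hψ.1 i j)))
  unfold BR
  rw [setIntegral_congr_fun hΩ.measurableSet
    (g := fun x => ∑ j, ∑ i, 2 * (c.mu x * pderiv (pderiv h j) i x * Dr ψ i j x))
    (fun x hx => BD1_bil hh h0 hx _ _ _)]
  rw [integral_finsetSum _ fun j _ => integrable_finsetSum _ fun i _ => hint i j, Finset.mul_sum]
  refine Finset.sum_congr rfl fun j _ => ?_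
  rw [integral_finsetSum _ fun i _ => hint i j,
    ← BD1_col hΩ hμ hh h0 (contDiff_comp_coord hψ.1 j) (fun x hx => by simp [hψ.2 x hx]) j,
    Finset.mul_sum]
  refine Finset.sum_congr rfl fun i _ => ?_
  rw [integral_const_mul]
  rfl

theorem BD1_nr_le {Ω : Set R3} (hΩ : IsDom Ω) {h : R3 → ℝ} (hh : ContDiff ℝ ∞ h) (i : Fin 3) :
    nr Ω (pderiv h i) ≤ √(∫ x in Ω, ∑ i, pderiv h i x ^ 2) := by
  apply Real.le_sqrt_of_sq_le
  rw [nr_sq (L2.of_continuous hΩ.measurableSet hΩ.1 (BD1_top hh i).continuous)]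
  refine setIntegral_mono_on ?_ ?_ hΩ.measurableSet fun x _ => ?_
  · exact BD1_int hΩ ((BD1_top hh i).continuous.norm.pow 2)
  · exact BD1_int hΩ (continuous_finsetSum _ fun k _ => (BD1_top hh k).continuous.pow 2)
  · rw [Real.norm_eq_abs, sq_abs]
    exact Finset.single_le_sum (f := fun k => pderiv h k x ^ 2) (fun k _ => sq_nonneg _)
      (Finset.mem_univ i)

/-- For `h` harmonic in `Ω` and `ψ ∈ V0`: `B(∇h, ψ) = 2 ∑ ∫ μ ∂ᵢ∂ⱼh ∂ᵢψⱼ = -2 ∑ ∫ ∂ᵢμ ψⱼ ∂ⱼ(∂ᵢh)`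
(since `∑ᵢ ∂ᵢ∂ᵢ∂ⱼh = ∂ⱼ Δh = 0` in the open set `Ω`) `= 2 ∑ ∫ ∂ᵢh ∂ⱼ(∂ᵢμ ψⱼ)`
(`IsDom.setIntegral_mul_pderiv` twice); Cauchy-Schwarz and `poincareR`. -/
theorem residual_grad {Ω : Set R3} (hΩ : IsDom Ω) (c : Co) :
    ∃ C : ℝ, 0 ≤ C ∧ ∀ h : R3 → ℝ, ContDiff ℝ ∞ h → (∀ x ∈ Ω, ∑ i, pderiv (pderiv h i) i x = 0) →
      ∀ ψ, V0 Ω ψ → |BR Ω c (Dr (gradF h)) (Dr ψ)| ≤
        C * √(∫ x in Ω, ∑ i, pderiv h i x ^ 2) * √(g2 Ω (Dr ψ)) := by
  obtain ⟨L, hL0, hL, -⟩ := c.exists_bound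
  obtain ⟨Cp, hCp0, hCp⟩ := poincareR hΩ
  refine ⟨18 * (L * (Cp + 1)), by positivity, fun h hh h0 ψ hψ => ?_⟩
  have hμ : ContDiff ℝ 2 c.mu := c.contDiff_mu.of_le (by norm_num)
  have hdμ : ∀ i, ContDiff ℝ 1 (pderiv c.mu i) := fun i => contDiff_pderiv i hμ (by norm_num)
  have hm := hΩ.measurableSet
  set A := √(∫ x in Ω, ∑ i, pderiv h i x ^ 2) with hA
  set G := √(g2 Ω (Dr ψ)) with hG
  have hA0 : 0 ≤ A := Real.sqrt_nonneg _
  have hG0 : 0 ≤ G := Real.sqrt_nonneg _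
  have key : ∀ j i, |∫ x in Ω, pderiv h i x * pderiv (fun y => pderiv c.mu i y * ψ y j) j x| ≤
      L * (Cp + 1) * A * G := by
    intro j i
    have hψj := contDiff_comp_coord hψ.1 j
    have l1 : L2 Ω (pderiv h i) := L2.of_continuous hm hΩ.1 (BD1_top hh i).continuous
    have l2 : L2 Ω (pderiv (fun y => pderiv c.mu i y * ψ y j) j) :=
      L2.of_continuous hm hΩ.1 (BD1_cont ((hdμ i).mul hψj) j)
    have l3 : L2 Ω fun x => pderiv (pderiv c.mu i) j x * ψ x j :=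
      L2.of_continuous hm hΩ.1 ((BD1_cont (hdμ i) j).mul hψj.continuous)
    have l4 : L2 Ω fun x => pderiv c.mu i x * Dr ψ j j x :=
      L2.of_continuous hm hΩ.1 ((hdμ i).continuous.mul (continuous_Dr hψ.1 j j))
    have l5 : L2 Ω fun x => ψ x j := L2.of_continuous hm hΩ.1 hψj.continuous
    have e : pderiv (fun y => pderiv c.mu i y * ψ y j) j =
        fun x => pderiv (pderiv c.mu i) j x * ψ x j + pderiv c.mu i x * Dr ψ j j x :=
      funext fun x => BD1_mul j (BD1_diff (hdμ i) x) (BD1_diff hψj x)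
    have b3 : nr Ω (fun x => pderiv (pderiv c.mu i) j x * ψ x j) ≤ L * nr Ω fun x => ψ x j := by
      refine nr_le_mul_of_le hm l5 hL0 (Eventually.of_forall fun x _ => ?_)
      rw [norm_mul]
      exact mul_le_mul_of_nonneg_right (((hL x).2.2 i).2 j) (norm_nonneg _)
    have b4 : nr Ω (fun x => pderiv c.mu i x * Dr ψ j j x) ≤ L * nr Ω (Dr ψ j j) := by
      refine nr_le_mul_of_le hm (hΩ.l2_Dr hψ.1 j j) hL0 (Eventually.of_forall fun x _ => ?_)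
      rw [norm_mul]
      exact mul_le_mul_of_nonneg_right ((hL x).2.2 i).1 (norm_nonneg _)
    have b5 := hCp ψ hψ j
    have b6 := nr_le_sqrt_g2 (fun i j => hΩ.l2_Dr hψ.1 i j) j j
    have b7 : nr Ω (pderiv (fun y => pderiv c.mu i y * ψ y j) j) ≤ L * (Cp + 1) * G := by
      rw [e]
      refine (nr_add_le l3 l4).trans ?_
      have := mul_le_mul_of_nonneg_left b5 hL0
      have := mul_le_mul_of_nonneg_left b6 hL0
      nlinarith
    refine (abs_setIntegral_mul_le l1 l2).trans ?_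
    calc _ ≤ A * (L * (Cp + 1) * G) :=
          mul_le_mul (BD1_nr_le hΩ hh i) b7 (nr_nonneg _ _) hA0
      _ = _ := by ring
  rw [BD1_BR hΩ c hh h0 hψ, abs_mul, abs_two]
  have : |∑ j, ∑ i, ∫ x in Ω, pderiv h i x * pderiv (fun y => pderiv c.mu i y * ψ y j) j x| ≤
      ∑ _j : Fin 3, ∑ _i : Fin 3, L * (Cp + 1) * A * G := by
    refine (Finset.abs_sum_le_sum_abs _ _).trans (Finset.sum_le_sum fun j _ => ?_)
    exact (Finset.abs_sum_le_sum_abs _ _).trans (Finset.sum_le_sum fun i _ => key j i)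
  simp only [Finset.sum_const, Finset.card_univ, Fintype.card_fin, nsmul_eq_mul] at this
  push_cast at this
  nlinarith

theorem BD1_energy {Ω : Set R3} (hΩ : IsDom Ω) (c : Co) {h : R3 → ℝ}
    (hh : ContDiff ℝ ∞ h) (h0 : ∀ x ∈ Ω, ∑ i, pderiv (pderiv h i) i x = 0) :
    BR Ω c (Dr (gradF h)) (Dr (gradF h)) =
      2 * ∫ x in Ω, c.mu x * ∑ i, ∑ j, pderiv (pderiv h j) i x ^ 2 := by
  unfold BR
  rw [← integral_const_mul]
  refine setIntegral_congr_fun hΩ.measurableSet fun x hx => ?_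
  rw [BD1_bil hh h0 hx, Finset.sum_comm]
  simp only [Dr_gradF, Finset.mul_sum]
  refine Finset.sum_congr rfl fun i _ => Finset.sum_congr rfl fun j _ => ?_
  ring

/-- `energy_cmp` for `S` and `S.swap`; the energy density of `∇h` is `2 μ ∑ (∂ᵢ∂ⱼh)²` in `Ω`. -/
theorem bd1_ineq (S : Setup) :
    ∃ C : ℝ, 0 ≤ C ∧ ∀ h : R3 → ℝ, ContDiff ℝ ∞ h → (∀ x ∈ S.Ω, ∑ i, pderiv (pderiv h i) i x = 0) →
      |∫ x in S.Ω, (S.c₁.mu x - S.c₂.mu x) * ∑ i, ∑ j, pderiv (pderiv h j) i x ^ 2| ≤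
        C * ∫ x in S.Ω, ∑ i, pderiv h i x ^ 2 := by
  obtain ⟨C₁, hC₁, h₁⟩ := S.energy_cmp
  obtain ⟨C₂, hC₂, h₂⟩ := S.swap.energy_cmp
  obtain ⟨D₁, hD₁, k₁⟩ := residual_grad S.dom S.c₁
  obtain ⟨D₂, hD₂, k₂⟩ := residual_grad S.dom S.c₂
  refine ⟨C₁ * D₁ ^ 2 + C₂ * D₂ ^ 2, by positivity, fun h hh h0 => ?_⟩
  have hφ : ContDiff ℝ 1 (gradF h) := (contDiff_gradF hh).of_le (by exact_mod_cast le_top)
  have a₁ := h₁ (gradF h) hφ _ (k₁ h hh h0)
  have a₂ := h₂ (gradF h) hφ _ (k₂ h hh h0)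
  change BR S.Ω S.c₂ _ _ - _ ≤ BR S.Ω S.c₁ _ _ at a₂
  rw [BD1_energy S.dom _ hh h0, BD1_energy S.dom _ hh h0] at a₁ a₂
  have hI : 0 ≤ ∫ x in S.Ω, ∑ i, pderiv h i x ^ 2 :=
    integral_nonneg fun x => Finset.sum_nonneg fun i _ => sq_nonneg _
  rw [mul_pow, Real.sq_sqrt hI] at a₁ a₂
  have hc : Continuous fun x => ∑ i, ∑ j, pderiv (pderiv h j) i x ^ 2 :=
    continuous_finsetSum _ fun i _ => continuous_finsetSum _ fun j _ =>
      (BD1_top (BD1_top hh j) i).continuous.pow 2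
  simp only [sub_mul]
  have i₁ : IntegrableOn (fun x => S.c₁.mu x * ∑ i, ∑ j, pderiv (pderiv h j) i x ^ 2) S.Ω :=
    BD1_int S.dom (S.c₁.contDiff_mu.continuous.mul hc)
  have i₂ : IntegrableOn (fun x => S.c₂.mu x * ∑ i, ∑ j, pderiv (pderiv h j) i x ^ 2) S.Ω :=
    BD1_int S.dom (S.c₂.contDiff_mu.continuous.mul hc)
  rw [integral_sub i₁ i₂, abs_le]
  have p₁ : 0 ≤ C₁ * (D₁ ^ 2 * ∫ x in S.Ω, ∑ i, pderiv h i x ^ 2) := by positivity
  have p₂ : 0 ≤ C₂ * (D₂ ^ 2 * ∫ x in S.Ω, ∑ i, pderiv h i x ^ 2) := by positivity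
  constructor <;> nlinarith

theorem bd1_newton (S : Setup) :
    ∃ C : ℝ, 0 ≤ C ∧ ∀ y ∉ closure S.Ω,
      |∫ x in S.Ω, (S.c₁.mu x - S.c₂.mu x) * ‖x - y‖⁻¹ ^ 6| ≤ C * ∫ x in S.Ω, ‖x - y‖⁻¹ ^ 4 := by
  obtain ⟨C, hC, hS⟩ := bd1_ineq S
  refine ⟨C, hC, fun y hy => ?_⟩
  obtain ⟨h, hh, hK⟩ := exists_newton isClosed_closure hy
  have := hS h hh fun x hx => (hK x (subset_closure hx)).1
  rw [setIntegral_congr_fun S.dom.measurableSet
      (g := fun x => 6 * ((S.c₁.mu x - S.c₂.mu x) * ‖x - y‖⁻¹ ^ 6))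
      (fun x hx => by simp only; rw [(hK x (subset_closure hx)).2.2]; ring),
    setIntegral_congr_fun S.dom.measurableSet (g := fun x => ‖x - y‖⁻¹ ^ 4)
      (fun x hx => (hK x (subset_closure hx)).2.1), integral_const_mul, abs_mul] at this
  have h6 : |(6 : ℝ)| = 6 := by norm_num
  rw [h6] at this
  have := abs_nonneg (∫ x in S.Ω, (S.c₁.mu x - S.c₂.mu x) * ‖x - y‖⁻¹ ^ 6)
  linarith

end Crest.Agent.R80
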