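import Crest.Agent.R80.Defs

/-!
# Row 80: classical calculus for `pd`, `dv`, `lap`
-/

namespace Crest.Agent.R80

open MeasureTheory Set Metric Filter Topology Complex
open scoped ContDiff
open Crest.AnalysisR.VecCalc3 Crest.AnalysisR.PDE Crest.AnalysisR.PDE.Elasticity

variable {f g : R3 → ℂ} {x : R3} {θ : C3}

theorem pd_add (i : Fin 3) (hf : DifferentiableAt ℝ f x) (hg : DifferentiableAt ℝ g x) :
    pd i (fun y => f y + g y) x = pd i f x + pd i g x := by
  simp only [pd, fderiv_fun_add hf hg, add_apply]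

theorem pd_sub (i : Fin 3) (hf : DifferentiableAt ℝ f x) (hg : DifferentiableAt ℝ g x) :
    pd i (fun y => f y - g y) x = pd i f x - pd i g x := by
  simp only [pd, fderiv_fun_sub hf hg, sub_apply]

theorem pd_neg (i : Fin 3) (f : R3 → ℂ) (x : R3) : pd i (fun y => -f y) x = -pd i f x := by
  simp only [pd, fderiv_fun_neg, neg_apply]

theorem pd_mul (i : Fin 3) (hf : DifferentiableAt ℝ f x) (hg : DifferentiableAt ℝ g x) :
    pd i (fun y => f y * g y) x = pd i f x * g x + f x * pd i g x := by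
  simp only [pd, fderiv_fun_mul hf hg, add_apply,
    smul_apply, smul_eq_mul]
  ring

theorem pd_const_mul (i : Fin 3) (c : ℂ) (hf : DifferentiableAt ℝ f x) :
    pd i (fun y => c * f y) x = c * pd i f x := by
  simp only [pd, fderiv_const_mul hf, smul_apply, smul_eq_mul]

@[simp] theorem pd_const (i : Fin 3) (c : ℂ) (x : R3) : pd i (fun _ => c) x = 0 := by
  simp [pd]

theorem pd_sum {ι : Type*} (i : Fin 3) (s : Finset ι) {F : ι → R3 → ℂ}
    (h : ∀ k ∈ s, DifferentiableAt ℝ (F k) x) :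
    pd i (fun y => ∑ k ∈ s, F k y) x = ∑ k ∈ s, pd i (F k) x := by
  simp only [pd, fderiv_fun_sum h, sum_apply]

theorem pd_cexp (i : Fin 3) (hf : DifferentiableAt ℝ f x) :
    pd i (fun y => Complex.exp (f y)) x = Complex.exp (f x) * pd i f x := by
  simp only [pd, hf.hasFDerivAt.cexp.fderiv, smul_apply, smul_eq_mul]

theorem pd_inv (i : Fin 3) (hf : DifferentiableAt ℝ f x) (h0 : f x ≠ 0) :
    pd i (fun y => (f y)⁻¹) x = -pd i f x / f x ^ 2 := by
  have h := (((hasDerivAt_inv h0).hasFDerivAt.restrictScalars ℝ).comp x hf.hasFDerivAt).fderiv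
  unfold pd
  rw [show (fun y => (f y)⁻¹) = (fun z : ℂ => z⁻¹) ∘ f from rfl, h]
  simp
  ring

theorem pd_conj (i : Fin 3) (f : R3 → ℂ) (x : R3) :
    pd i (fun y => starRingEnd ℂ (f y)) x = starRingEnd ℂ (pd i f x) := by
  unfold pd
  rw [show (fun y => starRingEnd ℂ (f y)) = Complex.conjCLE ∘ f from rfl,
    ContinuousLinearEquiv.comp_fderiv]
  rfl

theorem contDiff_coord (n : WithTop ℕ∞) (j : Fin 3) : ContDiff ℝ n fun y : R3 => ((y j : ℝ) : ℂ) := by
  exact Complex.ofRealCLM.contDiff.comp (EuclideanSpace.proj j : R3 →L[ℝ] ℝ).contDiff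

theorem pd_coord (i j : Fin 3) (x : R3) :
    pd i (fun y : R3 => ((y j : ℝ) : ℂ)) x = if i = j then 1 else 0 := by
  have h := (Complex.ofRealCLM.comp (EuclideanSpace.proj j : R3 →L[ℝ] ℝ)).fderiv (x := x)
  unfold pd
  rw [show (fun y : R3 => ((y j : ℝ) : ℂ)) =
    Complex.ofRealCLM.comp (EuclideanSpace.proj j : R3 →L[ℝ] ℝ) from rfl, h]
  by_cases hij : i = j
  · simp [hij]
  · simp [hij, Ne.symm hij]

theorem contDiff_ofReal {n : WithTop ℕ∞} {h : R3 → ℝ} (hh : ContDiff ℝ n h) :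
    ContDiff ℝ n fun y => (h y : ℂ) := by
  exact Complex.ofRealCLM.contDiff.comp hh

theorem pd_ofReal (i : Fin 3) {h : R3 → ℝ} (hh : DifferentiableAt ℝ h x) :
    pd i (fun y => (h y : ℂ)) x = (pderiv h i x : ℂ) := by
  unfold pd pderiv
  rw [show (fun y => (h y : ℂ)) = Complex.ofRealCLM ∘ h from rfl,
    (Complex.ofRealCLM.hasFDerivAt.comp x hh.hasFDerivAt).fderiv]
  rfl

theorem pderiv_re (i : Fin 3) (hf : DifferentiableAt ℝ f x) :
    pderiv (fun y => (f y).re) i x = (pd i f x).re := by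
  unfold pd pderiv
  rw [show (fun y => (f y).re) = Complex.reCLM ∘ f from rfl,
    (Complex.reCLM.hasFDerivAt.comp x hf.hasFDerivAt).fderiv]
  rfl

theorem pderiv_im (i : Fin 3) (hf : DifferentiableAt ℝ f x) :
    pderiv (fun y => (f y).im) i x = (pd i f x).im := by
  unfold pd pderiv
  rw [show (fun y => (f y).im) = Complex.imCLM ∘ f from rfl,
    (Complex.imCLM.hasFDerivAt.comp x hf.hasFDerivAt).fderiv]
  rfl

theorem pd_congr (i : Fin 3) (h : f =ᶠ[𝓝 x] g) : pd i f x = pd i g x := by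
  simp only [pd, h.fderiv_eq]

theorem pd_translate (i : Fin 3) (f : R3 → ℂ) (v x : R3) :
    pd i (fun y => f (y + v)) x = pd i f (x + v) := by
  simp only [pd, fderiv_comp_add_right]

theorem pd_reflect (i : Fin 3) (f : R3 → ℂ) (v x : R3) :
    pd i (fun y => f (v - y)) x = -pd i f (v - x) := by
  have h := fderiv_comp_smul (𝕜 := ℝ) (f := fun y => f (y + v)) (x := x) (-1)
  simp only [neg_smul, one_smul, neg_add_eq_sub, fderiv_comp_add_right] at h
  simp only [pd, h, neg_apply]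

/-- `ContDiffAt.isSymmSndFDerivAt`. -/
theorem pd_comm (i j : Fin 3) (hf : ContDiffAt ℝ 2 f x) : pd i (pd j f) x = pd j (pd i f) x := by
  have hd : DifferentiableAt ℝ (fderiv ℝ f) x :=
    (hf.fderiv_right (m := 1) (by norm_num)).differentiableAt one_ne_zero
  have e : ∀ v w : R3, fderiv ℝ (fun y => fderiv ℝ f y v) x w = fderiv ℝ (fderiv ℝ f) x w v := by
    intro v w
    rw [fderiv_clm_apply hd (differentiableAt_const v)]
    simp
  unfold pd
  rw [e, e]
  exact (hf.isSymmSndFDerivAt (by simp)).eq _ _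

theorem contDiff_pd {n m : WithTop ℕ∞} (i : Fin 3) (hf : ContDiff ℝ n f) (h : m + 1 ≤ n) :
    ContDiff ℝ m (pd i f) := by
  exact (hf.fderiv_right h).clm_apply contDiff_const

theorem contDiff_pd_top (i : Fin 3) (hf : ContDiff ℝ ∞ f) : ContDiff ℝ ∞ (pd i f) := by
  exact contDiff_pd i hf (by simp)

theorem continuous_pd (i : Fin 3) (hf : ContDiff ℝ 1 f) : Continuous (pd i f) := by
  exact (contDiff_pd (m := 0) i hf (by simp)).continuous

theorem contDiff_pderiv {n m : WithTop ℕ∞} (i : Fin 3) {h : R3 → ℝ} (hh : ContDiff ℝ n h)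
    (hmn : m + 1 ≤ n) : ContDiff ℝ m (pderiv h i) := by
  exact (hh.fderiv_right hmn).clm_apply contDiff_const

theorem fderiv_eq_sum (f : R3 → ℂ) (x v : R3) : fderiv ℝ f x v = ∑ i, (v i : ℂ) * pd i f x := by
  conv_lhs => rw [← (EuclideanSpace.basisFun (Fin 3) ℝ).sum_repr v]
  simp only [map_sum, map_smul, EuclideanSpace.basisFun_repr, EuclideanSpace.basisFun_apply, pd,
    Complex.real_smul]

theorem contDiff_succ_of_pd {n : ℕ} (hf : Differentiable ℝ f) (h : ∀ i, ContDiff ℝ n (pd i f)) :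
    ContDiff ℝ (n + 1 : ℕ) f := by
  rw [Nat.cast_add, Nat.cast_one, contDiff_succ_iff_fderiv_apply]
  refine ⟨hf, fun h0 => absurd h0 (by simp), fun v => ?_⟩
  simp only [fderiv_eq_sum]
  exact ContDiff.sum fun i _ => contDiff_const.mul (h i)

theorem norm_fderiv_le_sum (f : R3 → ℂ) (x : R3) : ‖fderiv ℝ f x‖ ≤ ∑ i, ‖pd i f x‖ := by
  refine ContinuousLinearMap.opNorm_le_bound _ (Finset.sum_nonneg fun _ _ => norm_nonneg _)
    fun v => ?_
  rw [fderiv_eq_sum, Finset.sum_mul]
  refine (norm_sum_le _ _).trans (Finset.sum_le_sum fun i _ => ?_)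
  rw [norm_mul, mul_comm, Complex.norm_real]
  exact mul_le_mul_of_nonneg_left (PiLp.norm_apply_le v i) (norm_nonneg _)

theorem norm_pd_le (i : Fin 3) (f : R3 → ℂ) (x : R3) : ‖pd i f x‖ ≤ ‖fderiv ℝ f x‖ := by
  simpa [pd] using (fderiv ℝ f x).le_opNorm (EuclideanSpace.single i 1)

theorem tsupport_pd_subset (i : Fin 3) (f : R3 → ℂ) : tsupport (pd i f) ⊆ tsupport f := by
  exact tsupport_fderiv_apply_subset ℝ _

theorem pd_eq_zero_of_notMem (i : Fin 3) (h : x ∉ tsupport f) : pd i f x = 0 := by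
  simp [pd, fderiv_of_notMem_tsupport ℝ h]

/-- a function that is constant off a compact set has compactly supported derivatives. -/
theorem hasCompactSupport_pd (i : Fin 3) {c : ℂ} (h : HasCompactSupport fun y => f y - c) :
    HasCompactSupport (pd i f) := by
  have e : pd i f = pd i fun y => f y - c := by
    funext x
    simp only [pd, fderiv_sub_const]
  rw [e]
  exact h.of_isClosed_subset (isClosed_tsupport _) (tsupport_pd_subset i _)

@[simp] theorem dv_ee (i : Fin 3) (f : R3 → ℂ) : dv (ee i) f = pd i f := by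
  funext x
  simp [dv, ee, Pi.single_apply]

theorem dv_add (θ : C3) (hf : DifferentiableAt ℝ f x) (hg : DifferentiableAt ℝ g x) :
    dv θ (fun y => f y + g y) x = dv θ f x + dv θ g x := by
  simp only [dv, pd_add _ hf hg, mul_add, Finset.sum_add_distrib]

theorem dv_sub (θ : C3) (hf : DifferentiableAt ℝ f x) (hg : DifferentiableAt ℝ g x) :
    dv θ (fun y => f y - g y) x = dv θ f x - dv θ g x := by
  simp only [dv, pd_sub _ hf hg, mul_sub, Finset.sum_sub_distrib]

theorem dv_neg (θ : C3) (f : R3 → ℂ) (x : R3) : dv θ (fun y => -f y) x = -dv θ f x := by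
  simp only [dv, pd_neg, mul_neg, Finset.sum_neg_distrib]

theorem dv_mul (θ : C3) (hf : DifferentiableAt ℝ f x) (hg : DifferentiableAt ℝ g x) :
    dv θ (fun y => f y * g y) x = dv θ f x * g x + f x * dv θ g x := by
  simp only [dv, pd_mul _ hf hg, Fin.sum_univ_three]
  ring

theorem dv_const_mul (θ : C3) (c : ℂ) (hf : DifferentiableAt ℝ f x) :
    dv θ (fun y => c * f y) x = c * dv θ f x := by
  simp only [dv, pd_const_mul _ c hf, Fin.sum_univ_three]
  ring

@[simp] theorem dv_const (θ : C3) (c : ℂ) (x : R3) : dv θ (fun _ => c) x = 0 := by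
  simp [dv]

theorem dv_sum {ι : Type*} (θ : C3) (s : Finset ι) {F : ι → R3 → ℂ}
    (h : ∀ k ∈ s, DifferentiableAt ℝ (F k) x) :
    dv θ (fun y => ∑ k ∈ s, F k y) x = ∑ k ∈ s, dv θ (F k) x := by
  simp only [dv, pd_sum _ s h, Finset.mul_sum]
  exact Finset.sum_comm

theorem dv_cexp (θ : C3) (hf : DifferentiableAt ℝ f x) :
    dv θ (fun y => Complex.exp (f y)) x = Complex.exp (f x) * dv θ f x := by
  simp only [dv, pd_cexp _ hf, Fin.sum_univ_three]
  ring

theorem dv_smul (c : ℂ) (θ : C3) (f : R3 → ℂ) (x : R3) : dv (c • θ) f x = c * dv θ f x := by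
  simp only [dv, Pi.smul_apply, smul_eq_mul, Finset.mul_sum, mul_assoc]

theorem dv_sub_left (θ θ' : C3) (f : R3 → ℂ) (x : R3) : dv (θ - θ') f x = dv θ f x - dv θ' f x := by
  simp only [dv, Pi.sub_apply, sub_mul, Finset.sum_sub_distrib]

theorem dv_congr (θ : C3) (h : f =ᶠ[𝓝 x] g) : dv θ f x = dv θ g x := by
  simp only [dv, pd_congr _ h]

theorem dv_translate (θ : C3) (f : R3 → ℂ) (v x : R3) :
    dv θ (fun y => f (y + v)) x = dv θ f (x + v) := by
  simp only [dv, pd_translate]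

/-- `θ · ∇ = Re θ · ∇ + i Im θ · ∇`. -/
theorem dv_eq_fderiv (θ : C3) (f : R3 → ℂ) (x : R3) :
    dv θ f x = fderiv ℝ f x (rp θ) + I * fderiv ℝ f x (ip θ) := by
  simp only [fderiv_eq_sum, dv, rp, ip, Finset.mul_sum, ← Finset.sum_add_distrib]
  refine Finset.sum_congr rfl fun i _ => ?_
  linear_combination (-pd i f x) * Complex.re_add_im (θ i)

theorem contDiff_dv {n m : WithTop ℕ∞} (θ : C3) (hf : ContDiff ℝ n f) (h : m + 1 ≤ n) :
    ContDiff ℝ m (dv θ f) := by
  exact ContDiff.sum fun i _ => contDiff_const.mul (contDiff_pd i hf h)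

theorem continuous_dv (θ : C3) (hf : ContDiff ℝ 1 f) : Continuous (dv θ f) := by
  exact (contDiff_dv (m := 0) θ hf (by simp)).continuous

theorem tsupport_dv_subset (θ : C3) (f : R3 → ℂ) : tsupport (dv θ f) ⊆ tsupport f := by
  refine closure_minimal (fun x hx => by_contra fun h => hx ?_) (isClosed_tsupport f)
  simp only [dv, pd_eq_zero_of_notMem _ h, mul_zero, Finset.sum_const_zero]

theorem contDiff_lap {n m : WithTop ℕ∞} (hf : ContDiff ℝ n f) (h : m + 2 ≤ n) :
    ContDiff ℝ m (lap f) := by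
  refine ContDiff.sum fun i _ => contDiff_pd i (contDiff_pd i hf (m := m + 1) ?_) le_rfl
  rwa [add_assoc, one_add_one_eq_two]

theorem tsupport_lap_subset (f : R3 → ℂ) : tsupport (lap f) ⊆ tsupport f := by
  refine closure_minimal (fun x hx => by_contra fun h => hx ?_) (isClosed_tsupport f)
  exact Finset.sum_eq_zero fun i _ =>
    pd_eq_zero_of_notMem i fun h' => h (tsupport_pd_subset i f h')

theorem lap_congr (h : f =ᶠ[𝓝 x] g) : lap f x = lap g x := by
  exact Finset.sum_congr rfl fun i _ =>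
    pd_congr i (h.eventuallyEq_nhds.mono fun y hy => pd_congr i hy)

theorem Calc_d1 (hf : ContDiff ℝ 2 f) (x : R3) : DifferentiableAt ℝ f x :=
  hf.differentiable (by norm_num) x

theorem Calc_d2 (hf : ContDiff ℝ 2 f) (i : Fin 3) (x : R3) : DifferentiableAt ℝ (pd i f) x :=
  (contDiff_pd (m := 1) i hf (by norm_num)).differentiable one_ne_zero x

theorem lap_add (hf : ContDiff ℝ 2 f) (hg : ContDiff ℝ 2 g) (x : R3) :
    lap (fun y => f y + g y) x = lap f x + lap g x := by
  simp only [lap, ← Finset.sum_add_distrib]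
  refine Finset.sum_congr rfl fun i _ => ?_
  rw [show (pd i fun y => f y + g y) = _ from
    funext fun y => pd_add i (Calc_d1 hf y) (Calc_d1 hg y),
    pd_add i (Calc_d2 hf i x) (Calc_d2 hg i x)]

theorem lap_const_mul (c : ℂ) (hf : ContDiff ℝ 2 f) (x : R3) :
    lap (fun y => c * f y) x = c * lap f x := by
  simp only [lap, Finset.mul_sum]
  refine Finset.sum_congr rfl fun i _ => ?_
  rw [show (pd i fun y => c * f y) = _ from funext fun y => pd_const_mul i c (Calc_d1 hf y),
    pd_const_mul i c (Calc_d2 hf i x)]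

theorem lap_mul (hf : ContDiff ℝ 2 f) (hg : ContDiff ℝ 2 g) (x : R3) :
    lap (fun y => f y * g y) x = lap f x * g x + 2 * ∑ i, pd i f x * pd i g x + f x * lap g x := by
  simp only [lap, Finset.mul_sum, Finset.sum_mul, ← Finset.sum_add_distrib]
  refine Finset.sum_congr rfl fun i _ => ?_
  rw [show (pd i fun y => f y * g y) = _ from
    funext fun y => pd_mul i (Calc_d1 hf y) (Calc_d1 hg y),
    pd_add i ((Calc_d2 hf i x).fun_mul (Calc_d1 hg x)) ((Calc_d1 hf x).fun_mul (Calc_d2 hg i x)),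
    pd_mul i (Calc_d2 hf i x) (Calc_d1 hg x), pd_mul i (Calc_d1 hf x) (Calc_d2 hg i x)]
  ring

theorem lap_reflect (f : R3 → ℂ) (v x : R3) : lap (fun y => f (v - y)) x = lap f (v - x) := by
  refine Finset.sum_congr rfl fun i _ => ?_
  rw [show (pd i fun y => f (v - y)) = _ from funext fun y => pd_reflect i f v y, pd_neg, pd_reflect, neg_neg]

end Crest.Agent.R80
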