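import Crest.Agent.R80.Calc

/-!
# Row 80: test functions, integration by parts, exponentials, null vectors
-/

namespace Crest.Agent.R80

open MeasureTheory Set Metric Filter Topology Complex
open scoped ContDiff
open Crest.AnalysisR.VecCalc3 Crest.AnalysisR.PDE Crest.AnalysisR.PDE.Elasticity

variable {n : WithTop ℕ∞} {U V : Set R3} {f g ψ φ : R3 → ℂ} {θ : C3}

namespace Tk

theorem mono (h : Tk n U ψ) (hUV : U ⊆ V) : Tk n V ψ := by
  exact ⟨h.cd, h.cs, h.sub.trans hUV⟩

theorem of_le {m : WithTop ℕ∞} (h : Tk n U ψ) (hm : m ≤ n) : Tk m U ψ := by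
  exact ⟨h.cd.of_le hm, h.cs, h.sub⟩

theorem continuous (h : Tk n U ψ) : Continuous ψ := by
  exact h.cd.continuous

theorem eq_zero (h : Tk n U ψ) {x : R3} (hx : x ∉ U) : ψ x = 0 := by
  exact image_eq_zero_of_notMem_tsupport fun hx' => hx (h.sub hx')

theorem exists_bound (h : Tk n U ψ) : ∃ C : ℝ, 0 ≤ C ∧ ∀ x, ‖ψ x‖ ≤ C := by
  obtain ⟨C, hC⟩ := h.continuous.bounded_above_of_compact_support h.cs
  exact ⟨max C 0, le_max_right _ _, fun x => (hC x).trans (le_max_left _ _)⟩

theorem integrable (h : Tk n U ψ) : Integrable ψ := by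
  exact h.continuous.integrable_of_hasCompactSupport h.cs

theorem zero (n : WithTop ℕ∞) (U : Set R3) : Tk n U fun _ => 0 := by
  exact ⟨contDiff_const, HasCompactSupport.zero, by simp⟩

theorem calc2_of_sub (h : Tk n U ψ) {m : WithTop ℕ∞} (hφ : ContDiff ℝ m φ)
    (hs : tsupport φ ⊆ tsupport ψ) : Tk m U φ :=
  ⟨hφ, IsCompact.of_isClosed_subset h.cs (isClosed_tsupport _) hs, hs.trans h.sub⟩

theorem add (h : Tk n U ψ) (h' : Tk n U φ) : Tk n U fun x => ψ x + φ x := by
  have hs : tsupport (fun x => ψ x + φ x) ⊆ tsupport ψ ∪ tsupport φ :=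
    tsupport_binop_subset (fun a b : ℂ => a + b) (add_zero 0) ψ φ
  exact ⟨h.cd.add h'.cd, IsCompact.of_isClosed_subset (h.cs.union h'.cs) (isClosed_tsupport _) hs,
    hs.trans (union_subset h.sub h'.sub)⟩

theorem sub' (h : Tk n U ψ) (h' : Tk n U φ) : Tk n U fun x => ψ x - φ x := by
  have hs : tsupport (fun x => ψ x - φ x) ⊆ tsupport ψ ∪ tsupport φ :=
    tsupport_binop_subset (fun a b : ℂ => a - b) (sub_zero 0) ψ φ
  exact ⟨h.cd.sub h'.cd, IsCompact.of_isClosed_subset (h.cs.union h'.cs) (isClosed_tsupport _) hs,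
    hs.trans (union_subset h.sub h'.sub)⟩

theorem neg (h : Tk n U ψ) : Tk n U fun x => -ψ x := by
  exact h.calc2_of_sub h.cd.neg (tsupport_comp_subset (g := fun a : ℂ => -a) neg_zero ψ)

theorem const_mul (c : ℂ) (h : Tk n U ψ) : Tk n U fun x => c * ψ x := by
  exact h.calc2_of_sub (contDiff_const.mul h.cd) tsupport_mul_subset_right

theorem sum {ι : Type*} (s : Finset ι) {F : ι → R3 → ℂ} (h : ∀ k ∈ s, Tk n U (F k)) :
    Tk n U fun x => ∑ k ∈ s, F k x := by
  classical
  induction s using Finset.induction_on with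
  | empty => simpa using zero n U
  | insert a s ha ih =>
    simp only [Finset.sum_insert ha]
    exact (h a (Finset.mem_insert_self _ _)).add
      (ih fun k hk => h k (Finset.mem_insert_of_mem hk))

theorem ite (p : Prop) [Decidable p] (h : Tk n U ψ) : Tk n U fun x => if p then ψ x else 0 := by
  by_cases hp : p
  · simpa [hp] using h
  · simpa [hp] using zero n U

theorem mul_left (hf : ContDiff ℝ n f) (h : Tk n U ψ) : Tk n U fun x => f x * ψ x := by
  exact h.calc2_of_sub (hf.mul h.cd) tsupport_mul_subset_right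

theorem mul_right (h : Tk n U ψ) (hf : ContDiff ℝ n f) : Tk n U fun x => ψ x * f x := by
  exact h.calc2_of_sub (h.cd.mul hf) tsupport_mul_subset_left

theorem conj (h : Tk n U ψ) : Tk n U fun x => starRingEnd ℂ (ψ x) := by
  exact h.calc2_of_sub (Complex.conjCLE.contDiff.comp h.cd)
    (tsupport_comp_subset (g := fun a : ℂ => starRingEnd ℂ a) (map_zero _) ψ)

theorem pd {m : WithTop ℕ∞} (h : Tk n U ψ) (hm : m + 1 ≤ n) (i : Fin 3) : Tk m U (pd i ψ) := by
  exact h.calc2_of_sub (contDiff_pd i h.cd hm) (tsupport_pd_subset i ψ)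

theorem dv {m : WithTop ℕ∞} (h : Tk n U ψ) (hm : m + 1 ≤ n) (θ : C3) : Tk m U (dv θ ψ) := by
  exact h.calc2_of_sub (contDiff_dv θ h.cd hm) (tsupport_dv_subset θ ψ)

theorem lap {m : WithTop ℕ∞} (h : Tk n U ψ) (hm : m + 2 ≤ n) : Tk m U (lap ψ) := by
  exact h.calc2_of_sub (contDiff_lap h.cd hm) (tsupport_lap_subset ψ)

theorem translate (h : Tk n univ ψ) (v : R3) : Tk n univ fun x => ψ (x + v) := by
  exact ⟨h.cd.comp (contDiff_id.add contDiff_const),
    h.cs.comp_isClosedEmbedding (Homeomorph.addRight v).isClosedEmbedding, subset_univ _⟩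

theorem reflect (h : Tk n univ ψ) (v : R3) : Tk n univ fun x => ψ (v - x) := by
  exact ⟨h.cd.comp (contDiff_const.sub contDiff_id),
    h.cs.comp_isClosedEmbedding (Homeomorph.subLeft v).isClosedEmbedding, subset_univ _⟩

end Tk

theorem Tst.pd (h : Tst U ψ) (i : Fin 3) : Tst U (pd i ψ) := by
  exact Tk.pd h (le_of_eq rfl) i

theorem Tst.dv (h : Tst U ψ) (θ : C3) : Tst U (dv θ ψ) := by
  exact Tk.dv h (le_of_eq rfl) θ

theorem Tst.lap (h : Tst U ψ) : Tst U (lap ψ) := by
  exact Tk.lap h (le_of_eq rfl)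

theorem Tst.tk (h : Tst U ψ) (m : ℕ) : Tk m U ψ := by
  exact Tk.of_le h (by exact_mod_cast le_top)

theorem Tst.tk0 (h : Tst U ψ) : Tk 0 U ψ := by
  exact Tk.of_le h (by exact_mod_cast le_top)

theorem Tst.tk1 (h : Tst U ψ) : Tk 1 U ψ := by
  exact Tk.of_le h (by exact_mod_cast le_top)

theorem Tst.tk2 (h : Tst U ψ) : Tk 2 U ψ := by
  exact_mod_cast h.tk 2

/-- smooth cut-off equal to one near a compact set (`exists_contMDiff_support_eq...`,
`exists_smooth_one_nhds_of_subset_interior`, or `exists_contDiff_tsupport_subset` after thickening). -/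
theorem exists_cut {K : Set R3} (hK : IsCompact K) (hU : IsOpen U) (hKU : K ⊆ U) :
    ∃ χ : R3 → ℂ, Tst U χ ∧ (∀ x ∈ K, χ =ᶠ[𝓝 x] fun _ => 1) ∧ ∀ x, ‖χ x‖ ≤ 1 := by
  obtain ⟨K', hK', hKK', hK'U⟩ := exists_compact_between hK hU hKU
  obtain ⟨χ, h1, h0, hb⟩ := exists_contMDiffMap_one_nhds_of_subset_interior
    (modelWithCornersSelf ℝ R3) (n := ⊤) hK.isClosed hKK'
  have hcd : ContDiff ℝ ∞ χ := χ.contMDiff.contDiff
  have hs : tsupport (fun x => (χ x : ℂ)) ⊆ K' := by
    refine closure_minimal (fun x hx => ?_) hK'.isClosed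
    by_contra hx'
    exact hx (by simp [h0 x hx'])
  refine ⟨fun x => (χ x : ℂ), ⟨contDiff_ofReal hcd,
    IsCompact.of_isClosed_subset hK' (isClosed_tsupport _) hs, hs.trans hK'U⟩, fun x hx => ?_,
    fun x => ?_⟩
  · filter_upwards [h1.filter_mono (nhds_le_nhdsSet hx)] with y hy
    simp [hy]
  · rw [Complex.norm_real, Real.norm_eq_abs, abs_of_nonneg (hb x).1]
    exact (hb x).2

theorem calc2_int (hf : Continuous f) (h : Tk n U ψ) : Integrable fun x => f x * ψ x :=
  (hf.mul h.continuous).integrable_of_hasCompactSupport h.cs.mul_left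

theorem calc2_ibp (hf : ContDiff ℝ 1 f) (h : Tk 1 U ψ) (i : Fin 3) :
    ∫ x, f x * pd i ψ x = -∫ x, pd i f x * ψ x := by
  have h0 : Tk 0 U (pd i ψ) := h.pd (by simp) i
  exact integral_mul_fderiv_eq_neg_fderiv_mul_of_integrable
    (calc2_int (continuous_pd i hf) h) (calc2_int hf.continuous h0) (calc2_int hf.continuous h)
    (fun x _ => (hf.differentiable one_ne_zero) x) (fun x _ => (h.cd.differentiable one_ne_zero) x)

/-- `integral_fderiv_eq_zero`-type statement, e.g. from `integral_mul_fderiv_eq_neg_fderiv_mul_of_integrable`. -/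
theorem integral_pd_eq_zero (h : Tk 1 U ψ) (i : Fin 3) : ∫ x, pd i ψ x = 0 := by
  simpa using calc2_ibp (f := fun _ => 1) contDiff_const h i

theorem integral_mul_pd (hf : ContDiff ℝ 1 f) (h : Tk 1 U ψ) (i : Fin 3) :
    ∫ x, f x * pd i ψ x = -∫ x, pd i f x * ψ x := by
  exact calc2_ibp hf h i

theorem integral_mul_dv (hf : ContDiff ℝ 1 f) (h : Tk 1 U ψ) (θ : C3) :
    ∫ x, f x * dv θ ψ x = -∫ x, dv θ f x * ψ x := by
  have h0 : ∀ i, Tk 0 U (pd i ψ) := fun i => h.pd (by simp) i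
  have e1 : ∀ x, f x * dv θ ψ x = ∑ i, θ i * (f x * pd i ψ x) := fun x => by
    rw [dv, Finset.mul_sum]; exact Finset.sum_congr rfl fun i _ => by ring
  have e2 : ∀ x, dv θ f x * ψ x = ∑ i, θ i * (pd i f x * ψ x) := fun x => by
    rw [dv, Finset.sum_mul]; exact Finset.sum_congr rfl fun i _ => by ring
  simp only [e1, e2]
  rw [integral_finsetSum _ fun i _ => (calc2_int hf.continuous (h0 i)).const_mul _,
    integral_finsetSum _ fun i _ => (calc2_int (continuous_pd i hf) h).const_mul _,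
    ← Finset.sum_neg_distrib]
  refine Finset.sum_congr rfl fun i _ => ?_
  rw [integral_const_mul, integral_const_mul, calc2_ibp hf h i, mul_neg]

theorem integral_mul_lap (hf : ContDiff ℝ 2 f) (h : Tk 2 U ψ) :
    ∫ x, f x * lap ψ x = ∫ x, lap f x * ψ x := by
  have h1 : ∀ i, Tk 1 U (pd i ψ) := fun i => h.pd (le_of_eq one_add_one_eq_two) i
  have h0 : ∀ i, Tk 0 U (pd i (pd i ψ)) := fun i => (h1 i).pd (by simp) i
  have hf1 : ContDiff ℝ 1 f := hf.of_le (by norm_num)
  have hf' : ∀ i, ContDiff ℝ 1 (pd i f) := fun i => contDiff_pd i hf (le_of_eq one_add_one_eq_two)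
  have e1 : ∀ x, f x * lap ψ x = ∑ i, f x * pd i (pd i ψ) x := fun x => by
    rw [lap, Finset.mul_sum]
  have e2 : ∀ x, lap f x * ψ x = ∑ i, pd i (pd i f) x * ψ x := fun x => by
    rw [lap, Finset.sum_mul]
  simp only [e1, e2]
  rw [integral_finsetSum _ fun i _ => calc2_int hf.continuous (h0 i),
    integral_finsetSum _ fun i _ => calc2_int (continuous_pd i (hf' i)) h]
  refine Finset.sum_congr rfl fun i _ => ?_
  rw [calc2_ibp hf1 (h1 i) i, calc2_ibp (hf' i) (h.of_le (by norm_num)) i, neg_neg]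

theorem integrable_cont_mul_tk (hf : Continuous f) (h : Tk n U ψ) :
    Integrable fun x => f x * ψ x := by
  exact calc2_int hf h

/-! ### exponentials -/

theorem calc2_lin (n : WithTop ℕ∞) (θ : C3) : ContDiff ℝ n fun x : R3 => ∑ i, θ i * (x i : ℂ) :=
  ContDiff.sum fun i _ => contDiff_const.mul (contDiff_coord n i)

theorem calc2_pd_lin (i : Fin 3) (θ : C3) (x : R3) :
    pd i (fun y : R3 => ∑ j, θ j * (y j : ℂ)) x = θ i := by
  have hd : ∀ j, DifferentiableAt ℝ (fun y : R3 => ((y j : ℝ) : ℂ)) x := fun j =>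
    (contDiff_coord 1 j).differentiable one_ne_zero x
  rw [pd_sum i Finset.univ (F := fun j y => θ j * (y j : ℂ))
    fun j _ => (hd j).const_mul _]
  simp only [fun j => pd_const_mul i (θ j) (hd j), pd_coord]
  simp

theorem calc2_inner (a b : R3) : inner ℝ a b = ∑ i, a i * b i := by
  rw [PiLp.inner_apply]
  exact Finset.sum_congr rfl fun i _ => by simp [mul_comm]

theorem calc2_norm_sq (a : R3) : ‖a‖ ^ 2 = ∑ i, a i ^ 2 := by
  rw [EuclideanSpace.norm_sq_eq]
  simp

theorem contDiff_ex (n : WithTop ℕ∞) (θ : C3) : ContDiff ℝ n (ex θ) := by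
  exact Complex.contDiff_exp.comp (calc2_lin n θ)

theorem pd_ex (i : Fin 3) (θ : C3) (x : R3) : pd i (ex θ) x = θ i * ex θ x := by
  have := pd_cexp i (((calc2_lin 1 θ).differentiable one_ne_zero) x)
  rw [calc2_pd_lin] at this
  exact this.trans (mul_comm _ _)

theorem ex_ne_zero (θ : C3) (x : R3) : ex θ x ≠ 0 := by
  exact Complex.exp_ne_zero _

theorem ex_neg_mul (θ : C3) (x : R3) : ex (-θ) x * ex θ x = 1 := by
  rw [ex, ex, ← Complex.exp_add, ← Finset.sum_add_distrib]
  simp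

theorem ex_neg_smul_mul (τ : ℝ) (θ : C3) (x : R3) : ex (-(τ : ℂ) • θ) x * ex ((τ : ℂ) • θ) x = 1 := by
  rw [neg_smul]
  exact ex_neg_mul _ x

theorem norm_ex (θ : C3) (x : R3) : ‖ex θ x‖ = Real.exp (inner ℝ (rp θ) x) := by
  rw [ex, Complex.norm_exp, calc2_inner, Complex.re_sum]
  congr 1
  exact Finset.sum_congr rfl fun i _ => by simp [rp]

theorem norm_ex_neg_smul (τ : ℝ) (θ : C3) (x : R3) : ‖ex (-(τ : ℂ) • θ) x‖ = ew (τ • rp θ) x := by
  rw [norm_ex, ew, calc2_inner, calc2_inner, ← Finset.sum_neg_distrib]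
  congr 1
  exact Finset.sum_congr rfl fun i _ => by simp [rp]

theorem lap_ex_mul (hθ : Null θ) (hg : ContDiff ℝ 2 g) (x : R3) :
    lap (fun y => ex θ y * g y) x = ex θ x * (lap g x + 2 * dv θ g x) := by
  have e1 : ∀ i, pd i (ex θ) = fun y => θ i * ex θ y := fun i => funext fun y => pd_ex i θ y
  have hd : DifferentiableAt ℝ (ex θ) x := (contDiff_ex 1 θ).differentiable one_ne_zero x
  have e2 : lap (ex θ) x = 0 := by
    rw [lap]
    simp only [e1, fun i => pd_const_mul i (θ i) hd]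
    have : ∑ i, θ i * (θ i * ex θ x) = (∑ i, θ i * θ i) * ex θ x := by
      rw [Finset.sum_mul]; exact Finset.sum_congr rfl fun i _ => by ring
    rw [this, hθ, zero_mul]
  rw [lap_mul (contDiff_ex 2 θ) hg, e2, dv]
  simp only [pd_ex, Fin.sum_univ_three]
  ring

theorem ew_pos (β x : R3) : 0 < ew β x := by
  exact Real.exp_pos _

theorem continuous_ew (β : R3) : Continuous (ew β) := by
  unfold ew
  fun_prop

theorem ew_neg_mul (β x : R3) : ew (-β) x * ew β x = 1 := by
  rw [ew, ew, ← Real.exp_add, inner_neg_left]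
  simp

theorem calc2_ew (β : R3) : (fun x => (ew β x : ℂ)) = ex fun i => -(β i : ℂ) := by
  funext x
  rw [ew, ex, calc2_inner, Complex.ofReal_exp]
  congr 1
  push_cast
  rw [← Finset.sum_neg_distrib]
  exact Finset.sum_congr rfl fun i _ => by ring

theorem contDiff_ew (n : WithTop ℕ∞) (β : R3) : ContDiff ℝ n fun x => (ew β x : ℂ) := by
  rw [calc2_ew]
  exact contDiff_ex n _

theorem pd_ew (i : Fin 3) (β x : R3) : pd i (fun y => (ew β y : ℂ)) x = -(β i : ℂ) * ew β x := by
  have h := congrFun (calc2_ew β) x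
  rw [calc2_ew, pd_ex, ← h]

/-! ### null vectors -/

theorem n2_nonneg (θ : C3) : 0 ≤ n2 θ := by
  exact Finset.sum_nonneg fun i _ => sq_nonneg _

theorem n2_pos (h : θ ≠ 0) : 0 < n2 θ := by
  obtain ⟨i, hi⟩ := Function.ne_iff.mp h
  exact Finset.sum_pos' (fun i _ => sq_nonneg _)
    ⟨i, Finset.mem_univ _, pow_pos (norm_pos_iff.mpr hi) 2⟩

theorem n2_ee (i : Fin 3) : n2 (ee i) = 1 := by
  rw [n2, Finset.sum_eq_single i]
  · simp [ee]
  · intro j _ hj
    simp [ee, hj]
  · simp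

theorem n2_smul (c : ℂ) (θ : C3) : n2 (c • θ) = ‖c‖ ^ 2 * n2 θ := by
  rw [n2, n2, Finset.mul_sum]
  exact Finset.sum_congr rfl fun i _ => by simp [mul_pow]

theorem continuous_n2 : Continuous n2 := by
  unfold n2
  fun_prop

theorem Null.smul (h : Null θ) (c : ℂ) : Null (c • θ) := by
  have : ∑ i, (c • θ) i * (c • θ) i = c * c * ∑ i, θ i * θ i := by
    rw [Finset.mul_sum]; exact Finset.sum_congr rfl fun i _ => by simp; ring
  rw [Null, this, h, mul_zero]

theorem Null.inner_rp_ip (h : Null θ) : inner ℝ (rp θ) (ip θ) = 0 := by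
  have := congrArg Complex.im h
  simp only [Fin.sum_univ_three, add_im, mul_im, zero_im] at this
  rw [calc2_inner]
  simp only [Fin.sum_univ_three, rp, ip]
  linarith

theorem Null.norm_ip (h : Null θ) : ‖ip θ‖ = ‖rp θ‖ := by
  have := congrArg Complex.re h
  simp only [Fin.sum_univ_three, add_re, mul_re, zero_re] at this
  rw [← sq_eq_sq₀ (norm_nonneg _) (norm_nonneg _), calc2_norm_sq, calc2_norm_sq]
  simp only [Fin.sum_univ_three, rp, ip]
  linarith

theorem Null.n2_eq (h : Null θ) : n2 θ = 2 * ‖rp θ‖ ^ 2 := by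
  have := congrArg Complex.re h
  simp only [Fin.sum_univ_three, add_re, mul_re, zero_re] at this
  rw [calc2_norm_sq, n2]
  simp only [Fin.sum_univ_three, rp, Complex.sq_norm, Complex.normSq_apply]
  linarith

theorem Null.rp_ne_zero (h : Null θ) (h0 : θ ≠ 0) : rp θ ≠ 0 := by
  intro h1
  have := h.n2_eq
  rw [h1, norm_zero] at this
  have := n2_pos h0
  linarith

theorem null_th (t : ℂ) : Null (th t) := by
  simp only [Null, th, Fin.sum_univ_three, Matrix.cons_val_zero, Matrix.cons_val_one,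
    Matrix.cons_val]
  linear_combination (1 + t ^ 2) ^ 2 * I_mul_I

theorem n2_th (t : ℂ) : n2 (th t) = 2 * (1 + ‖t‖ ^ 2) ^ 2 := by
  simp only [n2, th, Fin.sum_univ_three, Matrix.cons_val_zero, Matrix.cons_val_one,
    Matrix.cons_val, Complex.sq_norm, Complex.normSq_apply]
  simp [pow_two]
  ring

theorem th_ne_zero (t : ℂ) : th t ≠ 0 := by
  intro h
  have h1 := n2_th t
  rw [h] at h1
  have h2 : n2 (0 : C3) = 0 := by simp [n2]
  have : 0 < 2 * (1 + ‖t‖ ^ 2) ^ 2 := by positivity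
  linarith

theorem differentiable_th (i : Fin 3) : Differentiable ℂ fun t => th t i := by
  fin_cases i <;> simp [th] <;> fun_prop

theorem sum_th_mul (t : ℂ) (a : C3) : ∑ i, th t i * a i = aσ a t := by
  simp only [th, aσ, aα, aβ, Fin.sum_univ_three, Matrix.cons_val_zero, Matrix.cons_val_one,
    Matrix.cons_val]
  ring

end Crest.Agent.R80
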