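import Crest.Agent.R80.Car2a
import Crest.Agent.R80.Weak2

/-!
# Row 80: Carleman estimate for systems with principal part `Δ`
-/

namespace Crest.Agent.R80

open MeasureTheory Set Metric Filter Topology Complex
open scoped ContDiff
open Crest.AnalysisR.VecCalc3 Crest.AnalysisR.PDE Crest.AnalysisR.PDE.Elasticity

theorem car2_continuous_cw (K : ℝ) (β : R3) : Continuous (cw K β) := by
  unfold cw
  fun_prop

theorem car2_cw_pos (K : ℝ) (β x : R3) : 0 < cw K β x := Real.exp_pos _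

theorem car2_cw_eq (K : ℝ) (β x : R3) : cw K β x = Real.exp (K * ‖x‖ ^ 2) * ew β x ^ 2 := by
  unfold cw ew
  rw [← Real.exp_nat_mul, ← Real.exp_add]
  congr 1
  push_cast
  ring

theorem car2_exists_bound {φ : R3 → ℝ} (hφ : Continuous φ) (R : ℝ) :
    ∃ M : ℝ, 0 ≤ M ∧ ∀ x ∈ closedBall (0 : R3) R, ‖φ x‖ ≤ M := by
  obtain ⟨M, hM⟩ := (isCompact_closedBall (0 : R3) R).exists_bound_of_continuousOn hφ.continuousOn
  exact ⟨max M 0, le_max_right _ _, fun x hx => (hM x hx).trans (le_max_left _ _)⟩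

theorem car2_integrable {E : Type*} [NormedAddCommGroup E] {φ : R3 → ℝ} (hφ : Continuous φ) {R : ℝ}
    {f : R3 → E} (hf : L2 univ f) (hv : Van (closedBall 0 R) f) :
    Integrable fun x => φ x * ‖f x‖ ^ 2 := by
  obtain ⟨M, hM0, hM⟩ := car2_exists_bound hφ R
  have h1 : Integrable fun x => ‖f x‖ ^ 2 := integrableOn_univ.1 hf.integrableOn_sq
  refine (h1.const_mul M).mono' (hφ.aestronglyMeasurable.mul h1.aestronglyMeasurable) ?_
  filter_upwards [hv] with x hx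
  by_cases hxB : x ∈ closedBall (0 : R3) R
  · rw [norm_mul, Real.norm_of_nonneg (sq_nonneg ‖f x‖)]
    exact mul_le_mul_of_nonneg_right (hM x hxB) (sq_nonneg _)
  · simp [hx hxB]

theorem car2_integral_eq (K : ℝ) (β : R3) {R : ℝ} {f : R3 → ℂ} (hf : L2 univ f)
    (hv : Van (closedBall 0 R) f) :
    ∫ x, cw K β x * ‖f x‖ ^ 2 =
      nr (closedBall 0 R) (fun x => ((√(cw K β x) : ℝ) : ℂ) * f x) ^ 2 := by
  have hφ : Continuous fun x => ((√(cw K β x) : ℝ) : ℂ) :=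
    continuous_ofReal.comp (car2_continuous_cw K β).sqrt
  rw [nr_sq (L2.cont_mul measurableSet_closedBall isBounded_closedBall hφ
    (L2.mono_set (subset_univ _) hf))]
  rw [setIntegral_eq_integral_of_ae_compl_eq_zero]
  · refine integral_congr_ae (Eventually.of_forall fun x => ?_)
    simp only [norm_mul, mul_pow, Complex.norm_real, Real.norm_eq_abs, sq_abs]
    rw [Real.sq_sqrt (car2_cw_pos K β x).le]
  · filter_upwards [hv] with x hx hxB
    simp [hx hxB]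

theorem car2_tendsto (K : ℝ) (β : R3) {R : ℝ} {f : ℕ → R3 → ℂ} {f₀ : R3 → ℂ}
    (hf : ∀ k, L2 univ (f k)) (hv : ∀ k, Van (closedBall 0 R) (f k)) (hf₀ : L2 univ f₀)
    (hv₀ : Van (closedBall 0 R) f₀)
    (h : Tendsto (fun k => nr univ fun x => f k x - f₀ x) atTop (𝓝 0)) :
    Tendsto (fun k => ∫ x, cw K β x * ‖f k x‖ ^ 2) atTop (𝓝 (∫ x, cw K β x * ‖f₀ x‖ ^ 2)) := by
  have hφr : Continuous fun x => √(cw K β x) := (car2_continuous_cw K β).sqrt
  have hφ : Continuous fun x => ((√(cw K β x) : ℝ) : ℂ) := continuous_ofReal.comp hφr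
  obtain ⟨M, hM0, hM⟩ := car2_exists_bound hφr R
  simp only [fun k => car2_integral_eq K β (hf k) (hv k), car2_integral_eq K β hf₀ hv₀]
  refine Tendsto.pow ?_ 2
  refine tendsto_nr (Eventually.of_forall fun k => L2.cont_mul measurableSet_closedBall
    isBounded_closedBall hφ (L2.mono_set (subset_univ _) (hf k))) (L2.cont_mul
    measurableSet_closedBall isBounded_closedBall hφ (L2.mono_set (subset_univ _) hf₀)) ?_
  have h2 := h.const_mul M
  rw [mul_zero] at h2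
  refine squeeze_zero (fun k => nr_nonneg _ _) (fun k => ?_) h2
  have hd : L2 univ fun x => f k x - f₀ x := L2.sub' (hf k) hf₀
  refine le_trans (nr_le_mul_of_le measurableSet_closedBall (L2.mono_set (subset_univ _) hd) hM0
    (Eventually.of_forall fun x hx => ?_))
    (mul_le_mul_of_nonneg_left (nr_mono_set (subset_univ _) hd) hM0)
  rw [← mul_sub, norm_mul, Complex.norm_real]
  exact mul_le_mul_of_nonneg_right (hM x hx) (norm_nonneg _)

theorem car2_tendsto_mol (K : ℝ) (β : R3) {R : ℝ} {f : R3 → ℂ} (hf : L2 univ f)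
    (hv : Van (closedBall 0 R) f) :
    Tendsto (fun k => ∫ x, cw K β x * ‖mol k f x‖ ^ 2) atTop (𝓝 (∫ x, cw K β x * ‖f x‖ ^ 2)) :=
  car2_tendsto K β (R := R + 1) (fun k => (l2_mol hf k).1) (fun k => (tst_mol hf hv k).van) hf
    (hv.mono (closedBall_subset_closedBall (by linarith))) (tendsto_nr_mol_sub hf)

theorem car2_wn_sq_le {E : Type*} [NormedAddCommGroup E] [NormedSpace ℝ E] {K : ℝ} (hK : 0 ≤ K)
    (β : R3) {R : ℝ} {f : R3 → E} (hf : L2 univ f) (hv : Van (closedBall 0 R) f) :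
    wn univ β f ^ 2 ≤ ∫ x, cw K β x * ‖f x‖ ^ 2 := by
  rw [wn_sq β (L2.ew_smul_of_van β hf hv), Measure.restrict_univ]
  refine integral_mono (car2_integrable ((continuous_ew β).pow 2) hf hv)
    (car2_integrable (car2_continuous_cw K β) hf hv) fun x => ?_
  refine mul_le_mul_of_nonneg_right ?_ (sq_nonneg _)
  rw [car2_cw_eq]
  exact le_mul_of_one_le_left (sq_nonneg _) (Real.one_le_exp (by positivity))

theorem car2_le_wn_sq {E : Type*} [NormedAddCommGroup E] [NormedSpace ℝ E] {K : ℝ} (hK : 0 ≤ K)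
    (β : R3) {R : ℝ} {f : R3 → E} (hf : L2 univ f) (hv : Van (closedBall 0 R) f) :
    ∫ x, cw K β x * ‖f x‖ ^ 2 ≤ Real.exp (K * R ^ 2) * wn univ β f ^ 2 := by
  rw [wn_sq β (L2.ew_smul_of_van β hf hv), Measure.restrict_univ, ← integral_const_mul]
  refine integral_mono_ae (car2_integrable (car2_continuous_cw K β) hf hv)
    ((car2_integrable ((continuous_ew β).pow 2) hf hv).const_mul _) ?_
  filter_upwards [hv] with x hx
  by_cases hxB : x ∈ closedBall (0 : R3) R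
  · rw [car2_cw_eq, mul_assoc]
    refine mul_le_mul_of_nonneg_right (Real.exp_le_exp.2 ?_) (by positivity)
    refine mul_le_mul_of_nonneg_left ?_ hK
    exact pow_le_pow_left₀ (norm_nonneg _) (mem_closedBall_zero_iff.1 hxB) 2
  · simp [hx hxB]

theorem car2_pointwise {ι : Type} [Fintype ι] {C₀ a s : ℝ} {u : ι → ℝ} {v : ι → Fin 3 → ℝ}
    (ha : 0 ≤ a) (h : a ≤ C₀ * (∑ j, u j + ∑ j, ∑ k, v j k) + s) :
    a ^ 2 ≤ 12 * Fintype.card ι * C₀ ^ 2 * (∑ j, u j ^ 2 + ∑ j, ∑ k, v j k ^ 2) + 2 * s ^ 2 := by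
  have h1 : (∑ j, u j) ^ 2 ≤ Fintype.card ι * ∑ j, u j ^ 2 := by
    simpa using sq_sum_le_card_mul_sum_sq (s := Finset.univ) (f := u)
  have h2 : (∑ j, ∑ k, v j k) ^ 2 ≤ Fintype.card ι * ∑ j, (∑ k, v j k) ^ 2 := by
    simpa using sq_sum_le_card_mul_sum_sq (s := Finset.univ) (f := fun j => ∑ k, v j k)
  have h3 : ∑ j, (∑ k, v j k) ^ 2 ≤ 3 * ∑ j, ∑ k, v j k ^ 2 := by
    rw [Finset.mul_sum]
    refine Finset.sum_le_sum fun j _ => ?_
    simpa using sq_sum_le_card_mul_sum_sq (s := Finset.univ) (f := v j)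
  have hn : (0 : ℝ) ≤ Fintype.card ι := Nat.cast_nonneg _
  have hU : 0 ≤ ∑ j, u j ^ 2 := Finset.sum_nonneg fun j _ => sq_nonneg _
  have hV : 0 ≤ ∑ j, ∑ k, v j k ^ 2 :=
    Finset.sum_nonneg fun j _ => Finset.sum_nonneg fun k _ => sq_nonneg _
  set n : ℝ := (Fintype.card ι : ℝ)
  set A := ∑ j, u j
  set B := ∑ j, ∑ k, v j k
  set U := ∑ j, u j ^ 2
  set V := ∑ j, ∑ k, v j k ^ 2
  have h4 : B ^ 2 ≤ 3 * n * V := by
    have := mul_le_mul_of_nonneg_left h3 hn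
    linarith
  have h5 : (A + B) ^ 2 ≤ 6 * n * (U + V) := by
    have := mul_nonneg hn hU
    nlinarith [sq_nonneg (A - B)]
  have h6 : a ^ 2 ≤ (C₀ * (A + B) + s) ^ 2 := pow_le_pow_left₀ ha h 2
  have h7 := mul_le_mul_of_nonneg_left h5 (sq_nonneg C₀)
  nlinarith [sq_nonneg (C₀ * (A + B) - s)]

/-- mollify (`tst_mol`, `H1.pd_mol`, `WL.lap_mol`, `tendsto_nr_mol_sub`). -/
theorem car2_weak {K R : ℝ} (hK : 0 ≤ K) {β : R3} (hβ : 2 * K * (R + 1) ≤ ‖β‖) {y F : R3 → ℂ}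
    {G : Fin 3 → R3 → ℂ} (hy : H1 univ y G) (hF : L2 univ F) (h : WL univ y F)
    (hv : Van (closedBall 0 R) y) :
    K * (‖β‖ ^ 2 * (∫ x, cw K β x * ‖y x‖ ^ 2) + ∑ i, ∫ x, cw K β x * ‖G i x‖ ^ 2) ≤
      2 * ∫ x, cw K β x * ‖F x‖ ^ 2 := by
  have hvG := fun i => hy.van isClosed_closedBall hv i
  have hvF := h.van isClosed_closedBall hF hv
  have h1 := (((car2_tendsto_mol K β hy.l2 hv).const_mul (‖β‖ ^ 2)).add
    (tendsto_finsetSum Finset.univ fun i _ =>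
      car2_tendsto_mol K β (hy.l2G i) (hvG i))).const_mul K
  have h2 := (car2_tendsto_mol K β hF hvF).const_mul 2
  refine le_of_tendsto_of_tendsto' h1 h2 fun k => ?_
  have h3 := car2_smooth hK hβ (tst_mol hy.l2 hv k)
  simpa only [hy.pd_mol k, h.lap_mol hy.l2 k] using h3

/-- absorb the lower order terms by choosing `K` large (depending on `C₀` and `card ι`), then
`τ₀ = max 1 (2 K (R + 1))`; on the ball `ew β x ^ 2 ≤ cw K β x ≤ e^{K R²} ew β x ^ 2`. -/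
theorem car2 (ι : Type) [Fintype ι] (R C₀ : ℝ) :
    ∃ C τ₀ : ℝ, 0 ≤ C ∧ 1 ≤ τ₀ ∧ ∀ β : R3, τ₀ ≤ ‖β‖ →
      ∀ (y : ι → R3 → ℂ) (G : ι → Fin 3 → R3 → ℂ) (F : ι → R3 → ℂ) (s : R3 → ℝ),
      (∀ i, H1 univ (y i) (G i)) → (∀ i, L2 univ (F i)) → (∀ i, WL univ (y i) (F i)) →
      (∀ i, Van (closedBall 0 R) (y i)) → L2 univ s → Van (closedBall 0 R) s →
      (∀ᵐ x : R3, ∀ i, ‖F i x‖ ≤ C₀ * (∑ j, ‖y j x‖ + ∑ j, ∑ k, ‖G j k x‖) + s x) →
      ∀ i, ‖β‖ * wn univ β (y i) ≤ C * wn univ β s ∧ ∀ k, wn univ β (G i k) ≤ C * wn univ β s := by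
  set n : ℝ := (Fintype.card ι : ℝ) with hn_def
  have hn : 0 ≤ n := Nat.cast_nonneg _
  set K : ℝ := 24 * n ^ 2 * C₀ ^ 2 + 1 with hK_def
  have hK : 0 ≤ K := by positivity
  refine ⟨√(4 * n * Real.exp (K * R ^ 2)), max 1 (2 * K * (R + 1)), Real.sqrt_nonneg _,
    le_max_left _ _, fun β hβ y G F s hy hF hW hv hs hvs hb => ?_⟩
  have hβ1 : 1 ≤ ‖β‖ := (le_max_left _ _).trans hβ
  have hβ2 : 2 * K * (R + 1) ≤ ‖β‖ := (le_max_right _ _).trans hβ
  have hc := car2_continuous_cw K β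
  have hvG := fun i k => (hy i).van isClosed_closedBall (hv i) k
  have hvF := fun i => (hW i).van isClosed_closedBall (hF i) (hv i)
  have iy := fun i => car2_integrable hc (hy i).l2 (hv i)
  have iG := fun i k => car2_integrable hc ((hy i).l2G k) (hvG i k)
  have iF := fun i => car2_integrable hc (hF i) (hvF i)
  have is := car2_integrable hc hs hvs
  set Iy : ι → ℝ := fun i => ∫ x, cw K β x * ‖y i x‖ ^ 2 with hIy
  set IG : ι → Fin 3 → ℝ := fun i k => ∫ x, cw K β x * ‖G i k x‖ ^ 2 with hIG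
  set IF : ι → ℝ := fun i => ∫ x, cw K β x * ‖F i x‖ ^ 2 with hIF
  set Is : ℝ := ∫ x, cw K β x * ‖s x‖ ^ 2 with hIs
  have hIy0 : ∀ i, 0 ≤ Iy i := fun i =>
    integral_nonneg fun x => mul_nonneg (car2_cw_pos K β x).le (sq_nonneg _)
  have hIG0 : ∀ i k, 0 ≤ IG i k := fun i k =>
    integral_nonneg fun x => mul_nonneg (car2_cw_pos K β x).le (sq_nonneg _)
  have h1 : ∀ i, K * (‖β‖ ^ 2 * Iy i + ∑ k, IG i k) ≤ 2 * IF i := fun i =>
    car2_weak hK hβ2 (hy i) (hF i) (hW i) (hv i)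
  have h2 : ∀ i, IF i ≤ 12 * n * C₀ ^ 2 * (∑ j, Iy j + ∑ j, ∑ k, IG j k) + 2 * Is := by
    intro i
    have iY : Integrable fun x => ∑ j, cw K β x * ‖y j x‖ ^ 2 :=
      integrable_finsetSum _ fun j _ => iy j
    have iG1 : ∀ j, Integrable fun x => ∑ k, cw K β x * ‖G j k x‖ ^ 2 := fun j =>
      integrable_finsetSum _ fun k _ => iG j k
    have iG2 : Integrable fun x => ∑ j, ∑ k, cw K β x * ‖G j k x‖ ^ 2 :=
      integrable_finsetSum _ fun j _ => iG1 j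
    have e1 : ∑ j, Iy j = ∫ x, ∑ j, cw K β x * ‖y j x‖ ^ 2 :=
      (integral_finsetSum _ fun j _ => iy j).symm
    have e2 : ∑ j, ∑ k, IG j k = ∫ x, ∑ j, ∑ k, cw K β x * ‖G j k x‖ ^ 2 := by
      rw [integral_finsetSum _ fun j _ => iG1 j]
      exact Finset.sum_congr rfl fun j _ => (integral_finsetSum _ fun k _ => iG j k).symm
    have iA : Integrable fun x =>
        ∑ j, cw K β x * ‖y j x‖ ^ 2 + ∑ j, ∑ k, cw K β x * ‖G j k x‖ ^ 2 := iY.add iG2
    rw [e1, e2, hIs, ← integral_add iY iG2, ← integral_const_mul, ← integral_const_mul,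
      ← integral_add (iA.const_mul _) (is.const_mul _)]
    refine integral_mono_ae (iF i) ((iA.const_mul _).add (is.const_mul _)) ?_
    filter_upwards [hb] with x hx
    have h3 := mul_le_mul_of_nonneg_left (car2_pointwise (norm_nonneg _) (hx i))
      (car2_cw_pos K β x).le
    simp only [← Finset.mul_sum, Real.norm_eq_abs, sq_abs]
    linarith
  set Y := ∑ j, Iy j with hY
  set Γ := ∑ j, ∑ k, IG j k with hΓ
  have hY0 : 0 ≤ Y := Finset.sum_nonneg fun j _ => hIy0 j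
  have hΓ0 : 0 ≤ Γ := Finset.sum_nonneg fun j _ => Finset.sum_nonneg fun k _ => hIG0 j k
  have h3 : K * (‖β‖ ^ 2 * Y + Γ) ≤ n * (2 * (12 * n * C₀ ^ 2 * (Y + Γ) + 2 * Is)) := by
    have := Finset.sum_le_sum (s := Finset.univ) fun i _ =>
      (h1 i).trans (mul_le_mul_of_nonneg_left (h2 i) zero_le_two)
    rw [← Finset.mul_sum, Finset.sum_add_distrib, ← Finset.mul_sum, Finset.sum_const,
      nsmul_eq_mul, Finset.card_univ] at this
    exact this
  have h4 : ‖β‖ ^ 2 * Y + Γ ≤ 4 * n * Is := by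
    have hb2 : 1 ≤ ‖β‖ ^ 2 := one_le_pow₀ hβ1
    have h5 : Y ≤ ‖β‖ ^ 2 * Y := le_mul_of_one_le_left hY0 hb2
    have h6 := mul_le_mul_of_nonneg_left h5 (show 0 ≤ 24 * n ^ 2 * C₀ ^ 2 by positivity)
    rw [hK_def] at h3
    nlinarith
  have h5 : 4 * n * Is ≤ (√(4 * n * Real.exp (K * R ^ 2)) * wn univ β s) ^ 2 := by
    rw [mul_pow, Real.sq_sqrt (by positivity), mul_assoc (4 * n)]
    exact mul_le_mul_of_nonneg_left (car2_le_wn_sq hK β hs hvs) (by positivity)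
  have h0 : 0 ≤ √(4 * n * Real.exp (K * R ^ 2)) * wn univ β s :=
    mul_nonneg (Real.sqrt_nonneg _) (wn_nonneg _ _ _)
  have hbY : 0 ≤ ‖β‖ ^ 2 * Y := by positivity
  intro i
  refine ⟨(abs_le_of_sq_le_sq' ?_ h0).2, fun k => (abs_le_of_sq_le_sq' ?_ h0).2⟩
  · have h6 : Iy i ≤ Y := Finset.single_le_sum (fun j _ => hIy0 j) (Finset.mem_univ i)
    have h7 : wn univ β (y i) ^ 2 ≤ Iy i := car2_wn_sq_le hK β (hy i).l2 (hv i)
    have h8 := mul_le_mul_of_nonneg_left (h7.trans h6) (sq_nonneg ‖β‖)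
    rw [mul_pow]
    linarith
  · have h6 : IG i k ≤ ∑ k, IG i k :=
      Finset.single_le_sum (fun j _ => hIG0 i j) (Finset.mem_univ k)
    have h6' : ∑ k, IG i k ≤ Γ :=
      Finset.single_le_sum (f := fun j => ∑ k, IG j k)
        (fun j _ => Finset.sum_nonneg fun k _ => hIG0 j k) (Finset.mem_univ i)
    have h7 : wn univ β (G i k) ^ 2 ≤ IG i k := car2_wn_sq_le hK β ((hy i).l2G k) (hvG i k)
    linarith

end Crest.Agent.R80
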