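import Crest.Agent.R80.Calc2

/-!
# Row 80: Carleman estimate for the Laplacian, smooth case
-/

namespace Crest.Agent.R80

open MeasureTheory Set Metric Filter Topology Complex
open scoped ContDiff
open Crest.AnalysisR.VecCalc3 Crest.AnalysisR.PDE Crest.AnalysisR.PDE.Elasticity

/-- the weight `e^{2ψ}`, `ψ = K|x|²/2 - β·x`. -/
noncomputable def cw (K : ℝ) (β x : R3) : ℝ := Real.exp (K * ‖x‖ ^ 2 - 2 * inner ℝ β x)

namespace Car2a

/-- `f` is differentiable at `x` with `i`-th partial derivative `d`. -/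
def HP (i : Fin 3) (f : R3 → ℂ) (d : ℂ) (x : R3) : Prop := DifferentiableAt ℝ f x ∧ pd i f x = d

variable {i : Fin 3} {f g : R3 → ℂ} {d e : ℂ} {x : R3}

theorem HP.of (i : Fin 3) (hf : ContDiff ℝ ∞ f) (x : R3) : HP i f (pd i f x) x :=
  ⟨hf.differentiable (by simp) x, rfl⟩

theorem HP.add (hf : HP i f d x) (hg : HP i g e x) : HP i (fun y => f y + g y) (d + e) x :=
  ⟨hf.1.add hg.1, by rw [pd_add i hf.1 hg.1, hf.2, hg.2]⟩

theorem HP.sub (hf : HP i f d x) (hg : HP i g e x) : HP i (fun y => f y - g y) (d - e) x :=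
  ⟨hf.1.sub hg.1, by rw [pd_sub i hf.1 hg.1, hf.2, hg.2]⟩

theorem HP.mul (hf : HP i f d x) (hg : HP i g e x) :
    HP i (fun y => f y * g y) (d * g x + f x * e) x :=
  ⟨hf.1.mul hg.1, by rw [pd_mul i hf.1 hg.1, hf.2, hg.2]⟩

theorem HP.cmul (c : ℂ) (hf : HP i f d x) : HP i (fun y => c * f y) (c * d) x :=
  ⟨hf.1.const_mul c, by rw [pd_const_mul i c hf.1, hf.2]⟩

theorem HP.sum {F : Fin 3 → R3 → ℂ} {D : Fin 3 → ℂ} (h : ∀ j, HP i (F j) (D j) x) :
    HP i (fun y => ∑ j, F j y) (∑ j, D j) x :=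
  ⟨DifferentiableAt.fun_sum fun j _ => (h j).1, by
    rw [pd_sum i Finset.univ fun j _ => (h j).1]
    exact Finset.sum_congr rfl fun j _ => (h j).2⟩

theorem HP.cexp (hf : HP i f d x) : HP i (fun y => Complex.exp (f y)) (Complex.exp (f x) * d) x :=
  ⟨hf.1.cexp, by rw [pd_cexp i hf.1, hf.2]⟩

theorem HP.coord (i j : Fin 3) (x : R3) :
    HP i (fun y : R3 => ((y j : ℝ) : ℂ)) (if i = j then 1 else 0) x :=
  ⟨(contDiff_coord 1 j).differentiable (by simp) x, pd_coord i j x⟩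

theorem HP.const (i : Fin 3) (c : ℂ) (x : R3) : HP i (fun _ => c) 0 x :=
  ⟨differentiableAt_const c, pd_const i c x⟩

/-- the components of `b = K x - β` -/
noncomputable def bc (K : ℝ) (β : R3) (j : Fin 3) (x : R3) : ℂ := (K : ℂ) * (x j : ℝ) - (β j : ℝ)

theorem bc_eq (K : ℝ) (β : R3) (j : Fin 3) (x : R3) : (((K • x - β) j : ℝ) : ℂ) = bc K β j x := by
  simp [bc]

theorem contDiff_bc (K : ℝ) (β : R3) (j : Fin 3) : ContDiff ℝ ∞ (bc K β j) :=
  (contDiff_const.mul (contDiff_coord ∞ j)).sub contDiff_const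

theorem hp_bc (K : ℝ) (β : R3) (i j : Fin 3) (x : R3) :
    HP i (bc K β j) ((K : ℂ) * (if i = j then 1 else 0) - 0) x :=
  ((HP.coord i j x).cmul K).sub (HP.const i _ x)

/-- `|b|²` -/
noncomputable def b2 (K : ℝ) (β : R3) (x : R3) : ℂ := ∑ j, bc K β j x * bc K β j x

theorem b2_eq (K : ℝ) (β : R3) (x : R3) : ((‖K • x - β‖ ^ 2 : ℝ) : ℂ) = b2 K β x := by
  rw [EuclideanSpace.real_norm_sq_eq, Complex.ofReal_sum]
  refine Finset.sum_congr rfl fun j _ => ?_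
  rw [← bc_eq]
  push_cast
  ring

theorem contDiff_b2 (K : ℝ) (β : R3) : ContDiff ℝ ∞ (b2 K β) :=
  ContDiff.sum fun j _ => (contDiff_bc K β j).mul (contDiff_bc K β j)

noncomputable def So (K : ℝ) (β : R3) (v : R3 → ℂ) (x : R3) : ℂ := lap v x + b2 K β x * v x

noncomputable def Ao (K : ℝ) (β : R3) (v : R3 → ℂ) (x : R3) : ℂ :=
  -2 * ∑ j, bc K β j x * pd j v x - 3 * K * v x

noncomputable def Go (K : ℝ) (β : R3) (v w : R3 → ℂ) (x : R3) : ℂ :=
  4 * K * (∑ j, pd j v x * pd j w x + b2 K β x * (v x * w x))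

noncomputable def Vo (K : ℝ) (β : R3) (v w : R3 → ℂ) (i : Fin 3) (x : R3) : ℂ :=
  -2 * (pd i v x * ∑ j, bc K β j x * pd j w x + pd i w x * ∑ j, bc K β j x * pd j v x) +
    2 * (bc K β i x * ∑ j, pd j v x * pd j w x) - 3 * K * (v x * pd i w x + w x * pd i v x) -
    2 * (b2 K β x * bc K β i x * (v x * w x))

variable {K : ℝ} {β : R3} {v w : R3 → ℂ} {U : Set R3}

theorem tst_So (hv : Tst U v) : Tst U (So K β v) :=
  Tk.add hv.lap (Tk.mul_left (contDiff_b2 K β) hv)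

theorem tst_bd (hv : Tst U v) : Tst U fun x => ∑ j, bc K β j x * pd j v x :=
  Tk.sum Finset.univ fun j _ => Tk.mul_left (contDiff_bc K β j) (hv.pd j)

theorem tst_Ao (hv : Tst U v) : Tst U (Ao K β v) :=
  Tk.sub' (Tk.const_mul _ (tst_bd hv)) (Tk.const_mul _ hv)

theorem tst_dd (hv : Tst U v) (hw : Tst U w) : Tst U fun x => ∑ j, pd j v x * pd j w x :=
  Tk.sum Finset.univ fun j _ => Tk.mul_left (hv.pd j).cd (hw.pd j)

theorem tst_Go (hv : Tst U v) (hw : Tst U w) : Tst U (Go K β v w) :=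
  Tk.const_mul _ (Tk.add (tst_dd hv hw) (Tk.mul_left (contDiff_b2 K β) (Tk.mul_left hv.cd hw)))

theorem tst_Vo (hv : Tst U v) (hw : Tst U w) (i : Fin 3) : Tst U (Vo K β v w i) :=
  Tk.sub' (Tk.sub' (Tk.add
    (Tk.const_mul _ (Tk.add (Tk.mul_left (hv.pd i).cd (tst_bd hw))
      (Tk.mul_left (hw.pd i).cd (tst_bd hv))))
    (Tk.const_mul _ (Tk.mul_left (contDiff_bc K β i) (tst_dd hv hw))))
    (Tk.const_mul _ (Tk.add (Tk.mul_left hv.cd (hw.pd i)) (Tk.mul_left hw.cd (hv.pd i)))))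
    (Tk.const_mul _ (Tk.mul_left ((contDiff_b2 K β).mul (contDiff_bc K β i)) (Tk.mul_left hv.cd hw)))

theorem pointwise (hv : ContDiff ℝ ∞ v) (hw : ContDiff ℝ ∞ w) (x : R3) :
    So K β v x * Ao K β w x + So K β w x * Ao K β v x =
      Go K β v w x + ∑ i, pd i (Vo K β v w i) x := by
  have pv := fun i j => HP.of i (contDiff_pd_top j hv) x
  have pw := fun i j => HP.of i (contDiff_pd_top j hw) x
  have pb := fun i j => hp_bc K β i j x
  have key := fun i => (((((((pv i i).mul (HP.sum fun j => (pb i j).mul (pw i j))).add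
      ((pw i i).mul (HP.sum fun j => (pb i j).mul (pv i j)))).cmul (-2)).add
      (((pb i i).mul (HP.sum fun j => (pv i j).mul (pw i j))).cmul 2)).sub
      ((((HP.of i hv x).mul (pw i i)).add ((HP.of i hw x).mul (pv i i))).cmul (3 * K))).sub
      ((((HP.sum fun j => (pb i j).mul (pb i j)).mul (pb i i)).mul
        ((HP.of i hv x).mul (HP.of i hw x))).cmul 2)).2
  have key' : ∀ i, pd i (Vo K β v w i) x = _ := key
  have h2 : (2 : WithTop ℕ∞) ≤ ∞ := WithTop.coe_le_coe.2 (le_top (a := (2 : ℕ∞)))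
  have cv := fun i j => pd_comm i j (hv.of_le h2).contDiffAt (x := x)
  have cw := fun i j => pd_comm i j (hw.of_le h2).contDiffAt (x := x)
  simp only [key', So, Ao, Go, b2, lap, Fin.sum_univ_three, cv 1 0, cv 2 0, cv 2 1, cw 1 0, cw 2 0,
    cw 2 1]
  simp only [if_true, Fin.reduceEq, if_false]
  ring

theorem bil_id (hv : Tst U v) (hw : Tst U w) :
    ∫ x, (So K β v x * Ao K β w x + So K β w x * Ao K β v x) = ∫ x, Go K β v w x := by
  simp only [pointwise hv.cd hw.cd]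
  rw [integral_add (tst_Go hv hw).integrable
    (integrable_finsetSum _ fun i _ => ((tst_Vo hv hw i).pd i).integrable),
    integral_finsetSum _ fun i _ => ((tst_Vo hv hw i).pd i).integrable]
  simp [fun i => integral_pd_eq_zero (tst_Vo (K := K) (β := β) hv hw i).tk1 i]

theorem sq_int (hv : Tst U v) : Integrable fun x => ‖v x‖ ^ 2 := by
  have := (Tk.mul_left hv.cd hv).integrable.norm
  simpa [norm_mul, sq] using this

theorem bc_conj (j : Fin 3) (x : R3) : starRingEnd ℂ (bc K β j x) = bc K β j x := by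
  rw [← bc_eq, Complex.conj_ofReal]

theorem pd_conj' (i : Fin 3) (f : R3 → ℂ) :
    pd i (fun y => starRingEnd ℂ (f y)) = fun x => starRingEnd ℂ (pd i f x) :=
  funext fun x => pd_conj i f x

theorem So_conj (x : R3) :
    So K β (fun y => starRingEnd ℂ (v y)) x = starRingEnd ℂ (So K β v x) := by
  simp only [So, lap, b2, pd_conj', map_add, map_mul, map_sum, bc_conj]

theorem Ao_conj (x : R3) :
    Ao K β (fun y => starRingEnd ℂ (v y)) x = starRingEnd ℂ (Ao K β v x) := by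
  simp only [Ao, pd_conj', map_sub, map_mul, map_sum, bc_conj, map_neg, Complex.conj_ofReal,
    map_ofNat]

theorem Go_conj (x : R3) : (Go K β v (fun y => starRingEnd ℂ (v y)) x).re =
    4 * K * (∑ j, ‖pd j v x‖ ^ 2 + ‖K • x - β‖ ^ 2 * ‖v x‖ ^ 2) := by
  have : Go K β v (fun y => starRingEnd ℂ (v y)) x =
      ((4 * K * (∑ j, ‖pd j v x‖ ^ 2 + ‖K • x - β‖ ^ 2 * ‖v x‖ ^ 2) : ℝ) : ℂ) := by
    simp only [Go, pd_conj', Complex.mul_conj', ← b2_eq]
    push_cast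
    rfl
  rw [this, Complex.ofReal_re]

theorem energy (hv : Tst U v) :
    ∫ x, 4 * K * (∑ j, ‖pd j v x‖ ^ 2 + ‖K • x - β‖ ^ 2 * ‖v x‖ ^ 2) ≤
      ∫ x, ‖So K β v x + Ao K β v x‖ ^ 2 := by
  have hw := Tk.conj hv
  have h1 := bil_id (K := K) (β := β) hv hw
  have hF := (Tk.add (Tk.mul_left (tst_So (K := K) (β := β) hv).cd (tst_Ao (K := K) (β := β) hw))
    (Tk.mul_left (tst_So (K := K) (β := β) hw).cd (tst_Ao (K := K) (β := β) hv))).integrable
  have hG := (tst_Go (K := K) (β := β) hv hw).integrable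
  have e1 := integral_re hF
  have e2 := integral_re hG
  rw [h1, ← e2] at e1
  simp only [RCLike.re_to_complex, Go_conj] at e1
  rw [← e1]
  refine integral_mono hF.re (sq_int (Tk.add (tst_So hv) (tst_Ao hv))) fun x => ?_
  simp only [So_conj, Ao_conj]
  generalize So K β v x = s
  generalize Ao K β v x = a
  rw [← Complex.normSq_eq_norm_sq, Complex.normSq_apply]
  simp only [Complex.add_re, Complex.mul_re, Complex.conj_re, Complex.conj_im, Complex.add_im]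
  nlinarith [sq_nonneg s.re, sq_nonneg s.im, sq_nonneg a.re, sq_nonneg a.im]

/-- the exponent `ψ` -/
noncomputable def ps (K : ℝ) (β : R3) (x : R3) : ℂ :=
  (K / 2 : ℂ) * ∑ j, ((x j : ℝ) : ℂ) * ((x j : ℝ) : ℂ) - ∑ j, ((β j : ℝ) : ℂ) * ((x j : ℝ) : ℂ)

theorem contDiff_ps (K : ℝ) (β : R3) : ContDiff ℝ ∞ (ps K β) :=
  (contDiff_const.mul (ContDiff.sum fun j _ => (contDiff_coord ∞ j).mul (contDiff_coord ∞ j))).sub
    (ContDiff.sum fun j _ => contDiff_const.mul (contDiff_coord ∞ j))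

theorem hp_ps (K : ℝ) (β : R3) (i : Fin 3) (x : R3) : HP i (ps K β) (bc K β i x) x := by
  have h := ((HP.sum fun j => (HP.coord i j x).mul (HP.coord i j x)).cmul (K / 2 : ℂ)).sub
    (HP.sum fun j => (HP.coord i j x).cmul ((β j : ℝ) : ℂ))
  refine ⟨h.1, h.2.trans ?_⟩
  simp only [ite_mul, mul_ite, one_mul, zero_mul, mul_one, mul_zero, Finset.sum_add_distrib,
    Finset.sum_ite_eq, Finset.mem_univ, if_true, bc]
  ring

/-- the weight `e^ψ` -/
noncomputable def wt (K : ℝ) (β : R3) (x : R3) : ℂ := Complex.exp (ps K β x)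

theorem contDiff_wt (K : ℝ) (β : R3) : ContDiff ℝ ∞ (wt K β) := (contDiff_ps K β).cexp

theorem hp_wt (K : ℝ) (β : R3) (i : Fin 3) (x : R3) :
    HP i (wt K β) (wt K β x * bc K β i x) x := (hp_ps K β i x).cexp

theorem norm_wt (K : ℝ) (β : R3) (x : R3) : ‖wt K β x‖ ^ 2 = cw K β x := by
  have : ps K β x = ((K / 2 * ‖x‖ ^ 2 - inner ℝ β x : ℝ) : ℂ) := by
    rw [EuclideanSpace.real_norm_sq_eq, PiLp.inner_apply]
    simp only [ps, Fin.sum_univ_three, RCLike.inner_apply, conj_trivial]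
    push_cast
    ring
  rw [wt, this, ← Complex.ofReal_exp, Complex.norm_real, Real.norm_eq_abs, sq_abs, sq,
    ← Real.exp_add, cw]
  congr 1
  ring

theorem pd_wt_mul {y : R3 → ℂ} (hy : ContDiff ℝ ∞ y) (i : Fin 3) :
    pd i (fun x => wt K β x * y x) =
      fun x => bc K β i x * (wt K β x * y x) + wt K β x * pd i y x := by
  funext x
  rw [((hp_wt K β i x).mul (HP.of i hy x)).2]
  ring

theorem conj_lap {y : R3 → ℂ} (hy : ContDiff ℝ ∞ y) (x : R3) :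
    So K β (fun x => wt K β x * y x) x + Ao K β (fun x => wt K β x * y x) x =
      wt K β x * lap y x := by
  have key : ∀ i, pd i (fun x => bc K β i x * (wt K β x * y x) + wt K β x * pd i y x) x = _ :=
    fun i => (((hp_bc K β i i x).mul ((hp_wt K β i x).mul (HP.of i hy x))).add
      ((hp_wt K β i x).mul (HP.of i (contDiff_pd_top i hy) x))).2
  simp only [So, Ao, lap, b2, pd_wt_mul hy, key, Fin.sum_univ_three, if_true]
  ring

end Car2a

open Car2a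

/-- The commutator identity, in bilinear form.  With `b = K x - β`, `S v = Δ v + |b|² v`,
`A v = -2 b·∇v - 3 K v` one has pointwise `2 (S v) (A v) = 4 K (∑ (∂ᵢ v)² + |b|² v²) + ∑ ∂ᵢ Vᵢ`,
`Vᵢ = -4 ∂ᵢv (b·∇v) + 2 bᵢ ∑ (∂ⱼ v)² - 6 K v ∂ᵢ v - 2 |b|² bᵢ v²`. -/
theorem car2_identity (K : ℝ) (β : R3) {v : R3 → ℂ} (hv : Tst univ v) :
    ∫ x, 2 * (lap v x + ((‖K • x - β‖ ^ 2 : ℝ) : ℂ) * v x) *
        (-2 * ∑ i, (((K • x - β) i : ℝ) : ℂ) * pd i v x - 3 * K * v x) =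
      ∫ x, 4 * K * (∑ i, pd i v x ^ 2 + ((‖K • x - β‖ ^ 2 : ℝ) : ℂ) * v x ^ 2) := by
  have h := bil_id (K := K) (β := β) hv hv
  simp only [b2_eq, bc_eq]
  refine Eq.trans (integral_congr_ae (Eventually.of_forall fun x => ?_))
    (h.trans (integral_congr_ae (Eventually.of_forall fun x => ?_)))
  · simp only [So, Ao]
    ring
  · simp only [Go, sq]

/-- Put `v = e^ψ y`, so `e^ψ Δ y = S v + A v`; apply `car2_identity` to the real and imaginary parts of `v`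
(as complex valued functions) to get `4 K ∫ (∑ ‖∂ᵢ v‖² + |b|² ‖v‖²) ≤ ∫ ‖S v + A v‖²`.  On the support
`‖β‖/2 ≤ |b|`, and `e^ψ ∂ᵢ y = ∂ᵢ v - bᵢ v`. -/
theorem car2_smooth {K R : ℝ} (hK : 0 ≤ K) {β : R3} (hβ : 2 * K * R ≤ ‖β‖) {y : R3 → ℂ}
    (hy : Tst (closedBall 0 R) y) :
    K * (‖β‖ ^ 2 * (∫ x, cw K β x * ‖y x‖ ^ 2) + ∑ i, ∫ x, cw K β x * ‖pd i y x‖ ^ 2) ≤
      2 * ∫ x, cw K β x * ‖lap y x‖ ^ 2 := by
  have hv : Tst (closedBall 0 R) fun x => wt K β x * y x := Tk.mul_left (contDiff_wt K β) hy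
  have h1 := energy (K := K) (β := β) hv
  have hc : ∀ (z : R3 → ℂ) (x : R3), cw K β x * ‖z x‖ ^ 2 = ‖wt K β x * z x‖ ^ 2 := fun z x => by
    rw [norm_mul, mul_pow, norm_wt]
  simp only [conj_lap hy.cd] at h1
  simp only [hc]
  set v : R3 → ℂ := fun x => wt K β x * y x with hvdef
  have i1 : Integrable fun x => ‖wt K β x * y x‖ ^ 2 := sq_int hv
  have i2 : ∀ i, Integrable fun x => ‖wt K β x * pd i y x‖ ^ 2 := fun i =>
    sq_int (Tk.mul_left (contDiff_wt K β) (hy.pd i))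
  have hb : ∀ x, ‖K • x - β‖ ^ 2 * ‖v x‖ ^ 2 = ∑ j, ‖bc K β j x * v x‖ ^ 2 := fun x => by
    rw [EuclideanSpace.real_norm_sq_eq, Finset.sum_mul]
    refine Finset.sum_congr rfl fun j _ => ?_
    rw [norm_mul (bc K β j x), mul_pow, ← bc_eq, Complex.norm_real, Real.norm_eq_abs, sq_abs]
  have i3 : Integrable fun x =>
      4 * K * (∑ j, ‖pd j v x‖ ^ 2 + ‖K • x - β‖ ^ 2 * ‖v x‖ ^ 2) := by
    simp only [hb]
    exact ((integrable_finsetSum _ fun j _ => sq_int (hv.pd j)).add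
      (integrable_finsetSum _ fun j _ => sq_int (Tk.mul_left (contDiff_bc K β j) hv))).const_mul _
  rw [← integral_const_mul, ← integral_finsetSum _ fun i _ => i2 i,
    ← integral_add (i1.const_mul _) (integrable_finsetSum _ fun i _ => i2 i), ← integral_const_mul]
  refine le_trans ?_ (mul_le_mul_of_nonneg_left h1 zero_le_two)
  rw [← integral_const_mul]
  refine integral_mono (((i1.const_mul _).add (integrable_finsetSum _ fun i _ => i2 i)).const_mul _)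
    (i3.const_mul _) fun x => ?_
  have p1 : ‖β‖ ^ 2 * ‖v x‖ ^ 2 ≤ 4 * (‖K • x - β‖ ^ 2 * ‖v x‖ ^ 2) := by
    by_cases hx : x ∈ closedBall (0 : R3) R
    · have a1 : ‖x‖ ≤ R := by simpa using hx
      have a2 : ‖β‖ ≤ ‖K • x - β‖ + K * ‖x‖ := by
        calc ‖β‖ = ‖K • x - (K • x - β)‖ := by congr 1; abel
          _ ≤ ‖K • x‖ + ‖K • x - β‖ := norm_sub_le _ _
          _ = _ := by rw [norm_smul, Real.norm_eq_abs, abs_of_nonneg hK, add_comm]
      have a3 : K * ‖x‖ ≤ K * R := mul_le_mul_of_nonneg_left a1 hK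
      have a4 : ‖β‖ ≤ 2 * ‖K • x - β‖ := by linarith
      have a5 : ‖β‖ ^ 2 ≤ (2 * ‖K • x - β‖) ^ 2 := pow_le_pow_left₀ (norm_nonneg _) a4 2
      nlinarith [mul_le_mul_of_nonneg_right a5 (sq_nonneg ‖v x‖)]
    · rw [hv.eq_zero hx]
      simp
  have p2 : ∀ j, ‖wt K β x * pd j y x‖ ^ 2 ≤ 2 * ‖pd j v x‖ ^ 2 + 2 * ‖bc K β j x * v x‖ ^ 2 := by
    intro j
    have e : wt K β x * pd j y x = pd j v x - bc K β j x * v x := by
      rw [hvdef, pd_wt_mul hy.cd]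
      ring
    rw [e]
    have a1 := norm_sub_le (pd j v x) (bc K β j x * v x)
    have a2 := pow_le_pow_left₀ (norm_nonneg _) a1 2
    nlinarith [sq_nonneg (‖pd j v x‖ - ‖bc K β j x * v x‖)]
  have p3 := Finset.sum_le_sum fun j (_ : j ∈ Finset.univ) => p2 j
  rw [Finset.sum_add_distrib, ← Finset.mul_sum, ← Finset.mul_sum, ← hb] at p3
  have p4 : 0 ≤ ∑ j, ‖pd j v x‖ ^ 2 := Finset.sum_nonneg fun j _ => sq_nonneg _
  have p5 : 0 ≤ ‖K • x - β‖ ^ 2 * ‖v x‖ ^ 2 := by positivity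
  have p6 : ‖β‖ ^ 2 * ‖v x‖ ^ 2 + ∑ j, ‖wt K β x * pd j y x‖ ^ 2 ≤
      8 * (∑ j, ‖pd j v x‖ ^ 2 + ‖K • x - β‖ ^ 2 * ‖v x‖ ^ 2) := by linarith
  have p7 := mul_le_mul_of_nonneg_left p6 hK
  show K * (‖β‖ ^ 2 * ‖v x‖ ^ 2 + ∑ j, ‖wt K β x * pd j y x‖ ^ 2) ≤
    2 * (4 * K * (∑ j, ‖pd j v x‖ ^ 2 + ‖K • x - β‖ ^ 2 * ‖v x‖ ^ 2))
  linarith

end Crest.Agent.R80
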