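import Crest.Agent.R80.Coef
import Crest.Agent.R80.Weak2

/-!
# Row 80: Ikehata's substitution
-/

namespace Crest.Agent.R80

open MeasureTheory Set Metric Filter Topology Complex
open scoped ContDiff
open Crest.AnalysisR.VecCalc3 Crest.AnalysisR.PDE Crest.AnalysisR.PDE.Elasticity

variable (c : Co) {U : Set R3} {y : Option (Fin 3) → R3 → ℂ} {G : Option (Fin 3) → Fin 3 → R3 → ℂ}
  {G2 : Option (Fin 3) → Fin 3 → Fin 3 → R3 → ℂ}

theorem Ike_zero (hU : MeasurableSet U) {F : Fin 3 → R3 → ℂ} (hF : ∀ i, L2 U (F i))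
    (h0 : ∀ᵐ x : R3, x ∈ U → ∑ i, F i x = 0) {n : WithTop ℕ∞} {φ : R3 → ℂ} (hφ : Tk n U φ) :
    ∑ i, ∫ x, F i x * φ x = 0 := by
  rw [← integral_finsetSum _ fun i _ => L2.integrable_mul_tk hU (hF i) hφ]
  simp only [← Finset.sum_mul]
  rw [integral_mul_tk_congr hU hφ h0]
  simp

/-- the equation for `f` written out. -/
theorem Ike_none {x : R3} (h : ∑ k, G2 none k k x + ∑ k, ∑ j, c.IA k none j x * G j k x +
      ∑ j, c.IB none j x * y j x = 0) :
    ∑ k, G2 none k k x + 2 * c.ka x * ∑ k, G (some k) k x -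
      (4 * c.ka x - 1) * (∑ k, c.a k x * y (some k) x + c.trH x * y none x) = 0 := by
  simp only [Co.IA, Co.IB, Fintype.sum_option, ite_mul, zero_mul, zero_add, Finset.sum_ite_eq,
    Finset.mem_univ, if_true] at h
  simp only [Fin.sum_univ_three] at h ⊢
  linear_combination h

theorem Ike_flux (hU : IsOpen U) (h : ∀ i, H2 U (y i) (G i) (G2 i)) (i j : Fin 3) :
    H1 U (fun x => G (some j) i x - c.a i x * y (some j) x - c.a j x * y (some i) x -
      2 * y none x * c.H i j x) fun k x => G2 (some j) i k x -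
        (pd k (c.a i) x * y (some j) x + c.a i x * G (some j) k x) -
        (pd k (c.a j) x * y (some i) x + c.a j x * G (some i) k x) -
        2 * (pd k (c.H i j) x * y none x + c.H i j x * G none k x) := by
  have hm := hU.measurableSet
  have ha : ∀ j, Tk 1 univ (c.a j) := fun j => (c.tk_a j).of_le (by norm_num)
  have hH : Tk 1 univ (c.H i j) := (c.tk_H i j).of_le (by norm_num)
  refine (((((h (some j)).h2 i).sub ((h (some j)).h1.mul_tk hU (ha i)) hm).sub
    ((h (some i)).h1.mul_tk hU (ha j)) hm).sub (((h none).h1.mul_tk hU hH).const_mul 2) hm).congr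
    hm (Eventually.of_forall fun x _ => ?_) fun k => Eventually.of_forall fun x _ => rfl
  ring

theorem ike_h1 (hU : IsOpen U) (h : ∀ i, H2 U (y i) (G i) (G2 i)) (j : Fin 3) :
    H1 U (c.iu y G j) fun i => c.iDu y G G2 i j := by
  have ha : Tk 1 univ (c.a j) := (c.tk_a j).of_le (by norm_num)
  have h1 := (((h (some j)).h1.add ((h none).h2 j) hU.measurableSet).add
    ((h none).h1.mul_tk hU ha) hU.measurableSet).mul_bd hU (c.contDiff_expneg.of_le (by norm_num))
    c.bd_expneg fun i => by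
      rw [funext (c.pd_expneg i)]
      exact (c.tk_a i).bd.neg.mul c.bd_expneg
  refine h1.congr hU.measurableSet (Eventually.of_forall fun x _ => ?_)
    fun i => Eventually.of_forall fun x _ => ?_
  · simp only [Co.iu]
    ring
  · simp only [Co.iDu, Co.iu, c.pd_expneg]
    ring

/-- uses only the equation for `f = y none`. -/
theorem ike_div (he : Eqn U c.IA c.IB y G G2 fun _ _ => 0) :
    ∀ᵐ x : R3, x ∈ U → ∑ i, c.iDu y G G2 i i x = (1 - 2 * c.ka x) * c.ie y G x := by
  filter_upwards [he none] with x hx hxU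
  have h1 := Ike_none c (hx hxU)
  simp only [Co.iDu, Co.iu, Co.ie, Co.trH, Co.H, Fin.sum_univ_three] at h1 ⊢
  linear_combination Complex.exp (-c.mc x) * h1

/-- weak form of the equations for `g`:
`∑ᵢ ∫ (∂ᵢ gⱼ - aᵢ gⱼ - aⱼ gᵢ - 2 f Hᵢⱼ) ∂ᵢ ψ = 0` (each flux is `H¹`, `H1.integral_pd_tk1`). -/
theorem ike_g (hU : IsOpen U) (h : ∀ i, H2 U (y i) (G i) (G2 i))
    (he : Eqn U c.IA c.IB y G G2 fun _ _ => 0) (j : Fin 3) {ψ : R3 → ℂ} (hψ : Tk 1 U ψ) :
    ∑ i, ∫ x, (G (some j) i x - c.a i x * y (some j) x - c.a j x * y (some i) x -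
      2 * y none x * c.H i j x) * pd i ψ x = 0 := by
  have hm := hU.measurableSet
  have hF := fun i => Ike_flux c hU h i j
  rw [Finset.sum_congr rfl fun i _ => (hF i).integral_pd_tk1 hU hψ i, Finset.sum_neg_distrib,
    neg_eq_zero]
  refine Ike_zero hm (fun i => (hF i).l2G i) ?_ hψ
  filter_upwards [he (some j)] with x hx hxU
  have h1 := hx hxU
  simp only [Co.IA, Co.IB, Fintype.sum_option, neg_mul, add_mul, ite_mul, zero_mul,
    Finset.sum_neg_distrib, Finset.sum_add_distrib, Finset.sum_ite_eq, Finset.mem_univ,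
    if_true] at h1
  simp only [Fin.sum_univ_three] at h1 ⊢
  linear_combination h1

/-- Pointwise `μ (Duᵢⱼ + Duⱼᵢ) = (∂ᵢgⱼ - aᵢgⱼ - aⱼgᵢ - 2 f Hᵢⱼ) + ∂ⱼgᵢ + fⱼᵢ + fᵢⱼ`.  By `H1.swap_tk1`,
`∫ ∂ⱼgᵢ ∂ᵢψⱼ = ∫ ∂ᵢgᵢ ∂ⱼψⱼ` and `∫ ∂ⱼ(∂ᵢf) ∂ᵢψⱼ = ∫ ∂ᵢ(∂ᵢf) ∂ⱼψⱼ` (and `H2.symm`), so the integral is
`∫ div ψ (λ div u + div g + 2 Δ f)`, and the bracket vanishes a.e. by `ike_div`, `Co.lam_mul` and the equation
for `f`. -/
theorem ike_lame (hU : IsOpen U) (h : ∀ i, H2 U (y i) (G i) (G2 i))
    (he : Eqn U c.IA c.IB y G G2 fun _ _ => 0) : WLame U c (c.iDu y G G2) := by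
  intro ψ hψ
  have hm := hU.measurableSet
  have hd : ∀ i j, Tk 0 U (pd i (ψ j)) := fun i j => (hψ j).pd (by norm_num) i
  have hP : ∀ i, L2 U fun x => (c.lam x : ℂ) * c.iDu y G G2 i i x := fun i =>
    L2.bd_mul c.bd_lam ((ike_h1 c hU h i).l2G i)
  have hg : ∀ i j, L2 U (G (some i) j) := fun i j => (h (some i)).h1.l2G j
  have hf : ∀ i j, L2 U (G2 none i j) := fun i j => ((h none).h2 i).l2G j
  have i1 := fun i j => L2.integrable_mul_tk hm (Ike_flux c hU h i j).l2 (hd i j)
  have i2 := fun i j => L2.integrable_mul_tk hm (hg i j) (hd i j)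
  have i3 := fun i j => L2.integrable_mul_tk hm (hf j i) (hd i j)
  have i4 := fun i j => L2.integrable_mul_tk hm (hf i j) (hd i j)
  have i5 := fun i j => L2.integrable_mul_tk hm (hP i) (hd j j)
  have e : ∀ x, c.bilc (c.iDu y G G2) ψ x = ∑ i, ∑ j,
      ((G (some j) i x - c.a i x * y (some j) x - c.a j x * y (some i) x -
        2 * y none x * c.H i j x) * pd i (ψ j) x + G (some i) j x * pd i (ψ j) x +
        G2 none j i x * pd i (ψ j) x + G2 none i j x * pd i (ψ j) x +
        (c.lam x : ℂ) * c.iDu y G G2 i i x * pd j (ψ j) x) := by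
    intro x
    have e1 : ∀ i j, (c.mu x : ℂ) * (c.iDu y G G2 i j x + c.iDu y G G2 j i x) =
        (G (some j) i x - c.a i x * y (some j) x - c.a j x * y (some i) x -
          2 * y none x * c.H i j x) + G (some i) j x + G2 none j i x + G2 none i j x := by
      intro i j
      simp only [Co.iDu, Co.iu, Co.H, c.pd_a_symm j i x]
      linear_combination ((G (some j) i x - c.a i x * y (some j) x - c.a j x * y (some i) x -
        2 * y none x * (c.a i x * c.a j x - pd i (c.a j) x)) + G (some i) j x + G2 none j i x +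
        G2 none i j x) * c.mu_mul_expneg x
    simp only [Co.bilc, bil]
    rw [Finset.sum_mul_sum]
    simp only [Finset.mul_sum, ← mul_assoc, e1, ← Finset.sum_add_distrib]
    exact Finset.sum_congr rfl fun i _ => Finset.sum_congr rfl fun j _ => by ring
  have i6 := fun i j => ((((i1 i j).fun_add (i2 i j)).fun_add (i3 i j)).fun_add (i4 i j)).fun_add (i5 i j)
  simp only [e]
  rw [integral_finsetSum _ fun i _ => integrable_finsetSum _ fun j _ => i6 i j,
    Finset.sum_congr rfl fun i _ => integral_finsetSum _ fun j _ => i6 i j]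
  have e2 : ∀ i j, ∫ x, ((G (some j) i x - c.a i x * y (some j) x - c.a j x * y (some i) x -
        2 * y none x * c.H i j x) * pd i (ψ j) x + G (some i) j x * pd i (ψ j) x +
        G2 none j i x * pd i (ψ j) x + G2 none i j x * pd i (ψ j) x +
        (c.lam x : ℂ) * c.iDu y G G2 i i x * pd j (ψ j) x) =
      (∫ x, (G (some j) i x - c.a i x * y (some j) x - c.a j x * y (some i) x -
        2 * y none x * c.H i j x) * pd i (ψ j) x) +
      ∫ x, (G (some i) i x + G2 none i i x + G2 none i i x +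
        (c.lam x : ℂ) * c.iDu y G G2 i i x) * pd j (ψ j) x := by
    intro i j
    have j2 := L2.integrable_mul_tk hm (hg i i) (hd j j)
    have j3 := L2.integrable_mul_tk hm (hf i i) (hd j j)
    simp only [add_mul]
    rw [integral_add ((((i1 i j).fun_add (i2 i j)).fun_add (i3 i j)).fun_add (i4 i j)) (i5 i j),
      integral_add (((i1 i j).fun_add (i2 i j)).fun_add (i3 i j)) (i4 i j),
      integral_add ((i1 i j).fun_add (i2 i j)) (i3 i j), integral_add (i1 i j) (i2 i j),
      integral_add ((j2.fun_add j3).fun_add j3) (i5 i j), integral_add (j2.fun_add j3) j3, integral_add j2 j3,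
      integral_mul_tk_congr hm (hd i j) ((h none).symm hU j i),
      (h (some i)).h1.swap_tk1 hU (hψ j) j i, ((h none).h2 i).swap_tk1 hU (hψ j) j i]
    ring
  simp only [e2]
  rw [Finset.sum_comm]
  refine Finset.sum_eq_zero fun j _ => ?_
  rw [Finset.sum_add_distrib, ike_g c hU h he j (hψ j), zero_add]
  refine Ike_zero hm (fun i => (((hg i i).add' (hf i i)).add' (hf i i)).add' (hP i)) ?_ (hd j j)
  filter_upwards [he none, ike_div c he] with x hx hx' hxU
  have h1 := Ike_none c (hx hxU)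
  have h2 := hx' hxU
  simp only [Co.ie, Fin.sum_univ_three] at h1 h2 ⊢
  linear_combination 2 * h1 + (c.lam x : ℂ) * h2 +
    (Complex.exp (-c.mc x) * c.lam_mul x + (4 * c.ka x - 1) * c.mu_mul_expneg x) *
      (G (some 0) 0 x + G (some 1) 1 x + G (some 2) 2 x - 2 * (c.a 0 x * y (some 0) x +
        c.a 1 x * y (some 1) x + c.a 2 x * y (some 2) x) - 2 * y none x * c.trH x)

end Crest.Agent.R80
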