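import Crest.Agent.R80.Exist

/-!
# Row 80: exact solutions with a two term WKB expansion
-/

namespace Crest.Agent.R80

open MeasureTheory Set Metric Filter Topology Complex
open scoped ContDiff
open Crest.AnalysisR.VecCalc3 Crest.AnalysisR.PDE Crest.AnalysisR.PDE.Elasticity

variable {ι : Type} [Fintype ι] {A : Fin 3 → ι → ι → R3 → ℂ} {B : ι → ι → R3 → ℂ}

theorem wkb_diff {f : R3 → ℂ} (hf : ContDiff ℝ 2 f) (x : R3) : DifferentiableAt ℝ f x :=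
  hf.differentiable (by norm_num) x

theorem wkb_pd1 {f : R3 → ℂ} (hf : ContDiff ℝ 2 f) (k : Fin 3) : ContDiff ℝ 1 (pd k f) :=
  contDiff_pd k hf (by norm_num)

theorem wkb_diff_pd {f : R3 → ℂ} (hf : ContDiff ℝ 2 f) (k : Fin 3) (x : R3) :
    DifferentiableAt ℝ (pd k f) x :=
  (wkb_pd1 hf k).differentiable (by norm_num) x

theorem wkb_pd_ex (η : C3) {f : R3 → ℂ} {x : R3} (hf : DifferentiableAt ℝ f x) (k : Fin 3) :
    pd k (fun y => ex η y * f y) x = ex η x * (η k * f x + pd k f x) := by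
  rw [pd_mul k (wkb_diff (contDiff_ex 2 η) x) hf, pd_ex]
  ring

theorem wkb_pd_pd_ex (η : C3) {f : R3 → ℂ} (hf : ContDiff ℝ 2 f) (k l : Fin 3) (x : R3) :
    pd l (pd k fun y => ex η y * f y) x =
      ex η x * (η l * (η k * f x + pd k f x) + (η k * pd l f x + pd l (pd k f) x)) := by
  have e : (pd k fun y => ex η y * f y) = fun y => ex η y * (η k * f y + pd k f y) :=
    funext fun y => wkb_pd_ex η (wkb_diff hf y) k
  rw [e, wkb_pd_ex η (f := fun y => η k * f y + pd k f y)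
    (((wkb_diff hf x).const_mul _).add (wkb_diff_pd hf k x)),
    pd_add l ((wkb_diff hf x).const_mul _) (wkb_diff_pd hf k x), pd_const_mul l _ (wkb_diff hf x)]

theorem wkb_pd_lin {f g : R3 → ℂ} (c : ℂ) {x : R3} (hf : DifferentiableAt ℝ f x)
    (hg : DifferentiableAt ℝ g x) (k : Fin 3) :
    pd k (fun y => f y + c * g y) x = pd k f x + c * pd k g x := by
  rw [pd_add k hf (hg.const_mul c), pd_const_mul k c hg]

theorem wkb_pd_pd_lin {f g : R3 → ℂ} (c : ℂ) (hf : ContDiff ℝ 2 f) (hg : ContDiff ℝ 2 g)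
    (k l : Fin 3) (x : R3) :
    pd l (pd k fun y => f y + c * g y) x = pd l (pd k f) x + c * pd l (pd k g) x := by
  have e : (pd k fun y => f y + c * g y) = fun y => pd k f y + c * pd k g y :=
    funext fun y => wkb_pd_lin c (wkb_diff hf y) (wkb_diff hg y) k
  rw [e, wkb_pd_lin c (wkb_diff_pd hf k x) (wkb_diff_pd hg k x)]

theorem wkb_Tr_lin (θ : C3) (c : ℂ) {W₀ W₁ : ι → R3 → ℂ} (hW₀ : ∀ i, ContDiff ℝ 2 (W₀ i))
    (hW₁ : ∀ i, ContDiff ℝ 2 (W₁ i)) (i : ι) (x : R3) :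
    Tr θ A (fun j y => W₀ j y + c * W₁ j y) i x = Tr θ A W₀ i x + c * Tr θ A W₁ i x := by
  simp only [Tr, dv, wkb_pd_lin c (wkb_diff (hW₀ i) x) (wkb_diff (hW₁ i) x), mul_add,
    Finset.sum_add_distrib, Finset.mul_sum]
  simp only [mul_left_comm _ c]
  ring

theorem wkb_Pc_lin (c : ℂ) {W₀ W₁ : ι → R3 → ℂ} (hW₀ : ∀ i, ContDiff ℝ 2 (W₀ i))
    (hW₁ : ∀ i, ContDiff ℝ 2 (W₁ i)) (i : ι) (x : R3) :
    Pc A B (fun j y => W₀ j y + c * W₁ j y) i x = Pc A B W₀ i x + c * Pc A B W₁ i x := by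
  simp only [Pc, lap, wkb_pd_lin c (wkb_diff (hW₀ _) x) (wkb_diff (hW₁ _) x),
    wkb_pd_pd_lin c (hW₀ i) (hW₁ i), mul_add, Finset.sum_add_distrib, Finset.mul_sum]
  simp only [mul_left_comm _ c]
  ring

theorem wkb_cont_Pc (hA : ∀ k i j, Tk 1 univ (A k i j)) (hB : ∀ i j, Tk 0 univ (B i j))
    {W : ι → R3 → ℂ} (hW : ∀ i, ContDiff ℝ 2 (W i)) (i : ι) : Continuous (Pc A B W i) := by
  refine (((contDiff_lap (m := 0) (hW i) (by norm_num)).continuous).add ?_).add ?_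
  · exact continuous_finsetSum _ fun k _ => continuous_finsetSum _ fun j _ =>
      (hA k i j).continuous.mul (wkb_pd1 (hW j) k).continuous
  · exact continuous_finsetSum _ fun j _ => (hB i j).continuous.mul (hW j).continuous

theorem wkb_amp (τ : ℝ) (θ : C3) (f g : R3 → ℂ) (a : ℂ) (x : R3)
    (h : f x = ex ((τ : ℂ) • θ) x * a) : amp τ θ (fun y => f y + g y) x = a + amp τ θ g x := by
  simp only [amp, h]
  linear_combination a * ex_neg_smul_mul τ θ x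

theorem wkb_nr_inv {U : Set R3} {τ : ℝ} (hτ : 0 < τ) (f : R3 → ℂ) :
    nr U (fun x => (τ : ℂ)⁻¹ * f x) = nr U f / τ := by
  rw [nr_const_mul, norm_inv, Complex.norm_real, Real.norm_of_nonneg hτ.le, div_eq_inv_mul]

theorem wkb_nr3 {U : Set R3} {τ : ℝ} (hτ : 1 ≤ τ) {P₁ P₂ P₃ R : R3 → ℂ} (h₁ : L2 U P₁)
    (h₂ : L2 U P₂) (h₃ : L2 U P₃) (hR : L2 U R) :
    nr U (fun x => (τ : ℂ) * P₁ x + P₂ x + (τ : ℂ)⁻¹ * P₃ x + R x) ≤
      (nr U P₁ + nr U P₂ + nr U P₃) * τ + nr U R := by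
  have hτ0 : 0 < τ := by linarith
  have e1 := nr_add_le (((h₁.cmul τ).add' h₂).add' (h₃.cmul (τ : ℂ)⁻¹)) hR
  have e2 := nr_add_le ((h₁.cmul τ).add' h₂) (h₃.cmul (τ : ℂ)⁻¹)
  have e3 := nr_add_le (h₁.cmul τ) h₂
  rw [wkb_nr_inv hτ0] at e2
  rw [nr_const_mul, Complex.norm_real, Real.norm_of_nonneg hτ0.le] at e3
  have e4 : nr U P₃ / τ ≤ nr U P₃ := div_le_self (nr_nonneg _ _) hτ
  have e5 : nr U P₂ ≤ nr U P₂ * τ := le_mul_of_one_le_right (nr_nonneg _ _) hτ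
  have e6 : nr U P₃ ≤ nr U P₃ * τ := le_mul_of_one_le_right (nr_nonneg _ _) hτ
  linarith

/-- `P (e^{τθx} W) = e^{τθx} (τ Tr W + P W)`. -/
theorem Pc_ex_mul {θ : C3} (hθ : Null θ) (τ : ℂ) {W : ι → R3 → ℂ} (hW : ∀ i, ContDiff ℝ 2 (W i))
    (i : ι) (x : R3) :
    Pc A B (fun j y => ex (τ • θ) y * W j y) i x =
      ex (τ • θ) x * (τ * Tr θ A W i x + Pc A B W i x) := by
  simp only [Pc, Tr, lap_ex_mul (hθ.smul τ) (hW i), dv_smul,
    wkb_pd_ex (τ • θ) (wkb_diff (hW _) x), Pi.smul_apply, smul_eq_mul, mul_add,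
    Finset.sum_add_distrib, Finset.mul_sum]
  have e1 : ∑ k, ∑ j, A k i j x * (ex (τ • θ) x * (τ * θ k * W j x)) =
      ∑ k, ∑ j, ex (τ • θ) x * (τ * (θ k * A k i j x * W j x)) :=
    Finset.sum_congr rfl fun k _ => Finset.sum_congr rfl fun j _ => by ring
  rw [e1]
  simp only [mul_left_comm _ (ex (τ • θ) x)]
  ring

/-- `y = e^{τθx} (W₀ + W₁/τ) + R` where `R` comes from `exist` with `β = τ Re θ` and
`F = - e^{τθx} P W₁ / τ`. -/
theorem wkb (hA : ∀ k i j, Tk 1 univ (A k i j)) (hB : ∀ i j, Tk 0 univ (B i j)) (r : ℝ) {θ : C3}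
    (hθ : Null θ) (h0 : θ ≠ 0) {W₀ W₁ : ι → R3 → ℂ} (hW₀ : ∀ i, ContDiff ℝ 2 (W₀ i))
    (hW₁ : ∀ i, ContDiff ℝ 2 (W₁ i)) (T₀ : ∀ i x, Tr θ A W₀ i x = 0)
    (T₁ : ∀ i x, Tr θ A W₁ i x + Pc A B W₀ i x = 0) :
    ∃ C τ₀ : ℝ, 0 ≤ C ∧ 1 ≤ τ₀ ∧ ∀ τ : ℝ, τ₀ ≤ τ →
      ∃ (y : ι → R3 → ℂ) (G : ι → Fin 3 → R3 → ℂ) (G2 : ι → Fin 3 → Fin 3 → R3 → ℂ),
        (∀ i, H2 (ball 0 r) (y i) (G i) (G2 i)) ∧ Eqn (ball 0 r) A B y G G2 (fun _ _ => 0) ∧
        ∀ i, nr (ball 0 r) (fun x => amp τ θ (y i) x - W₀ i x) ≤ C / τ ∧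
          (∀ k, nr (ball 0 r) (fun x => amp τ θ (G i k) x -
            (τ * θ k * W₀ i x + pd k (W₀ i) x + θ k * W₁ i x)) ≤ C / τ) ∧
          ∀ k l, nr (ball 0 r) (fun x => amp τ θ (G2 i k l) x - τ ^ 2 * θ k * θ l * W₀ i x) ≤
            C * τ := by
  obtain ⟨C₀, τ₁, hC₀, hτ₁, hex⟩ := exist hA hB r
  have hU : MeasurableSet (ball (0 : R3) r) := measurableSet_ball
  have hUb : Bornology.IsBounded (ball (0 : R3) r) := isBounded_ball
  have hb : 0 < ‖rp θ‖ := norm_pos_iff.2 (hθ.rp_ne_zero h0)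
  set b := ‖rp θ‖ with hbdef
  set M := ∑ j, nr (ball 0 (r + 2)) (Pc A B W₁ j) with hMdef
  have hM : 0 ≤ M := Finset.sum_nonneg fun j _ => nr_nonneg _ _
  let P₁ : ι → Fin 3 → Fin 3 → R3 → ℂ := fun i k l x =>
    θ k * θ l * W₁ i x + θ k * pd l (W₀ i) x + θ l * pd k (W₀ i) x
  let P₂ : ι → Fin 3 → Fin 3 → R3 → ℂ := fun i k l x =>
    θ k * pd l (W₁ i) x + θ l * pd k (W₁ i) x + pd l (pd k (W₀ i)) x
  let P₃ : ι → Fin 3 → Fin 3 → R3 → ℂ := fun i k l => pd l (pd k (W₁ i))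
  have c₀ : ∀ i k, Continuous (pd k (W₀ i)) := fun i k => (wkb_pd1 (hW₀ i) k).continuous
  have c₁ : ∀ i k, Continuous (pd k (W₁ i)) := fun i k => (wkb_pd1 (hW₁ i) k).continuous
  have l₁ : ∀ i k l, L2 (ball 0 r) (P₁ i k l) := fun i k l => L2.of_continuous hU hUb
    (((continuous_const.mul (hW₁ i).continuous).add (continuous_const.mul (c₀ i l))).add
      (continuous_const.mul (c₀ i k)))
  have l₂ : ∀ i k l, L2 (ball 0 r) (P₂ i k l) := fun i k l => L2.of_continuous hU hUb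
    (((continuous_const.mul (c₁ i l)).add (continuous_const.mul (c₁ i k))).add
      (continuous_pd l (wkb_pd1 (hW₀ i) k)))
  have l₃ : ∀ i k l, L2 (ball 0 r) (P₃ i k l) := fun i k l => L2.of_continuous hU hUb
    (continuous_pd l (wkb_pd1 (hW₁ i) k))
  obtain ⟨D, hD⟩ := (Set.finite_range fun q : ι × Fin 3 × Fin 3 =>
    nr (ball 0 r) (W₁ q.1) + nr (ball 0 r) (pd q.2.1 (W₁ q.1)) +
      (nr (ball 0 r) (P₁ q.1 q.2.1 q.2.2) + nr (ball 0 r) (P₂ q.1 q.2.1 q.2.2) +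
        nr (ball 0 r) (P₃ q.1 q.2.1 q.2.2))).bddAbove
  have hD' : ∀ i k l, nr (ball 0 r) (W₁ i) ≤ max D 0 ∧ nr (ball 0 r) (pd k (W₁ i)) ≤ max D 0 ∧
      nr (ball 0 r) (P₁ i k l) + nr (ball 0 r) (P₂ i k l) + nr (ball 0 r) (P₃ i k l) ≤ max D 0 := by
    intro i k l
    have h1 := (hD ⟨(i, k, l), rfl⟩).trans (le_max_left D 0)
    have h2 := nr_nonneg (ball 0 r) (W₁ i)
    have h3 := nr_nonneg (ball 0 r) (pd k (W₁ i))
    have h4 := nr_nonneg (ball 0 r) (P₁ i k l)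
    have h5 := nr_nonneg (ball 0 r) (P₂ i k l)
    have h6 := nr_nonneg (ball 0 r) (P₃ i k l)
    simp only at h1
    exact ⟨by linarith, by linarith, by linarith⟩
  have hD0 : 0 ≤ max D 0 := le_max_right D 0
  generalize max D 0 = D' at hD' hD0
  have hCM : 0 ≤ C₀ * M := mul_nonneg hC₀ hM
  have hq1 : 0 ≤ C₀ * M / b := div_nonneg hCM hb.le
  have hq2 : 0 ≤ C₀ * M * b := mul_nonneg hCM hb.le
  refine ⟨D' + (C₀ * M / b + C₀ * M + C₀ * M * b), max 1 (τ₁ / b), by positivity, le_max_left _ _,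
    fun τ hτ => ?_⟩
  have hτ1 : 1 ≤ τ := (le_max_left _ _).trans hτ
  have hτ0 : 0 < τ := by linarith
  have hτc : (τ : ℂ) ≠ 0 := Complex.ofReal_ne_zero.2 hτ0.ne'
  have hβ : ‖τ • rp θ‖ = τ * b := by rw [norm_smul, Real.norm_of_nonneg hτ0.le]
  have hβ1 : τ₁ ≤ ‖τ • rp θ‖ := by
    rw [hβ]
    exact (div_le_iff₀ hb).1 ((le_max_right _ _).trans hτ)
  let W : ι → R3 → ℂ := fun j y => W₀ j y + (τ : ℂ)⁻¹ * W₁ j y
  have hW : ∀ j, ContDiff ℝ 2 (W j) := fun j => (hW₀ j).add (contDiff_const.mul (hW₁ j))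
  let u : ι → R3 → ℂ := fun j y => ex ((τ : ℂ) • θ) y * W j y
  have hu : ∀ j, ContDiff ℝ 2 (u j) := fun j => (contDiff_ex 2 _).mul (hW j)
  let F : ι → R3 → ℂ := fun j y => ex ((τ : ℂ) • θ) y * (-((τ : ℂ)⁻¹ * Pc A B W₁ j y))
  have hF : ∀ j, L2 (ball 0 (r + 2)) (F j) := fun j =>
    L2.of_continuous measurableSet_ball isBounded_ball
      ((contDiff_ex 0 _).continuous.mul (continuous_const.mul (wkb_cont_Pc hA hB hW₁ j)).neg)
  have hPu : ∀ i x, Pc A B u i x + F i x = 0 := by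
    intro i x
    have h1 := Pc_ex_mul (A := A) (B := B) hθ τ hW i x
    rw [wkb_Tr_lin θ _ hW₀ hW₁, wkb_Pc_lin _ hW₀ hW₁, T₀, zero_add, ← mul_assoc (τ : ℂ),
      mul_inv_cancel₀ hτc, one_mul, ← add_assoc, T₁, zero_add] at h1
    change Pc A B (fun j y => ex ((τ : ℂ) • θ) y * W j y) i x +
      ex ((τ : ℂ) • θ) x * (-((τ : ℂ)⁻¹ * Pc A B W₁ i x)) = 0
    rw [h1]
    ring
  have hFM : ∑ j, wn (ball 0 (r + 2)) (τ • rp θ) (F j) = M / τ := by
    rw [hMdef, Finset.sum_div]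
    refine Finset.sum_congr rfl fun j _ => ?_
    have e : amp τ θ (F j) = fun x => -((τ : ℂ)⁻¹ * Pc A B W₁ j x) := by
      funext x
      simp only [amp, F]
      rw [← mul_assoc, ex_neg_smul_mul, one_mul]
    rw [← nr_amp, e, nr_neg, wkb_nr_inv hτ0]
  obtain ⟨R, G, G2, hH, hE, hbd⟩ := hex (τ • rp θ) hβ1 F hF
  rw [hFM, hβ] at hbd
  refine ⟨fun i x => u i x + R i x, fun i k x => pd k (u i) x + G i k x,
    fun i k l x => pd l (pd k (u i)) x + G2 i k l x,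
    fun i => (H2.of_contDiff hU hUb (hu i)).add (hH i) hU, fun i => ?_, fun i => ⟨?_, ?_, ?_⟩⟩
  · filter_upwards [hE i] with x hx hxU
    have h1 := hx hxU
    have h2 := hPu i x
    simp only [Pc, lap] at h2
    simp only [mul_add, Finset.sum_add_distrib]
    linear_combination h1 + h2
  · have e : (fun x => amp τ θ (fun x => u i x + R i x) x - W₀ i x) =
        fun x => (τ : ℂ)⁻¹ * W₁ i x + amp τ θ (R i) x := by
      funext x
      rw [wkb_amp τ θ (u i) (R i) (W i x) x rfl]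
      simp only [W]
      ring
    have h1 := nr_add_le ((L2.of_continuous hU hUb (hW₁ i).continuous).cmul (τ : ℂ)⁻¹)
      ((hH i).h1.l2.amp hU hUb τ θ)
    rw [wkb_nr_inv hτ0, nr_amp] at h1
    have h2 : wn (ball 0 r) (τ • rp θ) (R i) ≤ C₀ * M / b / τ := by
      have h3 := (hbd i).1
      have h4 : C₀ * (M / τ) ≤ C₀ * M := mul_le_mul_of_nonneg_left (div_le_self hM hτ1) hC₀
      rw [div_div, le_div_iff₀ (mul_pos hb hτ0)]
      linarith
    rw [e]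
    refine h1.trans ((add_le_add le_rfl h2).trans ?_)
    rw [← add_div]
    exact div_le_div_of_nonneg_right (by linarith [(hD' i 0 0).1]) hτ0.le
  · intro k
    have e : (fun x => amp τ θ (fun x => pd k (u i) x + G i k x) x -
        (τ * θ k * W₀ i x + pd k (W₀ i) x + θ k * W₁ i x)) =
        fun x => (τ : ℂ)⁻¹ * pd k (W₁ i) x + amp τ θ (G i k) x := by
      funext x
      rw [wkb_amp τ θ (pd k (u i)) (G i k) _ x (wkb_pd_ex _ (wkb_diff (hW i) x) k),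
        wkb_pd_lin _ (wkb_diff (hW₀ i) x) (wkb_diff (hW₁ i) x)]
      simp only [W, Pi.smul_apply, smul_eq_mul]
      linear_combination (θ k * W₁ i x) * mul_inv_cancel₀ hτc
    have h1 := nr_add_le ((L2.of_continuous hU hUb (c₁ i k)).cmul (τ : ℂ)⁻¹)
      (((hH i).h1.l2G k).amp hU hUb τ θ)
    rw [wkb_nr_inv hτ0, nr_amp] at h1
    have h2 : wn (ball 0 r) (τ • rp θ) (G i k) ≤ C₀ * M / τ := by
      rw [mul_div_assoc]
      exact (hbd i).2.1 k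
    rw [e]
    refine h1.trans ((add_le_add le_rfl h2).trans ?_)
    rw [← add_div]
    exact div_le_div_of_nonneg_right (by linarith [(hD' i k 0).2.1]) hτ0.le
  · intro k l
    have e : (fun x => amp τ θ (fun x => pd l (pd k (u i)) x + G2 i k l x) x -
        τ ^ 2 * θ k * θ l * W₀ i x) =
        fun x => (τ : ℂ) * P₁ i k l x + P₂ i k l x + (τ : ℂ)⁻¹ * P₃ i k l x +
          amp τ θ (G2 i k l) x := by
      funext x
      rw [wkb_amp τ θ (pd l (pd k (u i))) (G2 i k l) _ x (wkb_pd_pd_ex _ (hW i) k l x),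
        wkb_pd_lin _ (wkb_diff (hW₀ i) x) (wkb_diff (hW₁ i) x),
        wkb_pd_lin _ (wkb_diff (hW₀ i) x) (wkb_diff (hW₁ i) x),
        wkb_pd_pd_lin _ (hW₀ i) (hW₁ i)]
      simp only [W, P₁, P₂, P₃, Pi.smul_apply, smul_eq_mul]
      linear_combination (τ * θ k * θ l * W₁ i x + θ k * pd l (W₁ i) x + θ l * pd k (W₁ i) x) *
        mul_inv_cancel₀ hτc
    have h1 := wkb_nr3 hτ1 (l₁ i k l) (l₂ i k l) (l₃ i k l) ((((hH i).h2 k).l2G l).amp hU hUb τ θ)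
    rw [nr_amp] at h1
    have h2 : wn (ball 0 r) (τ • rp θ) (G2 i k l) ≤ C₀ * M * b * τ := by
      refine ((hbd i).2.2 k l).trans ?_
      have h3 : C₀ * (τ * b) * (M / τ) = C₀ * M * b := by field_simp
      rw [h3]
      exact le_mul_of_one_le_right hq2 hτ1
    rw [e]
    refine h1.trans ((add_le_add le_rfl h2).trans ?_)
    rw [← add_mul]
    exact mul_le_mul_of_nonneg_right (by linarith [(hD' i k l).2.2]) hτ0.le

end Crest.Agent.R80
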