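import Crest.Agent.R80.Cgo1
import Crest.Agent.R80.Ike
import Crest.Agent.R80.Wkb

/-!
# Row 80: complex geometric optics solutions of the Lamé system
-/

namespace Crest.Agent.R80

open MeasureTheory Set Metric Filter Topology Complex
open scoped ContDiff
open Crest.AnalysisR.VecCalc3 Crest.AnalysisR.PDE Crest.AnalysisR.PDE.Elasticity

/-- a family of `L²` functions that is `O(p τ)`. -/
def CgoO (U : Set R3) (τ₀ : ℝ) (p : ℝ → ℝ) (F : ℝ → R3 → ℂ) : Prop :=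
  ∃ C : ℝ, 0 ≤ C ∧ ∀ τ, τ₀ ≤ τ → L2 U (F τ) ∧ nr U (F τ) ≤ C * p τ

namespace CgoO

variable {U : Set R3} {τ₀ : ℝ} {p q : ℝ → ℝ} {F G : ℝ → R3 → ℂ}

theorem add (h : CgoO U τ₀ p F) (h' : CgoO U τ₀ p G) :
    CgoO U τ₀ p fun τ x => F τ x + G τ x := by
  obtain ⟨C, hC, h⟩ := h
  obtain ⟨C', hC', h'⟩ := h'
  refine ⟨C + C', by linarith, fun τ hτ => ⟨L2.add' (h τ hτ).1 (h' τ hτ).1, ?_⟩⟩
  have := nr_add_le (h τ hτ).1 (h' τ hτ).1
  have h1 := (h τ hτ).2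
  have h2 := (h' τ hτ).2
  linarith

theorem bd_mul (hU : MeasurableSet U) {b : R3 → ℂ} (hb : Bd b) (h : CgoO U τ₀ p F) :
    CgoO U τ₀ p fun τ x => b x * F τ x := by
  obtain ⟨C, hC, h⟩ := h
  obtain ⟨M, hM, hbM⟩ := hb.exists_bound
  refine ⟨M * C, mul_nonneg hM hC, fun τ hτ => ⟨L2.bd_mul hb (h τ hτ).1, ?_⟩⟩
  have h1 : nr U (fun x => b x * F τ x) ≤ M * nr U (F τ) :=
    nr_le_mul_of_le hU (h τ hτ).1 hM (Eventually.of_forall fun x _ => by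
      rw [norm_mul]
      exact mul_le_mul_of_nonneg_right (hbM x) (norm_nonneg _))
  have h2 := mul_le_mul_of_nonneg_left (h τ hτ).2 hM
  linarith

theorem zero (U : Set R3) (τ₀ : ℝ) (p : ℝ → ℝ) : CgoO U τ₀ p fun _ _ => 0 :=
  ⟨0, le_rfl, fun τ _ => ⟨L2.zero' U, by simp⟩⟩

theorem sum {ι : Type*} (s : Finset ι) {F : ι → ℝ → R3 → ℂ} (h : ∀ k ∈ s, CgoO U τ₀ p (F k)) :
    CgoO U τ₀ p fun τ x => ∑ k ∈ s, F k τ x := by
  classical
  induction s using Finset.induction_on with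
  | empty => simpa using zero U τ₀ p
  | insert a s ha ih =>
    simp only [Finset.sum_insert ha]
    exact (h a (Finset.mem_insert_self _ _)).add
      (ih fun k hk => h k (Finset.mem_insert_of_mem hk))

theorem congr (hU : MeasurableSet U) (h : CgoO U τ₀ p F)
    (hFG : ∀ τ, τ₀ ≤ τ → ∀ᵐ x : R3, x ∈ U → G τ x = F τ x) : CgoO U τ₀ p G := by
  obtain ⟨C, hC, h⟩ := h
  refine ⟨C, hC, fun τ hτ => ⟨L2.congr' hU (h τ hτ).1 (hFG τ hτ), ?_⟩⟩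
  rw [nr_congr hU (hFG τ hτ)]
  exact (h τ hτ).2

theorem congr' (hU : MeasurableSet U) (h : CgoO U τ₀ p F)
    (hFG : ∀ τ x, G τ x = F τ x) : CgoO U τ₀ p G :=
  h.congr hU fun τ _ => Eventually.of_forall fun x _ => hFG τ x

theorem mono (h : CgoO U τ₀ p F) (hpq : ∀ τ, τ₀ ≤ τ → p τ ≤ q τ) : CgoO U τ₀ q F := by
  obtain ⟨C, hC, h⟩ := h
  exact ⟨C, hC, fun τ hτ =>
    ⟨(h τ hτ).1, (h τ hτ).2.trans (mul_le_mul_of_nonneg_left (hpq τ hτ) hC)⟩⟩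

theorem const (h1 : 1 ≤ τ₀) {f : R3 → ℂ} (hf : L2 U f) :
    CgoO U τ₀ (fun τ => τ) fun _ => f := by
  refine ⟨nr U f, nr_nonneg _ _, fun τ hτ => ⟨hf, ?_⟩⟩
  have := nr_nonneg U f
  nlinarith

theorem lin (h1 : 1 ≤ τ₀) {f : R3 → ℂ} (hf : L2 U f) :
    CgoO U τ₀ (fun τ => τ) fun τ x => (τ : ℂ) * f x := by
  refine ⟨nr U f, nr_nonneg _ _, fun τ hτ => ⟨L2.cmul _ hf, ?_⟩⟩
  rw [nr_const_mul, Complex.norm_real, Real.norm_of_nonneg (by linarith), mul_comm]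

theorem up (h1 : 1 ≤ τ₀) (h : CgoO U τ₀ (fun τ => τ⁻¹) F) : CgoO U τ₀ (fun τ => τ) F :=
  h.mono fun τ hτ => (inv_le_one_of_one_le₀ (h1.trans hτ)).trans (h1.trans hτ)

theorem fin {ι : Type*} [Fintype ι] {F : ι → ℝ → R3 → ℂ} (hp : ∀ τ, τ₀ ≤ τ → 0 ≤ p τ)
    (h : ∀ k, CgoO U τ₀ p (F k)) :
    ∃ C : ℝ, 0 ≤ C ∧ ∀ k τ, τ₀ ≤ τ → nr U (F k τ) ≤ C * p τ := by
  choose C hC h using h
  refine ⟨∑ k, C k, Finset.sum_nonneg fun k _ => hC k, fun k τ hτ => (h k τ hτ).2.trans ?_⟩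
  exact mul_le_mul_of_nonneg_right
    (Finset.single_le_sum (f := C) (fun k _ => hC k) (Finset.mem_univ k)) (hp τ hτ)

end CgoO

/-- `exists_W`, `wkb`, and `u = iu`, `Du = iDu`; `epsOf = ie` a.e. by `ike_div`.  All estimates are triangle
inequalities with bounded coefficients (`amp` commutes with multiplication). -/
theorem cgo (c : Co) (t : ℂ) (r : ℝ) (x₀ : R3) (ξ : C3) {η : ℝ} (hη : 0 < η) :
    ∃ (X : Fin 3 → R3 → ℂ) (E : R3 → ℂ), (∀ j, ContDiff ℝ 1 (X j)) ∧ ContDiff ℝ 1 E ∧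
      (∀ i, ‖toX t c.a X E i x₀ - ξ i‖ ≤ η) ∧
      ∃ C τ₀ : ℝ, 0 ≤ C ∧ 1 ≤ τ₀ ∧ ∀ τ : ℝ, τ₀ ≤ τ →
        ∃ (u : Fin 3 → R3 → ℂ) (Du : Fin 3 → Fin 3 → R3 → ℂ),
          (∀ j, H1 (ball 0 r) (u j) fun i => Du i j) ∧ WLame (ball 0 r) c Du ∧
          (∀ j, nr (ball 0 r) (fun x => amp τ (th t) (u j) x - X j x) ≤ C / τ) ∧
          nr (ball 0 r) (fun x => amp τ (th t) (epsOf c.ka Du) x - E x) ≤ C / τ ∧
          ∀ i j, nr (ball 0 r) (amp τ (th t) (Du i j)) ≤ C * τ := by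
  obtain ⟨W₀, W₁, hW₀, hW₁, h0, hθW, T₀, T₁, hξ⟩ := exists_W c t x₀ ξ hη
  set θ := th t with hθ
  set U : Set R3 := ball 0 r with hUdef
  have hUo : IsOpen U := isOpen_ball
  have hU : MeasurableSet U := hUo.measurableSet
  have hb : Bornology.IsBounded U := isBounded_ball
  obtain ⟨C, τ₀, hC, hτ₀, hw⟩ := wkb (A := c.IA) (B := c.IB)
    (fun k i j => (c.tk_IA k i j).of_le (by norm_num)) (fun i j => (c.tk_IB i j).of_le (by norm_num))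
    r (null_th t) (th_ne_zero t) hW₀ hW₁ T₀ T₁
  choose! y G G2 hH hE hest using hw
  have c0 : ∀ i, ContDiff ℝ 1 (W₀ i) := fun i => (hW₀ i).of_le (by norm_num)
  have c1 : ∀ i, ContDiff ℝ 1 (W₁ i) := fun i => (hW₁ i).of_le (by norm_num)
  have c0' : ∀ i k, ContDiff ℝ 1 (pd k (W₀ i)) := fun i k =>
    contDiff_pd k (hW₀ i) (by norm_num)
  have ce : ContDiff ℝ 1 fun x => Complex.exp (-c.mc x) := c.contDiff_expneg.of_le (by norm_num)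
  have ca : ∀ i, ContDiff ℝ 1 (c.a i) := fun i => (c.tk_a i).cd.of_le (by norm_num)
  have cX : ∀ j, ContDiff ℝ 1 (c.cX θ W₀ W₁ j) := fun j =>
    ce.mul ((c0 _).add (contDiff_const.mul (c1 _)))
  have cE : ContDiff ℝ 1 (c.cE θ W₀ W₁) :=
    ce.mul ((ContDiff.sum fun i _ => (c0' _ _).add (contDiff_const.mul (c1 _))).sub
      (contDiff_const.mul (ContDiff.sum fun i _ => (ca i).mul (c0 _))))
  have l0 : ∀ i, L2 U (W₀ i) := fun i => L2.of_continuous hU hb (c0 i).continuous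
  have l1 : ∀ i, L2 U (W₁ i) := fun i => L2.of_continuous hU hb (c1 i).continuous
  have l0' : ∀ i k, L2 U (pd k (W₀ i)) := fun i k => L2.of_continuous hU hb (c0' i k).continuous
  have be := c.bd_expneg
  have ba : ∀ i, Bd (c.a i) := fun i => (c.tk_a i).bd
  have bH : Bd c.trH := c.tk_trH.bd
  have bda : ∀ i j, Bd (pd i (c.a j)) := fun i j =>
    ((c.tk_a j).pd (m := 0) (by norm_num) i).bd
  have h0' : ∀ k x, pd k (W₀ none) x = 0 := fun k x => by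
    rw [show W₀ none = fun _ => 0 from funext h0, pd_const]
  -- the remainders
  have R0 : ∀ i, CgoO U τ₀ (fun τ => τ⁻¹) fun τ x => amp τ θ (y τ i) x - W₀ i x := fun i =>
    ⟨C, hC, fun τ hτ => ⟨L2.sub' (L2.amp hU hb τ θ (hH τ hτ i).h1.l2) (l0 i), by
      rw [← div_eq_mul_inv]; exact (hest τ hτ i).1⟩⟩
  have R1 : ∀ i k, CgoO U τ₀ (fun τ => τ⁻¹) fun τ x => amp τ θ (G τ i k) x -
      (τ * θ k * W₀ i x + pd k (W₀ i) x + θ k * W₁ i x) := fun i k =>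
    ⟨C, hC, fun τ hτ => ⟨L2.sub' (L2.amp hU hb τ θ ((hH τ hτ i).h1.l2G k))
      (L2.add' (L2.add' (L2.cmul _ (l0 i)) (l0' i k)) (L2.cmul _ (l1 i))), by
      rw [← div_eq_mul_inv]; exact (hest τ hτ i).2.1 k⟩⟩
  have R2 : ∀ k l, CgoO U τ₀ (fun τ => τ) fun τ x => amp τ θ (G2 τ none k l) x := fun k l =>
    ⟨C, hC, fun τ hτ => ⟨L2.amp hU hb τ θ (((hH τ hτ none).h2 k).l2G l), by
      have := (hest τ hτ none).2.2 k l
      simpa [h0] using this⟩⟩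
  -- the estimates
  have Eu : ∀ j, CgoO U τ₀ (fun τ => τ⁻¹)
      fun τ x => amp τ θ (c.iu (y τ) (G τ) j) x - c.cX θ W₀ W₁ j x := fun j =>
    (CgoO.bd_mul hU be (((R0 (some j)).add (R1 none j)).add
      (CgoO.bd_mul hU (ba j) (R0 none)))).congr' hU fun τ x => by
        simp only [amp, Co.iu, Co.cX, h0, h0']
        ring
  have Ee : CgoO U τ₀ (fun τ => τ⁻¹)
      fun τ x => amp τ θ (epsOf c.ka (c.iDu (y τ) (G τ) (G2 τ))) x - c.cE θ W₀ W₁ x := by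
    refine (CgoO.bd_mul hU be (((CgoO.sum Finset.univ fun i _ => R1 (some i) i).add
      (CgoO.sum Finset.univ fun i _ => CgoO.bd_mul hU ((ba i).const_mul (-2)) (R0 (some i)))).add
      (CgoO.bd_mul hU (bH.const_mul (-2)) (R0 none)))).congr hU fun τ hτ => ?_
    filter_upwards [ike_div c (hE τ hτ)] with x hx hxU
    have e1 : epsOf c.ka (c.iDu (y τ) (G τ) (G2 τ)) x = c.ie (y τ) (G τ) x := by
      rw [epsOf, hx hxU, mul_div_cancel_left₀ _ (c.one_sub_two_ka_ne x)]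
    have e2 := hθW x
    simp only [amp, e1, Co.ie, Co.cE, h0, Fin.sum_univ_three] at e2 ⊢
    linear_combination (Complex.exp (-c.mc x) * τ) * e2
  have Eu' : ∀ j, CgoO U τ₀ (fun τ => τ) fun τ x => amp τ θ (c.iu (y τ) (G τ) j) x := fun j =>
    (((Eu j).up hτ₀).add (CgoO.const hτ₀ (L2.of_continuous hU hb (cX j).continuous))).congr' hU
      fun τ x => by ring
  have EG : ∀ i k, CgoO U τ₀ (fun τ => τ) fun τ x => amp τ θ (G τ i k) x := fun i k =>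
    (((R1 i k).up hτ₀).add (((CgoO.lin hτ₀ (L2.cmul (θ k) (l0 i))).add
      (CgoO.const hτ₀ (l0' i k))).add (CgoO.const hτ₀ (L2.cmul (θ k) (l1 i))))).congr' hU
      fun τ x => by ring
  have ED : ∀ ij : Fin 3 × Fin 3, CgoO U τ₀ (fun τ => τ)
      fun τ => amp τ θ (c.iDu (y τ) (G τ) (G2 τ) ij.1 ij.2) := fun ij =>
    ((CgoO.bd_mul hU (ba ij.1).neg (Eu' ij.2)).add (CgoO.bd_mul hU be
      ((((EG (some ij.2) ij.1).add (R2 ij.2 ij.1)).add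
        (CgoO.bd_mul hU (ba ij.2) (EG none ij.1))).add
        (CgoO.bd_mul hU (bda ij.1 ij.2) ((R0 none).up hτ₀))))).congr' hU fun τ x => by
        simp only [amp, Co.iDu, h0]
        ring
  have hp : ∀ τ : ℝ, τ₀ ≤ τ → 0 ≤ τ := fun τ hτ => by linarith
  obtain ⟨C₁, hC₁, b1⟩ := CgoO.fin (fun τ hτ => inv_nonneg.2 (hp τ hτ)) Eu
  obtain ⟨C₂, hC₂, b2⟩ := Ee
  obtain ⟨C₃, hC₃, b3⟩ := CgoO.fin hp ED
  refine ⟨c.cX θ W₀ W₁, c.cE θ W₀ W₁, cX, cE, hξ, C₁ + C₂ + C₃, τ₀, by linarith, hτ₀,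
    fun τ hτ => ⟨c.iu (y τ) (G τ), c.iDu (y τ) (G τ) (G2 τ), fun j => ike_h1 c hUo (hH τ hτ) j,
      ike_lame c hUo (hH τ hτ) (hE τ hτ), fun j => ?_, ?_, fun i j => ?_⟩⟩
  · rw [div_eq_mul_inv]
    exact (b1 j τ hτ).trans
      (mul_le_mul_of_nonneg_right (by linarith) (inv_nonneg.2 (hp τ hτ)))
  · rw [div_eq_mul_inv]
    exact (b2 τ hτ).2.trans
      (mul_le_mul_of_nonneg_right (by linarith) (inv_nonneg.2 (hp τ hτ)))
  · exact (b3 (i, j) τ hτ).trans (mul_le_mul_of_nonneg_right (by linarith) (hp τ hτ))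

end Crest.Agent.R80
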