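import Crest.Agent.R80.KerD

/-!
# Row 80: solvability of the transport system
-/

namespace Crest.Agent.R80

open MeasureTheory Set Metric Filter Topology Complex
open scoped ContDiff
open Crest.AnalysisR.VecCalc3 Crest.AnalysisR.PDE Crest.AnalysisR.PDE.Elasticity

theorem Tk.exists_bd2 {f : R3 → ℂ} (h : Tk 2 univ f) : ∃ M : ℝ, 0 ≤ M ∧ Bd2 f M M M := by
  obtain ⟨C₀, hC₀, h0⟩ := h.exists_bound
  have h1 : ∀ i, Tk 1 univ (R80.pd i f) := fun i => h.pd (by norm_num) i
  have h2 : ∀ i j, Tk 0 univ (R80.pd i (R80.pd j f)) := fun i j => (h1 j).pd (by norm_num) i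
  choose C₁ hC₁ b1 using fun i => (h1 i).exists_bound
  choose C₂ hC₂ b2 using fun i j => (h2 i j).exists_bound
  have s1 : 0 ≤ ∑ i, C₁ i := Finset.sum_nonneg fun i _ => hC₁ i
  have s2 : 0 ≤ ∑ i, ∑ j, C₂ i j := Finset.sum_nonneg fun i _ => Finset.sum_nonneg fun j _ => hC₂ i j
  refine ⟨C₀ + ∑ i, C₁ i + ∑ i, ∑ j, C₂ i j, by positivity, h.cd, fun x => ?_, fun i x => ?_,
    fun i j x => ?_⟩
  · linarith [h0 x]
  · have := Finset.single_le_sum (f := C₁) (fun i _ => hC₁ i) (Finset.mem_univ i)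
    linarith [b1 i x]
  · have e1 := Finset.single_le_sum (f := C₂ i) (fun j _ => hC₂ i j) (Finset.mem_univ j)
    have e2 := Finset.single_le_sum (f := fun i => ∑ j, C₂ i j)
      (fun i _ => Finset.sum_nonneg fun j _ => hC₂ i j) (Finset.mem_univ i)
    linarith [b2 i j x]

theorem Bd2.trans_mono {f : R3 → ℂ} {M₀ M₁ M₂ N₀ N₁ N₂ : ℝ} (h : Bd2 f M₀ M₁ M₂) (h0 : M₀ ≤ N₀)
    (h1 : M₁ ≤ N₁) (h2 : M₂ ≤ N₂) : Bd2 f N₀ N₁ N₂ :=
  ⟨h.cd, fun x => (h.b0 x).trans h0, fun i x => (h.b1 i x).trans h1,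
    fun i j x => (h.b2 i j x).trans h2⟩

theorem Bd2.trans_diff {f : R3 → ℂ} {M₀ M₁ M₂ : ℝ} (h : Bd2 f M₀ M₁ M₂) : Differentiable ℝ f :=
  h.cd.differentiable (by norm_num)

theorem Bd2.trans_diff_pd {f : R3 → ℂ} {M₀ M₁ M₂ : ℝ} (h : Bd2 f M₀ M₁ M₂) (i : Fin 3) :
    Differentiable ℝ (pd i f) :=
  (contDiff_pd (m := 1) i h.cd (by norm_num)).differentiable (by norm_num)

theorem Bd2.mul {f g : R3 → ℂ} {L M₀ M₁ M₂ : ℝ} (hf : Bd2 f L L L) (hg : Bd2 g M₀ M₁ M₂) :
    Bd2 (fun x => f x * g x) (L * M₀) (L * M₁ + L * M₀) (L * M₂ + 2 * L * M₁ + L * M₀) := by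
  have hL : 0 ≤ L := (norm_nonneg _).trans (hf.b0 0)
  have e1 : ∀ j, pd j (fun x => f x * g x) = fun x => pd j f x * g x + f x * pd j g x := by
    intro j
    funext x
    exact pd_mul j (hf.trans_diff x) (hg.trans_diff x)
  have nm : ∀ {a b : ℂ} {B : ℝ}, ‖a‖ ≤ L → ‖b‖ ≤ B → ‖a * b‖ ≤ L * B := by
    intro a b B ha hb
    rw [norm_mul]
    exact mul_le_mul ha hb (norm_nonneg _) hL
  refine ⟨hf.cd.mul hg.cd, fun x => nm (hf.b0 x) (hg.b0 x), fun i x => ?_, fun i j x => ?_⟩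
  · rw [e1]
    have a1 := nm (hf.b1 i x) (hg.b0 x)
    have a2 := nm (hf.b0 x) (hg.b1 i x)
    linarith [norm_add_le (pd i f x * g x) (f x * pd i g x)]
  · rw [e1, pd_add i ((hf.trans_diff_pd j x).fun_mul (hg.trans_diff x))
      ((hf.trans_diff x).fun_mul (hg.trans_diff_pd j x)),
      pd_mul i (hf.trans_diff_pd j x) (hg.trans_diff x),
      pd_mul i (hf.trans_diff x) (hg.trans_diff_pd j x)]
    have a1 := nm (hf.b2 i j x) (hg.b0 x)
    have a2 := nm (hf.b1 j x) (hg.b1 i x)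
    have a3 := nm (hf.b1 i x) (hg.b1 j x)
    have a4 := nm (hf.b0 x) (hg.b2 i j x)
    have b1 := norm_add_le (pd i (pd j f) x * g x) (pd j f x * pd i g x)
    have b2 := norm_add_le (pd i f x * pd j g x) (f x * pd i (pd j g) x)
    have b3 := norm_add_le (pd i (pd j f) x * g x + pd j f x * pd i g x)
      (pd i f x * pd j g x + f x * pd i (pd j g) x)
    linarith

theorem Bd2.sum {ι : Type*} (s : Finset ι) {f : ι → R3 → ℂ} {M₀ M₁ M₂ : ℝ}
    (h : ∀ k ∈ s, Bd2 (f k) M₀ M₁ M₂) :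
    Bd2 (fun x => ∑ k ∈ s, f k x) (s.card * M₀) (s.card * M₁) (s.card * M₂) := by
  have e1 : ∀ j, pd j (fun x => ∑ k ∈ s, f k x) = fun x => ∑ k ∈ s, pd j (f k) x := by
    intro j
    funext x
    exact pd_sum j s fun k hk => (h k hk).trans_diff x
  have ns : ∀ {a : ι → ℂ} {B : ℝ}, (∀ k ∈ s, ‖a k‖ ≤ B) → ‖∑ k ∈ s, a k‖ ≤ s.card * B := by
    intro a B ha
    refine (norm_sum_le _ _).trans ?_
    simpa using Finset.sum_le_card_nsmul s (fun k => ‖a k‖) B ha
  refine ⟨ContDiff.sum fun k hk => (h k hk).cd, fun x => ns fun k hk => (h k hk).b0 x,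
    fun i x => ?_, fun i j x => ?_⟩
  · rw [e1]
    exact ns fun k hk => (h k hk).b1 i x
  · rw [e1, pd_sum i s fun k hk => (h k hk).trans_diff_pd j x]
    exact ns fun k hk => (h k hk).b2 i j x

theorem trans_pd_tsum {f : ℕ → R3 → ℂ} {M : ℕ → ℝ} (hM : Summable M)
    (hd : ∀ n, Differentiable ℝ (f n)) (h0 : ∀ n x, ‖f n x‖ ≤ M n)
    (h1 : ∀ n i x, ‖pd i (f n) x‖ ≤ M n) :
    (Differentiable ℝ fun x => ∑' n, f n x) ∧
      ∀ i, pd i (fun x => ∑' n, f n x) = fun x => ∑' n, pd i (f n) x := by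
  have hu : Summable fun n => 3 * M n := hM.mul_left 3
  have hb : ∀ n x, ‖fderiv ℝ (f n) x‖ ≤ 3 * M n := by
    intro n x
    refine (norm_fderiv_le_sum _ _).trans ?_
    rw [Fin.sum_univ_three]
    linarith [h1 n 0 x, h1 n 1 x, h1 n 2 x]
  have hs : Summable fun n => f n 0 := Summable.of_norm_bounded hM fun n => h0 n 0
  refine ⟨differentiable_tsum hu (fun n x => (hd n x).hasFDerivAt) hb, fun i => ?_⟩
  funext x
  unfold pd
  rw [fderiv_tsum_apply hu hd hb hs x]
  have hs' : Summable fun n => fderiv ℝ (f n) x := Summable.of_norm_bounded hu fun n => hb n x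
  exact (ContinuousLinearMap.apply ℝ ℂ (EuclideanSpace.single i (1 : ℝ) : R3)).map_tsum hs'

/-- `contDiff_tsum`, or `hasFDerivAt_tsum` twice. -/
theorem contDiff_tsum_bd2 {f : ℕ → R3 → ℂ} {M : ℕ → ℝ} (hM : Summable M)
    (h : ∀ n, Bd2 (f n) (M n) (M n) (M n)) : ContDiff ℝ 2 fun x => ∑' n, f n x := by
  obtain ⟨d0, e0⟩ := trans_pd_tsum hM (fun n => (h n).trans_diff) (fun n => (h n).b0)
    fun n => (h n).b1
  refine contDiff_succ_of_pd (n := 1) d0 fun j => ?_
  rw [e0]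
  obtain ⟨d1, e1⟩ := trans_pd_tsum (f := fun n => pd j (f n)) hM (fun n => (h n).trans_diff_pd j)
    (fun n => (h n).b1 j) fun n i => (h n).b2 i j
  refine contDiff_succ_of_pd (n := 0) d1 fun i => ?_
  rw [e1]
  refine contDiff_zero.2 (continuous_tsum (fun n => ?_) hM fun n x => (h n).b2 i j x)
  exact continuous_pd i (contDiff_pd (m := 1) j (h n).cd (by norm_num))

/-- the Neumann series: the fixed point `f = f₀ + Sk (A f)`. -/
theorem trans_neumann {ι : Type} [Fintype ι] (θ : C3) (x₀ : R3) (K : ℝ) {k : ℂ → ℂ}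
    (hk : Integrable k) (hk1 : Integrable fun t => t * k t) (hk2 : Integrable fun t => t ^ 2 * k t)
    {A : ι → ι → R3 → ℂ} {L : ℝ} (hL : 0 ≤ L) (hA : ∀ i j, Bd2 (A i j) L L L)
    (ha : (∫ t, ‖k t‖) * (Fintype.card ι * L) ≤ 1 / 2) {f₀ : ι → R3 → ℂ} {P Q₀ R₀ : ℝ}
    (hP : 0 ≤ P) (hQ₀ : 0 ≤ Q₀) (hR₀ : 0 ≤ R₀) (hf₀ : ∀ i, Bd2 (f₀ i) P Q₀ R₀) :
    ∃ f : ι → R3 → ℂ, (∀ i, ContDiff ℝ 2 (f i)) ∧ (∀ i x, ‖f i x‖ ≤ 4 * P) ∧
      ∀ i x, f i x = f₀ i x + Sk θ x₀ K k (fun y => ∑ j, A i j y * f j y) x := by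
  obtain ⟨b, hb, hS⟩ := Sk_bd2 θ x₀ K hk hk1 hk2
  set a : ℝ := ∫ t, ‖k t‖ with ha_def
  have ha0 : 0 ≤ a := integral_nonneg fun t => norm_nonneg _
  set N : ℝ := (Fintype.card ι : ℝ) with hN
  have hN0 : 0 ≤ N := Nat.cast_nonneg _
  set c : ℝ := a * (N * L) with hc
  set d : ℝ := b * (N * L) with hd
  have hc0 : 0 ≤ c := by positivity
  have hd0 : 0 ≤ d := by positivity
  set T : (ι → R3 → ℂ) → ι → R3 → ℂ :=
    fun f i => Sk θ x₀ K k fun y => ∑ j, A i j y * f j y with hT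
  have hTb : ∀ (f : ι → R3 → ℂ) (p q r : ℝ), (∀ i, Bd2 (f i) p q r) → ∀ i,
      Bd2 (T f i) (c * p) (c * q + (c + d) * p) (c * r + (2 * c + d) * q + (c + 2 * d) * p) := by
    intro f p q r hf i
    have h1 := Bd2.sum Finset.univ (f := fun j y => A i j y * f j y)
      fun j _ => (hA i j).mul (hf j)
    rw [Finset.card_univ, ← hN] at h1
    refine (hS _ _ _ _ h1).trans_mono (le_of_eq ?_) (le_of_eq ?_) (le_of_eq ?_) <;>
      (rw [hc]; try rw [hd]) <;> ring
  set Q : ℝ := Q₀ + 4 * ((c + d) * P) with hQ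
  set R : ℝ := R₀ + 4 * ((2 * c + d) * Q + (c + 2 * d) * P) with hR
  have hQ0 : 0 ≤ Q := by positivity
  have hR0 : 0 ≤ R := by positivity
  set u : ℕ → ι → R3 → ℂ := fun n => T^[n] f₀ with hu
  have u0 : u 0 = f₀ := rfl
  have us : ∀ n, u (n + 1) = T (u n) := fun n => Function.iterate_succ_apply' T n f₀
  have hub : ∀ n i, Bd2 (u n i) (P * (3 / 4) ^ n) (Q * (3 / 4) ^ n) (R * (3 / 4) ^ n) := by
    intro n
    induction n with
    | zero =>
      intro i
      rw [u0]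
      refine (hf₀ i).trans_mono (by simp) ?_ ?_
      · have : 0 ≤ (c + d) * P := by positivity
        rw [pow_zero, mul_one, hQ]; linarith
      · have : 0 ≤ (2 * c + d) * Q + (c + 2 * d) * P := by positivity
        rw [pow_zero, mul_one, hR]; linarith
    | succ n ih =>
      intro i
      rw [us]
      have hρ : (0 : ℝ) ≤ (3 / 4) ^ n := by positivity
      refine (hTb _ _ _ _ ih i).trans_mono ?_ ?_ ?_
      · have : c * P ≤ P * (3 / 4) := by nlinarith
        calc c * (P * (3 / 4) ^ n) = (c * P) * (3 / 4) ^ n := by ring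
          _ ≤ (P * (3 / 4)) * (3 / 4) ^ n := mul_le_mul_of_nonneg_right this hρ
          _ = _ := by ring
      · have h1 : c * Q ≤ Q * (1 / 2) := by nlinarith
        have : c * Q + (c + d) * P ≤ Q * (3 / 4) := by linarith
        calc _ = (c * Q + (c + d) * P) * (3 / 4) ^ n := by ring
          _ ≤ (Q * (3 / 4)) * (3 / 4) ^ n := mul_le_mul_of_nonneg_right this hρ
          _ = _ := by ring
      · have h1 : c * R ≤ R * (1 / 2) := by nlinarith
        have : c * R + (2 * c + d) * Q + (c + 2 * d) * P ≤ R * (3 / 4) := by linarith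
        calc _ = (c * R + (2 * c + d) * Q + (c + 2 * d) * P) * (3 / 4) ^ n := by ring
          _ ≤ (R * (3 / 4)) * (3 / 4) ^ n := mul_le_mul_of_nonneg_right this hρ
          _ = _ := by ring
  have hgeo : HasSum (fun n : ℕ => ((3 : ℝ) / 4) ^ n) 4 := by
    have := hasSum_geometric_of_lt_one (r := (3 / 4 : ℝ)) (by norm_num) (by norm_num)
    convert this using 1
    norm_num
  have hPs : HasSum (fun n : ℕ => P * ((3 : ℝ) / 4) ^ n) (P * 4) := hgeo.mul_left P
  have hsum : ∀ i x, Summable fun n => u n i x := fun i x =>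
    Summable.of_norm_bounded hPs.summable fun n => (hub n i).b0 x
  set f : ι → R3 → ℂ := fun i x => ∑' n, u n i x with hf
  have hfc : ∀ i, ContDiff ℝ 2 (f i) := by
    intro i
    refine contDiff_tsum_bd2 (M := fun n => (P + Q + R) * (3 / 4) ^ n)
      (hgeo.summable.mul_left _) fun n => ?_
    have hρ : (0 : ℝ) ≤ (3 / 4) ^ n := by positivity
    refine (hub n i).trans_mono ?_ ?_ ?_ <;> refine mul_le_mul_of_nonneg_right ?_ hρ <;> linarith
  have hfb : ∀ i x, ‖f i x‖ ≤ 4 * P := by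
    intro i x
    rw [mul_comm]
    exact tsum_of_norm_bounded hPs fun n => (hub n i).b0 x
  refine ⟨f, hfc, hfb, fun i x => ?_⟩
  -- partial sums
  set s : ℕ → ι → R3 → ℂ := fun n i x => ∑ m ∈ Finset.range n, u m i x with hs
  have hAc : ∀ i j, Continuous (A i j) := fun i j => (hA i j).cd.continuous
  have hcont : ∀ (g : ι → R3 → ℂ), (∀ j, Continuous (g j)) → ∀ i,
      Continuous fun y => ∑ j, A i j y * g j y := fun g hg i =>
    continuous_finsetSum _ fun j _ => (hAc i j).mul (hg j)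
  have hbd : ∀ (g : ι → R3 → ℂ) (B : ℝ), (∀ j y, ‖g j y‖ ≤ B) → ∀ i y,
      ‖∑ j, A i j y * g j y‖ ≤ N * L * B := by
    intro g B hg i y
    refine (norm_sum_le _ _).trans ?_
    have := Finset.sum_le_card_nsmul Finset.univ (fun j => ‖A i j y * g j y‖) (L * B) fun j _ => by
      rw [norm_mul]
      exact mul_le_mul ((hA i j).b0 y) (hg j y) (norm_nonneg _) hL
    rw [Finset.card_univ, nsmul_eq_mul, ← hN] at this
    linarith
  have huc : ∀ n j, Continuous (u n j) := fun n j => (hub n j).cd.continuous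
  have hsc : ∀ n j, Continuous (s n j) := fun n j => continuous_finsetSum _ fun m _ => huc m j
  have hsb : ∀ n j y, ‖s n j y‖ ≤ P * 4 := by
    intro n j y
    refine (norm_sum_le _ _).trans ((Finset.sum_le_sum fun m _ => (hub m j).b0 y).trans ?_)
    exact sum_le_hasSum _ (fun m _ => by positivity) hPs
  have hTs : ∀ n, T (s n) i x = ∑ m ∈ Finset.range n, u (m + 1) i x := by
    intro n
    induction n with
    | zero =>
      have := norm_Sk_le (θ := θ) (x₀ := x₀) (K := K) hk (M := 0)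
        (f := fun y => ∑ j, A i j y * s 0 j y) (fun y => by simp [hs]) x
      rw [mul_zero] at this
      simpa using norm_le_zero_iff.1 this
    | succ n ih =>
      rw [Finset.sum_range_succ, ← ih, us]
      have e : (fun y => ∑ j, A i j y * s (n + 1) j y) =
          fun y => (∑ j, A i j y * s n j y) + ∑ j, A i j y * u n j y := by
        funext y
        rw [← Finset.sum_add_distrib]
        refine Finset.sum_congr rfl fun j _ => ?_
        simp only [hs, Finset.sum_range_succ]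
        ring
      show Sk θ x₀ K k (fun y => ∑ j, A i j y * s (n + 1) j y) x = _
      rw [e]
      exact Sk_add hk (hcont _ (hsc n) i) (hcont _ (huc n) i) (hbd _ _ (hsb n) i)
        (hbd _ _ (fun j => (hub n j).b0) i) x
  have htail : ∀ n j y, ‖f j y - s n j y‖ ≤ P * 4 * (3 / 4) ^ n := by
    intro n j y
    have e : f j y - s n j y = ∑' m, u (m + n) j y := by
      have := (hsum j y).sum_add_tsum_nat_add n
      simp only [hf, hs]
      rw [← this]
      ring
    rw [e]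
    have hs' : HasSum (fun m : ℕ => P * ((3 : ℝ) / 4) ^ m * (3 / 4) ^ n) (P * 4 * (3 / 4) ^ n) :=
      hPs.mul_right _
    refine tsum_of_norm_bounded hs' fun m => ?_
    have := (hub (m + n) j).b0 y
    rwa [pow_add, ← mul_assoc] at this
  have hlim1 : Tendsto (fun n => T (s n) i x) atTop (𝓝 (T f i x)) := by
    rw [tendsto_iff_norm_sub_tendsto_zero]
    have h0 : Tendsto (fun n : ℕ => a * (N * L * (P * 4 * (3 / 4 : ℝ) ^ n))) atTop (𝓝 0) := by
      have := tendsto_pow_atTop_nhds_zero_of_lt_one (r := (3 / 4 : ℝ)) (by norm_num) (by norm_num)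
      simpa using ((this.const_mul (P * 4)).const_mul (N * L)).const_mul a
    refine squeeze_zero (fun n => norm_nonneg _) (fun n => ?_) h0
    rw [norm_sub_rev]
    have e := Sk_sub (θ := θ) (x₀ := x₀) (K := K) hk (hcont _ (fun j => (hfc j).continuous) i)
      (hcont _ (hsc n) i) (hbd _ _ hfb i) (hbd _ _ (hsb n) i) x
    show ‖Sk θ x₀ K k (fun y => ∑ j, A i j y * f j y) x -
      Sk θ x₀ K k (fun y => ∑ j, A i j y * s n j y) x‖ ≤ _
    rw [← e]
    refine norm_Sk_le hk (fun y => ?_) x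
    have := hbd (fun j y => f j y - s n j y) _ (htail n) i y
    rw [← Finset.sum_sub_distrib]
    simpa only [mul_sub] using this
  have hlim2 : Tendsto (fun n => T (s n) i x) atTop (𝓝 (∑' m, u (m + 1) i x)) := by
    simp only [hTs]
    exact ((summable_nat_add_iff 1).2 (hsum i x)).hasSum.tendsto_sum_nat
  have e := tendsto_nhds_unique hlim1 hlim2
  show f i x = f₀ i x + T f i x
  rw [e, ← u0]
  exact (hsum i x).tsum_eq_zero_add

/-- `W = ξ + gw · f` where `f = ∑ₙ Tⁿ f₀`, `T f i = Sk (∑ j, A i j * f j)`,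
`f₀ i = Sk (gw (-K) (∑ j, A i j ξ j + F i))`, and `K` is so large that `a = ∫ ‖k0 K‖` is small.  The bounds
`(M₀, M₁, M₂)` of `Tⁿ f₀` satisfy a triangular recursion with diagonal `≤ 1/2`, so
`M₀ + δ M₁ + δ² M₂` contracts by `3/4` for small `δ`. -/
theorem transport {ι : Type} [Fintype ι] {θ : C3} (hθ : Null θ) (h0 : θ ≠ 0) {A : ι → ι → R3 → ℂ}
    {F : ι → R3 → ℂ} (hA : ∀ i j, Tk 2 univ (A i j)) (hF : ∀ i, Tk 2 univ (F i)) (x₀ : R3)
    (ξ : ι → ℂ) {η : ℝ} (hη : 0 < η) :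
    ∃ W : ι → R3 → ℂ, (∀ i, ContDiff ℝ 2 (W i)) ∧
      (∀ i x, dv θ (W i) x = ∑ j, A i j x * W j x + F i x) ∧ ∀ i, ‖W i x₀ - ξ i‖ ≤ η := by
  choose L' hL' hA' using fun i j => (hA i j).exists_bd2
  set L : ℝ := ∑ i, ∑ j, L' i j with hLd
  have hL : 0 ≤ L := Finset.sum_nonneg fun i _ => Finset.sum_nonneg fun j _ => hL' i j
  have hle : ∀ i j, L' i j ≤ L := fun i j =>
    (Finset.single_le_sum (f := L' i) (fun j _ => hL' i j) (Finset.mem_univ j)).trans
      (Finset.single_le_sum (f := fun i => ∑ j, L' i j)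
        (fun i _ => Finset.sum_nonneg fun j _ => hL' i j) (Finset.mem_univ i))
  have hAL : ∀ i j, Bd2 (A i j) L L L := fun i j =>
    (hA' i j).trans_mono (hle i j) (hle i j) (hle i j)
  set G : ι → R3 → ℂ := fun i x => ∑ j, A i j x * ξ j + F i x with hG
  have hGt : ∀ i, Tk 2 univ (G i) := fun i =>
    (Tk.sum Finset.univ fun j _ => (hA i j).mul_right contDiff_const).add (hF i)
  choose M' hM' hGb using fun i => (hGt i).exists_bound
  set M : ℝ := ∑ i, M' i with hMd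
  have hM : 0 ≤ M := Finset.sum_nonneg fun i _ => hM' i
  have hGM : ∀ i x, ‖G i x‖ ≤ M := fun i x =>
    (hGb i x).trans (Finset.single_le_sum (f := M') (fun j _ => hM' j) (Finset.mem_univ i))
  set N : ℝ := (Fintype.card ι : ℝ) with hN
  have hN0 : 0 ≤ N := Nat.cast_nonneg _
  obtain ⟨K, hK, hKa⟩ := exists_k0_small
    (η := min (1 / (2 * (N * L + 1))) (η / (4 * (M + 1)))) (by positivity)
  set a : ℝ := ∫ t, ‖k0 K t‖ with ha_def
  have ha0 : 0 ≤ a := integral_nonneg fun t => norm_nonneg _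
  have ha1 : a * (N * L) ≤ 1 / 2 := by
    have h1 := hKa.trans (min_le_left _ _)
    rw [le_div_iff₀ (by positivity)] at h1
    nlinarith
  have ha2 : 4 * (a * M) ≤ η := by
    have h1 := hKa.trans (min_le_right _ _)
    rw [le_div_iff₀ (by positivity)] at h1
    nlinarith
  have hk : Integrable (k0 K) := integrable_k0 hK
  have hk1 : Integrable fun t => t * k0 K t := by
    simpa using integrable_pow_mul_k0 hK 1
  have hk2 : Integrable fun t => t ^ 2 * k0 K t := integrable_pow_mul_k0 hK 2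
  set g : ι → R3 → ℂ := fun i x => gw θ x₀ (-K) x * G i x with hg
  have hgt : ∀ i, Tk 2 univ (g i) := fun i => (hGt i).mul_left (contDiff_gw _ _ _ _)
  have hgM : ∀ i x, ‖g i x‖ ≤ M := by
    intro i x
    simp only [hg]
    rw [norm_mul]
    calc _ ≤ 1 * M := mul_le_mul (norm_gw_neg_le θ x₀ hK.le x) (hGM i x) (norm_nonneg _) zero_le_one
      _ = M := one_mul _
  choose B' hB' hgB using fun i => (hgt i).exists_bd2
  set B : ℝ := ∑ i, B' i with hBd
  have hB : 0 ≤ B := Finset.sum_nonneg fun i _ => hB' i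
  have hgb : ∀ i, Bd2 (g i) M B B := by
    intro i
    have := Finset.single_le_sum (f := B') (fun j _ => hB' j) (Finset.mem_univ i)
    exact ⟨(hgt i).cd, hgM i, fun l x => ((hgB i).b1 l x).trans this,
      fun l m x => ((hgB i).b2 l m x).trans this⟩
  obtain ⟨b, hb, hS⟩ := Sk_bd2 θ x₀ K hk hk1 hk2
  obtain ⟨f, hfc, hfb, hfe⟩ := trans_neumann θ x₀ K hk hk1 hk2 hL hAL ha1
    (f₀ := fun i => Sk θ x₀ K (k0 K) (g i)) (P := a * M) (by positivity) (by positivity)
    (by positivity) fun i => hS _ _ _ _ (hgb i)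
  refine ⟨fun i x => ξ i + gw θ x₀ K x * f i x,
    fun i => contDiff_const.add ((contDiff_gw _ _ _ _).mul (hfc i)), fun i x => ?_, fun i => ?_⟩
  · have ht : Tk 2 univ fun y => ∑ j, A i j y * f j y :=
      Tk.sum Finset.univ fun j _ => (hA i j).mul_right (hfc j)
    obtain ⟨C, -, hC⟩ := ht.exists_bound
    have e : f i = Sk θ x₀ K (k0 K) fun y => g i y + ∑ j, A i j y * f j y := by
      funext y
      rw [hfe i y, Sk_add hk (hgt i).continuous ht.continuous (hgM i) hC]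
    have hd : DifferentiableAt ℝ (fun x => gw θ x₀ K x * f i x) x :=
      (((contDiff_gw 2 θ x₀ K).mul (hfc i)).differentiable (by norm_num)) x
    rw [dv_add θ (differentiableAt_const _) hd, dv_const, zero_add]
    have e2 := dv_gw_Sk hθ h0 x₀ hK (((hgt i).add ht).of_le (m := 1) (by norm_num)) x
    rw [← e] at e2
    rw [e2]
    have e3 := gw_neg_mul θ x₀ K x
    simp only [hg, hG, mul_add, Finset.sum_add_distrib, Finset.mul_sum]
    have e4 : ∑ j, gw θ x₀ K x * (gw θ x₀ (-K) x * (A i j x * ξ j)) = ∑ j, A i j x * ξ j :=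
      Finset.sum_congr rfl fun j _ => by rw [← mul_assoc, e3, one_mul]
    have e5 : ∑ j, gw θ x₀ K x * (A i j x * f j x) = ∑ j, A i j x * (gw θ x₀ K x * f j x) :=
      Finset.sum_congr rfl fun j _ => by ring
    rw [e4, e5, ← mul_assoc, e3, one_mul]
    ring
  · simp only [gw_self, one_mul, add_sub_cancel_left]
    exact (hfb i x₀).trans ha2

end Crest.Agent.R80
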