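import Crest.Agent.R80.Coef
import Crest.Agent.R80.Trans

/-!
# Row 80: the amplitudes of the complex geometric optics solutions
-/

namespace Crest.Agent.R80

open MeasureTheory Set Metric Filter Topology Complex
open scoped ContDiff
open Crest.AnalysisR.VecCalc3 Crest.AnalysisR.PDE Crest.AnalysisR.PDE.Elasticity

/-- the leading amplitude. -/
noncomputable def cgoW (c : Co) (u : C3) : Option (Fin 3) → R3 → ℂ
  | none => fun _ => 0
  | some j => fun x => u j * Complex.exp (1 / 2 * c.mc x)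

theorem cgo1_contDiff (c : Co) (u : C3) (i : Option (Fin 3)) : ContDiff ℝ 6 (cgoW c u i) := by
  cases i with
  | none => exact contDiff_const
  | some j => exact contDiff_const.mul (c.contDiff_exp (1 / 2))

theorem cgo1_pd (c : Co) (u : C3) (k j : Fin 3) (x : R3) :
    pd k (cgoW c u (some j)) x = 1 / 2 * cgoW c u (some j) x * c.a k x := by
  have h1 : DifferentiableAt ℝ c.mc x := (c.contDiff_mc.differentiable (by norm_num)) x
  have h2 : DifferentiableAt ℝ (fun y => Complex.exp (1 / 2 * c.mc y)) x :=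
    ((c.contDiff_exp (1 / 2)).differentiable (by norm_num)) x
  change pd k (fun y => u j * Complex.exp (1 / 2 * c.mc y)) x =
    1 / 2 * (u j * Complex.exp (1 / 2 * c.mc x)) * pd k c.mc x
  rw [pd_const_mul k _ h2, pd_cexp k (h1.const_mul _), pd_const_mul k _ h1]
  ring

theorem cgo1_tk_pd (c : Co) (u : C3) (k : Fin 3) (i : Option (Fin 3)) :
    Tk 5 univ (pd k (cgoW c u i)) := by
  cases i with
  | none =>
    have e : pd k (cgoW c u none) = fun _ => 0 := funext fun x => pd_const k 0 x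
    rw [e]
    exact Tk.zero _ _
  | some j =>
    rw [funext (cgo1_pd c u k j)]
    exact Tk.mul_left (contDiff_const.mul ((cgo1_contDiff c u (some j)).of_le (by norm_num))) (c.tk_a k)

theorem cgo1_tk_Pc (c : Co) (u : C3) (i : Option (Fin 3)) :
    Tk 2 univ (Pc c.IA c.IB (cgoW c u) i) := by
  unfold Pc lap
  refine Tk.add (Tk.add (Tk.sum _ fun k _ => (cgo1_tk_pd c u k i).pd (by norm_num) k)
    (Tk.sum _ fun k _ => Tk.sum _ fun j _ => ?_)) (Tk.sum _ fun j _ => ?_)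
  · exact ((c.tk_IA k i j).of_le (by norm_num)).mul_right ((cgo1_tk_pd c u k j).cd.of_le (by norm_num))
  · exact ((c.tk_IB i j).of_le (by norm_num)).mul_right ((cgo1_contDiff c u j).of_le (by norm_num))

theorem cgo1_div (c : Co) {θ u : C3} (h : ∑ j, θ j * u j = 0) (x : R3) :
    ∑ j, θ j * cgoW c u (some j) x = 0 := by
  simp only [cgoW, ← mul_assoc]
  rw [← Finset.sum_mul, h, zero_mul]

theorem cgo1_Tr (c : Co) {θ u : C3} (h : ∑ j, θ j * u j = 0) (i : Option (Fin 3)) (x : R3) :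
    Tr θ c.IA (cgoW c u) i x = 0 := by
  have h1 := cgo1_div c h x
  have h0 : cgoW c u none = fun _ => 0 := rfl
  unfold Tr
  cases i with
  | none =>
    simp only [Fintype.sum_option, Fin.sum_univ_three, h0, dv_const, Co.IA] at h1 ⊢
    simp
    linear_combination 2 * c.ka x * h1
  | some j =>
    simp only [dv, cgo1_pd, Fintype.sum_option, Fin.sum_univ_three, h0, Co.IA] at h1 ⊢
    fin_cases j <;> simp
    · linear_combination -c.a 0 x * h1
    · linear_combination -c.a 1 x * h1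
    · linear_combination -c.a 2 x * h1

/-- `W₀ none = 0`, `W₀ (some j) = e^{m/2} η v j` with `v = ![-t, I * t, 1]` (so `th t · v = 0`) and
`η = e^{m(x₀)/2} (ξ 1 - t ξ 0)`.  `W₁` comes from `transport` with the matrix `-(1/2) ∑ k, θ k * IA k` and the
source `-(1/2) Pc W₀` (compact support since `W₀` is constant off the support of `m`), with prescribed values
`W₁ none x₀ ≈ e^{m(x₀)} ξ 0`, `W₁ (some j) x₀ ≈ s * ![1/2, -I/2, 0] j` (`th t · ![1/2, -I/2, 0] = 1`) for the `s`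
that makes the third coordinate equal to `ξ 2`.  Note `th t = ![1, I, t] + t • v`. -/
theorem exists_W (c : Co) (t : ℂ) (x₀ : R3) (ξ : C3) {η : ℝ} (hη : 0 < η) :
    ∃ W₀ W₁ : Option (Fin 3) → R3 → ℂ, (∀ i, ContDiff ℝ 2 (W₀ i)) ∧ (∀ i, ContDiff ℝ 2 (W₁ i)) ∧
      (∀ x, W₀ none x = 0) ∧ (∀ x, ∑ j, th t j * W₀ (some j) x = 0) ∧
      (∀ i x, Tr (th t) c.IA W₀ i x = 0) ∧
      (∀ i x, Tr (th t) c.IA W₁ i x + Pc c.IA c.IB W₀ i x = 0) ∧
      ∀ i, ‖toX t c.a (c.cX (th t) W₀ W₁) (c.cE (th t) W₀ W₁) i x₀ - ξ i‖ ≤ η := by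
  set e₂ : ℂ := Complex.exp (1 / 2 * c.mc x₀) with he₂
  set e₁ : ℂ := Complex.exp (-c.mc x₀) with he₁
  have he : e₁ * (e₂ * e₂) = 1 := by
    rw [he₁, he₂, ← Complex.exp_add, ← Complex.exp_add,
      show -c.mc x₀ + (1 / 2 * c.mc x₀ + 1 / 2 * c.mc x₀) = 0 by ring, Complex.exp_zero]
  set u : C3 := fun j => e₂ * (ξ 1 - t * ξ 0) * ![-t, I * t, 1] j with hu
  have hθu : ∑ j, th t j * u j = 0 := by
    simp only [hu, th, Fin.sum_univ_three]
    simp
    linear_combination (e₂ * (ξ 1 - t * ξ 0) * t * (1 + t ^ 2)) * Complex.I_mul_I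
  set W₀ := cgoW c u with hW₀
  set Φ : (Option (Fin 3) → ℂ) → Fin 3 → ℂ := fun w i =>
    toX t c.a (c.cX (th t) W₀ fun j _ => w j) (c.cE (th t) W₀ fun j _ => w j) i x₀ with hΦ
  have hΦc : Continuous Φ := by
    refine continuous_pi fun i => ?_
    fin_cases i <;> simp only [hΦ, toX, Co.cX, Co.cE] <;> simp <;> fun_prop
  set s : ℂ := e₂ * e₂ * ξ 2 - (∑ i, pd i (W₀ (some i)) x₀ - 2 * ∑ i, c.a i x₀ * W₀ (some i) x₀) -
    ∑ i, c.a i x₀ * (W₀ (some i) x₀ + th t i * (e₂ * e₂ * ξ 0)) with hs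
  set w₀ : Option (Fin 3) → ℂ := fun o => o.elim (e₂ * e₂ * ξ 0) fun j => s * ![1 / 2, -I / 2, 0] j
    with hw₀
  have hW : ∀ j, W₀ (some j) x₀ = u j * e₂ := fun j => rfl
  have hΦ0 : Φ w₀ = ξ := by
    funext i
    fin_cases i
    · change (c.cX (th t) W₀ (fun j _ => w₀ j) 0 x₀ - I * c.cX (th t) W₀ (fun j _ => w₀ j) 1 x₀) / 2 = ξ 0
      simp only [Co.cX, hw₀, hW, hu, th, ← he₁]
      simp
      linear_combination ξ 0 * he - (e₁ * (e₂ * (ξ 1 - t * ξ 0) * t * e₂ +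
        (1 + t ^ 2) * (e₂ * e₂ * ξ 0)) / 2) * Complex.I_mul_I
    · change c.cX (th t) W₀ (fun j _ => w₀ j) 2 x₀ - t * ((c.cX (th t) W₀ (fun j _ => w₀ j) 0 x₀ -
        I * c.cX (th t) W₀ (fun j _ => w₀ j) 1 x₀) / 2) = ξ 1
      simp only [Co.cX, hw₀, hW, hu, th, ← he₁]
      simp
      linear_combination ξ 1 * he + (t * e₁ * (e₂ * (ξ 1 - t * ξ 0) * t * e₂ +
        (1 + t ^ 2) * (e₂ * e₂ * ξ 0)) / 2) * Complex.I_mul_I
    · have h1 : ∑ i, th t i * w₀ (some i) = s := by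
        simp only [hw₀, th, Fin.sum_univ_three]
        simp
        linear_combination (-(1 + t ^ 2) * s / 2) * Complex.I_mul_I
      have h2 : w₀ none = e₂ * e₂ * ξ 0 := rfl
      change c.cE (th t) W₀ (fun j _ => w₀ j) x₀ +
        ∑ i, c.a i x₀ * c.cX (th t) W₀ (fun j _ => w₀ j) i x₀ = ξ 2
      simp only [Co.cX, Co.cE, ← he₁, Finset.sum_add_distrib, h1, h2]
      rw [hs]
      simp only [Fin.sum_univ_three]
      linear_combination ξ 2 * he
  obtain ⟨δ, hδ, hδ'⟩ := Metric.continuousAt_iff.1 (hΦc.continuousAt (x := w₀)) η hη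
  obtain ⟨W₁, h1, h2, h3⟩ := transport (null_th t) (th_ne_zero t)
    (A := fun i j x => -(1 / 2) * ∑ k, th t k * c.IA k i j x)
    (F := fun i x => -(1 / 2) * Pc c.IA c.IB W₀ i x)
    (fun i j => Tk.const_mul _ (Tk.sum _ fun k _ =>
      Tk.const_mul _ ((c.tk_IA k i j).of_le (by norm_num))))
    (fun i => Tk.const_mul _ (cgo1_tk_Pc c u i)) x₀ w₀ (half_pos hδ)
  refine ⟨W₀, W₁, fun i => (cgo1_contDiff c u i).of_le (by norm_num), h1, fun _ => rfl,
    cgo1_div c hθu, cgo1_Tr c hθu, fun i x => ?_, fun i => ?_⟩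
  · unfold Tr
    rw [h2, Finset.sum_comm (f := fun k j => th t k * c.IA k i j x * W₁ j x)]
    simp only [mul_assoc (-(1 / 2) : ℂ), ← Finset.mul_sum, Finset.sum_mul]
    ring
  · have h4 : dist (fun j => W₁ j x₀) w₀ < δ := by
      refine lt_of_le_of_lt ((dist_pi_le_iff (half_pos hδ).le).2 fun j => ?_) (half_lt_self hδ)
      rw [dist_eq_norm]
      exact h3 j
    have h5 := (dist_le_pi_dist _ _ i).trans (hδ' h4).le
    rw [hΦ0, dist_eq_norm] at h5
    have e : toX t c.a (c.cX (th t) W₀ W₁) (c.cE (th t) W₀ W₁) i x₀ = Φ (fun j => W₁ j x₀) i := by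
      fin_cases i <;> rfl
    rwa [e]

end Crest.Agent.R80
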