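import Crest.Agent.R80.Weak

/-!
# Row 80: Hahn-Banach-Riesz, weak limits
-/

namespace Crest.Agent.R80

open MeasureTheory Set Metric Filter Topology Complex
open scoped ContDiff
open Crest.AnalysisR.VecCalc3 Crest.AnalysisR.PDE Crest.AnalysisR.PDE.Elasticity

variable {U K : Set R3} {θ : C3} {f g : R3 → ℂ}

/-- a linear family of `L²` functions as a linear map to `Lp`. -/
noncomputable def rieszL {V : Type*} [AddCommGroup V] [Module ℂ V] (T : V →ₗ[ℂ] (R3 → ℂ))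
    (hT : ∀ v, L2 U (T v)) : V →ₗ[ℂ] Lp ℂ 2 (volume.restrict U) where
  toFun v := (hT v).toLp (T v)
  map_add' u v := by
    rw [← MemLp.toLp_add]
    exact MemLp.toLp_congr _ _ (by rw [map_add])
  map_smul' c v := by
    rw [RingHom.id_apply, ← MemLp.toLp_const_smul]
    exact MemLp.toLp_congr _ _ (by rw [map_smul])

theorem riesz_inner (z : Lp ℂ 2 (volume.restrict U)) {ψ : R3 → ℂ} (hψ : L2 U ψ) :
    inner ℂ z (hψ.toLp ψ) = ∫ x in U, starRingEnd ℂ (z x) * ψ x := by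
  rw [MeasureTheory.L2.inner_def]
  refine integral_congr_ae ?_
  filter_upwards [hψ.coeFn_toLp] with x hx
  rw [hx, RCLike.inner_apply, mul_comm]

theorem riesz_lp (Φ : Lp ℂ 2 (volume.restrict U) →ₗ[ℂ] ℂ) {C : ℝ} (hC : 0 ≤ C)
    (h : ∀ u, ‖Φ u‖ ≤ C * ‖u‖) : ∃ y : R3 → ℂ, L2 U y ∧ nr U y ≤ C ∧
      ∀ ψ (hψ : L2 U ψ), Φ (hψ.toLp ψ) = ∫ x in U, y x * ψ x := by
  let z := (InnerProductSpace.toDual ℂ _).symm (Φ.mkContinuous C h)
  have hz : ‖z‖ ≤ C := by
    rw [LinearIsometryEquiv.norm_map]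
    exact Φ.mkContinuous_norm_le hC h
  refine ⟨fun x => starRingEnd ℂ (z x), L2.conj (Lp.memLp z), ?_, fun ψ hψ => ?_⟩
  · rw [← nr_norm (L2.conj (Lp.memLp z))]
    simp only [RCLike.norm_conj]
    rw [nr_norm (Lp.memLp z), nr_eq_norm_toLp (Lp.memLp z), Lp.toLp_coeFn]
    exact hz
  · rw [← riesz_inner, InnerProductSpace.toDual_symm_apply]
    rfl

theorem riesz_ae_zero (hU : MeasurableSet U) (hg : L2 U g)
    (h : ∫ x in U, g x * starRingEnd ℂ (g x) = 0) : ∀ᵐ x : R3, x ∈ U → g x = 0 := by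
  refine ae_eq_zero_of_nr hU hg (le_of_eq (pow_eq_zero_iff two_ne_zero |>.1 ?_))
  simp only [Complex.mul_conj'] at h
  rw [nr_sq hg, ← Complex.ofReal_eq_zero, ← integral_complex_ofReal]
  simpa using h

/-- Factor `Λ` through the range of `T` in `PiLp 1 fun _ : ι => Lp ℂ 2 (volume.restrict U)`, extend by
Hahn-Banach (`exists_extension_norm_eq`), represent each component by Riesz (`InnerProductSpace.toDual`) and
conjugate. -/
theorem hb_riesz {V ι : Type*} [AddCommGroup V] [Module ℂ V] [Fintype ι]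
    (T : V →ₗ[ℂ] (ι → R3 → ℂ)) (hT : ∀ v j, L2 U (T v j)) (Λ : V →ₗ[ℂ] ℂ) {C : ℝ} (hC : 0 ≤ C)
    (h : ∀ v, ‖Λ v‖ ≤ C * ∑ j, nr U (T v j)) :
    ∃ y : ι → R3 → ℂ, (∀ j, L2 U (y j) ∧ nr U (y j) ≤ C) ∧
      ∀ v, Λ v = ∑ j, ∫ x in U, y j x * T v j x := by
  classical
  let T' : V →ₗ[ℂ] (ι → Lp ℂ 2 (volume.restrict U)) :=
    LinearMap.pi fun j => rieszL ((LinearMap.proj j).comp T) fun v => hT v j
  have hT' : ∀ v j, T' v j = (hT v j).toLp (T v j) := fun _ _ => rfl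
  have h' : ∀ v, ‖Λ v‖ ≤ C * ∑ j, ‖T' v j‖ := fun v => by
    simpa only [hT', ← nr_eq_norm_toLp] using h v
  obtain ⟨σ, hσ⟩ := T'.rangeRestrict.exists_rightInverse_of_surjective T'.range_rangeRestrict
  have hσ' : ∀ s : LinearMap.range T', T' (σ s) = s := fun s =>
    congrArg Subtype.val (LinearMap.congr_fun hσ s)
  let p : Seminorm ℂ (ι → Lp ℂ 2 (volume.restrict U)) := Seminorm.of (fun w => C * ∑ j, ‖w j‖)
    (fun w w' => by
      rw [← mul_add, ← Finset.sum_add_distrib]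
      exact mul_le_mul_of_nonneg_left (Finset.sum_le_sum fun j _ => norm_add_le _ _) hC)
    (fun c w => by
      simp only [Pi.smul_apply, norm_smul, ← Finset.mul_sum]
      ring)
  have hp : ∀ w, p w = C * ∑ j, ‖w j‖ := fun _ => rfl
  obtain ⟨Φ, hΦ, hΦp⟩ := Module.Dual.exists_extension_of_le_seminorm (LinearMap.range T')
    (Λ.comp σ) (p := p) fun s => by
      have := h' (σ s)
      rwa [hσ'] at this
  have hΛ : ∀ v, Λ v = Φ (T' v) := fun v => by
    have e1 := hΦ ⟨T' v, v, rfl⟩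
    have e2 := h' (v - σ ⟨T' v, v, rfl⟩)
    rw [map_sub T', hσ', map_sub] at e2
    simp only [sub_self, Pi.zero_apply, norm_zero, Finset.sum_const_zero, mul_zero,
      norm_le_zero_iff, sub_eq_zero] at e2
    exact e2.trans e1.symm
  have hj : ∀ j, ∃ y : R3 → ℂ, L2 U y ∧ nr U y ≤ C ∧ ∀ ψ (hψ : L2 U ψ),
      Φ (Pi.single j (hψ.toLp ψ)) = ∫ x in U, y x * ψ x := fun j =>
    riesz_lp (Φ.comp (LinearMap.single ℂ (fun _ : ι => Lp ℂ 2 (volume.restrict U)) j)) hC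
      fun u => by
        refine (hΦp _).trans (le_of_eq ?_)
        rw [hp, Finset.sum_eq_single j]
        · simp
        · intro k _ hk
          simp [Pi.single_eq_of_ne hk]
        · simp
  choose y hy using hj
  refine ⟨y, fun j => ⟨(hy j).1, (hy j).2.1⟩, fun v => ?_⟩
  rw [hΛ, ← Finset.univ_sum_single (T' v), map_sum]
  exact Finset.sum_congr rfl fun j _ => (hy j).2.2 _ (hT v j)

theorem riesz_sub (S : Submodule ℂ (R3 → ℂ)) (hS : ∀ v ∈ S, L2 U v) (Λ : S →ₗ[ℂ] ℂ) {C : ℝ}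
    (hC : 0 ≤ C) (h : ∀ v : S, ‖Λ v‖ ≤ C * nr U v.1) :
    ∃ y, L2 U y ∧ nr U y ≤ C ∧ ∀ v : S, Λ v = ∫ x in U, y x * v.1 x := by
  obtain ⟨y, h1, h2⟩ := hb_riesz (U := U) (LinearMap.pi fun _ : Unit => S.subtype)
    (fun v _ => hS v.1 v.2) Λ hC fun v => by simpa using h v
  exact ⟨y (), (h1 ()).1, (h1 ()).2, fun v => by simpa using h2 v⟩

/-- the submodule of test functions. -/
def tstSub (U : Set R3) : Submodule ℂ (R3 → ℂ) where
  carrier := {ψ | Tst U ψ}
  add_mem' h h' := Tk.add h h'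
  zero_mem' := Tk.zero _ _
  smul_mem' c _ h := Tk.const_mul c h

theorem exists_WD (hU : MeasurableSet U) (hf : L2 U f) {C : ℝ} (hC : 0 ≤ C)
    (h : ∀ ψ, Tst U ψ → ‖∫ x, f x * dv θ ψ x‖ ≤ C * nr U ψ) :
    ∃ g, L2 U g ∧ nr U g ≤ C ∧ WD U θ f g := by
  have hd : ∀ ψ : tstSub U, ∀ x, DifferentiableAt ℝ ψ.1 x := fun ψ x =>
    (Tst.tk1 ψ.2).cd.differentiable one_ne_zero x
  let Λ : tstSub U →ₗ[ℂ] ℂ :=
    { toFun := fun ψ => -∫ x, f x * dv θ ψ.1 x
      map_add' := fun ψ φ => by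
        rw [← neg_add, ← integral_add (hf.integrable_mul_tk hU (Tst.dv ψ.2 θ))
          (hf.integrable_mul_tk hU (Tst.dv φ.2 θ))]
        congr 1
        refine integral_congr_ae (Eventually.of_forall fun x => ?_)
        change f x * dv θ (fun y => ψ.1 y + φ.1 y) x = _
        rw [dv_add θ (hd ψ x) (hd φ x), mul_add]
      map_smul' := fun c ψ => by
        rw [RingHom.id_apply, smul_eq_mul, mul_neg, ← integral_const_mul]
        congr 1
        refine integral_congr_ae (Eventually.of_forall fun x => ?_)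
        change f x * dv θ (fun y => c * ψ.1 y) x = _
        rw [dv_const_mul θ c (hd ψ x)]
        ring }
  obtain ⟨y, h1, h2, h3⟩ := riesz_sub (U := U) (tstSub U) (fun ψ hψ => Tk.l2 hψ U) Λ hC
    fun ψ => (norm_neg _).trans_le (h ψ.1 ψ.2)
  refine ⟨y, h1, h2, fun ψ hψ => ?_⟩
  rw [integral_mul_tk_eq hU y hψ, ← h3 ⟨ψ, hψ⟩]
  exact (neg_neg _).symm

/-- density of test functions (e.g. the orthogonal complement of the test functions in `Lp` is trivial by
`ae_zero_of_tst`). -/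
theorem exists_tst_near (hU : IsOpen U) {ψ : R3 → ℂ} (hψ : L2 U ψ) {ε : ℝ} (hε : 0 < ε) :
    ∃ φ, Tst U φ ∧ nr U (fun x => φ x - ψ x) ≤ ε := by
  let T := rieszL (U := U) (tstSub U).subtype fun v => Tk.l2 v.2 U
  have hd : Dense (LinearMap.range T : Set (Lp ℂ 2 (volume.restrict U))) := by
    rw [Submodule.dense_iff_topologicalClosure_eq_top, Submodule.topologicalClosure_eq_top_iff,
      Submodule.eq_bot_iff]
    intro z hz
    have h1 := ae_zero_of_tst hU (L2.conj (Lp.memLp z)) fun φ hφ => by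
      rw [integral_mul_tk_eq hU.measurableSet _ hφ, ← riesz_inner z (hφ.l2 U)]
      exact (Submodule.mem_orthogonal' _ _).1 hz _ ⟨⟨φ, hφ⟩, rfl⟩
    rw [Lp.eq_zero_iff_ae_eq_zero]
    filter_upwards [ae_restrict_of hU.measurableSet h1] with x hx
    simpa using hx
  obtain ⟨_, ⟨φ, rfl⟩, hφ⟩ := Metric.mem_closure_iff.1 (hd (hψ.toLp ψ)) ε hε
  refine ⟨φ.1, φ.2, ?_⟩
  rw [dist_comm, dist_eq_norm] at hφ
  rw [nr_eq_norm_toLp ((Tk.l2 φ.2 U).sub' hψ)]
  exact hφ.le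

theorem exists_L2_lim {F : ℕ → R3 → ℂ} (hF : ∀ n, L2 U (F n))
    (h : ∀ ε : ℝ, 0 < ε → ∃ N, ∀ n, N ≤ n → ∀ m, N ≤ m → nr U (fun x => F n x - F m x) ≤ ε) :
    ∃ g, L2 U g ∧ Tendsto (fun n => nr U fun x => F n x - g x) atTop (𝓝 0) := by
  have hc : CauchySeq fun n => (hF n).toLp (F n) := by
    refine Metric.cauchySeq_iff.2 fun ε hε => ?_
    obtain ⟨N, hN⟩ := h (ε / 2) (half_pos hε)
    refine ⟨N, fun n hn m hm => lt_of_le_of_lt ?_ (half_lt_self hε)⟩
    have := hN n hn m hm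
    rw [nr_eq_norm_toLp ((hF n).sub' (hF m))] at this
    rw [dist_eq_norm]
    exact this
  obtain ⟨z, hz⟩ := cauchySeq_tendsto_of_complete hc
  refine ⟨z, Lp.memLp z, (tendsto_iff_norm_sub_tendsto_zero.1 hz).congr fun n => ?_⟩
  rw [nr_eq_norm_toLp ((hF n).sub' (Lp.memLp z))]
  conv_lhs => rw [← Lp.toLp_coeFn z (Lp.memLp z)]
  rfl

variable {α : Type*} {l : Filter α} {F G : α → R3 → ℂ}

theorem exists_WLim (𝒰 : Ultrafilter α) {M : ℝ} (hF : ∀ᶠ n in 𝒰, L2 U (F n) ∧ nr U (F n) ≤ M) :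
    ∃ g, L2 U g ∧ nr U g ≤ M ∧ WLim 𝒰 U F g := by
  have hM : 0 ≤ M := by
    obtain ⟨n, hn⟩ := hF.exists
    exact (nr_nonneg _ _).trans hn.2
  let S : Submodule ℂ (R3 → ℂ) :=
    { carrier := {ψ | L2 U ψ}
      add_mem' := fun h h' => L2.add' h h'
      zero_mem' := L2.zero' U
      smul_mem' := fun c _ h => L2.cmul c h }
  have hl : ∀ ψ : S, ∃ a : ℂ, ‖a‖ ≤ M * nr U ψ.1 ∧
      Tendsto (fun n => ∫ x in U, F n x * ψ.1 x) 𝒰 (𝓝 a) := fun ψ => by
    obtain ⟨a, ha, ha'⟩ := (isCompact_closedBall (0 : ℂ) (M * nr U ψ.1)).ultrafilter_le_nhds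
      (𝒰.map fun n => ∫ x in U, F n x * ψ.1 x) (by
        rw [Ultrafilter.coe_map, le_principal_iff, mem_map]
        filter_upwards [hF] with n hn
        rw [mem_preimage, mem_closedBall_zero_iff]
        exact (norm_setIntegral_mul_le hn.1 ψ.2).trans
          (mul_le_mul_of_nonneg_right hn.2 (nr_nonneg _ _)))
    exact ⟨a, mem_closedBall_zero_iff.1 ha, ha'⟩
  choose a ha ha' using hl
  let Λ : S →ₗ[ℂ] ℂ :=
    { toFun := a
      map_add' := fun ψ φ => tendsto_nhds_unique (ha' (ψ + φ)) (((ha' ψ).add (ha' φ)).congr' (by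
        filter_upwards [hF] with n hn
        rw [← integral_add (hn.1.integrableOn_mul ψ.2) (hn.1.integrableOn_mul φ.2)]
        exact integral_congr_ae (Eventually.of_forall fun x => (mul_add _ _ _).symm)))
      map_smul' := fun c ψ => tendsto_nhds_unique (ha' (c • ψ)) (((ha' ψ).const_mul c).congr
        fun n => by
          rw [← integral_const_mul]
          exact integral_congr_ae (Eventually.of_forall fun x => mul_left_comm _ _ _)) }
  obtain ⟨y, h1, h2, h3⟩ := riesz_sub (U := U) S (fun _ h => h) Λ hM ha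
  exact ⟨y, h1, h2, fun ψ hψ => h3 ⟨ψ, hψ⟩ ▸ ha' ⟨ψ, hψ⟩⟩

namespace WLim

theorem of_tst (hU : IsOpen U) {M : ℝ} (hF : ∀ᶠ n in l, L2 U (F n) ∧ nr U (F n) ≤ M) (hg : L2 U g)
    (h : ∀ ψ, Tst U ψ → Tendsto (fun n => ∫ x, F n x * ψ x) l (𝓝 (∫ x, g x * ψ x))) :
    WLim l U F g := by
  intro ψ hψ
  refine Metric.tendsto_nhds.2 fun ε hε => ?_
  have hg0 := nr_nonneg U g
  have hM0 := abs_nonneg M
  obtain ⟨φ, hφ, hδ⟩ := exists_tst_near hU hψ (ε := ε / 2 / (|M| + nr U g + 1)) (by positivity)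
  have hd : L2 U fun x => φ x - ψ x := (hφ.l2 U).sub' hψ
  have key : ∀ u, L2 U u → ∫ x in U, u x * ψ x =
      (∫ x, u x * φ x) - ∫ x in U, u x * (φ x - ψ x) := fun u hu => by
    rw [integral_mul_tk_eq hU.measurableSet u hφ,
      ← integral_sub (hu.integrableOn_mul (hφ.l2 U)) (hu.integrableOn_mul hd)]
    exact integral_congr_ae (Eventually.of_forall fun x => by ring)
  filter_upwards [hF, Metric.tendsto_nhds.1 (h φ hφ) (ε / 2) (half_pos hε)] with n hn hn'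
  have h1 := norm_setIntegral_mul_le hn.1 hd
  have h2 := norm_setIntegral_mul_le hg hd
  have h3 : nr U (F n) * nr U (fun x => φ x - ψ x) ≤ |M| * nr U fun x => φ x - ψ x :=
    mul_le_mul_of_nonneg_right (hn.2.trans (le_abs_self M)) (nr_nonneg _ _)
  rw [le_div_iff₀ (by positivity)] at hδ
  have h4 := nr_nonneg U fun x => φ x - ψ x
  rw [key _ hn.1, key _ hg]
  refine (dist_sub_sub_le _ _ _ _).trans_lt ?_
  have h5 := dist_le_norm_add_norm (∫ x in U, F n x * (φ x - ψ x)) (∫ x in U, g x * (φ x - ψ x))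
  nlinarith

theorem of_nr (hF : ∀ᶠ n in l, L2 U (F n)) (hg : L2 U g)
    (h : Tendsto (fun n => nr U fun x => F n x - g x) l (𝓝 0)) : WLim l U F g := by
  intro ψ hψ
  exact tendsto_setIntegral_mul (g := fun _ => ψ) hF (Eventually.of_forall fun _ => hψ) hg hψ h
    (by simpa using tendsto_const_nhds)

theorem tk {n : WithTop ℕ∞} (h : WLim l U F g) (hU : MeasurableSet U) {ψ : R3 → ℂ} (hψ : Tk n U ψ) :
    Tendsto (fun n => ∫ x, F n x * ψ x) l (𝓝 (∫ x, g x * ψ x)) := by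
  simp only [integral_mul_tk_eq hU _ hψ]
  exact h ψ (hψ.l2 U)

/-- pairing with a bounded multiple of a test function. -/
theorem bd_tk {n : WithTop ℕ∞} (h : WLim l U F g) (hU : MeasurableSet U) {b ψ : R3 → ℂ} (hb : Bd b)
    (hψ : Tk n U ψ) :
    Tendsto (fun n => ∫ x, b x * F n x * ψ x) l (𝓝 (∫ x, b x * g x * ψ x)) := by
  have e : ∀ u : R3 → ℂ, ∫ x, b x * u x * ψ x = ∫ x in U, u x * (b x * ψ x) := fun u => by
    rw [integral_mul_tk_eq hU (fun x => b x * u x) hψ]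
    exact integral_congr_ae (Eventually.of_forall fun x => by ring)
  simp only [e]
  exact h _ (L2.bd_mul hb (hψ.l2 U))

theorem sub {g' : R3 → ℂ} (h : WLim l U F g) (h' : WLim l U G g')
    (hF : ∀ᶠ n in l, L2 U (F n) ∧ L2 U (G n)) (hg : L2 U g) (hg' : L2 U g') :
    WLim l U (fun n x => F n x - G n x) fun x => g x - g' x := by
  intro ψ hψ
  have e : ∀ u v : R3 → ℂ, L2 U u → L2 U v →
      (∫ x in U, u x * ψ x) - ∫ x in U, v x * ψ x = ∫ x in U, (u x - v x) * ψ x :=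
    fun u v hu hv => by
      rw [← integral_sub (hu.integrableOn_mul hψ) (hv.integrableOn_mul hψ)]
      exact integral_congr_ae (Eventually.of_forall fun x => (sub_mul _ _ _).symm)
  rw [← e g g' hg hg']
  exact ((h ψ hψ).sub (h' ψ hψ)).congr' (hF.mono fun n hn => e _ _ hn.1 hn.2)

theorem congr (h : WLim l U F g) (hU : MeasurableSet U)
    (hF : ∀ᶠ n in l, ∀ᵐ x : R3, x ∈ U → G n x = F n x) : WLim l U G g := by
  intro ψ hψ
  refine (h ψ hψ).congr' (hF.mono fun n hn => integral_congr_ae ?_)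
  filter_upwards [ae_restrict_of hU hn] with x hx
  rw [hx]

theorem mono_left {l' : Filter α} (h : WLim l U F g) (hl : l' ≤ l) : WLim l' U F g := by
  exact fun ψ hψ => (h ψ hψ).mono_left hl

theorem unique [l.NeBot] {g' : R3 → ℂ} (h : WLim l U F g) (h' : WLim l U F g')
    (hU : MeasurableSet U) (hg : L2 U g) (hg' : L2 U g') : ∀ᵐ x : R3, x ∈ U → g x = g' x := by
  have hd := hg.sub' hg'
  have h1 := tendsto_nhds_unique (h _ hd.conj) (h' _ hd.conj)
  have h2 := riesz_ae_zero hU hd (by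
    rw [← sub_eq_zero, ← integral_sub (hg.integrableOn_mul hd.conj)
      (hg'.integrableOn_mul hd.conj)] at h1
    rw [← h1]
    exact integral_congr_ae (Eventually.of_forall fun x => sub_mul _ _ _))
  filter_upwards [h2] with x hx hxU
  exact sub_eq_zero.1 (hx hxU)

/-- test with `Kᶜ.indicator (conj g)`. -/
theorem ae_zero_off [l.NeBot] (h : WLim l U F g) (hU : MeasurableSet U) (hK : MeasurableSet K)
    (hg : L2 U g) (hF : ∀ᶠ n in l, ∀ᵐ x : R3, x ∈ U → x ∉ K → F n x = 0) :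
    ∀ᵐ x : R3, x ∈ U → x ∉ K → g x = 0 := by
  have hd : L2 U (Kᶜ.indicator g) := hg.indicator' hK.compl
  have h1 : Tendsto (fun n => ∫ x in U, F n x * starRingEnd ℂ (Kᶜ.indicator g x)) l (𝓝 0) := by
    refine tendsto_const_nhds.congr' (hF.mono fun n hn => (integral_eq_zero_of_ae ?_).symm)
    filter_upwards [ae_restrict_of hU hn] with x hx
    by_cases hxK : x ∈ K
    · simp [hxK]
    · simp [hx hxK]
  have h2 := riesz_ae_zero hU hd (by
    rw [← tendsto_nhds_unique (h _ hd.conj) h1]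
    refine integral_congr_ae (Eventually.of_forall fun x => ?_)
    by_cases hxK : x ∈ K <;> simp [hxK])
  filter_upwards [h2] with x hx hxU hxK
  simpa [hxK] using hx hxU

end WLim

end Crest.Agent.R80
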