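import Crest.Agent.R80.DNr
import Crest.Agent.R80.Riesz

/-!
# Row 80: equality of the Dirichlet-to-Neumann forms, complex fields
-/

namespace Crest.Agent.R80

open MeasureTheory Set Metric Filter Topology Complex
open scoped ContDiff
open Crest.AnalysisR.VecCalc3 Crest.AnalysisR.PDE Crest.AnalysisR.PDE.Elasticity

/-- the stress. -/
noncomputable def dncSig (c : Co) (P : Fin 3 → Fin 3 → R3 → ℂ) (i j : Fin 3) (x : R3) : ℂ :=
  (if i = j then (1 : ℂ) else 0) * ((c.lam x : ℂ) * ∑ k, P k k x) + (c.mu x : ℂ) * (P i j x + P j i x)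

theorem dnc_bilc_eq (c : Co) (P : Fin 3 → Fin 3 → R3 → ℂ) (ψ : Fin 3 → R3 → ℂ) (x : R3) :
    c.bilc P ψ x = ∑ i, ∑ j, dncSig c P i j x * pd i (ψ j) x := by
  simp [Co.bilc, bil, dncSig, Fin.sum_univ_three]
  ring

theorem dnc_l2_sig (c : Co) {U : Set R3} {P : Fin 3 → Fin 3 → R3 → ℂ} (hP : ∀ i j, L2 U (P i j))
    (i j : Fin 3) : L2 U (dncSig c P i j) :=
  L2.add' (L2.cmul _ (L2.bd_mul c.bd_lam (L2.sum' _ fun k _ => hP k k)))
    (L2.bd_mul c.bd_mu (L2.add' (hP i j) (hP j i)))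

theorem dnc_l2_pd {Ω : Set R3} (h : IsDom Ω) {f : R3 → ℂ} (hf : ContDiff ℝ 1 f) (i : Fin 3) :
    L2 Ω (pd i f) :=
  L2.of_continuous h.measurableSet h.1 (continuous_pd i hf)

theorem dnc_int (c : Co) {U : Set R3} {P : Fin 3 → Fin 3 → R3 → ℂ} (hP : ∀ i j, L2 U (P i j))
    {ψ : Fin 3 → R3 → ℂ} (hψ : ∀ i j, L2 U (pd i (ψ j))) :
    ∫ x in U, c.bilc P ψ x = ∑ i, ∑ j, ∫ x in U, dncSig c P i j x * pd i (ψ j) x := by
  have hi : ∀ i j, IntegrableOn (fun x => dncSig c P i j x * pd i (ψ j) x) U := fun i j =>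
    L2.integrableOn_mul (dnc_l2_sig c hP i j) (hψ i j)
  simp only [dnc_bilc_eq]
  rw [integral_finsetSum _ fun i _ => integrable_finsetSum _ fun j _ => hi i j]
  exact Finset.sum_congr rfl fun i _ => integral_finsetSum _ fun j _ => hi i j

/-- linearity in the test field. -/
theorem dnc_bilc_lin (c : Co) (P : Fin 3 → Fin 3 → R3 → ℂ) {ψ φ : Fin 3 → R3 → ℂ}
    (hψ : ∀ j, ContDiff ℝ 1 (ψ j)) (hφ : ∀ j, ContDiff ℝ 1 (φ j)) (t : ℂ) (x : R3) :
    c.bilc P (fun j y => ψ j y + t * φ j y) x = c.bilc P ψ x + t * c.bilc P φ x := by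
  have e : ∀ i j, pd i (fun y => ψ j y + t * φ j y) x = pd i (ψ j) x + t * pd i (φ j) x := fun i j => by
    have d1 : DifferentiableAt ℝ (ψ j) x := (hψ j).differentiable one_ne_zero x
    have d2 : DifferentiableAt ℝ (φ j) x := (hφ j).differentiable one_ne_zero x
    rw [pd_add i d1 (d2.const_mul t), pd_const_mul i t d2]
  simp only [dnc_bilc_eq, e, Finset.mul_sum, ← Finset.sum_add_distrib]
  exact Finset.sum_congr rfl fun i _ => Finset.sum_congr rfl fun j _ => by ring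

theorem dnc_int_lin {Ω : Set R3} (h : IsDom Ω) (c : Co) {P : Fin 3 → Fin 3 → R3 → ℂ}
    (hP : ∀ i j, L2 Ω (P i j)) {ψ φ : Fin 3 → R3 → ℂ}
    (hψ : ∀ j, ContDiff ℝ 1 (ψ j)) (hφ : ∀ j, ContDiff ℝ 1 (φ j)) (t : ℂ) :
    ∫ x in Ω, c.bilc P (fun j y => ψ j y + t * φ j y) x =
      (∫ x in Ω, c.bilc P ψ x) + t * ∫ x in Ω, c.bilc P φ x := by
  simp only [dnc_bilc_lin c P hψ hφ]
  rw [integral_add (c.L2_bilc h.measurableSet hP fun i j => dnc_l2_pd h (hψ j) i)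
    ((c.L2_bilc h.measurableSet hP fun i j => dnc_l2_pd h (hφ j) i).const_mul t), integral_const_mul]

theorem dnc_pd_real {ψ : R3 → R3} (hψ : ContDiff ℝ 1 ψ) (i j : Fin 3) (x : R3) :
    pd i (fun y => (ψ y j : ℂ)) x = (Dr ψ i j x : ℂ) :=
  pd_ofReal i ((contDiff_comp_coord hψ j).differentiable one_ne_zero x)

theorem dnc_nr_ind_sub {Ω : Set R3} (hΩ : MeasurableSet Ω) (f g : R3 → ℂ) :
    nr univ (fun x => Ω.indicator f x - Ω.indicator g x) = nr Ω fun x => f x - g x := by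
  rw [← nr_indicator hΩ, indicator_sub]

/-- a weak solution near `closure Ω` is orthogonal to fields vanishing on the boundary
(`IsDom.exists_approx` for each component). -/
theorem WLame.setIntegral_eq_zero {U Ω : Set R3} {c : Co} {P : Fin 3 → Fin 3 → R3 → ℂ}
    (hL : WLame U c P) (h : IsDom Ω) (hΩU : Ω ⊆ U) (hP : ∀ i j, L2 Ω (P i j))
    {ψ : Fin 3 → R3 → ℂ} (hψ : ∀ j, ContDiff ℝ 1 (ψ j)) (h0 : ∀ j, ∀ x ∈ frontier Ω, ψ j x = 0) :
    ∫ x in Ω, c.bilc P ψ x = 0 := by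
  have hm := h.measurableSet
  choose φ hφ _ hφ' using fun j => h.exists_approx (hψ j) (h0 j)
  have h1 : ∀ n, ∫ x in Ω, c.bilc P (fun j => φ j n) x = 0 := fun n => by
    rw [← hL (fun j => φ j n) fun j => (hφ j n).1.mono hΩU]
    refine setIntegral_eq_integral_of_forall_compl_eq_zero fun x hx => ?_
    rw [dnc_bilc_eq]
    refine Finset.sum_eq_zero fun i _ => Finset.sum_eq_zero fun j _ => ?_
    rw [pd_eq_zero_of_notMem i fun h' => hx ((hφ j n).1.sub h'), mul_zero]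
  have h2 : Tendsto (fun n => ∫ x in Ω, c.bilc P (fun j => φ j n) x) atTop
      (𝓝 (∫ x in Ω, c.bilc P ψ x)) := by
    have e : ∀ n, ∫ x in Ω, c.bilc P (fun j => φ j n) x =
        ∑ i, ∑ j, ∫ x in Ω, dncSig c P i j x * pd i (φ j n) x := fun n =>
      dnc_int c hP fun i j => dnc_l2_pd h (hφ j n).1.cd i
    simp only [e]
    rw [dnc_int c hP fun i j => dnc_l2_pd h (hψ j) i]
    refine tendsto_finsetSum _ fun i _ => tendsto_finsetSum _ fun j _ => ?_
    refine tendsto_setIntegral_mul (Eventually.of_forall fun _ => dnc_l2_sig c hP i j)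
      (Eventually.of_forall fun n => dnc_l2_pd h (hφ j n).1.cd i) (dnc_l2_sig c hP i j)
      (dnc_l2_pd h (hψ j) i) ?_ (hφ' j i)
    simp only [sub_self, nr_zero]
    exact tendsto_const_nhds
  simp only [h1] at h2
  exact tendsto_nhds_unique h2 tendsto_const_nhds

/-- real and imaginary parts against a real test field. -/
theorem setIntegral_bilc_real {Ω : Set R3} (h : IsDom Ω) (c : Co) {P : Fin 3 → Fin 3 → R3 → ℂ}
    (hP : ∀ i j, L2 Ω (P i j)) {ψ : R3 → R3} (hψ : ContDiff ℝ 1 ψ) :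
    ∫ x in Ω, c.bilc P (fun j y => (ψ y j : ℂ)) x =
      BR Ω c (fun i j x => (P i j x).re) (Dr ψ) + I * BR Ω c (fun i j x => (P i j x).im) (Dr ψ) := by
  have e : ∀ x, c.bilc P (fun j y => (ψ y j : ℂ)) x =
      ((bil (c.lam x) (c.mu x) (fun i j => (P i j x).re) fun i j => Dr ψ i j x : ℝ) : ℂ) +
        I * ((bil (c.lam x) (c.mu x) (fun i j => (P i j x).im) fun i j => Dr ψ i j x : ℝ) : ℂ) := by
    intro x
    have e1 : (fun i j => P i j x) = fun i j => ((P i j x).re : ℂ) + I * (P i j x).im :=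
      funext fun i => funext fun j => by rw [mul_comm, re_add_im]
    simp only [Co.bilc, dnc_pd_real hψ]
    rw [e1]
    simp only [bil, Fin.sum_univ_three]
    push_cast
    ring
  have i1 := integrableOn_bil h.measurableSet c (fun i j => L2.re' (hP i j)) (h.l2_Dr hψ)
  have i2 := integrableOn_bil h.measurableSet c (fun i j => L2.im' (hP i j)) (h.l2_Dr hψ)
  simp only [e]
  refine (integral_add i1.ofReal (i2.ofReal.const_mul I)).trans ?_
  rw [integral_const_mul, integral_ofReal]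
  exact congrArg₂ _ integral_complex_ofReal rfl

/-- the limit of fields in `V0` whose gradients converge (`H1.ind`, `poincare`, `exists_L2_lim`,
`WD.of_tendsto`). -/
theorem exists_h1_lim {Ω : Set R3} (h : IsDom Ω) {F : ℕ → R3 → ℂ} (hF : ∀ n, ContDiff ℝ 1 (F n))
    (h0 : ∀ n, ∀ x ∈ frontier Ω, F n x = 0) {Z : Fin 3 → R3 → ℂ} (hZ : ∀ i, L2 Ω (Z i))
    (hl : ∀ i, Tendsto (fun n => nr Ω fun x => pd i (F n) x - Z i x) atTop (𝓝 0)) :
    ∃ w, H1 univ w (fun i => Ω.indicator (Z i)) ∧ Van Ω w := by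
  have hm := h.measurableSet
  obtain ⟨r, -, hr⟩ := h.exists_ball
  obtain ⟨C, hC, hp⟩ := poincare r
  have hH := fun n => H1.ind h (hF n) (h0 n)
  have hv : ∀ f : R3 → ℂ, Van (closedBall 0 r) (Ω.indicator f) := fun f =>
    (Van.indicator Ω f).mono (subset_closure.trans (hr.trans ball_subset_closedBall))
  have hb : ∀ n m, nr Ω (fun x => F n x - F m x) ≤
      C * (nr Ω (fun x => pd 0 (F n) x - Z 0 x) + nr Ω fun x => pd 0 (F m) x - Z 0 x) := fun n m => by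
    have h1 := hp _ _ ((hH n).sub (hH m) MeasurableSet.univ) ((hv _).sub (hv _))
    rw [dnc_nr_ind_sub hm, dnc_nr_ind_sub hm] at h1
    refine h1.trans (mul_le_mul_of_nonneg_left (le_trans (le_of_eq ?_)
      (nr_sub_le (L2.sub' (dnc_l2_pd h (hF n) 0) (hZ 0)) (L2.sub' (dnc_l2_pd h (hF m) 0) (hZ 0)))) hC)
    simp only [sub_sub_sub_cancel_right]
  obtain ⟨g, hg, hgl⟩ := exists_L2_lim (U := Ω) (F := F)
    (fun n => L2.of_continuous hm h.1 (hF n).continuous) fun ε hε => by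
      have h1 := (hl 0).const_mul C
      rw [mul_zero] at h1
      obtain ⟨N, hN⟩ := eventually_atTop.1 (h1.eventually (gt_mem_nhds (half_pos hε)))
      refine ⟨N, fun n hn m hm => (hb n m).trans ?_⟩
      have := hN n hn
      have := hN m hm
      rw [mul_add]
      linarith
  refine ⟨Ω.indicator g, ⟨L2.indicator_univ hm hg, fun i => L2.indicator_univ hm (hZ i), fun i => ?_⟩,
    Van.indicator Ω g⟩
  refine WD.of_tendsto (l := atTop) (F := fun n => Ω.indicator (F n))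
    (G := fun n => Ω.indicator (pd i (F n))) MeasurableSet.univ
    (Eventually.of_forall fun n => ⟨(hH n).wd i, (hH n).l2, (hH n).l2G i⟩) (L2.indicator_univ hm hg)
    (L2.indicator_univ hm (hZ i)) ?_ ?_
  · simpa only [dnc_nr_ind_sub hm] using hgl
  · simpa only [dnc_nr_ind_sub hm] using hl i

/-- real part of a complex field. -/
noncomputable def dncRe (ψ : Fin 3 → R3 → ℂ) (y : R3) : R3 := WithLp.toLp 2 fun j => (ψ j y).re

/-- imaginary part of a complex field. -/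
noncomputable def dncIm (ψ : Fin 3 → R3 → ℂ) (y : R3) : R3 := WithLp.toLp 2 fun j => (ψ j y).im

theorem dnc_contDiff_re {ψ : Fin 3 → R3 → ℂ} (hψ : ∀ j, ContDiff ℝ 1 (ψ j)) : ContDiff ℝ 1 (dncRe ψ) :=
  contDiff_euclidean.2 fun j => reCLM.contDiff.comp (hψ j)

theorem dnc_contDiff_im {ψ : Fin 3 → R3 → ℂ} (hψ : ∀ j, ContDiff ℝ 1 (ψ j)) : ContDiff ℝ 1 (dncIm ψ) :=
  contDiff_euclidean.2 fun j => imCLM.contDiff.comp (hψ j)

theorem dnc_Dr_re {ψ : Fin 3 → R3 → ℂ} (hψ : ∀ j, ContDiff ℝ 1 (ψ j)) (i j : Fin 3) (x : R3) :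
    Dr (dncRe ψ) i j x = (pd i (ψ j) x).re :=
  pderiv_re i ((hψ j).differentiable one_ne_zero x)

theorem dnc_Dr_im {ψ : Fin 3 → R3 → ℂ} (hψ : ∀ j, ContDiff ℝ 1 (ψ j)) (i j : Fin 3) (x : R3) :
    Dr (dncIm ψ) i j x = (pd i (ψ j) x).im :=
  pderiv_im i ((hψ j).differentiable one_ne_zero x)

/-- `H1.exists_smooth_approx`, `dn_real` for the real and imaginary parts, `exists_h1_lim`; a complex test
field is `ψ' + i ψ''` with real fields. -/
theorem dn_cplx (S : Setup) {U : Set R3} (hU : IsOpen U) (hΩU : closure S.Ω ⊆ U)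
    {u : Fin 3 → R3 → ℂ} {Du : Fin 3 → Fin 3 → R3 → ℂ} (hu : ∀ j, H1 U (u j) fun i => Du i j)
    (hL : WLame U S.c₁ Du) :
    ∃ (w : Fin 3 → R3 → ℂ) (Dw : Fin 3 → Fin 3 → R3 → ℂ), (∀ j, H1 univ (w j) fun i => Dw i j) ∧
      (∀ j, Van S.Ω (w j)) ∧ (∀ i j, Van S.Ω (Dw i j)) ∧
      ∀ ψ : Fin 3 → R3 → ℂ, (∀ j, ContDiff ℝ 1 (ψ j)) →
        ∫ x in S.Ω, S.c₂.bilc (fun i j y => Du i j y - Dw i j y) ψ x =
          ∫ x in S.Ω, S.c₁.bilc Du ψ x := by
  have h := S.dom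
  have hm := h.measurableSet
  have hK := h.isCompact_closure
  have hΩ : S.Ω ⊆ U := subset_closure.trans hΩU
  have hD : ∀ i j, L2 S.Ω (Du i j) := fun i j => L2.mono_set hΩ ((hu j).l2G i)
  choose φ hφ _ hφ' using fun j => (hu j).exists_smooth_approx hU hK hΩU
  have hφ1 : ∀ j n, ContDiff ℝ 1 (φ j n) := fun j n => (hφ j n).of_le (by exact_mod_cast le_top)
  have hl : ∀ i j, Tendsto (fun n => nr S.Ω fun x => pd i (φ j n) x - Du i j x) atTop (𝓝 0) :=
    fun i j => squeeze_zero (fun _ => nr_nonneg _ _) (fun n => nr_mono_set subset_closure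
      (L2.sub' (L2.of_continuous hK.measurableSet hK.isBounded (continuous_pd i (hφ1 j n)))
        (L2.mono_set hΩU ((hu j).l2G i)))) (hφ' j i)
  have h0 : ∀ ψ, V0 S.Ω ψ → BR S.Ω S.c₁ (fun i j x => (Du i j x).re) (Dr ψ) = 0 ∧
      BR S.Ω S.c₁ (fun i j x => (Du i j x).im) (Dr ψ) = 0 := fun ψ hψ => by
    have h1 := hL.setIntegral_eq_zero h hΩ hD (ψ := fun j y => (ψ y j : ℂ))
      (fun j => contDiff_ofReal (contDiff_comp_coord hψ.1 j)) fun j x hx => by simp [hψ.2 x hx]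
    rw [setIntegral_bilc_real h _ hD hψ.1] at h1
    exact ⟨by simpa using congrArg re h1, by simpa using congrArg im h1⟩
  have hb : ∀ (L : ℂ →L[ℝ] ℝ), (∀ z, |L z| ≤ ‖z‖) → ∀ i j,
      Tendsto (fun n => nr S.Ω fun x => L (pd i (φ j n) x) - L (Du i j x)) atTop (𝓝 0) := by
    intro L hL i j
    refine squeeze_zero (fun _ => nr_nonneg _ _) (fun n => ?_) (hl i j)
    have := nr_le_mul_of_le (f := fun x => L (pd i (φ j n) x) - L (Du i j x)) hm
      (L2.sub' (dnc_l2_pd h (hφ1 j n) i) (hD i j)) zero_le_one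
      (Eventually.of_forall fun x _ => by rw [← map_sub, one_mul]; exact hL _)
    rwa [one_mul] at this
  obtain ⟨Z, ζ, hZ, hζ, hζl, hZe⟩ := dn_real S (fun i j => L2.re' (hD i j))
    (φ := fun n => dncRe fun j => φ j n) (fun n => dnc_contDiff_re fun j => hφ1 j n)
    (fun i j => by
      simp only [dnc_Dr_re fun j => hφ1 j _]
      exact hb reCLM abs_re_le_norm i j) fun ψ hψ => (h0 ψ hψ).1
  obtain ⟨Z', ζ', hZ', hζ', hζl', hZe'⟩ := dn_real S (fun i j => L2.im' (hD i j))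
    (φ := fun n => dncIm fun j => φ j n) (fun n => dnc_contDiff_im fun j => hφ1 j n)
    (fun i j => by
      simp only [dnc_Dr_im fun j => hφ1 j _]
      exact hb imCLM abs_im_le_norm i j) fun ψ hψ => (h0 ψ hψ).2
  have hW : ∀ i j, L2 S.Ω fun x => (Z i j x : ℂ) + I * Z' i j x := fun i j =>
    L2.add' (L2.ofReal' (hZ i j)) (L2.cmul I (L2.ofReal' (hZ' i j)))
  have hw : ∀ j, ∃ w, H1 univ w (fun i => S.Ω.indicator fun x => (Z i j x : ℂ) + I * Z' i j x) ∧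
      Van S.Ω w := fun j => by
    have c1 : ∀ n, ContDiff ℝ 1 fun y => (ζ n y j : ℂ) := fun n =>
      contDiff_ofReal (contDiff_comp_coord (hζ n).1 j)
    have c2 : ∀ n, ContDiff ℝ 1 fun y => (ζ' n y j : ℂ) := fun n =>
      contDiff_ofReal (contDiff_comp_coord (hζ' n).1 j)
    refine exists_h1_lim h (F := fun n y => (ζ n y j : ℂ) + I * ζ' n y j)
      (fun n => (c1 n).add (contDiff_const.mul (c2 n)))
      (fun n x hx => by simp [(hζ n).2 x hx, (hζ' n).2 x hx]) (fun i => hW i j) fun i => ?_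
    have h1 := (hζl i j).add (hζl' i j)
    rw [add_zero] at h1
    refine squeeze_zero (fun _ => nr_nonneg _ _) (fun n => ?_) h1
    have l1 := L2.sub' (h.l2_Dr (hζ n).1 i j) (hZ i j)
    have l2 := L2.sub' (h.l2_Dr (hζ' n).1 i j) (hZ' i j)
    rw [← nr_norm l1, ← nr_norm l2]
    refine le_trans (nr_le_of_le hm (L2.add' (L2.norm' l1) (L2.norm' l2))
      (Eventually.of_forall fun x _ => ?_)) (nr_add_le (L2.norm' l1) (L2.norm' l2))
    have d1 := (c1 n).differentiable one_ne_zero x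
    have d2 := (c2 n).differentiable one_ne_zero x
    rw [pd_add i d1 (d2.const_mul I), pd_const_mul i I d2, dnc_pd_real (hζ n).1, dnc_pd_real (hζ' n).1]
    have e : (Dr (ζ n) i j x : ℂ) + I * Dr (ζ' n) i j x - (Z i j x + I * Z' i j x) =
        ((Dr (ζ n) i j x - Z i j x : ℝ) : ℂ) + I * ((Dr (ζ' n) i j x - Z' i j x : ℝ) : ℂ) := by
      push_cast
      ring
    rw [e]
    refine (norm_add_le _ _).trans (le_of_eq ?_)
    rw [norm_mul, norm_I, one_mul, norm_real, norm_real]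
  choose w hw hw' using hw
  refine ⟨w, fun i j => S.Ω.indicator fun x => (Z i j x : ℂ) + I * Z' i j x, hw, hw',
    fun i j => Van.indicator _ _, fun ψ hψ => ?_⟩
  have hQ : ∀ i j, L2 S.Ω fun x => Du i j x - ((Z i j x : ℂ) + I * Z' i j x) := fun i j =>
    L2.sub' (hD i j) (hW i j)
  have e1 : ∫ x in S.Ω, S.c₂.bilc (fun i j y => Du i j y -
        S.Ω.indicator (fun x => (Z i j x : ℂ) + I * Z' i j x) y) ψ x =
      ∫ x in S.Ω, S.c₂.bilc (fun i j y => Du i j y - ((Z i j y : ℂ) + I * Z' i j y)) ψ x :=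
    setIntegral_congr_fun hm fun x hx => by simp only [Co.bilc, indicator_of_mem hx]
  have e2 : ∀ χ : R3 → R3, ContDiff ℝ 1 χ →
      ∫ x in S.Ω, S.c₂.bilc (fun i j y => Du i j y - ((Z i j y : ℂ) + I * Z' i j y))
        (fun j y => (χ y j : ℂ)) x = ∫ x in S.Ω, S.c₁.bilc Du (fun j y => (χ y j : ℂ)) x := fun χ hχ => by
    rw [setIntegral_bilc_real h _ hQ hχ, setIntegral_bilc_real h _ hD hχ, ← hZe χ hχ, ← hZe' χ hχ]
    simp
  have e3 : ψ = fun j y => (dncRe ψ y j : ℂ) + I * (dncIm ψ y j : ℂ) :=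
    funext fun j => funext fun y => by rw [mul_comm]; exact (re_add_im _).symm
  have c1 := dnc_contDiff_re hψ
  have c2 := dnc_contDiff_im hψ
  have c3 := fun j => contDiff_ofReal (contDiff_comp_coord c1 j)
  have c4 := fun j => contDiff_ofReal (contDiff_comp_coord c2 j)
  rw [e1, e3, dnc_int_lin h _ hQ c3 c4, dnc_int_lin h _ hD c3 c4, e2 _ c1, e2 _ c2]

/-- `∫_Ω b₂(Du - Dw, ψ₂) = ∫_Ω b₁(Du, ψ₂) = ∫_Ω b₁(Du, ψ₁)` (`setIntegral_eq_zero` for `ψ₂ - ψ₁`) and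
`∫_{Ωᶜ} b₁(Du - Dw, ψ₁) = ∫_{Ωᶜ} b₁(Du, ψ₁)`. -/
theorem dn (S : Setup) {U : Set R3} (hU : IsOpen U) (hΩU : closure S.Ω ⊆ U)
    {u : Fin 3 → R3 → ℂ} {Du : Fin 3 → Fin 3 → R3 → ℂ} (hu : ∀ j, H1 U (u j) fun i => Du i j)
    (hL : WLame U S.c₁ Du) :
    ∃ (w : Fin 3 → R3 → ℂ) (Dw : Fin 3 → Fin 3 → R3 → ℂ), (∀ j, H1 univ (w j) fun i => Dw i j) ∧
      (∀ j, Van S.Ω (w j)) ∧ (∀ i j, Van S.Ω (Dw i j)) ∧
      GLame U S.Ω S.c₂ S.c₁ fun i j y => Du i j y - Dw i j y := by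
  obtain ⟨w, Dw, h1, h2, h3, h4⟩ := dn_cplx S hU hΩU hu hL
  refine ⟨w, Dw, h1, h2, h3, fun ψ₂ ψ₁ t₂ t₁ hb => ?_⟩
  have h := S.dom
  have hm := h.measurableSet
  have hΩ : S.Ω ⊆ U := subset_closure.trans hΩU
  have hD : ∀ i j, L2 S.Ω (Du i j) := fun i j => L2.mono_set hΩ ((hu j).l2G i)
  have e1 := hL.setIntegral_eq_zero h hΩ hD (ψ := fun j y => ψ₂ j y + (-1) * ψ₁ j y)
    (fun j => (t₂ j).cd.add (contDiff_const.mul (t₁ j).cd)) fun j x hx => by simp [hb j x hx]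
  rw [dnc_int_lin h _ hD (fun j => (t₂ j).cd) fun j => (t₁ j).cd] at e1
  have e2 : ∫ x in S.Ωᶜ, S.c₁.bilc (fun i j y => Du i j y - Dw i j y) ψ₁ x =
      ∫ x in S.Ωᶜ, S.c₁.bilc Du ψ₁ x := by
    refine setIntegral_congr_ae hm.compl ?_
    have h5 : ∀ᵐ x : R3, ∀ i j, x ∉ S.Ω → Dw i j x = 0 := ae_all_iff.2 fun i => ae_all_iff.2 (h3 i)
    filter_upwards [h5] with x hx hx'
    simp only [Co.bilc, fun i j => hx i j hx', sub_zero]
  have hi : Integrable (S.c₁.bilc Du ψ₁) := by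
    rw [show S.c₁.bilc Du ψ₁ = _ from funext (dnc_bilc_eq _ _ _)]
    exact integrable_finsetSum _ fun i _ => integrable_finsetSum _ fun j _ =>
      L2.integrable_mul_tk hU.measurableSet (dnc_l2_sig _ (fun i j => (hu j).l2G i) i j)
        ((t₁ j).pd (m := 0) (by simp) i)
  have e3 := integral_add_compl hm hi
  rw [hL ψ₁ t₁] at e3
  rw [h4 ψ₂ fun j => (t₂ j).cd, e2]
  linear_combination e1 + e3

end Crest.Agent.R80
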