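import Crest.Agent.R80.Coef
import Crest.Agent.R80.Ind
import Crest.Agent.R80.Car1

/-!
# Row 80: the elastic energy: Korn, Poincaré, comparison
-/

namespace Crest.Agent.R80

open MeasureTheory Set Metric Filter Topology Complex
open scoped ContDiff
open Crest.AnalysisR.VecCalc3 Crest.AnalysisR.PDE Crest.AnalysisR.PDE.Elasticity

variable {Ω : Set R3} {φ ψ : R3 → R3}

theorem bil_symm {𝕜 : Type*} [CommRing 𝕜] (lam mu : 𝕜) (P Q : Fin 3 → Fin 3 → 𝕜) :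
    bil lam mu P Q = bil lam mu Q P := by
  simp only [bil, Fin.sum_univ_three]
  ring

theorem energy_cs (A B : Fin 3 → Fin 3 → ℝ) :
    |∑ i, ∑ j, A i j * B i j| ≤ √(∑ i, ∑ j, A i j ^ 2) * √(∑ i, ∑ j, B i j ^ 2) := by
  have h := Finset.sum_mul_sq_le_sq_mul_sq Finset.univ (fun p : Fin 3 × Fin 3 => A p.1 p.2)
    fun p : Fin 3 × Fin 3 => B p.1 p.2
  simp only [Fintype.sum_prod_type] at h
  rw [← Real.sqrt_mul (by positivity)]
  exact Real.abs_le_sqrt h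

theorem energy_tr (A : Fin 3 → Fin 3 → ℝ) : (∑ i, A i i) ^ 2 ≤ 3 * ∑ i, ∑ j, A i j ^ 2 := by
  simp only [Fin.sum_univ_three]
  nlinarith [sq_nonneg (A 0 0 - A 1 1), sq_nonneg (A 0 0 - A 2 2), sq_nonneg (A 1 1 - A 2 2),
    sq_nonneg (A 0 1), sq_nonneg (A 0 2), sq_nonneg (A 1 0), sq_nonneg (A 1 2), sq_nonneg (A 2 0),
    sq_nonneg (A 2 1)]

theorem abs_bil_le (lam mu : ℝ) (P Q : Fin 3 → Fin 3 → ℝ) :
    |bil lam mu P Q| ≤ (3 * |lam| + 2 * |mu|) * (√(∑ i, ∑ j, P i j ^ 2) * √(∑ i, ∑ j, Q i j ^ 2)) := by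
  set a := ∑ i, ∑ j, P i j ^ 2 with ha
  set b := ∑ i, ∑ j, Q i j ^ 2 with hb
  have ha0 : 0 ≤ a := by positivity
  have hb0 : 0 ≤ b := by positivity
  have h1 : |(∑ i, P i i) * ∑ i, Q i i| ≤ 3 * (√a * √b) := by
    have h9 : (3 : ℝ) * (√a * √b) = √((3 * a) * (3 * b)) := by
      rw [show 3 * a * (3 * b) = 3 ^ 2 * (a * b) by ring, Real.sqrt_mul (by positivity),
        Real.sqrt_sq (by norm_num), Real.sqrt_mul ha0]
    rw [h9]
    apply Real.abs_le_sqrt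
    rw [mul_pow]
    exact mul_le_mul (energy_tr P) (energy_tr Q) (by positivity) (by positivity)
  have h2 := energy_cs P Q
  have h3 := energy_cs (fun i j => P j i) Q
  have h4 : ∑ i, ∑ j, P j i ^ 2 = a := Finset.sum_comm
  rw [h4] at h3
  have h5 : |∑ i, ∑ j, (P i j + P j i) * Q i j| ≤ 2 * (√a * √b) := by
    simp only [add_mul, Finset.sum_add_distrib]
    refine (abs_add_le _ _).trans ?_
    linarith
  unfold bil
  refine (abs_add_le _ _).trans ?_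
  rw [abs_mul lam, abs_mul mu]
  nlinarith [mul_le_mul_of_nonneg_left h1 (abs_nonneg lam),
    mul_le_mul_of_nonneg_left h5 (abs_nonneg mu)]

theorem energy_bil_self (lam mu : ℝ) (P : Fin 3 → Fin 3 → ℝ) :
    bil lam mu P P = lam * (∑ i, P i i) ^ 2 + 2 * mu * ∑ i, ∑ j, ((P i j + P j i) / 2) ^ 2 := by
  simp only [bil, Fin.sum_univ_three]
  ring

/-- `(tr P)² ≤ 3 |sym P|²`. -/
theorem le_bil {lam mu δ : ℝ} (h1 : δ ≤ mu) (h2 : δ ≤ 3 * lam + 2 * mu) (hδ : 0 ≤ δ)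
    (P : Fin 3 → Fin 3 → ℝ) : δ * ∑ i, ∑ j, ((P i j + P j i) / 2) ^ 2 ≤ bil lam mu P P := by
  rw [energy_bil_self]
  have h := energy_tr fun i j => (P i j + P j i) / 2
  have e : ∑ i, (P i i + P i i) / 2 = ∑ i, P i i := Finset.sum_congr rfl fun i _ => by ring
  rw [e] at h
  set s := ∑ i, ∑ j, ((P i j + P j i) / 2) ^ 2
  have hs : 0 ≤ s := by positivity
  rcases le_total 0 lam with hl | hl
  · nlinarith [mul_nonneg hl (sq_nonneg (∑ i, P i i)), mul_le_mul_of_nonneg_right h1 hs,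
      mul_nonneg hδ hs]
  · nlinarith [mul_le_mul_of_nonpos_left h hl, mul_le_mul_of_nonneg_right h2 hs]

theorem contDiff_comp_coord {n : WithTop ℕ∞} (hφ : ContDiff ℝ n φ) (j : Fin 3) :
    ContDiff ℝ n fun y => φ y j :=
  (EuclideanSpace.proj (𝕜 := ℝ) j : R3 →L[ℝ] ℝ).contDiff.comp hφ

theorem continuous_Dr (hφ : ContDiff ℝ 1 φ) (i j : Fin 3) : Continuous (Dr φ i j) :=
  (contDiff_pderiv (m := 0) i (contDiff_comp_coord hφ j) (by simp)).continuous

theorem Dr_add (hφ : ContDiff ℝ 1 φ) (hψ : ContDiff ℝ 1 ψ) (i j : Fin 3) (x : R3) :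
    Dr (fun y => φ y + ψ y) i j x = Dr φ i j x + Dr ψ i j x := by
  have h1 := ((contDiff_comp_coord hφ j).differentiable one_ne_zero x).hasFDerivAt
  have h2 := ((contDiff_comp_coord hψ j).differentiable one_ne_zero x).hasFDerivAt
  have h : HasFDerivAt (fun y => (φ y + ψ y) j)
      (fderiv ℝ (fun y => φ y j) x + fderiv ℝ (fun y => ψ y j) x) x := h1.add h2
  unfold Dr pderiv
  rw [h.fderiv]
  rfl

theorem Dr_smul (hφ : ContDiff ℝ 1 φ) (s : ℝ) (i j : Fin 3) (x : R3) :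
    Dr (fun y => s • φ y) i j x = s * Dr φ i j x := by
  have h1 := ((contDiff_comp_coord hφ j).differentiable one_ne_zero x).hasFDerivAt
  have h : HasFDerivAt (fun y => (s • φ y) j) (s • fderiv ℝ (fun y => φ y j) x) x :=
    h1.const_smul s
  unfold Dr pderiv
  rw [h.fderiv]
  rfl

theorem IsDom.l2_Dr (h : IsDom Ω) (hφ : ContDiff ℝ 1 φ) (i j : Fin 3) : L2 Ω (Dr φ i j) :=
  L2.of_continuous h.measurableSet h.1 (continuous_Dr hφ i j)

theorem energy_eq (Ω : Set R3) (c : Co) (φ : R3 → R3) :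
    elasticEnergy Ω c.lam c.mu φ = BR Ω c (Dr φ) (Dr φ) := by
  unfold elasticEnergy BR
  congr 1
  funext x
  rw [energy_bil_self]
  rfl

theorem energy_int_bd_mul {b f : R3 → ℝ} (hb : Continuous b) {L : ℝ} (hL : ∀ x, |b x| ≤ L)
    (hf : IntegrableOn f Ω) : IntegrableOn (fun x => b x * f x) Ω :=
  Integrable.bdd_mul (c := L) hf hb.aestronglyMeasurable (Eventually.of_forall fun x => hL x)

theorem integrableOn_bil (hΩ : MeasurableSet Ω) (c : Co) {P Q : Fin 3 → Fin 3 → R3 → ℝ}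
    (hP : ∀ i j, L2 Ω (P i j)) (hQ : ∀ i j, L2 Ω (Q i j)) :
    IntegrableOn (fun x => bil (c.lam x) (c.mu x) (fun i j => P i j x) fun i j => Q i j x) Ω := by
  obtain ⟨L, -, hL, -⟩ := c.exists_bound
  have _ := hΩ
  unfold bil
  refine Integrable.add ?_ ?_
  · refine energy_int_bd_mul c.contDiff_lam.continuous (fun x => (hL x).2.1) ?_
    exact L2.integrableOn_mul_real (L2.sum' _ fun i _ => hP i i) (L2.sum' _ fun i _ => hQ i i)
  · refine energy_int_bd_mul c.contDiff_mu.continuous (fun x => (hL x).1) ?_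
    refine integrable_finsetSum _ fun i _ => integrable_finsetSum _ fun j _ => ?_
    exact L2.integrableOn_mul_real ((hP i j).add' (hP j i)) (hQ i j)

theorem g2_nonneg (Ω : Set R3) (P : Fin 3 → Fin 3 → R3 → ℝ) : 0 ≤ g2 Ω P :=
  integral_nonneg fun x => by positivity

theorem energy_int_sq {f : R3 → ℝ} (hf : L2 Ω f) : IntegrableOn (fun x => f x ^ 2) Ω := by
  simpa only [Real.norm_eq_abs, sq_abs] using hf.integrableOn_sq

theorem energy_nr_sq {f : R3 → ℝ} (hf : L2 Ω f) : nr Ω f ^ 2 = ∫ x in Ω, f x ^ 2 := by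
  simpa only [Real.norm_eq_abs, sq_abs] using nr_sq hf

theorem g2_eq {P : Fin 3 → Fin 3 → R3 → ℝ} (hP : ∀ i j, L2 Ω (P i j)) :
    g2 Ω P = ∑ i, ∑ j, nr Ω (P i j) ^ 2 := by
  unfold g2
  rw [integral_finsetSum _ fun i _ => integrable_finsetSum _ fun j _ => energy_int_sq (hP i j)]
  refine Finset.sum_congr rfl fun i _ => ?_
  rw [integral_finsetSum _ fun j _ => energy_int_sq (hP i j)]
  exact Finset.sum_congr rfl fun j _ => (energy_nr_sq (hP i j)).symm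

theorem nr_le_sqrt_g2 {P : Fin 3 → Fin 3 → R3 → ℝ} (hP : ∀ i j, L2 Ω (P i j)) (i j : Fin 3) :
    nr Ω (P i j) ≤ √(g2 Ω P) := by
  apply Real.le_sqrt_of_sq_le
  rw [g2_eq hP]
  refine le_trans ?_ (Finset.single_le_sum (f := fun i => ∑ j, nr Ω (P i j) ^ 2)
    (fun i _ => by positivity) (Finset.mem_univ i))
  exact Finset.single_le_sum (f := fun j => nr Ω (P i j) ^ 2) (fun j _ => by positivity)
    (Finset.mem_univ j)

theorem energy_pd (hψ : ContDiff ℝ 1 ψ) (i j : Fin 3) :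
    pd i (fun y => ((ψ y j : ℝ) : ℂ)) = fun x => ((Dr ψ i j x : ℝ) : ℂ) := by
  funext x
  exact pd_ofReal i ((contDiff_comp_coord hψ j).differentiable one_ne_zero x)

theorem energy_h1 (h : IsDom Ω) (hψ : V0 Ω ψ) (j : Fin 3) :
    H1 univ (Ω.indicator fun y => ((ψ y j : ℝ) : ℂ))
      fun i => Ω.indicator fun x => ((Dr ψ i j x : ℝ) : ℂ) := by
  have h1 := H1.ind h (contDiff_ofReal (contDiff_comp_coord hψ.1 j))
    (fun x hx => by simp [hψ.2 x hx])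
  simpa only [energy_pd hψ.1] using h1

theorem energy_int_ind (hΩ : MeasurableSet Ω) (f g : R3 → ℝ) :
    ∫ x, Ω.indicator (fun x => ((f x : ℝ) : ℂ)) x * Ω.indicator (fun x => ((g x : ℝ) : ℂ)) x =
      ((∫ x in Ω, f x * g x : ℝ) : ℂ) := by
  rw [← integral_complex_ofReal, ← integral_indicator hΩ]
  congr 1
  funext x
  by_cases hx : x ∈ Ω <;> simp [hx]

theorem energy_van {E : Type*} [NormedAddCommGroup E] {r : ℝ} (hr : closure Ω ⊆ ball 0 r)
    (f : R3 → E) : Van (closedBall 0 r) (Ω.indicator f) :=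
  (Van.indicator Ω f).mono (subset_closure.trans (hr.trans ball_subset_closedBall))

theorem energy_swap (h : IsDom Ω) (hψ : V0 Ω ψ) (i j : Fin 3) :
    ∫ x in Ω, Dr ψ i j x * Dr ψ j i x = ∫ x in Ω, Dr ψ j j x * Dr ψ i i x := by
  obtain ⟨r, -, hr⟩ := h.exists_ball
  have h1 := H1.swap_h1 (energy_h1 h hψ j) (energy_h1 h hψ i) (energy_van hr _) i j
  rw [energy_int_ind h.measurableSet, energy_int_ind h.measurableSet] at h1
  exact_mod_cast h1

/-- Korn's first inequality: `H1.ind` for the components and `H1.swap_h1` give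
`∫ ∑ ∂ᵢψⱼ ∂ⱼψᵢ = ∫ (div ψ)² ≥ 0`. -/
theorem korn (h : IsDom Ω) (hψ : V0 Ω ψ) :
    g2 Ω (Dr ψ) ≤ 2 * ∫ x in Ω, ∑ i, ∑ j, ((Dr ψ i j x + Dr ψ j i x) / 2) ^ 2 := by
  have hl := h.l2_Dr hψ.1
  have hI : ∀ i j k l, IntegrableOn (fun x => Dr ψ i j x * Dr ψ k l x) Ω := fun i j k l =>
    L2.integrableOn_mul_real (hl i j) (hl k l)
  have e1 : ∫ x in Ω, ∑ i, ∑ j, Dr ψ i j x * Dr ψ j i x =
      ∫ x in Ω, ∑ i, ∑ j, Dr ψ j j x * Dr ψ i i x := by
    rw [integral_finsetSum _ fun i _ => integrable_finsetSum _ fun j _ => hI i j j i,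
      integral_finsetSum _ fun i _ => integrable_finsetSum _ fun j _ => hI j j i i]
    refine Finset.sum_congr rfl fun i _ => ?_
    rw [integral_finsetSum _ fun j _ => hI i j j i, integral_finsetSum _ fun j _ => hI j j i i]
    exact Finset.sum_congr rfl fun j _ => energy_swap h hψ i j
  have e2 : 0 ≤ ∫ x in Ω, ∑ i, ∑ j, Dr ψ j j x * Dr ψ i i x := by
    refine integral_nonneg fun x => ?_
    have : ∑ i, ∑ j, Dr ψ j j x * Dr ψ i i x = (∑ i, Dr ψ i i x) ^ 2 := by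
      simp only [Fin.sum_univ_three]
      ring
    simp only [Pi.zero_apply, this]
    positivity
  have e3 : 2 * ∫ x in Ω, ∑ i, ∑ j, ((Dr ψ i j x + Dr ψ j i x) / 2) ^ 2 =
      g2 Ω (Dr ψ) + ∫ x in Ω, ∑ i, ∑ j, Dr ψ i j x * Dr ψ j i x := by
    unfold g2
    rw [← integral_const_mul, ← integral_add
      (integrable_finsetSum _ fun i _ => integrable_finsetSum _ fun j _ => energy_int_sq (hl i j))
      (integrable_finsetSum _ fun i _ => integrable_finsetSum _ fun j _ => hI i j j i)]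
    congr 1
    funext x
    simp only [Fin.sum_univ_three]
    ring
  linarith

theorem energy_nr_ofReal {f : R3 → ℝ} (hf : L2 Ω f) : nr Ω (fun x => ((f x : ℝ) : ℂ)) = nr Ω f := by
  rw [← nr_norm hf.ofReal', ← nr_norm hf]
  simp only [Complex.norm_real]

theorem poincareR (h : IsDom Ω) :
    ∃ C : ℝ, 0 ≤ C ∧ ∀ ψ, V0 Ω ψ → ∀ j, nr Ω (fun x => ψ x j) ≤ C * √(g2 Ω (Dr ψ)) := by
  obtain ⟨r, -, hr⟩ := h.exists_ball
  obtain ⟨C, hC, hP⟩ := poincare r
  refine ⟨C, hC, fun ψ hψ j => ?_⟩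
  have h1 := hP _ _ (energy_h1 h hψ j) (energy_van hr _)
  have hl := h.l2_Dr hψ.1
  have hl0 : L2 Ω fun x => ψ x j :=
    L2.of_continuous h.measurableSet h.1 (contDiff_comp_coord hψ.1 j).continuous
  rw [nr_indicator h.measurableSet, nr_indicator h.measurableSet, energy_nr_ofReal hl0,
    energy_nr_ofReal (hl 0 j)] at h1
  exact h1.trans (mul_le_mul_of_nonneg_left (nr_le_sqrt_g2 hl 0 j) hC)

theorem Setup.coercive (S : Setup) :
    ∃ c : ℝ, 0 < c ∧ ∀ ψ, V0 S.Ω ψ → c * g2 S.Ω (Dr ψ) ≤ BR S.Ω S.c₁ (Dr ψ) (Dr ψ) := by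
  obtain ⟨δ, hδ, hb⟩ := S.exists_lower
  refine ⟨δ / 2, by positivity, fun ψ hψ => ?_⟩
  have hk := korn S.dom hψ
  have hl := S.dom.l2_Dr hψ.1
  have h1 : ∫ x in S.Ω, δ * ∑ i, ∑ j, ((Dr ψ i j x + Dr ψ j i x) / 2) ^ 2 ≤
      BR S.Ω S.c₁ (Dr ψ) (Dr ψ) := by
    refine setIntegral_mono_on ?_ (integrableOn_bil S.dom.measurableSet _ hl hl)
      S.dom.measurableSet fun x hx => ?_
    · refine Integrable.const_mul ?_ δ
      refine integrable_finsetSum _ fun i _ => integrable_finsetSum _ fun j _ => ?_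
      refine energy_int_sq (L2.of_continuous S.dom.measurableSet S.dom.1 ?_)
      exact ((continuous_Dr hψ.1 i j).add (continuous_Dr hψ.1 j i)).div_const 2
    · exact le_bil (hb x (subset_closure hx)).1 (hb x (subset_closure hx)).2 hδ.le
        fun i j => Dr ψ i j x
  rw [integral_const_mul] at h1
  nlinarith [mul_le_mul_of_nonneg_left hk hδ.le]

theorem Setup.BR_nonneg (S : Setup) (P : Fin 3 → Fin 3 → R3 → ℝ) : 0 ≤ BR S.Ω S.c₁ P P := by
  refine setIntegral_nonneg S.dom.measurableSet fun x hx => ?_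
  have h := le_bil (S.c₁.mu_pos x).le (S.pos₁ x (subset_closure hx)).le le_rfl fun i j => P i j x
  simpa only [zero_mul] using h

theorem energy_BR_add (hΩ : MeasurableSet Ω) (c : Co) {P Q : Fin 3 → Fin 3 → R3 → ℝ}
    (hP : ∀ i j, L2 Ω (P i j)) (hQ : ∀ i j, L2 Ω (Q i j)) :
    BR Ω c (fun i j x => P i j x + Q i j x) (fun i j x => P i j x + Q i j x) =
      BR Ω c P P + 2 * BR Ω c P Q + BR Ω c Q Q := by
  unfold BR
  have h1 := integrableOn_bil hΩ c hP hP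
  have h2 := (integrableOn_bil hΩ c hP hQ).const_mul 2
  have h3 := integrableOn_bil hΩ c hQ hQ
  rw [← integral_const_mul, ← integral_add h1 h2, ← integral_add (h1.fun_add h2) h3]
  congr 1
  funext x
  simp only [bil, Fin.sum_univ_three]
  ring

/-- For `ε > 0` the hypothesis gives a competitor `w = φ + ψ` with `E₁ w < E₂ φ + ε`, and
`E₁ (φ + ψ) ≥ E₁ φ - 2 ρ √g + c g ≥ E₁ φ - ρ² / c`. -/
theorem Setup.energy_cmp (S : Setup) :
    ∃ C : ℝ, 0 ≤ C ∧ ∀ φ : R3 → R3, ContDiff ℝ 1 φ → ∀ ρ : ℝ,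
      (∀ ψ, V0 S.Ω ψ → |BR S.Ω S.c₁ (Dr φ) (Dr ψ)| ≤ ρ * √(g2 S.Ω (Dr ψ))) →
      BR S.Ω S.c₁ (Dr φ) (Dr φ) - C * ρ ^ 2 ≤ BR S.Ω S.c₂ (Dr φ) (Dr φ) := by
  obtain ⟨c, hc, hco⟩ := S.coercive
  refine ⟨1 / c, by positivity, fun φ hφ ρ hρ => le_of_forall_pos_le_add fun ε hε => ?_⟩
  obtain ⟨w, ⟨hw, hwφ⟩, hE⟩ := (S.data φ hφ).2 φ ⟨hφ, fun _ _ => rfl⟩ ε hε
  rw [energy_eq, energy_eq] at hE
  have hψ : V0 S.Ω fun y => w y - φ y := ⟨hw.sub hφ, fun x hx => by simp [hwφ x hx]⟩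
  set ψ : R3 → R3 := fun y => w y - φ y with hψd
  have hD : Dr w = fun i j x => Dr φ i j x + Dr ψ i j x := by
    funext i j x
    rw [← Dr_add hφ hψ.1]
    congr 1
    funext y
    simp [hψd]
  rw [hD, energy_BR_add S.dom.measurableSet _ (S.dom.l2_Dr hφ) (S.dom.l2_Dr hψ.1)] at hE
  have h1 := hco ψ hψ
  have h2 := (abs_le.1 (hρ ψ hψ)).1
  have h3 := Real.sq_sqrt (g2_nonneg S.Ω (Dr ψ))
  set s := √(g2 S.Ω (Dr ψ))
  rw [← h3] at h1
  have h4 : 2 * (ρ * s) ≤ c * s ^ 2 + 1 / c * ρ ^ 2 := by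
    have : 0 ≤ 1 / c * (c * s - ρ) ^ 2 := by positivity
    have e : 1 / c * (c * s - ρ) ^ 2 = c * s ^ 2 + 1 / c * ρ ^ 2 - 2 * (ρ * s) := by
      field_simp
      ring
    linarith
  linarith

end Crest.Agent.R80
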