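import Crest.Agent.R80.Abs
import Crest.Agent.R80.Energy

/-!
# Row 80: equality of the Dirichlet-to-Neumann forms, real fields
-/

namespace Crest.Agent.R80

open MeasureTheory Set Metric Filter Topology Complex
open scoped ContDiff
open Crest.AnalysisR.VecCalc3 Crest.AnalysisR.PDE Crest.AnalysisR.PDE.Elasticity

/-- the Hilbert space of `L²` matrix fields. -/
abbrev DNrH (Ω : Set R3) : Type := PiLp 2 fun _ : Fin 3 × Fin 3 => Lp ℝ 2 (volume.restrict Ω)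

/-- components of an element of `DNrH`. -/
noncomputable def DNrcf {Ω : Set R3} (x : DNrH Ω) (i j : Fin 3) : R3 → ℝ := fun y => x (i, j) y

/-- the class of a matrix field. -/
noncomputable def DNrto {Ω : Set R3} (P : Fin 3 → Fin 3 → R3 → ℝ) (hP : ∀ i j, L2 Ω (P i j)) :
    DNrH Ω := WithLp.toLp 2 fun k => (hP k.1 k.2).toLp (P k.1 k.2)

section aux

variable {Ω : Set R3}

theorem DNr_l2 (x : DNrH Ω) (i j : Fin 3) : L2 Ω (DNrcf x i j) := Lp.memLp (x (i, j))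

theorem DNr_cf_to {P : Fin 3 → Fin 3 → R3 → ℝ} (hP : ∀ i j, L2 Ω (P i j)) (i j : Fin 3) :
    DNrcf (DNrto P hP) i j =ᵐ[volume.restrict Ω] P i j :=
  MemLp.coeFn_toLp (hP i j)

theorem DNr_cf_add (x y : DNrH Ω) (i j : Fin 3) :
    DNrcf (x + y) i j =ᵐ[volume.restrict Ω] fun z => DNrcf x i j z + DNrcf y i j z :=
  Lp.coeFn_add (x (i, j)) (y (i, j))

theorem DNr_cf_sub (x y : DNrH Ω) (i j : Fin 3) :
    DNrcf (x - y) i j =ᵐ[volume.restrict Ω] fun z => DNrcf x i j z - DNrcf y i j z :=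
  Lp.coeFn_sub (x (i, j)) (y (i, j))

theorem DNr_cf_smul (s : ℝ) (x : DNrH Ω) (i j : Fin 3) :
    DNrcf (s • x) i j =ᵐ[volume.restrict Ω] fun z => s * DNrcf x i j z :=
  Lp.coeFn_smul s (x (i, j))

theorem DNr_cf_zero (i j : Fin 3) :
    DNrcf (0 : DNrH Ω) i j =ᵐ[volume.restrict Ω] fun _ => 0 :=
  Lp.coeFn_zero ℝ 2 (volume.restrict Ω)

theorem DNr_nr_congr {f g : R3 → ℝ} (h : f =ᵐ[volume.restrict Ω] g) : nr Ω f = nr Ω g := by
  unfold nr lpNorm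
  have h1 : AEStronglyMeasurable f (volume.restrict Ω) ↔
      AEStronglyMeasurable g (volume.restrict Ω) := aestronglyMeasurable_congr h
  rw [eLpNorm_congr_ae h]
  by_cases hf : AEStronglyMeasurable f (volume.restrict Ω)
  · rw [if_pos hf, if_pos (h1.1 hf)]
  · rw [if_neg hf, if_neg fun hg => hf (h1.2 hg)]

theorem DNr_nr_cf (x : DNrH Ω) (i j : Fin 3) : nr Ω (DNrcf x i j) = ‖x (i, j)‖ := by
  rw [nr_eq_norm_toLp (DNr_l2 x i j)]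
  congr 1
  exact Lp.toLp_coeFn (x (i, j)) _

theorem DNr_norm_sq (x : DNrH Ω) : ‖x‖ ^ 2 = g2 Ω (DNrcf x) := by
  rw [g2_eq (DNr_l2 x), PiLp.norm_sq_eq_of_L2, Fintype.sum_prod_type]
  simp only [DNr_nr_cf]

theorem DNr_BR_congr (c : Co) {P P' Q Q' : Fin 3 → Fin 3 → R3 → ℝ}
    (h : ∀ i j, P i j =ᵐ[volume.restrict Ω] P' i j) (h' : ∀ i j, Q i j =ᵐ[volume.restrict Ω] Q' i j) :
    BR Ω c P Q = BR Ω c P' Q' := by
  unfold BR
  refine integral_congr_ae ?_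
  have h1 : ∀ᵐ x ∂volume.restrict Ω, ∀ i j, P i j x = P' i j x :=
    ae_all_iff.2 fun i => ae_all_iff.2 fun j => h i j
  have h2 : ∀ᵐ x ∂volume.restrict Ω, ∀ i j, Q i j x = Q' i j x :=
    ae_all_iff.2 fun i => ae_all_iff.2 fun j => h' i j
  filter_upwards [h1, h2] with x hx hx'
  simp only [hx, hx']

theorem DNr_g2_congr {P P' : Fin 3 → Fin 3 → R3 → ℝ}
    (h : ∀ i j, P i j =ᵐ[volume.restrict Ω] P' i j) : g2 Ω P = g2 Ω P' := by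
  unfold g2
  refine integral_congr_ae ?_
  have h1 : ∀ᵐ x ∂volume.restrict Ω, ∀ i j, P i j x = P' i j x :=
    ae_all_iff.2 fun i => ae_all_iff.2 fun j => h i j
  filter_upwards [h1] with x hx
  simp only [hx]

theorem DNr_BR_symm (c : Co) (P Q : Fin 3 → Fin 3 → R3 → ℝ) : BR Ω c P Q = BR Ω c Q P := by
  unfold BR
  simp only [bil_symm _ _ (fun i j => P i j _)]

theorem DNr_BR_add (hΩ : MeasurableSet Ω) (c : Co) {P P' Q : Fin 3 → Fin 3 → R3 → ℝ}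
    (hP : ∀ i j, L2 Ω (P i j)) (hP' : ∀ i j, L2 Ω (P' i j)) (hQ : ∀ i j, L2 Ω (Q i j)) :
    BR Ω c (fun i j x => P i j x + P' i j x) Q = BR Ω c P Q + BR Ω c P' Q := by
  unfold BR
  rw [← integral_add (integrableOn_bil hΩ c hP hQ) (integrableOn_bil hΩ c hP' hQ)]
  refine integral_congr_ae (Eventually.of_forall fun x => ?_)
  simp only [bil, Fin.sum_univ_three]
  ring

theorem DNr_BR_smul (c : Co) (s : ℝ) (P Q : Fin 3 → Fin 3 → R3 → ℝ) :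
    BR Ω c (fun i j x => s * P i j x) Q = s * BR Ω c P Q := by
  unfold BR
  rw [← integral_const_mul]
  refine integral_congr_ae (Eventually.of_forall fun x => ?_)
  simp only [bil, Fin.sum_univ_three]
  ring

theorem DNr_l2_sqrt (hΩ : MeasurableSet Ω) {P : Fin 3 → Fin 3 → R3 → ℝ}
    (hP : ∀ i j, L2 Ω (P i j)) : L2 Ω fun x => √(∑ i, ∑ j, P i j x ^ 2) := by
  have h1 : L2 Ω fun x => ∑ i, ∑ j, ‖P i j x‖ :=
    L2.sum' _ fun i _ => L2.sum' _ fun j _ => (hP i j).norm'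
  refine L2.of_le' hΩ h1 ?_ (Eventually.of_forall fun x _ => ?_)
  · refine Real.continuous_sqrt.comp_aestronglyMeasurable ?_
    exact Finset.aestronglyMeasurable_fun_sum _ fun i _ =>
      Finset.aestronglyMeasurable_fun_sum _ fun j _ => (hP i j).1.pow 2
  · rw [Real.norm_of_nonneg (Real.sqrt_nonneg _)]
    refine Real.sqrt_le_iff.2 ⟨by positivity, ?_⟩
    calc ∑ i, ∑ j, P i j x ^ 2 = ∑ i, ∑ j, ‖P i j x‖ ^ 2 := by simp only [Real.norm_eq_abs, sq_abs]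
      _ ≤ ∑ i, (∑ j, ‖P i j x‖) ^ 2 :=
        Finset.sum_le_sum fun i _ => Finset.sum_sq_le_sq_sum_of_nonneg fun j _ => norm_nonneg _
      _ ≤ _ := Finset.sum_sq_le_sq_sum_of_nonneg fun i _ => by positivity

theorem DNr_nr_sqrt (hΩ : MeasurableSet Ω) {P : Fin 3 → Fin 3 → R3 → ℝ}
    (hP : ∀ i j, L2 Ω (P i j)) : nr Ω (fun x => √(∑ i, ∑ j, P i j x ^ 2)) = √(g2 Ω P) := by
  symm
  rw [Real.sqrt_eq_iff_mul_self_eq (g2_nonneg _ _) (nr_nonneg _ _), ← sq,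
    nr_sq (DNr_l2_sqrt hΩ hP)]
  unfold g2
  refine integral_congr_ae (Eventually.of_forall fun x => ?_)
  simp only [Real.norm_eq_abs, sq_abs]
  exact (Real.sq_sqrt (by positivity)).symm

theorem DNr_BR_bound (hΩ : MeasurableSet Ω) (c : Co) :
    ∃ C : ℝ, ∀ P Q : Fin 3 → Fin 3 → R3 → ℝ, (∀ i j, L2 Ω (P i j)) → (∀ i j, L2 Ω (Q i j)) →
      |BR Ω c P Q| ≤ C * √(g2 Ω P) * √(g2 Ω Q) := by
  obtain ⟨L, hL0, hL, -⟩ := c.exists_bound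
  refine ⟨5 * L, fun P Q hP hQ => ?_⟩
  have hp := DNr_l2_sqrt hΩ hP
  have hq := DNr_l2_sqrt hΩ hQ
  have h1 : |BR Ω c P Q| ≤
      ∫ x in Ω, 5 * L * (√(∑ i, ∑ j, P i j x ^ 2) * √(∑ i, ∑ j, Q i j x ^ 2)) := by
    unfold BR
    rw [← Real.norm_eq_abs]
    refine norm_integral_le_of_norm_le ((L2.integrableOn_mul_real hp hq).const_mul _)
      (Eventually.of_forall fun x => ?_)
    rw [Real.norm_eq_abs]
    refine (abs_bil_le _ _ _ _).trans (mul_le_mul_of_nonneg_right ?_ (by positivity))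
    have := hL x
    linarith [this.1, this.2.1]
  rw [integral_const_mul] at h1
  have h2 := (le_abs_self _).trans (abs_setIntegral_mul_le hp hq)
  rw [DNr_nr_sqrt hΩ hP, DNr_nr_sqrt hΩ hQ] at h2
  calc |BR Ω c P Q| ≤ _ := h1
    _ ≤ 5 * L * (√(g2 Ω P) * √(g2 Ω Q)) := mul_le_mul_of_nonneg_left h2 (by positivity)
    _ = _ := by ring

theorem DNr_exists_form (hΩ : MeasurableSet Ω) (c : Co) :
    ∃ B : DNrH Ω →L[ℝ] DNrH Ω →L[ℝ] ℝ, ∀ x y, B x y = BR Ω c (DNrcf x) (DNrcf y) := by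
  obtain ⟨C, hC⟩ := DNr_BR_bound hΩ c
  have hadd : ∀ x x' y : DNrH Ω, BR Ω c (DNrcf (x + x')) (DNrcf y) =
      BR Ω c (DNrcf x) (DNrcf y) + BR Ω c (DNrcf x') (DNrcf y) := fun x x' y => by
    rw [← DNr_BR_add hΩ c (DNr_l2 x) (DNr_l2 x') (DNr_l2 y)]
    exact DNr_BR_congr c (DNr_cf_add x x') fun _ _ => EventuallyEq.rfl
  have hsmul : ∀ (s : ℝ) (x y : DNrH Ω), BR Ω c (DNrcf (s • x)) (DNrcf y) =
      s • BR Ω c (DNrcf x) (DNrcf y) := fun s x y => by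
    rw [smul_eq_mul, ← DNr_BR_smul c s]
    exact DNr_BR_congr c (DNr_cf_smul s x) fun _ _ => EventuallyEq.rfl
  refine ⟨LinearMap.mkContinuous₂
    (LinearMap.mk₂ ℝ (fun x y : DNrH Ω => BR Ω c (DNrcf x) (DNrcf y)) hadd hsmul
      (fun x y y' => by
        rw [DNr_BR_symm c (DNrcf x), hadd, DNr_BR_symm c (DNrcf y), DNr_BR_symm c (DNrcf y')])
      (fun s x y => by rw [DNr_BR_symm c (DNrcf x), hsmul, DNr_BR_symm c (DNrcf y)])) C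
    (fun x y => ?_), fun x y => rfl⟩
  have := hC _ _ (DNr_l2 x) (DNr_l2 y)
  rw [← DNr_norm_sq, ← DNr_norm_sq, Real.sqrt_sq (norm_nonneg _), Real.sqrt_sq (norm_nonneg _)]
    at this
  simpa only [LinearMap.mk₂_apply, Real.norm_eq_abs] using this

theorem DNr_Dr_zero (i j : Fin 3) (x : R3) : Dr (fun _ => (0 : R3)) i j x = 0 := by
  have := Dr_smul (φ := fun _ => (0 : R3)) contDiff_const 0 i j x
  simpa using this

theorem DNr_Dr_sub {φ ψ : R3 → R3} (hφ : ContDiff ℝ 1 φ) (hψ : ContDiff ℝ 1 ψ) (i j : Fin 3)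
    (x : R3) : Dr φ i j x + Dr (fun y => ψ y - φ y) i j x = Dr ψ i j x := by
  rw [← Dr_add hφ (hψ.sub hφ)]
  simp only [add_sub_cancel]

/-- gradients of the `C¹` fields vanishing on `T`. -/
def DNrA (Ω T : Set R3) : Submodule ℝ (DNrH Ω) where
  carrier := {x | ∃ φ : R3 → R3, (ContDiff ℝ 1 φ ∧ ∀ y ∈ T, φ y = 0) ∧
    ∀ i j, DNrcf x i j =ᵐ[volume.restrict Ω] Dr φ i j}
  add_mem' := by
    rintro x y ⟨φ, hφ, hx⟩ ⟨ψ, hψ, hy⟩
    refine ⟨fun z => φ z + ψ z, ⟨hφ.1.add hψ.1, fun z hz => by simp [hφ.2 z hz, hψ.2 z hz]⟩,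
      fun i j => ?_⟩
    filter_upwards [DNr_cf_add x y i j, hx i j, hy i j] with z h1 h2 h3
    rw [h1, h2, h3, Dr_add hφ.1 hψ.1]
  zero_mem' := by
    refine ⟨fun _ => 0, ⟨contDiff_const, fun _ _ => rfl⟩, fun i j => ?_⟩
    filter_upwards [DNr_cf_zero (Ω := Ω) i j] with z h1
    rw [h1, DNr_Dr_zero]
  smul_mem' := by
    rintro s x ⟨φ, hφ, hx⟩
    refine ⟨fun z => s • φ z, ⟨hφ.1.const_smul s, fun z hz => by simp [hφ.2 z hz]⟩, fun i j => ?_⟩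
    filter_upwards [DNr_cf_smul s x i j, hx i j] with z h1 h2
    rw [h1, h2, Dr_smul hφ.1]

theorem DNr_tendsto_iff {x : ℕ → DNrH Ω} {y : DNrH Ω} :
    Tendsto x atTop (𝓝 y) ↔ ∀ i j,
      Tendsto (fun n => nr Ω fun z => DNrcf (x n) i j z - DNrcf y i j z) atTop (𝓝 0) := by
  have h1 : ∀ n i j, (nr Ω fun z => DNrcf (x n) i j z - DNrcf y i j z) = ‖(x n - y) (i, j)‖ :=
    fun n i j => by rw [← DNr_nr_cf, DNr_nr_congr (DNr_cf_sub (x n) y i j)]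
  simp only [h1]
  constructor
  · intro h i j
    have h2 := tendsto_iff_norm_sub_tendsto_zero.1 h
    exact squeeze_zero (fun _ => norm_nonneg _) (fun n => PiLp.norm_apply_le _ _) h2
  · intro h
    rw [tendsto_iff_norm_sub_tendsto_zero]
    have h2 : Tendsto (fun n => √(∑ k : Fin 3 × Fin 3, ‖(x n - y) k‖ ^ 2)) atTop
        (𝓝 (√(∑ _k : Fin 3 × Fin 3, (0 : ℝ) ^ 2))) :=
      (tendsto_finsetSum _ fun k _ => (h k.1 k.2).pow 2).sqrt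
    simpa only [PiLp.norm_eq_of_L2, ne_eq, OfNat.ofNat_ne_zero, not_false_eq_true, zero_pow,
      Finset.sum_const_zero, Real.sqrt_zero] using h2

theorem DNr_cmp (S : Setup) {B₁ B₂ : DNrH S.Ω →L[ℝ] DNrH S.Ω →L[ℝ] ℝ}
    (h₁ : ∀ x y, B₁ x y = BR S.Ω S.c₁ (DNrcf x) (DNrcf y))
    (h₂ : ∀ x y, B₂ x y = BR S.Ω S.c₂ (DNrcf x) (DNrcf y)) :
    ∀ x ∈ DNrA S.Ω ∅, ∀ z ∈ DNrA S.Ω (frontier S.Ω), ∀ ε : ℝ, 0 < ε →
      ∃ z' ∈ DNrA S.Ω (frontier S.Ω), B₂ (x + z') (x + z') < B₁ (x + z) (x + z) + ε := by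
  rintro x ⟨φ, ⟨hφ, -⟩, hx⟩ z ⟨ψ, hψ, hz⟩ ε hε
  obtain ⟨w, hw, hlt⟩ := (S.data φ hφ).1 (fun y => φ y + ψ y)
    ⟨hφ.add hψ.1, fun y hy => by simp [hψ.2 y hy]⟩ ε hε
  have hd : ContDiff ℝ 1 fun y => w y - φ y := hw.1.sub hφ
  refine ⟨DNrto (Dr fun y => w y - φ y) (S.dom.l2_Dr hd),
    ⟨fun y => w y - φ y, ⟨hd, fun y hy => by simp [hw.2 y hy]⟩, DNr_cf_to _⟩, ?_⟩
  rw [energy_eq, energy_eq] at hlt
  have e1 : ∀ i j, DNrcf (x + z) i j =ᵐ[volume.restrict S.Ω] Dr (fun y => φ y + ψ y) i j := by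
    intro i j
    filter_upwards [DNr_cf_add x z i j, hx i j, hz i j] with y h1 h2 h3
    rw [h1, h2, h3, Dr_add hφ hψ.1]
  have e2 : ∀ i j, DNrcf (x + DNrto (Dr fun y => w y - φ y) (S.dom.l2_Dr hd)) i j
      =ᵐ[volume.restrict S.Ω] Dr w i j := by
    intro i j
    filter_upwards [DNr_cf_add x (DNrto (Dr fun y => w y - φ y) (S.dom.l2_Dr hd)) i j, hx i j,
      DNr_cf_to (S.dom.l2_Dr hd) i j] with y h1 h2 h3
    rw [h1, h2, h3, DNr_Dr_sub hφ hw.1]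
  rw [h₁, h₂, DNr_BR_congr _ e1 e1, DNr_BR_congr _ e2 e2]
  exact hlt

end aux

/-- Apply `abs_dn` in `H = PiLp 2 fun _ : Fin 3 × Fin 3 => Lp ℝ 2 (volume.restrict S.Ω)` (or
`Lp (EuclideanSpace ℝ (Fin 3 × Fin 3)) 2 _`), `A` = gradients of `C¹` fields, `A₀` = gradients of fields in `V0`,
`Bⱼ` = the forms `BR` (bounded by `abs_bil_le`, built with `LinearMap.mkContinuous₂`); coercivity of `B₂` is
`S.swap.coercive`; elements of the closure of `A₀` are limits of sequences (`mem_closure_iff_seq_limit`). -/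
theorem dn_real (S : Setup) {P : Fin 3 → Fin 3 → R3 → ℝ} (hP : ∀ i j, L2 S.Ω (P i j))
    {φ : ℕ → R3 → R3} (hφ : ∀ n, ContDiff ℝ 1 (φ n))
    (hl : ∀ i j, Tendsto (fun n => nr S.Ω fun x => Dr (φ n) i j x - P i j x) atTop (𝓝 0))
    (h0 : ∀ ψ, V0 S.Ω ψ → BR S.Ω S.c₁ P (Dr ψ) = 0) :
    ∃ (Z : Fin 3 → Fin 3 → R3 → ℝ) (ζ : ℕ → R3 → R3), (∀ i j, L2 S.Ω (Z i j)) ∧ (∀ n, V0 S.Ω (ζ n)) ∧
      (∀ i j, Tendsto (fun n => nr S.Ω fun x => Dr (ζ n) i j x - Z i j x) atTop (𝓝 0)) ∧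
      ∀ ψ, ContDiff ℝ 1 ψ →
        BR S.Ω S.c₂ (fun i j x => P i j x - Z i j x) (Dr ψ) = BR S.Ω S.c₁ P (Dr ψ) := by
  have hΩ := S.dom.measurableSet
  obtain ⟨B₁, h₁⟩ := DNr_exists_form hΩ S.c₁
  obtain ⟨B₂, h₂⟩ := DNr_exists_form hΩ S.c₂
  obtain ⟨c, hc, hco⟩ := S.swap.coercive
  have hx : DNrto P hP ∈ closure (DNrA S.Ω ∅ : Set (DNrH S.Ω)) := by
    refine mem_closure_of_tendsto (f := fun n => DNrto (Dr (φ n)) (S.dom.l2_Dr (hφ n)))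
      (b := atTop) ?_ (Eventually.of_forall fun n =>
        ⟨φ n, ⟨hφ n, fun _ h => h.elim⟩, DNr_cf_to _⟩)
    refine DNr_tendsto_iff.2 fun i j => (hl i j).congr fun n => DNr_nr_congr ?_
    filter_upwards [DNr_cf_to (S.dom.l2_Dr (hφ n)) i j, DNr_cf_to hP i j] with y h1 h2
    rw [h1, h2]
  obtain ⟨Z, hZ, hB⟩ := abs_dn (DNrA S.Ω (frontier S.Ω)) (DNrA S.Ω ∅) B₁ B₂
    (fun x y => by rw [h₁, h₁, DNr_BR_symm]) (fun x y => by rw [h₂, h₂, DNr_BR_symm])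
    (fun x => by rw [h₁]; exact S.BR_nonneg _) (fun x => by rw [h₂]; exact S.swap.BR_nonneg _) hc
    (by
      rintro z ⟨ψ, hψ, hz⟩
      rw [h₂, DNr_norm_sq, DNr_g2_congr hz, DNr_BR_congr _ hz hz]
      exact hco ψ hψ)
    (DNr_cmp S h₁ h₂) (DNr_cmp S.swap h₂ h₁) hx
    (by
      rintro z ⟨ψ, hψ, hz⟩
      rw [h₁, DNr_BR_congr _ (DNr_cf_to hP) hz]
      exact h0 ψ hψ)
  obtain ⟨z, hz, hzl⟩ := mem_closure_iff_seq_limit.1 hZ
  choose ζ hζ hζ' using hz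
  refine ⟨DNrcf Z, ζ, DNr_l2 Z, hζ, fun i j => ?_, fun ψ hψ => ?_⟩
  · refine (DNr_tendsto_iff.1 hzl i j).congr fun n => DNr_nr_congr ?_
    filter_upwards [hζ' n i j] with y h1
    rw [h1]
  · have := hB (DNrto (Dr ψ) (S.dom.l2_Dr hψ)) ⟨ψ, ⟨hψ, fun _ h => h.elim⟩, DNr_cf_to _⟩
    rw [h₁, h₂, DNr_BR_congr _ (DNr_cf_to hP) (DNr_cf_to (S.dom.l2_Dr hψ))] at this
    rw [← this]
    refine DNr_BR_congr _ (fun i j => ?_) fun i j => (DNr_cf_to (S.dom.l2_Dr hψ) i j).symm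
    filter_upwards [DNr_cf_sub (DNrto P hP) Z i j, DNr_cf_to hP i j] with y h1 h2
    rw [h1, h2]

end Crest.Agent.R80
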