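import Crest.Agent.R80.Weak2
import Crest.Agent.R80.Riesz

/-!
# Row 80: elliptic regularity for the Laplacian
-/

namespace Crest.Agent.R80

open MeasureTheory Set Metric Filter Topology Complex
open scoped ContDiff
open Crest.AnalysisR.VecCalc3 Crest.AnalysisR.PDE Crest.AnalysisR.PDE.Elasticity

theorem Reg_alg {τ a b c g : ℝ} (hτ : 0 < τ) (ha : 0 ≤ a) (hb : 0 ≤ b) (hc : 0 ≤ c)
    (h : g ^ 2 ≤ b * a + c * g) : g ≤ τ * a + τ⁻¹ * b + c := by
  by_contra hn
  push Not at hn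
  set s := τ * a + τ⁻¹ * b with hs
  have h1 : 0 ≤ τ * a := by positivity
  have h2 : 0 ≤ τ⁻¹ * b := by positivity
  have h3 : (τ * a) * (τ⁻¹ * b) = b * a := by field_simp
  have h4 : b * a ≤ s ^ 2 := by rw [hs]; nlinarith [mul_nonneg h1 h2]
  have h5 : 0 ≤ s := by positivity
  nlinarith

theorem Reg_energy {u f₀ : R3 → ℂ} {f : Fin 3 → R3 → ℂ} (hu : Tst univ u) (hf₀ : L2 univ f₀)
    (hf : ∀ i, L2 univ (f i)) (hc : ∀ i, ContDiff ℝ ∞ (f i))
    (h : ∀ x, lap u x = f₀ x + ∑ i, pd i (f i) x) :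
    ∑ i, nr univ (pd i u) ^ 2 ≤
      nr univ f₀ * nr univ u + ∑ i, nr univ (f i) * nr univ (pd i u) := by
  have hv : Tst univ fun x => starRingEnd ℂ (u x) := hu.conj
  have hnv : nr univ (fun x => starRingEnd ℂ (u x)) = nr univ u := by
    rw [← nr_norm (hv.l2 univ), ← nr_norm (hu.l2 univ)]
    simp
  have hnv' : ∀ i, nr univ (pd i fun x => starRingEnd ℂ (u x)) = nr univ (pd i u) := by
    intro i
    rw [← nr_norm ((hv.pd i).l2 univ), ← nr_norm ((hu.pd i).l2 univ)]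
    simp [pd_conj]
  have e1 : ∀ i, ((nr univ (pd i u) ^ 2 : ℝ) : ℂ) =
      -∫ x, pd i (pd i u) x * starRingEnd ℂ (u x) := by
    intro i
    rw [← integral_mul_pd ((hu.pd i).tk1.cd) hv.tk1 i, nr_sq ((hu.pd i).l2 univ),
      Measure.restrict_univ, ← integral_complex_ofReal]
    refine integral_congr_ae (Eventually.of_forall fun x => ?_)
    simp only [pd_conj, Complex.mul_conj, Complex.normSq_eq_norm_sq]
  have i1 : ∀ i, Integrable fun x => pd i (pd i u) x * starRingEnd ℂ (u x) := fun i =>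
    integrable_cont_mul_tk ((hu.pd i).pd i).continuous hv
  have i2 : ∀ i, Integrable fun x => pd i (f i) x * starRingEnd ℂ (u x) := fun i =>
    integrable_cont_mul_tk (contDiff_pd_top i (hc i)).continuous hv
  have i3 : Integrable fun x => f₀ x * starRingEnd ℂ (u x) :=
    hf₀.integrable_mul_tk MeasurableSet.univ hv
  have e2 : ((∑ i, nr univ (pd i u) ^ 2 : ℝ) : ℂ) =
      -(∫ x, f₀ x * starRingEnd ℂ (u x)) +
        ∑ i, ∫ x, f i x * pd i (fun x => starRingEnd ℂ (u x)) x := by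
    rw [Complex.ofReal_sum]
    simp only [e1]
    rw [Finset.sum_neg_distrib, ← integral_finset_sum _ fun i _ => i1 i]
    have e3 : ∀ i, ∫ x, f i x * pd i (fun x => starRingEnd ℂ (u x)) x =
        -∫ x, pd i (f i) x * starRingEnd ℂ (u x) := fun i =>
      integral_mul_pd ((hc i).of_le (by exact_mod_cast le_top)) hv.tk1 i
    simp only [e3]
    rw [Finset.sum_neg_distrib, ← integral_finset_sum _ fun i _ => i2 i, ← neg_add,
      ← integral_add i3 (integrable_finset_sum _ fun i _ => i2 i)]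
    congr 1
    refine integral_congr_ae (Eventually.of_forall fun x => ?_)
    have := h x
    unfold lap at this
    simp only [← Finset.sum_mul, this, add_mul]
  have e4 : ∑ i, nr univ (pd i u) ^ 2 = ‖((∑ i, nr univ (pd i u) ^ 2 : ℝ) : ℂ)‖ := by
    rw [Complex.norm_real, Real.norm_of_nonneg (by positivity)]
  rw [e4, e2]
  refine (norm_add_le _ _).trans (add_le_add ?_ ((norm_sum_le _ _).trans
    (Finset.sum_le_sum fun i _ => ?_)))
  · rw [norm_neg, ← hnv]
    exact norm_integral_mul_tk_le MeasurableSet.univ hf₀ hv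
  · rw [← hnv' i]
    exact norm_integral_mul_tk_le MeasurableSet.univ (hf i) (hv.pd i)

theorem Reg_nr_mul {U : Set R3} (hU : MeasurableSet U) (hb : Bornology.IsBounded U) {β : R3}
    {φ g : R3 → ℂ} (hφ : Tst U φ) (hg : L2 U g) {C : ℝ} (hC : 0 ≤ C)
    (h : ∀ x, ‖φ x‖ ≤ C * ew β x) : nr univ (fun x => φ x * g x) ≤ C * wn U β g := by
  have hv : Van U fun x => φ x * g x :=
    Eventually.of_forall fun x hx => by simp [hφ.eq_zero hx]
  rw [hv.nr_univ hU]
  refine nr_le_mul_of_le hU (hg.ew_smul hU hb β) hC (Eventually.of_forall fun x _ => ?_)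
  rw [norm_mul, norm_smul, Real.norm_of_nonneg (ew_pos β x).le, ← mul_assoc]
  exact mul_le_mul_of_nonneg_right (h x) (norm_nonneg _)

theorem Reg_wld_mul {U : Set R3} (hU : MeasurableSet U) {φ y f₀ : R3 → ℂ} {f : Fin 3 → R3 → ℂ}
    (hφ : Tst U φ) (hy : L2 U y) (hf₀ : L2 U f₀) (hf : ∀ i, L2 U (f i)) (h : WLd U y f₀ f) :
    WLd univ (fun x => φ x * y x)
      (fun x => φ x * f₀ x - ∑ i, pd i φ x * f i x - lap φ x * y x)
      fun i x => φ x * f i x + 2 * (pd i φ x * y x) := by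
  intro ψ hψ
  have hφ2 : ContDiff ℝ 2 φ := hφ.tk2.cd
  have hψ2 : ContDiff ℝ 2 ψ := hψ.tk2.cd
  have hφd : ∀ x, DifferentiableAt ℝ φ x := fun x => hφ2.differentiable (by norm_num) x
  have hψd : ∀ x, DifferentiableAt ℝ ψ x := fun x => hψ2.differentiable (by norm_num) x
  have h1 := h _ (hφ.mul_right hψ.cd)
  have I : ∀ {g a b : R3 → ℂ}, L2 U g → Tst U a → Tst univ b →
      Integrable fun x => g x * (a x * b x) := fun hg ha hb =>
    hg.integrable_mul_tk hU (ha.mul_right hb.cd)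
  have a1 := I hy hφ.lap hψ
  have a2 := fun i => I hy (hφ.pd i) (hψ.pd i)
  have a3 := I hy hφ hψ.lap
  have a4 := I hf₀ hφ hψ
  have a5 := fun i => I (hf i) (hφ.pd i) hψ
  have a6 := fun i => I (hf i) hφ (hψ.pd i)
  have b1 : ∫ x, y x * lap (fun x => φ x * ψ x) x = (∫ x, y x * (lap φ x * ψ x)) +
      2 * (∑ i, ∫ x, y x * (pd i φ x * pd i ψ x)) + ∫ x, y x * (φ x * lap ψ x) := by
    rw [← integral_finset_sum _ fun i _ => a2 i, ← integral_const_mul,
      ← integral_add a1 ((integrable_finset_sum _ fun i _ => a2 i).const_mul 2),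
      ← integral_add (f := fun x => y x * (lap φ x * ψ x) +
        2 * ∑ i, y x * (pd i φ x * pd i ψ x))
        (a1.add ((integrable_finset_sum _ fun i _ => a2 i).const_mul 2)) a3]
    refine integral_congr_ae (Eventually.of_forall fun x => ?_)
    simp only [lap_mul hφ2 hψ2, ← Finset.mul_sum]
    ring
  have b2 : ∀ i, ∫ x, f i x * pd i (fun x => φ x * ψ x) x =
      (∫ x, f i x * (pd i φ x * ψ x)) + ∫ x, f i x * (φ x * pd i ψ x) := by
    intro i
    rw [← integral_add (a5 i) (a6 i)]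
    refine integral_congr_ae (Eventually.of_forall fun x => ?_)
    simp only [pd_mul i (hφd x) (hψd x)]
    ring
  have b3 : ∫ x, φ x * y x * lap ψ x = ∫ x, y x * (φ x * lap ψ x) :=
    integral_congr_ae (Eventually.of_forall fun x => by simp only; ring)
  have b4 : ∫ x, (φ x * f₀ x - ∑ i, pd i φ x * f i x - lap φ x * y x) * ψ x =
      (∫ x, f₀ x * (φ x * ψ x)) - (∑ i, ∫ x, f i x * (pd i φ x * ψ x)) -
        ∫ x, y x * (lap φ x * ψ x) := by
    rw [← integral_finset_sum _ fun i _ => a5 i,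
      ← integral_sub a4 (integrable_finset_sum _ fun i _ => a5 i),
      ← integral_sub (f := fun x => f₀ x * (φ x * ψ x) - ∑ i, f i x * (pd i φ x * ψ x))
        (a4.sub (integrable_finset_sum _ fun i _ => a5 i)) a1]
    refine integral_congr_ae (Eventually.of_forall fun x => ?_)
    simp only [Fin.sum_univ_three]
    ring
  have b5 : ∀ i, ∫ x, (φ x * f i x + 2 * (pd i φ x * y x)) * pd i ψ x =
      (∫ x, f i x * (φ x * pd i ψ x)) + 2 * ∫ x, y x * (pd i φ x * pd i ψ x) := by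
    intro i
    rw [← integral_const_mul, ← integral_add (a6 i) ((a2 i).const_mul 2)]
    refine integral_congr_ae (Eventually.of_forall fun x => ?_)
    simp only
    ring
  rw [b1] at h1
  simp only [b2] at h1
  rw [b3, b4]
  simp only [b5]
  simp only [Fin.sum_univ_three] at h1 ⊢
  linear_combination h1

theorem Reg_pd_lap {ψ : R3 → ℂ} (hψ : ContDiff ℝ ∞ ψ) (k : Fin 3) (x : R3) :
    pd k (lap ψ) x = lap (pd k ψ) x := by
  have h2 : ∀ {g : R3 → ℂ}, ContDiff ℝ ∞ g → ∀ z, ContDiffAt ℝ 2 g z := fun hg z =>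
    (hg.of_le (WithTop.coe_le_coe.2 (le_top : (2 : ℕ∞) ≤ ⊤))).contDiffAt
  unfold lap
  rw [pd_sum k Finset.univ fun i _ =>
    ((contDiff_pd_top i (contDiff_pd_top i hψ)).differentiable (by simp)) x]
  refine Finset.sum_congr rfl fun i _ => ?_
  rw [pd_comm k i (h2 (contDiff_pd_top i hψ) x)]
  congr 1
  funext z
  exact pd_comm k i (h2 hψ z)

/-- Mollify: `y_k = mol k y` is a test function, `∑ ∫ |∂ᵢ y_k|² = -∫ conj y_k Δ y_k ≤ a b + g c` with `a = ‖y‖`,
`b = ‖f₀‖`, `c = ∑ ‖fᵢ‖`, `g² = ∑ ‖∂ᵢ y_k‖²`, so `g ≤ √(a b) + c ≤ τ a + b / τ + c`; then `exists_WD`. -/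
theorem reg_glob {R τ : ℝ} (hτ : 0 < τ) {y f₀ : R3 → ℂ} {f : Fin 3 → R3 → ℂ} (hy : L2 univ y)
    (hv : Van (closedBall 0 R) y) (hf₀ : L2 univ f₀) (hf : ∀ i, L2 univ (f i))
    (h : WLd univ y f₀ f) :
    ∃ G, H1 univ y G ∧
      ∀ i, nr univ (G i) ≤ τ * nr univ y + τ⁻¹ * nr univ f₀ + ∑ k, nr univ (f k) := by
  set M := τ * nr univ y + τ⁻¹ * nr univ f₀ + ∑ k, nr univ (f k) with hM
  have hc : 0 ≤ ∑ k, nr univ (f k) := Finset.sum_nonneg fun k _ => nr_nonneg _ _
  have hM0 : 0 ≤ M := by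
    have := nr_nonneg univ y
    have := nr_nonneg univ f₀
    positivity
  have hu : ∀ k, Tst univ (mol k y) := fun k => (tst_mol hy hv k).mono (subset_univ _)
  have key : ∀ k i, nr univ (pd i (mol k y)) ≤ M := by
    intro k i
    have h1 := Reg_energy (hu k) (l2_mol hf₀ k).1 (fun i => (l2_mol (hf i) k).1)
      (fun i => contDiff_mol (hf i) k) (h.lap_mol hy hf k)
    set g := √(∑ i, nr univ (pd i (mol k y)) ^ 2) with hg
    have hg2 : g ^ 2 = ∑ i, nr univ (pd i (mol k y)) ^ 2 := Real.sq_sqrt (by positivity)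
    have hgi : ∀ i, nr univ (pd i (mol k y)) ≤ g := fun i =>
      Real.le_sqrt_of_sq_le (Finset.single_le_sum
        (f := fun i => nr univ (pd i (mol k y)) ^ 2) (fun _ _ => sq_nonneg _) (Finset.mem_univ i))
    refine (hgi i).trans (Reg_alg hτ (nr_nonneg _ _) (nr_nonneg _ _) hc ?_)
    rw [hg2, Finset.sum_mul]
    refine h1.trans (add_le_add ?_ (Finset.sum_le_sum fun j _ => ?_))
    · exact mul_le_mul (l2_mol hf₀ k).2 (l2_mol hy k).2 (nr_nonneg _ _) (nr_nonneg _ _)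
    · exact mul_le_mul (l2_mol (hf j) k).2 (hgi j) (nr_nonneg _ _) (nr_nonneg _ _)
  have ex : ∀ i, ∃ g, L2 univ g ∧ nr univ g ≤ M ∧ WD univ (ee i) y g := by
    intro i
    refine exists_WD MeasurableSet.univ hy hM0 fun ψ hψ => ?_
    rw [dv_ee]
    have t1 := tendsto_setIntegral_mul (l := atTop) (U := univ) (f := fun k => mol k y)
      (g := fun _ => pd i ψ) (Eventually.of_forall fun k => (l2_mol hy k).1)
      (Eventually.of_forall fun _ => (hψ.pd i).l2 univ) hy ((hψ.pd i).l2 univ)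
      (tendsto_nr_mol_sub hy) (by simp)
    simp only [Measure.restrict_univ] at t1
    refine le_of_tendsto t1.norm (Eventually.of_forall fun k => ?_)
    rw [integral_mul_pd (hu k).tk1.cd hψ.tk1 i, norm_neg]
    exact (norm_integral_mul_tk_le MeasurableSet.univ (((hu k).pd i).l2 univ) hψ).trans
      (mul_le_mul_of_nonneg_right (key k i) (nr_nonneg _ _))
  choose G hG using ex
  exact ⟨G, ⟨hy, fun i => (hG i).1, fun i => (hG i).2.2⟩, fun i => (hG i).2.1⟩

/-- Weighted interior version.  `φ = χ e^{-β x}` (`χ` from `exists_cut` for `closedBall 0 r ⊆ ball 0 r'`),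
`Δ (φ y) = [φ f₀ - ∑ ∂ᵢφ fᵢ - y Δφ] + ∑ ∂ᵢ (φ fᵢ + 2 y ∂ᵢφ)` (test with `φ ψ`, `lap_mul`), `|∂φ| ≤ C ‖β‖ e^{-β x}`,
`|Δφ| ≤ C ‖β‖² e^{-β x}`; `reg_glob` with `τ = ‖β‖`; on `ball 0 r`, `y = e^{β x} (φ y)`. -/
theorem reg_loc {r r' : ℝ} (hr : r < r') :
    ∃ C : ℝ, 0 ≤ C ∧ ∀ β : R3, 1 ≤ ‖β‖ → ∀ (y f₀ : R3 → ℂ) (f : Fin 3 → R3 → ℂ), L2 (ball 0 r') y →
      L2 (ball 0 r') f₀ → (∀ i, L2 (ball 0 r') (f i)) → WLd (ball 0 r') y f₀ f →
      ∃ G, H1 (ball 0 r) y G ∧ ∀ i, wn (ball 0 r) β (G i) ≤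
        C * (‖β‖ * wn (ball 0 r') β y + ‖β‖⁻¹ * wn (ball 0 r') β f₀ +
          ∑ k, wn (ball 0 r') β (f k)) := by
  obtain ⟨χ, hχ, hχ1, hχb⟩ := exists_cut (U := ball (0 : R3) r') (isCompact_closedBall (0 : R3) r)
    isOpen_ball (closedBall_subset_ball hr)
  obtain ⟨M₁, hM₁, hb₁⟩ := Bd.exists_bound_fin fun i => (hχ.pd i).bd
  obtain ⟨M₂, hM₂, hb₂⟩ := hχ.lap.exists_bound
  refine ⟨2 + (M₂ + 6 * M₁ + 3) + 6 * (M₁ + 1), by positivity, ?_⟩
  intro β hβ y f₀ f hy hf₀ hf h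
  have hβ0 : 0 < ‖β‖ := lt_of_lt_of_le one_pos hβ
  have hU : MeasurableSet (ball (0 : R3) r') := measurableSet_ball
  have hb : Bornology.IsBounded (ball (0 : R3) r') := isBounded_ball
  have hβi : ∀ i, ‖(β i : ℂ)‖ ≤ ‖β‖ := fun i => by
    rw [Complex.norm_real]; exact PiLp.norm_apply_le β i
  have hE : ∀ (γ x : R3), ‖(ew γ x : ℂ)‖ = ew γ x := fun γ x => by
    rw [Complex.norm_real, Real.norm_of_nonneg (ew_pos γ x).le]
  have hEd : ∀ (γ x : R3), DifferentiableAt ℝ (fun x => (ew γ x : ℂ)) x := fun γ x =>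
    (contDiff_ew 1 γ).differentiable (by norm_num) x
  have hχd : ∀ x, DifferentiableAt ℝ χ x := fun x => hχ.tk1.cd.differentiable (by norm_num) x
  set φ : R3 → ℂ := fun x => χ x * (ew β x : ℂ) with hφdef
  have hφ : Tst (ball 0 r') φ := hχ.mul_right (contDiff_ew _ β)
  have c0 : ∀ x, ‖φ x‖ ≤ 1 * ew β x := fun x => by
    rw [hφdef, norm_mul, hE]
    exact mul_le_mul_of_nonneg_right (hχb x) (ew_pos β x).le
  have c1 : ∀ i x, ‖pd i φ x‖ ≤ (M₁ + 1) * ‖β‖ * ew β x := fun i x => by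
    rw [hφdef, pd_mul i (hχd x) (hEd β x), pd_ew]
    refine (norm_add_le _ _).trans ?_
    rw [norm_mul, norm_mul, norm_mul, norm_neg, hE]
    have e := (ew_pos β x).le
    have h1 : ‖pd i χ x‖ * ew β x ≤ M₁ * ‖β‖ * ew β x :=
      mul_le_mul_of_nonneg_right ((hb₁ i x).trans (le_mul_of_one_le_right hM₁ hβ)) e
    have h2 : ‖χ x‖ * (‖(β i : ℂ)‖ * ew β x) ≤ 1 * (‖β‖ * ew β x) :=
      mul_le_mul (hχb x) (mul_le_mul_of_nonneg_right (hβi i) e) (by positivity) zero_le_one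
    linarith
  have c2 : ∀ x, ‖lap φ x‖ ≤ (M₂ + 6 * M₁ + 3) * ‖β‖ ^ 2 * ew β x := fun x => by
    have l1 : lap (fun x => (ew β x : ℂ)) x = ∑ i, (β i : ℂ) * ((β i : ℂ) * ew β x) := by
      unfold lap
      refine Finset.sum_congr rfl fun i _ => ?_
      rw [show pd i (fun y => (ew β y : ℂ)) = fun y => -(β i : ℂ) * ew β y from
        funext fun y => pd_ew i β y, pd_const_mul i _ (hEd β x), pd_ew]
      ring
    rw [hφdef, lap_mul hχ.tk2.cd (contDiff_ew 2 β), l1]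
    simp only [pd_ew]
    have e := (ew_pos β x).le
    have hβ2 : ‖β‖ ≤ ‖β‖ ^ 2 := by nlinarith
    have h1 : ‖lap χ x * (ew β x : ℂ)‖ ≤ M₂ * ‖β‖ ^ 2 * ew β x := by
      rw [norm_mul, hE]
      exact mul_le_mul_of_nonneg_right
        ((hb₂ x).trans (le_mul_of_one_le_right hM₂ (hβ.trans hβ2))) e
    have h2 : ‖2 * ∑ i, pd i χ x * (-(β i : ℂ) * ew β x)‖ ≤ 6 * M₁ * ‖β‖ ^ 2 * ew β x := by
      have h3 : ∀ i, ‖pd i χ x * (-(β i : ℂ) * ew β x)‖ ≤ M₁ * (‖β‖ ^ 2 * ew β x) := fun i => by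
        rw [norm_mul, norm_mul, norm_neg, hE]
        exact mul_le_mul (hb₁ i x) (mul_le_mul_of_nonneg_right ((hβi i).trans hβ2) e)
          (by positivity) hM₁
      rw [norm_mul, Complex.norm_ofNat]
      have h4 := (norm_sum_le _ _).trans (Finset.sum_le_sum fun i (_ : i ∈ Finset.univ) => h3 i)
      simp only [Finset.sum_const, Finset.card_univ, Fintype.card_fin, nsmul_eq_mul,
        Nat.cast_ofNat] at h4
      linarith
    have h5 : ‖χ x * ∑ i, (β i : ℂ) * ((β i : ℂ) * ew β x)‖ ≤ 3 * ‖β‖ ^ 2 * ew β x := by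
      have h3 : ∀ i, ‖(β i : ℂ) * ((β i : ℂ) * ew β x)‖ ≤ ‖β‖ * (‖β‖ * ew β x) := fun i => by
        rw [norm_mul, norm_mul, hE]
        exact mul_le_mul (hβi i) (mul_le_mul_of_nonneg_right (hβi i) e) (by positivity) hβ0.le
      have h4 := (norm_sum_le _ _).trans (Finset.sum_le_sum fun i (_ : i ∈ Finset.univ) => h3 i)
      simp only [Finset.sum_const, Finset.card_univ, Fintype.card_fin, nsmul_eq_mul,
        Nat.cast_ofNat] at h4
      rw [norm_mul]
      have h6 := mul_le_mul (hχb x) h4 (norm_nonneg _) zero_le_one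
      linarith
    refine (norm_add₃_le).trans ?_
    linarith
  have L : ∀ {a g : R3 → ℂ}, Tst (ball 0 r') a → L2 (ball 0 r') g → L2 univ fun x => a x * g x :=
    fun ha hg => L2.tk_mul_univ hU ha hg
  have lS : L2 univ fun x => ∑ i, pd i φ x * f i x := L2.sum' _ fun i _ => L (hφ.pd i) (hf i)
  have hv : Van (closedBall 0 r') fun x => φ x * y x :=
    Eventually.of_forall fun x hx => by
      simp [hφ.eq_zero fun h => hx (ball_subset_closedBall h)]
  obtain ⟨G, hG, hGb⟩ := reg_glob hβ0 (L hφ hy) hv (((L hφ hf₀).sub' lS).sub' (L hφ.lap hy))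
    (fun i => (L hφ (hf i)).add' ((L (hφ.pd i) hy).cmul 2)) (Reg_wld_mul hU hφ hy hf₀ hf h)
  set a := wn (ball 0 r') β y with ha
  set b := wn (ball 0 r') β f₀ with hb'
  set c := ∑ k, wn (ball 0 r') β (f k) with hc
  have ha0 : 0 ≤ a := wn_nonneg _ _ _
  have hb0 : 0 ≤ b := wn_nonneg _ _ _
  have hc0 : 0 ≤ c := Finset.sum_nonneg fun k _ => wn_nonneg _ _ _
  have n1 : nr univ (fun x => φ x * y x) ≤ a := by
    simpa using Reg_nr_mul hU hb hφ hy zero_le_one c0
  have n2 : nr univ (fun x => φ x * f₀ x - ∑ i, pd i φ x * f i x - lap φ x * y x) ≤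
      b + (M₁ + 1) * ‖β‖ * c + (M₂ + 6 * M₁ + 3) * ‖β‖ ^ 2 * a := by
    refine (nr_sub_le ((L hφ hf₀).sub' lS) (L hφ.lap hy)).trans (add_le_add
      ((nr_sub_le (L hφ hf₀) lS).trans (add_le_add ?_ ?_)) ?_)
    · simpa using Reg_nr_mul hU hb hφ hf₀ zero_le_one c0
    · refine (nr_sum_le _ fun i _ => L (hφ.pd i) (hf i)).trans ?_
      rw [hc, Finset.mul_sum]
      exact Finset.sum_le_sum fun i _ => Reg_nr_mul hU hb (hφ.pd i) (hf i) (by positivity) (c1 i)
    · exact Reg_nr_mul hU hb hφ.lap hy (by positivity) c2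
  have n3 : ∑ i, nr univ (fun x => φ x * f i x + 2 * (pd i φ x * y x)) ≤
      c + 6 * ((M₁ + 1) * ‖β‖ * a) := by
    have n4 : ∀ i, nr univ (fun x => φ x * f i x + 2 * (pd i φ x * y x)) ≤
        wn (ball 0 r') β (f i) + 2 * ((M₁ + 1) * ‖β‖ * a) := fun i => by
      refine (nr_add_le (L hφ (hf i)) ((L (hφ.pd i) hy).cmul 2)).trans (add_le_add ?_ ?_)
      · simpa using Reg_nr_mul hU hb hφ (hf i) zero_le_one c0
      · rw [nr_const_mul, Complex.norm_ofNat]
        exact mul_le_mul_of_nonneg_left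
          (Reg_nr_mul hU hb (hφ.pd i) hy (by positivity) (c1 i)) (by norm_num)
    refine (Finset.sum_le_sum fun i _ => n4 i).trans ?_
    rw [Finset.sum_add_distrib]
    simp only [Finset.sum_const, Finset.card_univ, Fintype.card_fin, nsmul_eq_mul,
      Nat.cast_ofNat]
    linarith
  have hG' := (hG.mono (subset_univ (ball 0 r))).mul_of_bounded isOpen_ball isBounded_ball
    (contDiff_ew 1 (-β))
  have hEE : ∀ x, (ew (-β) x : ℂ) * ew β x = 1 := fun x => by
    rw [← Complex.ofReal_mul, ew_neg_mul, Complex.ofReal_one]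
  refine ⟨_, hG'.congr measurableSet_ball (Eventually.of_forall fun x hx => ?_)
    fun i => Eventually.of_forall fun x _ => rfl, fun i => ?_⟩
  · have h1 : χ x = 1 := (hχ1 x (ball_subset_closedBall hx)).self_of_nhds
    simp only [hφdef, h1]
    linear_combination (-y x) * hEE x
  · have w1 : wn (ball 0 r) β (fun x => pd i (fun x => (ew (-β) x : ℂ)) x * (φ x * y x) +
        (ew (-β) x : ℂ) * G i x) = nr (ball 0 r) fun x => (β i : ℂ) * (φ x * y x) + G i x := by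
      unfold wn
      congr 1
      funext x
      beta_reduce
      rw [pd_ew, Complex.real_smul]
      simp only [PiLp.neg_apply, Complex.ofReal_neg, neg_neg]
      linear_combination ((β i : ℂ) * (φ x * y x) + G i x) * hEE x
    rw [w1]
    have lT : L2 univ fun x => (β i : ℂ) * (φ x * y x) := (L hφ hy).cmul _
    refine (nr_mono_set (subset_univ _) (lT.add' (hG.l2G i))).trans
      ((nr_add_le lT (hG.l2G i)).trans ?_)
    rw [nr_const_mul]
    have m1 : ‖(β i : ℂ)‖ * nr univ (fun x => φ x * y x) ≤ ‖β‖ * a :=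
      mul_le_mul (hβi i) n1 (nr_nonneg _ _) hβ0.le
    have m2 := mul_le_mul_of_nonneg_left n1 hβ0.le
    have m3 := mul_le_mul_of_nonneg_left n2 (inv_pos.2 hβ0).le
    have m4 : ‖β‖⁻¹ * (b + (M₁ + 1) * ‖β‖ * c + (M₂ + 6 * M₁ + 3) * ‖β‖ ^ 2 * a) =
        ‖β‖⁻¹ * b + (M₁ + 1) * c + (M₂ + 6 * M₁ + 3) * (‖β‖ * a) := by
      field_simp
    have m5 := hGb i
    have p1 : 0 ≤ ‖β‖ * a := by positivity
    have p2 : 0 ≤ ‖β‖⁻¹ * b := by positivity
    have p3 := mul_nonneg hM₁ p2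
    have p4 := mul_nonneg hM₂ p2
    have p5 := mul_nonneg hM₁ hc0
    have p6 := mul_nonneg hM₂ hc0
    nlinarith

/-- second derivatives: `Δ (∂ₖ y) = ∂ₖ F`. -/
theorem reg_loc2 {r r' : ℝ} (hr : r < r') :
    ∃ C : ℝ, 0 ≤ C ∧ ∀ β : R3, 1 ≤ ‖β‖ → ∀ (y F : R3 → ℂ) (G : Fin 3 → R3 → ℂ),
      H1 (ball 0 r') y G → L2 (ball 0 r') F → WL (ball 0 r') y F →
      ∃ G2, H2 (ball 0 r) y G G2 ∧ ∀ k l, wn (ball 0 r) β (G2 k l) ≤
        C * (‖β‖ * wn (ball 0 r') β (G k) + wn (ball 0 r') β F) := by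
  obtain ⟨C, hC, h⟩ := reg_loc hr
  refine ⟨C, hC, fun β hβ y F G hG hF hW => ?_⟩
  have ex : ∀ k, ∃ G', H1 (ball 0 r) (G k) G' ∧ ∀ l, wn (ball 0 r) β (G' l) ≤
      C * (‖β‖ * wn (ball 0 r') β (G k) + wn (ball 0 r') β F) := by
    intro k
    obtain ⟨G', h1, h2⟩ := h β hβ (G k) (fun _ => 0) (fun i => if i = k then F else fun _ => 0)
      (hG.l2G k) (L2.zero' _) (fun i => by
        split_ifs
        · exact hF
        · exact L2.zero' _) (by
        intro ψ hψ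
        have e1 := hG.integral_pd hψ.lap k
        have e2 := hW _ (hψ.pd k)
        simp only [Reg_pd_lap hψ.cd] at e1
        rw [Finset.sum_eq_single k (fun i _ hi => by simp [hi]) (by simp)]
        simp only [if_true, zero_mul, integral_zero]
        linear_combination e1 - e2)
    refine ⟨G', h1, fun l => (h2 l).trans (le_of_eq ?_)⟩
    have z : wn (ball (0 : R3) r') β (fun _ => (0 : ℂ)) = 0 := by
      unfold wn
      simp
    rw [Finset.sum_eq_single k (fun i _ hi => by simp [hi, z]) (by simp), z]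
    simp
  choose G2 h1 h2 using ex
  exact ⟨G2, ⟨hG.mono (ball_subset_ball hr.le), h1⟩, h2⟩

end Crest.Agent.R80
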