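import Crest.Agent.R80.Diff1
import Crest.Agent.R80.Reg
import Crest.Agent.R80.Car2
import Crest.Agent.R80.Weak2

/-!
# Row 80: weighted bounds for the difference
-/

namespace Crest.Agent.R80

open MeasureTheory Set Metric Filter Topology Complex
open scoped ContDiff
open Crest.AnalysisR.VecCalc3 Crest.AnalysisR.PDE Crest.AnalysisR.PDE.Elasticity

theorem diff_wn_zero (U : Set R3) (β : R3) : wn U β (fun _ => (0 : ℂ)) = 0 := by
  have := wn_const_mul U β 0 fun _ => (0 : ℂ)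
  simpa using this

theorem diff_l2_sum {U : Set R3} {Du : Fin 3 → Fin 3 → R3 → ℂ} {ε : R3 → ℂ}
    (hD : ∀ i j, L2 U (Du i j)) (hε : L2 U ε) :
    L2 U fun x => ∑ i, ∑ j, ‖Du i j x‖ + ‖ε x‖ :=
  (L2.sum' _ fun i _ => L2.sum' _ fun j _ => (hD i j).norm').add' hε.norm'

theorem diff_wn_sum {U : Set R3} (hU : MeasurableSet U) (hb : Bornology.IsBounded U) (β : R3)
    {Du : Fin 3 → Fin 3 → R3 → ℂ} {ε : R3 → ℂ} (hD : ∀ i j, L2 U (Du i j)) (hε : L2 U ε) {N : ℝ}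
    (h1 : ∀ i j, wn U β (Du i j) ≤ N) (h2 : wn U β ε ≤ N) :
    wn U β (fun x => ∑ i, ∑ j, ‖Du i j x‖ + ‖ε x‖) ≤ 10 * N := by
  have a1 := wn_add_le hU hb β (L2.sum' Finset.univ fun i _ =>
    L2.sum' Finset.univ fun j _ => (hD i j).norm') hε.norm'
  have a2 := wn_sum_le hU hb β Finset.univ fun i _ => L2.sum' Finset.univ fun j _ => (hD i j).norm'
  have a3 : ∀ i, wn U β (fun x => ∑ j, ‖Du i j x‖) ≤ 3 * N := fun i => by
    have b := wn_sum_le hU hb β Finset.univ fun j _ => (hD i j).norm'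
    simp only [wn_norm hU hb β (hD i _)] at b
    rw [Fin.sum_univ_three (f := fun j => wn U β (Du i j))] at b
    linarith [h1 i 0, h1 i 1, h1 i 2]
  rw [wn_norm hU hb β hε] at a1
  rw [Fin.sum_univ_three (f := fun i => wn U β fun x => ∑ j, ‖Du i j x‖)] at a2
  linarith [a3 0, a3 1, a3 2]

theorem diff_q2_le {κ : R3 → ℂ} {H : Fin 3 → Fin 3 → R3 → ℂ} (hκ : Bd κ) (hH : ∀ i j, Bd (H i j)) :
    ∃ C : ℝ, 0 ≤ C ∧ ∀ (Du : Fin 3 → Fin 3 → R3 → ℂ) (ε : R3 → ℂ) (x : R3),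
      ‖q2 κ H Du ε x‖ ≤ C * (∑ i, ∑ j, ‖Du i j x‖ + ‖ε x‖) := by
  obtain ⟨A, hA0, hA⟩ := Bd.exists_bound_fin (F := fun p : Fin 3 × Fin 3 => H p.1 p.2)
    fun p => hH p.1 p.2
  obtain ⟨B, hB0, hB⟩ := (((hκ.const_mul 4).sub (Bd.const 1)).mul
    (Bd.sum Finset.univ fun i _ => hH i i)).exists_bound
  refine ⟨2 * A + B, by positivity, fun Du ε x => ?_⟩
  have hS : 0 ≤ ∑ i, ∑ j, ‖Du i j x‖ := by positivity
  have h1 : ‖∑ i, ∑ j, (Du i j x + Du j i x) * H i j x‖ ≤ 2 * A * ∑ i, ∑ j, ‖Du i j x‖ := by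
    calc ‖∑ i, ∑ j, (Du i j x + Du j i x) * H i j x‖
        ≤ ∑ i, ∑ j, (‖Du i j x‖ + ‖Du j i x‖) * A := by
          refine (norm_sum_le _ _).trans (Finset.sum_le_sum fun i _ => ?_)
          refine (norm_sum_le _ _).trans (Finset.sum_le_sum fun j _ => ?_)
          rw [norm_mul]
          exact mul_le_mul (norm_add_le _ _) (hA (i, j) x) (norm_nonneg _) (by positivity)
      _ = 2 * A * ∑ i, ∑ j, ‖Du i j x‖ := by
          simp only [Fin.sum_univ_three]; ring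
  have h2 : ‖(4 * κ x - 1) * ε x * ∑ i, H i i x‖ ≤ B * ‖ε x‖ := by
    rw [mul_right_comm, norm_mul]
    exact mul_le_mul_of_nonneg_right (hB x) (norm_nonneg _)
  refine (norm_add_le _ _).trans ?_
  nlinarith [mul_nonneg hA0 (norm_nonneg (ε x)), mul_nonneg hB0 hS]

/-- `reg_loc` for `ε` and `ε'` (from `PS.e2`, `WL.wld`), `diff_sys`, `car2`. -/
theorem diff_est (S : Setup) (hb : BDy S.Ω S.c₁ S.c₂) {r : ℝ} (hr : closure S.Ω ⊆ ball 0 r) :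
    ∃ C τ₀ : ℝ, 0 ≤ C ∧ 1 ≤ τ₀ ∧ ∀ β : R3, τ₀ ≤ ‖β‖ →
      ∀ (u w : Fin 3 → R3 → ℂ) (Du Dw : Fin 3 → Fin 3 → R3 → ℂ) (ε ε' : R3 → ℂ) (M : ℝ),
      PS (ball 0 (r + 1)) S.c₁.ka S.c₁.a S.c₁.H u Du ε →
      PS (ball 0 (r + 1)) S.kh S.ah S.Hh (fun j x => u j x - w j x)
        (fun i j x => Du i j x - Dw i j x) ε' →
      (∀ j, H1 univ (w j) fun i => Dw i j) → (∀ j, Van S.Ω (w j)) → (∀ i j, Van S.Ω (Dw i j)) →
      wn (ball 0 (r + 1)) β ε ≤ M → (∀ i j, wn (ball 0 (r + 1)) β (Du i j) ≤ ‖β‖ * M) →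
      (∀ j, wn (ball 0 r) β (w j) ≤ C * M) ∧ wn (ball 0 r) β (fun x => ε x - ε' x) ≤ C * M ∧
        (∀ i j, wn (ball 0 r) β (Dw i j) ≤ C * ‖β‖ * M) ∧
        ∀ᵐ x : R3, x ∈ ball (0 : R3) r → x ∉ closure S.Ω → ε x - ε' x = 0 := by
  obtain ⟨C₁, hC₁, hreg⟩ := reg_loc (lt_add_one r)
  obtain ⟨C₀, hC₀, hsys⟩ := diff_sys S hb hr
  obtain ⟨C₂, τ₀, hC₂, hτ₀, hcar⟩ := car2 (Option (Fin 3)) r C₀
  have bκ : Bd S.c₁.ka := S.c₁.tk_ka.bd
  have bH : ∀ i j, Bd (S.c₁.H i j) := fun i j => (S.c₁.tk_H i j).bd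
  obtain ⟨C₃, hC₃, hq⟩ := diff_q2_le bκ bH
  refine ⟨C₂ * (C₀ * (10 + 3 * (C₁ * (1 + 10 * C₃)))), τ₀, by positivity, hτ₀, ?_⟩
  intro β hβ u w Du Dw ε ε' M hP hP' hw hvw hvD hε hDu
  have hβ1 : 1 ≤ ‖β‖ := hτ₀.trans hβ
  have hβ0 : 0 < ‖β‖ := one_pos.trans_le hβ1
  have hM : 0 ≤ M := (wn_nonneg _ _ _).trans hε
  have hMN : M ≤ ‖β‖ * M := le_mul_of_one_le_left hM hβ1
  have hm : MeasurableSet (ball (0 : R3) r) := measurableSet_ball
  have hm' : MeasurableSet (ball (0 : R3) (r + 1)) := measurableSet_ball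
  have hbd : Bornology.IsBounded (ball (0 : R3) r) := isBounded_ball
  have hbd' : Bornology.IsBounded (ball (0 : R3) (r + 1)) := isBounded_ball
  have hsub : ball (0 : R3) r ⊆ ball 0 (r + 1) := ball_subset_ball (by linarith)
  have hmc : MeasurableSet (closure S.Ω) := isClosed_closure.measurableSet
  have lD : ∀ i j, L2 (ball 0 (r + 1)) (Du i j) := fun i j => (hP.h1 j).l2G i
  obtain ⟨Gε, hG, hGb⟩ := hreg β hβ1 ε _ _ hP.l2 (L2.q2 bκ bH lD hP.l2)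
    (fun _ => L2.zero' _) hP.e2.wld
  obtain ⟨Gε', hG', -⟩ := hreg β hβ1 ε' _ _ hP'.l2
    (L2.q2 S.bd_kh S.bd_Hh (fun i j => (hP'.h1 j).l2G i) hP'.l2) (fun _ => L2.zero' _) hP'.e2.wld
  have hq2 : wn (ball 0 (r + 1)) β (q2 S.c₁.ka S.c₁.H Du ε) ≤ C₃ * (10 * (‖β‖ * M)) := by
    have a1 := wn_le_of_le hm' hbd' β ((diff_l2_sum lD hP.l2).rmul C₃)
      (f := q2 S.c₁.ka S.c₁.H Du ε) (Eventually.of_forall fun x _ => hq Du ε x)
    rw [wn_const_mul_real, abs_of_nonneg hC₃] at a1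
    exact a1.trans (mul_le_mul_of_nonneg_left
      (diff_wn_sum hm' hbd' β lD hP.l2 hDu (hε.trans hMN)) hC₃)
  have hGb' : ∀ k, wn (ball 0 r) β (Gε k) ≤ C₁ * (1 + 10 * C₃) * (‖β‖ * M) := fun k => by
    have a1 := hGb k
    simp only [diff_wn_zero, Finset.sum_const_zero, add_zero] at a1
    have a2 : ‖β‖⁻¹ * wn (ball 0 (r + 1)) β (q2 S.c₁.ka S.c₁.H Du ε) ≤ C₃ * (10 * (‖β‖ * M)) :=
      (mul_le_of_le_one_left (wn_nonneg _ _ _) (inv_le_one_of_one_le₀ hβ1)).trans hq2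
    have a3 := mul_le_mul_of_nonneg_left hε hβ0.le
    refine a1.trans ?_
    rw [mul_assoc]
    refine mul_le_mul_of_nonneg_left ?_ hC₁
    linarith
  obtain ⟨y, G, F, hy, hGD, hy0, hH1, hF, hWL, hvan, hle⟩ := hsys u w Du Dw ε ε' Gε Gε'
    (hP.mono hsub) hG (hP'.mono hsub) hG' hw hvw hvD
  have lD0 : ∀ i j, L2 (ball 0 r) (Du i j) := fun i j => (lD i j).mono_set hsub
  have lε0 : L2 (ball 0 r) ε := hP.l2.mono_set hsub
  have lG : L2 (ball 0 r) fun x => ∑ k, ‖Gε k x‖ := L2.sum' _ fun k _ => (hG.l2G k).norm'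
  have ls := ((diff_l2_sum lD0 lε0).add' lG).rmul C₀
  have hcb : closure S.Ω ⊆ closedBall 0 r := hr.trans ball_subset_closedBall
  have hc := hcar β hβ y G F _ hH1 hF hWL (fun i => (hvan i).mono hcb)
    (L2.indicator_univ hmc (ls.mono_set hr)) ((Van.indicator _ _).mono hcb) hle
  have hs : wn univ β ((closure S.Ω).indicator
      fun z => C₀ * (∑ i, ∑ j, ‖Du i j z‖ + ‖ε z‖ + ∑ k, ‖Gε k z‖)) ≤
      C₀ * (10 + 3 * (C₁ * (1 + 10 * C₃))) * (‖β‖ * M) := by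
    rw [wn_indicator hmc]
    refine (wn_mono_set hm hbd β hr ls).trans ?_
    rw [wn_const_mul_real, abs_of_nonneg hC₀, mul_assoc]
    refine mul_le_mul_of_nonneg_left ?_ hC₀
    have a1 := wn_add_le hm hbd β (diff_l2_sum lD0 lε0) lG
    have a2 := diff_wn_sum hm hbd β lD0 lε0
      (fun i j => (wn_mono_set hm' hbd' β hsub (lD i j)).trans (hDu i j))
      (((wn_mono_set hm' hbd' β hsub hP.l2).trans hε).trans hMN)
    have a3 := wn_sum_le hm hbd β Finset.univ fun k _ => (hG.l2G k).norm'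
    simp only [wn_norm hm hbd β (hG.l2G _)] at a3
    rw [Fin.sum_univ_three (f := fun k => wn (ball 0 r) β (Gε k))] at a3
    linarith [hGb' 0, hGb' 1, hGb' 2]
  have hs' := mul_le_mul_of_nonneg_left hs hC₂
  have hyb : ∀ i, wn (ball 0 r) β (y i) ≤ C₂ * (C₀ * (10 + 3 * (C₁ * (1 + 10 * C₃)))) * M := fun i => by
    rw [← ((hvan i).mono hr).wn_univ hm β]
    refine le_of_mul_le_mul_left ?_ hβ0
    have := (hc i).1.trans hs'
    linarith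
  refine ⟨fun j => hy j ▸ hyb (some j), ?_, fun i j => ?_, ?_⟩
  · rw [← wn_congr hm β hy0]
    exact hyb none
  · rw [← ((hvD i j).mono (subset_closure.trans hr)).wn_univ hm β, ← hGD j i]
    have := ((hc (some j)).2 i).trans hs'
    linarith
  · filter_upwards [hy0, hvan none] with x h1 h2 hx hx'
    rw [← h1 hx]
    exact h2 hx'

end Crest.Agent.R80
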