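import Crest.Agent.R80.Coef
import Crest.Agent.R80.Ind

/-!
# Row 80: the closed system for the difference
-/

namespace Crest.Agent.R80

open MeasureTheory Set Metric Filter Topology Complex
open scoped ContDiff
open Crest.AnalysisR.VecCalc3 Crest.AnalysisR.PDE Crest.AnalysisR.PDE.Elasticity

section aux

variable {U : Set R3} {κ ε : R3 → ℂ} {a u : Fin 3 → R3 → ℂ} {H Du : Fin 3 → Fin 3 → R3 → ℂ}

theorem Diff1_dv_ee (j : Fin 3) (f : R3 → ℂ) (x : R3) : dv (ee j) f x = pd j f x := by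
  simp [dv, ee, Pi.single_apply]

theorem Diff1_wl (h : PS U κ a H u Du ε) (hU : MeasurableSet U) (j : Fin 3) {g : R3 → ℂ}
    (hg : WD U (ee j) (fun x => κ x * ε x) g) (hg2 : L2 U g) (hq : L2 U (q1 κ a Du ε j)) :
    WL U (u j) fun x => -(2 * g x) - q1 κ a Du ε j x := by
  intro ψ hψ
  have h1 := hg ψ hψ
  simp only [Diff1_dv_ee] at h1
  have i1 := hg2.integrable_mul_tk hU hψ
  have i2 := hq.integrable_mul_tk hU hψ
  have e1 : ∫ x, 2 * κ x * ε x * pd j ψ x = 2 * ∫ x, κ x * ε x * pd j ψ x := by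
    rw [← integral_const_mul]; congr 1; funext x; ring
  have e2 : ∫ x, (-(2 * g x) - q1 κ a Du ε j x) * ψ x =
      ∫ x, ((-2) * (g x * ψ x) - q1 κ a Du ε j x * ψ x) := by
    congr 1; funext x; ring
  rw [h.e1 j ψ hψ, e1, h1, e2, integral_sub (i1.const_mul _) i2, integral_const_mul]
  ring

theorem Diff1_four {z : ℂ} {M : ℝ} (h : ‖z‖ ≤ M) : ‖4 * z - 1‖ ≤ 4 * M + 1 := by
  refine (norm_sub_le _ _).trans ?_
  rw [norm_mul, norm_one]
  have : ‖(4 : ℂ)‖ = 4 := by simp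
  rw [this]; linarith

theorem Diff1_mul_le {z w : ℂ} {A B : ℝ} (hz : ‖z‖ ≤ A) (hw : ‖w‖ ≤ B) : ‖z * w‖ ≤ A * B := by
  rw [norm_mul]
  exact mul_le_mul hz hw (norm_nonneg _) ((norm_nonneg _).trans hz)

theorem Diff1_sum_le {f : Fin 3 → ℂ} {A : ℝ} (h : ∀ i, ‖f i‖ ≤ A) : ‖∑ i, f i‖ ≤ 3 * A := by
  refine (norm_sum_le _ _).trans ?_
  rw [Fin.sum_univ_three]
  linarith [h 0, h 1, h 2]

theorem Diff1_q1_le {x : R3} {M T : ℝ} (hκ : ‖κ x‖ ≤ M) (ha : ∀ i, ‖a i x‖ ≤ M)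
    (hD : ∀ i j, ‖Du i j x‖ ≤ T) (hε : ‖ε x‖ ≤ T) (j : Fin 3) :
    ‖q1 κ a Du ε j x‖ ≤ (6 * M + (4 * M + 1) * M) * T := by
  have h1 : ‖∑ i, (Du i j x + Du j i x) * a i x‖ ≤ 3 * ((T + T) * M) :=
    Diff1_sum_le fun i => Diff1_mul_le (norm_add_le_of_le (hD i j) (hD j i)) (ha i)
  have h2 := Diff1_mul_le (Diff1_mul_le (Diff1_four hκ) hε) (ha j)
  exact (norm_add_le_of_le h1 h2).trans (le_of_eq (by ring))

theorem Diff1_q2_le {x : R3} {M T : ℝ} (hκ : ‖κ x‖ ≤ M) (hH : ∀ i j, ‖H i j x‖ ≤ M)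
    (hD : ∀ i j, ‖Du i j x‖ ≤ T) (hε : ‖ε x‖ ≤ T) :
    ‖q2 κ H Du ε x‖ ≤ (18 * M + 3 * ((4 * M + 1) * M)) * T := by
  have h1 : ‖∑ i, ∑ j, (Du i j x + Du j i x) * H i j x‖ ≤ 3 * (3 * ((T + T) * M)) :=
    Diff1_sum_le fun i => Diff1_sum_le fun j =>
      Diff1_mul_le (norm_add_le_of_le (hD i j) (hD j i)) (hH i j)
  have h2 := Diff1_mul_le (Diff1_mul_le (Diff1_four hκ) hε) (Diff1_sum_le fun i => hH i i)
  exact (norm_add_le_of_le h1 h2).trans (le_of_eq (by ring))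

theorem Diff1_F_le {x : R3} {M T : ℝ} {d G : ℂ} (hκ : ‖κ x‖ ≤ M) (ha : ∀ i, ‖a i x‖ ≤ M)
    (hD : ∀ i j, ‖Du i j x‖ ≤ T) (hε : ‖ε x‖ ≤ T) (hd : ‖d‖ ≤ M) (hG : ‖G‖ ≤ T) (j : Fin 3) :
    ‖-(2 * (d * ε x + κ x * G)) - q1 κ a Du ε j x‖ ≤ (10 * M + (4 * M + 1) * M) * T := by
  have h1 : ‖-(2 * (d * ε x + κ x * G))‖ ≤ 2 * (M * T + M * T) := by
    rw [norm_neg]
    exact Diff1_mul_le (by simp) (norm_add_le_of_le (Diff1_mul_le hd hε) (Diff1_mul_le hκ hG))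
  exact (norm_sub_le_of_le h1 (Diff1_q1_le hκ ha hD hε j)).trans (le_of_eq (by ring))

theorem Diff1_single2 {ι : Type*} [Fintype ι] (f : ι → Fin 3 → ℝ) (hf : ∀ i j, 0 ≤ f i j) (i : ι)
    (j : Fin 3) : f i j ≤ ∑ i, ∑ j, f i j :=
  (Finset.single_le_sum (fun j _ => hf i j) (Finset.mem_univ j)).trans
    (Finset.single_le_sum (f := fun i => ∑ j, f i j)
      (fun i _ => Finset.sum_nonneg fun j _ => hf i j) (Finset.mem_univ i))

end aux

/-- `y (some j) = w j`, `y none = 1_{closure Ω} (ε - ε')` (outside `Ω`, `(1 - 2κ₁)(ε - ε') = div w = 0`),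
`G none = 1_{closure Ω} (Gε - Gε')` (`H1.extend`).  Subtract the two systems; the divergence terms are `L²`
functions by `WD.mul` and `WD.hat_mul`; restrict to the ball, then `WL.extend` with `K = closure Ω`
(`Van.indicator_ae_eq`).  On `closure Ω` write `ε' = ε - y none`, `Gε' = Gε - G none`. -/
theorem diff_sys (S : Setup) (hb : BDy S.Ω S.c₁ S.c₂) {r : ℝ} (hr : closure S.Ω ⊆ ball 0 r) :
    ∃ C₀ : ℝ, 0 ≤ C₀ ∧ ∀ (u w : Fin 3 → R3 → ℂ) (Du Dw : Fin 3 → Fin 3 → R3 → ℂ) (ε ε' : R3 → ℂ)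
      (Gε Gε' : Fin 3 → R3 → ℂ),
      PS (ball 0 r) S.c₁.ka S.c₁.a S.c₁.H u Du ε → H1 (ball 0 r) ε Gε →
      PS (ball 0 r) S.kh S.ah S.Hh (fun j x => u j x - w j x) (fun i j x => Du i j x - Dw i j x) ε' →
      H1 (ball 0 r) ε' Gε' → (∀ j, H1 univ (w j) fun i => Dw i j) → (∀ j, Van S.Ω (w j)) →
      (∀ i j, Van S.Ω (Dw i j)) →
      ∃ (y : Option (Fin 3) → R3 → ℂ) (G : Option (Fin 3) → Fin 3 → R3 → ℂ)
        (F : Option (Fin 3) → R3 → ℂ), (∀ j, y (some j) = w j) ∧ (∀ j k, G (some j) k = Dw k j) ∧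
        (∀ᵐ x : R3, x ∈ ball (0 : R3) r → y none x = ε x - ε' x) ∧ (∀ i, H1 univ (y i) (G i)) ∧
        (∀ i, L2 univ (F i)) ∧ (∀ i, WL univ (y i) (F i)) ∧ (∀ i, Van (closure S.Ω) (y i)) ∧
        ∀ᵐ x : R3, ∀ i, ‖F i x‖ ≤ C₀ * (∑ j, ‖y j x‖ + ∑ j, ∑ k, ‖G j k x‖) +
          (closure S.Ω).indicator
            (fun z => C₀ * (∑ i, ∑ j, ‖Du i j z‖ + ‖ε z‖ + ∑ k, ‖Gε k z‖)) x := by
  classical
  have hU : IsOpen (ball (0 : R3) r) := isOpen_ball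
  have hUm := hU.measurableSet
  have hK := S.dom.isCompact_closure
  have hKm : MeasurableSet (closure S.Ω) := isClosed_closure.measurableSet
  have hΩ := S.dom.measurableSet
  have t1 : Tk 1 univ S.c₁.ka := S.c₁.tk_ka.of_le (by norm_num)
  have t2 : Tk 1 univ S.c₂.ka := S.c₂.tk_ka.of_le (by norm_num)
  have bd1 : ∀ j, Bd (dv (ee j) S.c₁.ka) := fun j => (t1.dv (m := 0) (by norm_num) _).bd
  have bd2 : ∀ j, Bd (hat S.Ω (dv (ee j) S.c₂.ka) (dv (ee j) S.c₁.ka)) := fun j =>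
    Bd.hat hΩ (t2.dv (m := 0) (by norm_num) _).bd (bd1 j)
  have hka : ∀ x ∈ frontier S.Ω, S.c₂.ka x = S.c₁.ka x := fun x hx => by
    simp only [Co.ka, hb.l x hx]
  obtain ⟨M1, p1, m1⟩ := t1.bd.exists_bound
  obtain ⟨M2, p2, m2⟩ := S.bd_kh.exists_bound
  obtain ⟨M3, p3, m3⟩ := Bd.exists_bound_fin bd1
  obtain ⟨M4, p4, m4⟩ := Bd.exists_bound_fin bd2
  obtain ⟨M5, p5, m5⟩ := Bd.exists_bound_fin fun i => (S.c₁.tk_a i).bd
  obtain ⟨M6, p6, m6⟩ := Bd.exists_bound_fin S.bd_ah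
  obtain ⟨M7, p7, m7⟩ := Bd.exists_bound_fin (F := fun p : Fin 3 × Fin 3 => S.c₁.H p.1 p.2)
    fun p => (S.c₁.tk_H p.1 p.2).bd
  obtain ⟨M8, p8, m8⟩ := Bd.exists_bound_fin (F := fun p : Fin 3 × Fin 3 => S.Hh p.1 p.2)
    fun p => S.bd_Hh p.1 p.2
  set M := M1 + M2 + M3 + M4 + M5 + M6 + M7 + M8 with hM
  have hM0 : 0 ≤ M := by positivity
  refine ⟨2 * (18 * M + 3 * ((4 * M + 1) * M)), by positivity, ?_⟩
  intro u w Du Dw ε ε' Gε Gε' hP hε hP' hε' hw hvw hvD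
  have lD : ∀ i j, L2 (ball (0 : R3) r) (Du i j) := fun i j => (hP.h1 j).l2G i
  have lD' : ∀ i j, L2 (ball (0 : R3) r) fun x => Du i j x - Dw i j x := fun i j => (hP'.h1 j).l2G i
  have h0 : ∀ᵐ x : R3, x ∈ ball (0 : R3) r → x ∉ closure S.Ω → ε x - ε' x = 0 := by
    filter_upwards [hP.e3, hP'.e3, ae_all_iff.2 fun i => hvD i i] with x h1 h2 h3 hx hx'
    have hx2 : x ∉ S.Ω := fun h => hx' (subset_closure h)
    have h4 := h2 hx
    simp only [h3 _ hx2, sub_zero, Setup.kh, hat_of_notMem _ _ hx2] at h4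
    rw [h1 hx] at h4
    exact sub_eq_zero.2 (mul_left_cancel₀ (S.c₁.one_sub_two_ka_ne x) h4)
  let g1 : Fin 3 → R3 → ℂ := fun j x => dv (ee j) S.c₁.ka x * ε x + S.c₁.ka x * Gε j x
  let g2 : Fin 3 → R3 → ℂ := fun j x =>
    hat S.Ω (dv (ee j) S.c₂.ka) (dv (ee j) S.c₁.ka) x * ε' x + S.kh x * Gε' j x
  let D' : Fin 3 → Fin 3 → R3 → ℂ := fun i j x => Du i j x - Dw i j x
  let F1 : Fin 3 → R3 → ℂ := fun j x => -(2 * g1 j x) - q1 S.c₁.ka S.c₁.a Du ε j x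
  let F2 : Fin 3 → R3 → ℂ := fun j x => -(2 * g2 j x) - q1 S.kh S.ah D' ε' j x
  have lg1 : ∀ j, L2 (ball (0 : R3) r) (g1 j) := fun j =>
    (L2.bd_mul (bd1 j) hε.l2).add' (L2.bd_mul t1.bd (hε.l2G j))
  have lg2 : ∀ j, L2 (ball (0 : R3) r) (g2 j) := fun j =>
    (L2.bd_mul (bd2 j) hε'.l2).add' (L2.bd_mul S.bd_kh (hε'.l2G j))
  have lq1 := fun j => L2.q1 t1.bd (fun i => (S.c₁.tk_a i).bd) lD hε.l2 j
  have lq2 := fun j => L2.q1 (Du := D') S.bd_kh S.bd_ah lD' hε'.l2 j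
  have lF1 : ∀ j, L2 (ball (0 : R3) r) (F1 j) := fun j => ((lg1 j).cmul 2).neg'.sub' (lq1 j)
  have lF2 : ∀ j, L2 (ball (0 : R3) r) (F2 j) := fun j => ((lg2 j).cmul 2).neg'.sub' (lq2 j)
  have w1 : ∀ j, WL (ball (0 : R3) r) (u j) (F1 j) := fun j =>
    Diff1_wl hP hUm j ((hε.wd j).mul hU hε.l2 (hε.l2G j) t1.cd) (lg1 j) (lq1 j)
  have w2 : ∀ j, WL (ball (0 : R3) r) (fun x => u j x - w j x) (F2 j) := fun j =>
    Diff1_wl hP' hUm j ((hε'.wd j).hat_mul S.dom hU hε'.l2 (hε'.l2G j) t2 t1 hka) (lg2 j) (lq2 j)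
  have lQ1 := L2.q2 t1.bd (fun i j => (S.c₁.tk_H i j).bd) lD hε.l2
  have lQ2 := L2.q2 (Du := D') S.bd_kh S.bd_Hh lD' hε'.l2
  have hvK : ∀ j, Van (closure S.Ω) (w j) := fun j => (hvw j).mono subset_closure
  let y : Option (Fin 3) → R3 → ℂ := fun i =>
    i.elim ((closure S.Ω).indicator fun x => ε x - ε' x) w
  let G : Option (Fin 3) → Fin 3 → R3 → ℂ := fun i k =>
    i.elim ((closure S.Ω).indicator fun x => Gε k x - Gε' k x) fun j => Dw k j
  let F : Option (Fin 3) → R3 → ℂ := fun i => (closure S.Ω).indicator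
    (i.elim (fun x => q2 S.c₁.ka S.c₁.H Du ε x - q2 S.kh S.Hh D' ε' x) fun j x => F1 j x - F2 j x)
  refine ⟨y, G, F, fun _ => rfl, fun _ _ => rfl, ?_, ?_, ?_, ?_, ?_, ?_⟩
  · filter_upwards [h0] with x hx hx'
    by_cases h : x ∈ closure S.Ω
    · simp only [y, Option.elim_none, indicator_of_mem h]
    · simp only [y, Option.elim_none, indicator_of_notMem h, hx hx' h]
  · rintro (_ | j)
    · exact (hε.sub hε' hUm).extend hU hK hr h0
    · exact hw j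
  · rintro (_ | j)
    · exact L2.indicator_univ hKm ((lQ1.sub' lQ2).mono_set hr)
    · exact L2.indicator_univ hKm (((lF1 j).sub' (lF2 j)).mono_set hr)
  · rintro (_ | j)
    · exact (hP.e2.sub hP'.e2 hUm hε.l2 lQ1 hε'.l2 lQ2).extend hU hK hr (hε.l2.sub' hε'.l2)
        (lQ1.sub' lQ2) h0
    · have h1 : WL (ball (0 : R3) r) (w j) fun x => F1 j x - F2 j x :=
        ((w1 j).sub (w2 j) hUm (hP.h1 j).l2 (lF1 j) (hP'.h1 j).l2 (lF2 j)).congr hUm
          (.of_forall fun x _ => by ring) (.of_forall fun x _ => rfl)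
      have h2 := h1.extend hU hK hr ((hw j).l2.mono_set (subset_univ _)) ((lF1 j).sub' (lF2 j))
        (Filter.Eventually.mono (hvK j) fun x hx _ => hx)
      refine h2.congr MeasurableSet.univ ?_ (.of_forall fun x _ => rfl)
      filter_upwards [(hvK j).indicator_ae_eq] with x hx _ using hx.symm
  · rintro (_ | j)
    · exact Van.indicator _ _
    · exact hvK j
  · refine .of_forall fun x i => ?_
    by_cases hx : x ∈ closure S.Ω
    swap
    · simp only [F, indicator_of_notMem hx, norm_zero, add_zero]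
      positivity
    rw [indicator_of_mem hx, ← mul_add]
    set A := ∑ j, ‖y j x‖ + ∑ j, ∑ k, ‖G j k x‖ with hA
    set B := ∑ i, ∑ j, ‖Du i j x‖ + ‖ε x‖ + ∑ k, ‖Gε k x‖ with hB
    have s1 : 0 ≤ ∑ j, ‖y j x‖ := by positivity
    have s2 : 0 ≤ ∑ j, ∑ k, ‖G j k x‖ := by positivity
    have s3 : 0 ≤ ∑ i, ∑ j, ‖Du i j x‖ := by positivity
    have s4 : 0 ≤ ∑ k, ‖Gε k x‖ := by positivity
    have s5 := norm_nonneg (ε x)
    have a1 : ‖ε x - ε' x‖ ≤ A := by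
      have := Finset.single_le_sum (f := fun j => ‖y j x‖) (fun _ _ => norm_nonneg _)
        (Finset.mem_univ none)
      simp only [y, Option.elim_none, indicator_of_mem hx] at this
      exact this.trans (by rw [hA]; exact le_add_of_nonneg_right s2)
    have a2 : ∀ i k, ‖G i k x‖ ≤ A := fun i k =>
      (Diff1_single2 (fun i k => ‖G i k x‖) (fun _ _ => norm_nonneg _) i k).trans (by linarith)
    have b1 : ∀ i j, ‖Du i j x‖ ≤ B := fun i j =>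
      (Diff1_single2 (fun i j => ‖Du i j x‖) (fun _ _ => norm_nonneg _) i j).trans (by linarith)
    have b2 : ‖ε x‖ ≤ B := by linarith
    have b3 : ∀ k, ‖Gε k x‖ ≤ B := fun k =>
      (Finset.single_le_sum (f := fun k => ‖Gε k x‖) (fun _ _ => norm_nonneg _)
        (Finset.mem_univ k)).trans (by linarith)
    have hA0 : 0 ≤ A := by linarith
    have hB0 : 0 ≤ B := by linarith
    have c1 : ∀ i j, ‖Du i j x‖ ≤ A + B := fun i j => by linarith [b1 i j]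
    have c2 : ‖ε x‖ ≤ A + B := by linarith
    have c3 : ∀ k, ‖Gε k x‖ ≤ A + B := fun k => by linarith [b3 k]
    have d1 : ∀ i j, ‖D' i j x‖ ≤ A + B := fun i j =>
      (norm_sub_le_of_le (b1 i j) (a2 (some j) i)).trans (le_of_eq (add_comm _ _))
    have d2 : ‖ε' x‖ ≤ A + B := by
      have := norm_sub_le_of_le b2 a1
      rw [sub_sub_cancel] at this; linarith
    have d3 : ∀ k, ‖Gε' k x‖ ≤ A + B := fun k => by
      have h1 := a2 none k
      simp only [G, Option.elim_none, indicator_of_mem hx] at h1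
      have := norm_sub_le_of_le (b3 k) h1
      rw [sub_sub_cancel] at this; linarith
    have n1 : ‖S.c₁.ka x‖ ≤ M := by linarith [m1 x]
    have n2 : ‖S.kh x‖ ≤ M := by linarith [m2 x]
    have hT : 0 ≤ A + B := by linarith
    rcases i with _ | j
    · simp only [F, indicator_of_mem hx, Option.elim_none]
      have e1 := Diff1_q2_le (H := S.c₁.H) n1 (fun i j => by linarith [m7 (i, j) x]) c1 c2
      have e2 := Diff1_q2_le (H := S.Hh) n2 (fun i j => by linarith [m8 (i, j) x]) d1 d2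
      exact (norm_sub_le_of_le e1 e2).trans (le_of_eq (by ring))
    · simp only [F, indicator_of_mem hx, Option.elim_some]
      have e1 := Diff1_F_le (a := S.c₁.a) (d := dv (ee j) S.c₁.ka x) n1
        (fun i => by linarith [m5 i x]) c1 c2 (by linarith [m3 j x]) (c3 j) j
      have e2 := Diff1_F_le (a := S.ah) (d := hat S.Ω (dv (ee j) S.c₂.ka) (dv (ee j) S.c₁.ka) x) n2
        (fun i => by linarith [m6 i x]) d1 d2 (by linarith [m4 j x]) (d3 j) j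
      refine (norm_sub_le_of_le e1 e2).trans ?_
      have : 0 ≤ (8 * M + 2 * ((4 * M + 1) * M)) * (A + B) := by positivity
      nlinarith

end Crest.Agent.R80
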