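import Crest.Agent.R80.Exist0
import Crest.Agent.R80.Reg

/-!
# Row 80: `H²` solutions with weighted bounds
-/

namespace Crest.Agent.R80

open MeasureTheory Set Metric Filter Topology Complex
open scoped ContDiff
open Crest.AnalysisR.VecCalc3 Crest.AnalysisR.PDE Crest.AnalysisR.PDE.Elasticity

variable {ι : Type} [Fintype ι] {A : Fin 3 → ι → ι → R3 → ℂ} {B : ι → ι → R3 → ℂ}

theorem exist_zero_add_one_le : (0 : WithTop ℕ∞) + 1 ≤ 1 := by simp

omit [Fintype ι] in
theorem exist_bd_pd (hA : ∀ k i j, Tk 1 univ (A k i j)) (l k : Fin 3) (i j : ι) :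
    Bd (pd l (A k i j)) :=
  ((hA k i j).pd exist_zero_add_one_le l).bd

open Classical in
theorem exist_Pt_single (hA : ∀ k i j, Tk 1 univ (A k i j)) {U : Set R3} {ψ : R3 → ℂ}
    (hψ : Tst U ψ) (i j : ι) (x : R3) :
    Pt A B (fun i' x => if i' = i then ψ x else 0) j x =
      (if j = i then lap ψ x else 0) -
        ∑ k, (pd k (A k i j) x * ψ x + A k i j x * pd k ψ x) + B i j x * ψ x := by
  have hd : DifferentiableAt ℝ ψ x := (hψ.tk1.cd.differentiable one_ne_zero) x
  unfold Pt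
  congr 1
  · congr 1
    · split_ifs with hj
      · simp [hj]
      · have : ∀ l : Fin 3, pd l (fun _ : R3 => (0 : ℂ)) = fun _ => 0 :=
          fun l => funext fun z => pd_const l 0 z
        simp [lap, hj, this]
    · refine Finset.sum_congr rfl fun k _ => ?_
      rw [Finset.sum_eq_single i]
      · simp only [if_true]
        exact pd_mul k (((hA k i j).cd.differentiable one_ne_zero) x) hd
      · intro b _ hb
        simp [hb]
      · simp
  · rw [Finset.sum_eq_single i]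
    · simp
    · intro b _ hb
      simp [hb]
    · simp

/-- take `v = Pi.single i ψ`. -/
theorem wld_of_dual (hA : ∀ k i j, Tk 1 univ (A k i j)) (hB : ∀ i j, Tk 0 univ (B i j))
    {U : Set R3} (hU : MeasurableSet U) {y F : ι → R3 → ℂ} (hy : ∀ j, L2 U (y j))
    (hF : ∀ j, L2 U (F j))
    (h : ∀ v : ι → R3 → ℂ, (∀ i, Tst U (v i)) →
      ∑ j, ∫ x, y j x * Pt A B v j x = ∑ i, ∫ x, F i x * v i x) (i : ι) :
    WLd U (y i)
      (fun x => F i x + ∑ k, ∑ j, pd k (A k i j) x * y j x - ∑ j, B i j x * y j x)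
      fun k x => -∑ j, A k i j x * y j x := by
  classical
  intro ψ hψ
  have h1 := h (fun i' x => if i' = i then ψ x else 0) fun i' => Tk.ite _ hψ
  have ia : ∀ k j, Integrable fun x => pd k (A k i j) x * y j x * ψ x := fun k j =>
    (L2.bd_mul (exist_bd_pd hA k k i j) (hy j)).integrable_mul_tk hU hψ
  have ib : ∀ k j, Integrable fun x => A k i j x * y j x * pd k ψ x := fun k j =>
    (L2.bd_mul (hA k i j).bd (hy j)).integrable_mul_tk hU (hψ.pd k)
  have ic : ∀ j, Integrable fun x => B i j x * y j x * ψ x := fun j =>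
    (L2.bd_mul (hB i j).bd (hy j)).integrable_mul_tk hU hψ
  have id : Integrable fun x => y i x * lap ψ x := (hy i).integrable_mul_tk hU hψ.lap
  have ie : Integrable fun x => F i x * ψ x := (hF i).integrable_mul_tk hU hψ
  have e1 : ∀ j, ∫ x, y j x * Pt A B (fun i' x => if i' = i then ψ x else 0) j x =
      (if j = i then ∫ x, y i x * lap ψ x else 0) -
        ∑ k, ((∫ x, pd k (A k i j) x * y j x * ψ x) + ∫ x, A k i j x * y j x * pd k ψ x) +
        ∫ x, B i j x * y j x * ψ x := by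
    intro j
    have i0 : Integrable fun x => if j = i then y i x * lap ψ x else 0 := by
      split_ifs
      · exact id
      · exact integrable_zero _ _ _
    have i1 : Integrable fun x => ∑ k, (pd k (A k i j) x * y j x * ψ x +
        A k i j x * y j x * pd k ψ x) :=
      integrable_finsetSum _ fun k _ => (ia k j).add (ib k j)
    have e0 : (if j = i then ∫ x, y i x * lap ψ x else 0) =
        ∫ x, if j = i then y i x * lap ψ x else 0 := by
      split_ifs <;> simp
    have e2 : ∑ k, ((∫ x, pd k (A k i j) x * y j x * ψ x) + ∫ x, A k i j x * y j x * pd k ψ x) =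
        ∫ x, ∑ k, (pd k (A k i j) x * y j x * ψ x + A k i j x * y j x * pd k ψ x) := by
      rw [integral_finsetSum _ fun k _ => (ia k j).fun_add (ib k j)]
      exact Finset.sum_congr rfl fun k _ => (integral_add (ia k j) (ib k j)).symm
    rw [e0, e2, ← integral_sub i0 i1, ← integral_add (i0.sub' i1) (ic j)]
    refine integral_congr_ae (Eventually.of_forall fun x => ?_)
    simp only [exist_Pt_single hA hψ i j x]
    rw [mul_add, mul_sub, Finset.mul_sum]
    congr 1
    · congr 1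
      · split_ifs with hj
        · rw [hj]
        · simp
      · exact Finset.sum_congr rfl fun k _ => by ring
    · ring
  have e3 : ∑ i', ∫ x, F i' x * (if i' = i then ψ x else 0) = ∫ x, F i x * ψ x := by
    rw [Finset.sum_eq_single i]
    · simp
    · intro b _ hb
      simp [hb]
    · simp
  simp only [e1, e3, Finset.sum_add_distrib, Finset.sum_sub_distrib, Finset.sum_ite_eq',
    Finset.mem_univ, if_true] at h1
  have i2 : Integrable fun x => ∑ k, ∑ j, pd k (A k i j) x * y j x * ψ x :=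
    integrable_finsetSum _ fun k _ => integrable_finsetSum _ fun j _ => ia k j
  have i3 : Integrable fun x => ∑ j, B i j x * y j x * ψ x :=
    integrable_finsetSum _ fun j _ => ic j
  have e4 : ∫ x, (F i x + ∑ k, ∑ j, pd k (A k i j) x * y j x - ∑ j, B i j x * y j x) * ψ x =
      (∫ x, F i x * ψ x) + ∑ j, ∑ k, (∫ x, pd k (A k i j) x * y j x * ψ x) -
        ∑ j, ∫ x, B i j x * y j x * ψ x := by
    rw [Finset.sum_comm]
    simp only [sub_mul, add_mul, Finset.sum_mul]
    rw [integral_sub (ie.fun_add i2) i3, integral_add ie i2, integral_finsetSum _ fun j _ => ic j,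
      integral_finsetSum _ fun k _ => integrable_finsetSum _ fun j _ => ia k j]
    congr 2
    exact Finset.sum_congr rfl fun k _ => integral_finsetSum _ fun j _ => ia k j
  have e5 : ∑ k, ∫ x, (-∑ j, A k i j x * y j x) * pd k ψ x =
      -∑ j, ∑ k, ∫ x, A k i j x * y j x * pd k ψ x := by
    rw [Finset.sum_comm, ← Finset.sum_neg_distrib]
    refine Finset.sum_congr rfl fun k _ => ?_
    simp only [neg_mul, Finset.sum_mul]
    rw [integral_neg, integral_finsetSum _ fun j _ => ib k j]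
  rw [e4, e5]
  linear_combination h1

theorem exist_l2_sum {U : Set R3} {a y : ι → R3 → ℂ} (ha : ∀ j, Bd (a j)) (hy : ∀ j, L2 U (y j)) :
    L2 U fun x => ∑ j, a j x * y j x :=
  L2.sum' _ fun j _ => L2.bd_mul (ha j) (hy j)

theorem exist_wn_sum {U : Set R3} (hU : MeasurableSet U) (hb : Bornology.IsBounded U) (β : R3)
    {a y : ι → R3 → ℂ} {M : ℝ} (hM : 0 ≤ M) (ha : ∀ j x, ‖a j x‖ ≤ M) (hy : ∀ j, L2 U (y j)) :
    wn U β (fun x => ∑ j, a j x * y j x) ≤ M * ∑ j, wn U β (y j) := by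
  refine wn_le_sum_of_le hU hb β Finset.univ (fun j _ => hy j) hM
    (Eventually.of_forall fun x _ => ?_)
  rw [Finset.mul_sum]
  refine (norm_sum_le _ _).trans (Finset.sum_le_sum fun j _ => ?_)
  rw [norm_mul]
  exact mul_le_mul_of_nonneg_right (ha j x) (norm_nonneg _)

theorem exist_wn_neg (U : Set R3) (β : R3) (f : R3 → ℂ) : wn U β (fun x => -f x) = wn U β f := by
  have := wn_const_mul U β (-1) f
  simpa using this

theorem exist_bound (hA : ∀ k i j, Tk 1 univ (A k i j)) (hB : ∀ i j, Tk 0 univ (B i j)) :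
    ∃ M : ℝ, 0 ≤ M ∧ (∀ k i j x, ‖A k i j x‖ ≤ M) ∧ (∀ k i j x, ‖pd k (A k i j) x‖ ≤ M) ∧
      ∀ i j x, ‖B i j x‖ ≤ M := by
  obtain ⟨M1, h1, H1⟩ := Bd.exists_bound_fin (F := fun p : Fin 3 × ι × ι => A p.1 p.2.1 p.2.2)
    fun p => (hA _ _ _).bd
  obtain ⟨M2, h2, H2⟩ :=
    Bd.exists_bound_fin (F := fun p : Fin 3 × ι × ι => pd p.1 (A p.1 p.2.1 p.2.2))
      fun p => exist_bd_pd hA _ _ _ _
  obtain ⟨M3, h3, H3⟩ := Bd.exists_bound_fin (F := fun p : ι × ι => B p.1 p.2)
    fun p => (hB _ _).bd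
  refine ⟨M1 + M2 + M3, by positivity, fun k i j x => ?_, fun k i j x => ?_, fun i j x => ?_⟩
  · linarith [H1 (k, i, j) x]
  · linarith [H2 (k, i, j) x]
  · linarith [H3 (i, j) x]

/-- the divergence form equation with `H¹` unknowns. -/
theorem exist_wl (hA : ∀ k i j, Tk 1 univ (A k i j)) (hB : ∀ i j, Tk 0 univ (B i j))
    {U : Set R3} (hU : IsOpen U) {y F : ι → R3 → ℂ} {G : ι → Fin 3 → R3 → ℂ}
    (hy : ∀ j, H1 U (y j) (G j)) (hF : ∀ j, L2 U (F j)) (i : ι)
    (h : WLd U (y i)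
      (fun x => F i x + ∑ k, ∑ j, pd k (A k i j) x * y j x - ∑ j, B i j x * y j x)
      fun k x => -∑ j, A k i j x * y j x) :
    WL U (y i) fun x => F i x - ∑ j, B i j x * y j x - ∑ k, ∑ j, A k i j x * G j k x := by
  have hm := hU.measurableSet
  have h1 : ∀ k, H1 U (fun x => (-1 : ℂ) * ∑ j, A k i j x * y j x)
      fun l x => (-1 : ℂ) * ∑ j, (pd l (A k i j) x * y j x + A k i j x * G j l x) := fun k =>
    (H1.sum Finset.univ hm fun j _ => (hy j).mul_tk hU (hA k i j)).const_mul (-1)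
  have h2 := WLd.wl (dF := fun k x => (-1 : ℂ) * ∑ j, (pd k (A k i j) x * y j x +
      A k i j x * G j k x)) h hm
    (((hF i).add' (L2.sum' _ fun k _ => exist_l2_sum (exist_bd_pd hA k k i) fun j => (hy j).l2)).sub'
      (exist_l2_sum (fun j => (hB i j).bd) fun j => (hy j).l2))
    (fun k => (h1 k).l2G k) fun k => by simpa only [neg_mul, one_mul] using (h1 k).wd k
  refine h2.congr hm (Eventually.of_forall fun _ _ => rfl) (Eventually.of_forall fun x _ => ?_)
  simp only [neg_mul, one_mul, Finset.sum_neg_distrib, Finset.sum_add_distrib]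
  ring

/-- `exist0` on `ball 0 (r + 2)`, `reg_loc` to `ball 0 (r + 1)`, `WLd.wl` with the product rule,
`reg_loc2` to `ball 0 r`, and `ae_eq_of_tst` with `H2.wl`. -/
theorem exist (hA : ∀ k i j, Tk 1 univ (A k i j)) (hB : ∀ i j, Tk 0 univ (B i j)) (r : ℝ) :
    ∃ C τ₀ : ℝ, 0 ≤ C ∧ 1 ≤ τ₀ ∧ ∀ β : R3, τ₀ ≤ ‖β‖ → ∀ F : ι → R3 → ℂ,
      (∀ i, L2 (ball 0 (r + 2)) (F i)) →
      ∃ (y : ι → R3 → ℂ) (G : ι → Fin 3 → R3 → ℂ) (G2 : ι → Fin 3 → Fin 3 → R3 → ℂ),
        (∀ i, H2 (ball 0 r) (y i) (G i) (G2 i)) ∧ Eqn (ball 0 r) A B y G G2 F ∧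
        ∀ i, ‖β‖ * wn (ball 0 r) β (y i) ≤ C * ∑ j, wn (ball 0 (r + 2)) β (F j) ∧
          (∀ k, wn (ball 0 r) β (G i k) ≤ C * ∑ j, wn (ball 0 (r + 2)) β (F j)) ∧
          ∀ k l, wn (ball 0 r) β (G2 i k l) ≤ C * ‖β‖ * ∑ j, wn (ball 0 (r + 2)) β (F j) := by
  obtain ⟨C0, τ₀, hC0, hτ₀, H0⟩ := exist0 hA hB (r + 2)
  obtain ⟨C1, hC1, H1'⟩ := reg_loc (r := r + 1) (r' := r + 2) (by linarith)
  obtain ⟨C2, hC2, H2'⟩ := reg_loc2 (r := r) (r' := r + 1) (by linarith)
  obtain ⟨M, hM, hMA, hMA', hMB⟩ := exist_bound hA hB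
  set N : ℝ := (Fintype.card ι : ℝ) with hN
  have hN0 : 0 ≤ N := Nat.cast_nonneg _
  set K1 : ℝ := C1 * (C0 + 1 + 7 * M * (N * C0)) with hK1
  have hK10 : 0 ≤ K1 := by positivity
  set K2 : ℝ := 1 + M * (N * C0) + 3 * (M * (N * K1)) with hK2
  have hK20 : 0 ≤ K2 := by positivity
  refine ⟨C0 + K1 + C2 * (K1 + K2), τ₀, by positivity, hτ₀, fun β hβ F hF => ?_⟩
  have hβ1 : 1 ≤ ‖β‖ := hτ₀.trans hβ
  obtain ⟨y, hy, hd⟩ := H0 β hβ F hF
  set S : ℝ := ∑ j, wn (ball 0 (r + 2)) β (F j) with hS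
  have hS0 : 0 ≤ S := Finset.sum_nonneg fun j _ => wn_nonneg _ _ _
  have m2 : MeasurableSet (ball (0 : R3) (r + 2)) := measurableSet_ball
  have m1 : MeasurableSet (ball (0 : R3) (r + 1)) := measurableSet_ball
  have m0 : MeasurableSet (ball (0 : R3) r) := measurableSet_ball
  have b2 : Bornology.IsBounded (ball (0 : R3) (r + 2)) := isBounded_ball
  have b1 : Bornology.IsBounded (ball (0 : R3) (r + 1)) := isBounded_ball
  have s12 : ball (0 : R3) (r + 1) ⊆ ball 0 (r + 2) := ball_subset_ball (by linarith)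
  have s01 : ball (0 : R3) r ⊆ ball 0 (r + 1) := ball_subset_ball (by linarith)
  have hy2 : ∀ j, L2 (ball 0 (r + 2)) (y j) := fun j => (hy j).1
  have hFS : ∀ i, wn (ball 0 (r + 2)) β (F i) ≤ S := fun i =>
    Finset.single_le_sum (f := fun j => wn (ball 0 (r + 2)) β (F j))
      (fun j _ => wn_nonneg _ _ _) (Finset.mem_univ i)
  have hyS : ∀ j, wn (ball 0 (r + 2)) β (y j) ≤ C0 * S := fun j =>
    le_trans (le_mul_of_one_le_left (wn_nonneg _ _ _) hβ1) (hy j).2
  have hT : ∑ j, wn (ball 0 (r + 2)) β (y j) ≤ N * (C0 * S) := by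
    refine (Finset.sum_le_sum fun j _ => hyS j).trans ?_
    simp [hN]
  have hT0 : 0 ≤ ∑ j, wn (ball 0 (r + 2)) β (y j) := Finset.sum_nonneg fun j _ => wn_nonneg _ _ _
  have hw := wld_of_dual hA hB m2 hy2 hF hd
  have la : ∀ i k, L2 (ball 0 (r + 2)) fun x => ∑ j, pd k (A k i j) x * y j x := fun i k =>
    exist_l2_sum (exist_bd_pd hA k k i) hy2
  have lb : ∀ i, L2 (ball 0 (r + 2)) fun x => ∑ j, B i j x * y j x := fun i =>
    exist_l2_sum (fun j => (hB i j).bd) hy2
  have lc : ∀ i k, L2 (ball 0 (r + 2)) fun x => ∑ j, A k i j x * y j x := fun i k =>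
    exist_l2_sum (fun j => (hA k i j).bd) hy2
  have hb' : ∀ i, wn (ball 0 (r + 2)) β (fun x => ∑ j, B i j x * y j x) ≤ M * (N * (C0 * S)) :=
    fun i => (exist_wn_sum m2 b2 β hM (hMB i) hy2).trans (mul_le_mul_of_nonneg_left hT hM)
  have hG : ∀ i, ∃ G, H1 (ball 0 (r + 1)) (y i) G ∧ ∀ l, wn (ball 0 (r + 1)) β (G l) ≤ K1 * S := by
    intro i
    obtain ⟨G, hG, hGb⟩ := H1' β hβ1 _ _ _ (hy2 i)
      (((hF i).add' (L2.sum' _ fun k _ => la i k)).sub' (lb i)) (fun k => (lc i k).neg') (hw i)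
    refine ⟨G, hG, fun l => (hGb l).trans ?_⟩
    have e1 : wn (ball 0 (r + 2)) β
        (fun x => F i x + ∑ k, ∑ j, pd k (A k i j) x * y j x - ∑ j, B i j x * y j x) ≤
          S + 4 * (M * (N * (C0 * S))) := by
      have f1 := wn_sub_le m2 b2 β ((hF i).add' (L2.sum' Finset.univ fun k _ => la i k)) (lb i)
      have f2 := wn_add_le m2 b2 β (hF i) (L2.sum' Finset.univ fun k _ => la i k)
      have f3 := wn_sum_le m2 b2 β Finset.univ fun k _ => la i k
      have f4 : ∑ k, wn (ball 0 (r + 2)) β (fun x => ∑ j, pd k (A k i j) x * y j x) ≤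
          3 * (M * (N * (C0 * S))) := by
        refine (Finset.sum_le_sum fun k _ => (exist_wn_sum m2 b2 β hM (hMA' k i) hy2).trans
          (mul_le_mul_of_nonneg_left hT hM)).trans ?_
        simp
      linarith [hFS i, hb' i]
    have e2 : ∑ k, wn (ball 0 (r + 2)) β (fun x => -∑ j, A k i j x * y j x) ≤
        3 * (M * (N * (C0 * S))) := by
      refine (Finset.sum_le_sum fun k _ => ((exist_wn_neg _ _ _).le.trans
        (exist_wn_sum m2 b2 β hM (hMA k i) hy2)).trans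
          (mul_le_mul_of_nonneg_left hT hM)).trans ?_
      simp
    have e3 : ‖β‖⁻¹ * wn (ball 0 (r + 2)) β
        (fun x => F i x + ∑ k, ∑ j, pd k (A k i j) x * y j x - ∑ j, B i j x * y j x) ≤
          S + 4 * (M * (N * (C0 * S))) :=
      le_trans (mul_le_of_le_one_left (wn_nonneg _ _ _) (inv_le_one_of_one_le₀ hβ1)) e1
    have e4 : K1 * S = C1 * (C0 * S + (S + 4 * (M * (N * (C0 * S)))) +
        3 * (M * (N * (C0 * S)))) := by
      rw [hK1]; ring
    rw [e4]
    exact mul_le_mul_of_nonneg_left (add_le_add (add_le_add (hy i).2 e3) e2) hC1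
  choose G hG hGb using hG
  have hF1 : ∀ j, L2 (ball 0 (r + 1)) (F j) := fun j => (hF j).mono_set s12
  have hwl : ∀ i, WL (ball 0 (r + 1)) (y i) fun x =>
      F i x - ∑ j, B i j x * y j x - ∑ k, ∑ j, A k i j x * G j k x := fun i =>
    exist_wl hA hB isOpen_ball hG hF1 i fun ψ hψ => hw i ψ (hψ.mono s12)
  have ld : ∀ i k, L2 (ball 0 (r + 1)) fun x => ∑ j, A k i j x * G j k x := fun i k =>
    exist_l2_sum (fun j => (hA k i j).bd) fun j => (hG j).l2G k
  have le' : ∀ i, L2 (ball 0 (r + 1)) fun x =>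
      F i x - ∑ j, B i j x * y j x - ∑ k, ∑ j, A k i j x * G j k x := fun i =>
    ((hF1 i).sub' ((lb i).mono_set s12)).sub' (L2.sum' _ fun k _ => ld i k)
  have hG2 : ∀ i, ∃ G2, H2 (ball 0 r) (y i) (G i) G2 ∧
      ∀ k l, wn (ball 0 r) β (G2 k l) ≤ C2 * (K1 + K2) * ‖β‖ * S := by
    intro i
    obtain ⟨G2, hG2, hG2b⟩ := H2' β hβ1 _ _ _ (hG i) (le' i) (hwl i)
    refine ⟨G2, hG2, fun k l => (hG2b k l).trans ?_⟩
    have e1 : wn (ball 0 (r + 1)) β (fun x =>
        F i x - ∑ j, B i j x * y j x - ∑ k, ∑ j, A k i j x * G j k x) ≤ K2 * S := by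
      have f1 := wn_sub_le m1 b1 β ((hF1 i).sub' ((lb i).mono_set s12))
        (L2.sum' Finset.univ fun k _ => ld i k)
      have f2 := wn_sub_le m1 b1 β (hF1 i) ((lb i).mono_set s12)
      have f3 := wn_sum_le m1 b1 β Finset.univ fun k _ => ld i k
      have f4 : ∑ k, wn (ball 0 (r + 1)) β (fun x => ∑ j, A k i j x * G j k x) ≤
          3 * (M * (N * (K1 * S))) := by
        have f5 : ∀ k, ∑ j, wn (ball 0 (r + 1)) β (G j k) ≤ N * (K1 * S) := fun k => by
          refine (Finset.sum_le_sum fun j _ => hGb j k).trans ?_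
          simp [hN]
        refine (Finset.sum_le_sum fun k _ =>
          (exist_wn_sum m1 b1 β hM (hMA k i) fun j => (hG j).l2G k).trans
            (mul_le_mul_of_nonneg_left (f5 k) hM)).trans ?_
        simp
      have f6 := wn_mono_set m2 b2 β s12 (hF i)
      have f7 := wn_mono_set m2 b2 β s12 (lb i)
      have e4 : K2 * S = S + M * (N * (C0 * S)) + 3 * (M * (N * (K1 * S))) := by
        rw [hK2]; ring
      linarith [hFS i, hb' i]
    have e2 : K2 * S ≤ ‖β‖ * (K2 * S) := le_mul_of_one_le_left (by positivity) hβ1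
    have e3 : ‖β‖ * wn (ball 0 (r + 1)) β (G i k) ≤ ‖β‖ * (K1 * S) :=
      mul_le_mul_of_nonneg_left (hGb i k) (norm_nonneg _)
    have e4 : C2 * (K1 + K2) * ‖β‖ * S = C2 * (‖β‖ * (K1 * S) + ‖β‖ * (K2 * S)) := by ring
    rw [e4]
    exact mul_le_mul_of_nonneg_left (add_le_add e3 (e1.trans e2)) hC2
  choose G2 hG2 hG2b using hG2
  have p1 : 0 ≤ C0 * S := by positivity
  have p2 : 0 ≤ K1 * S := by positivity
  have p3 : 0 ≤ C2 * (K1 + K2) * S := by positivity
  refine ⟨y, G, G2, hG2, fun i => ?_, fun i => ⟨?_, fun k => ?_, fun k l => ?_⟩⟩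
  · have := ae_eq_of_tst isOpen_ball (L2.sum' Finset.univ fun k _ => ((hG2 i).h2 k).l2G k)
      ((le' i).mono_set s01) fun ψ hψ =>
        ((hG2 i).wl m0 ψ hψ).symm.trans ((hwl i).mono s01 ψ hψ)
    filter_upwards [this] with x hx hxU
    rw [hx hxU]
    ring
  · have := mul_le_mul_of_nonneg_left (wn_mono_set m2 b2 β (s01.trans s12) (hy2 i)) (norm_nonneg β)
    linarith [(hy i).2]
  · have := wn_mono_set m1 b1 β s01 ((hG i).l2G k)
    linarith [hGb i k]
  · have q1 : 0 ≤ (C0 + K1) * ‖β‖ * S := by positivity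
    linarith [hG2b i k l]

end Crest.Agent.R80
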