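import Crest.Agent.R80.Car2
import Crest.Agent.R80.Riesz

/-!
# Row 80: very weak solutions by duality
-/

namespace Crest.Agent.R80

open MeasureTheory Set Metric Filter Topology Complex
open scoped ContDiff
open Crest.AnalysisR.VecCalc3 Crest.AnalysisR.PDE Crest.AnalysisR.PDE.Elasticity

variable {ι : Type} [Fintype ι] {A : Fin 3 → ι → ι → R3 → ℂ} {B : ι → ι → R3 → ℂ}

theorem tk_Pt (hA : ∀ k i j, Tk 1 univ (A k i j)) (hB : ∀ i j, Tk 0 univ (B i j)) {U : Set R3}
    {v : ι → R3 → ℂ} (hv : ∀ i, Tst U (v i)) (j : ι) : Tk 0 U (Pt A B v j) := by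
  exact ((hv j).lap.tk0.sub' (Tk.sum _ fun k _ => Tk.sum _ fun i _ =>
    ((hv i).tk1.mul_left (hA k i j).cd).pd (by norm_num) k)).add
    (Tk.sum _ fun i _ => (hv i).tk0.mul_left (hB i j).cd)

theorem exist0_diff {U : Set R3} {ψ : R3 → ℂ} (h : Tk 1 U ψ) (x : R3) : DifferentiableAt ℝ ψ x :=
  h.cd.differentiable (by norm_num) x

theorem exist0_lap_le (hA : ∀ k i j, Tk 1 univ (A k i j)) {M : ℝ} (hM : 0 ≤ M)
    (h1 : ∀ k i j x, ‖A k i j x‖ ≤ M) (h2 : ∀ k i j x, ‖pd k (A k i j) x‖ ≤ M)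
    (h3 : ∀ i j x, ‖B i j x‖ ≤ M) {U : Set R3} {v : ι → R3 → ℂ} (hv : ∀ i, Tst U (v i)) (x : R3)
    (j : ι) : ‖lap (v j) x‖ ≤ 4 * M * (∑ i, ‖v i x‖ + ∑ i, ∑ k, ‖pd k (v i) x‖) +
      ∑ i, ‖Pt A B v i x‖ := by
  have e : lap (v j) x = Pt A B v j x +
      ∑ k, ∑ i, (pd k (A k i j) x * v i x + A k i j x * pd k (v i) x) - ∑ i, B i j x * v i x := by
    have : ∀ k i, pd k (fun y => A k i j y * v i y) x =
        pd k (A k i j) x * v i x + A k i j x * pd k (v i) x := fun k i =>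
      pd_mul k (exist0_diff (hA k i j) x) (exist0_diff (hv i).tk1 x)
    simp only [Pt, this]
    ring
  have a1 : ‖Pt A B v j x‖ ≤ ∑ i, ‖Pt A B v i x‖ :=
    Finset.single_le_sum (f := fun i => ‖Pt A B v i x‖) (fun _ _ => norm_nonneg _)
      (Finset.mem_univ j)
  have a2 : ‖∑ k, ∑ i, (pd k (A k i j) x * v i x + A k i j x * pd k (v i) x)‖ ≤
      3 * M * ∑ i, ‖v i x‖ + M * ∑ i, ∑ k, ‖pd k (v i) x‖ := by
    calc _ ≤ ∑ k : Fin 3, ∑ i, (M * ‖v i x‖ + M * ‖pd k (v i) x‖) := by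
          refine (norm_sum_le _ _).trans (Finset.sum_le_sum fun k _ => ?_)
          refine (norm_sum_le _ _).trans (Finset.sum_le_sum fun i _ => ?_)
          refine (norm_add_le _ _).trans (add_le_add ?_ ?_)
          · rw [norm_mul]
            exact mul_le_mul_of_nonneg_right (h2 k i j x) (norm_nonneg _)
          · rw [norm_mul]
            exact mul_le_mul_of_nonneg_right (h1 k i j x) (norm_nonneg _)
      _ = _ := by
          rw [Finset.sum_comm (f := fun i k => ‖pd k (v i) x‖)]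
          simp only [Finset.sum_add_distrib, ← Finset.mul_sum, Finset.sum_const, Finset.card_univ,
            Fintype.card_fin, nsmul_eq_mul]
          push_cast
          ring
  have a3 : ‖∑ i, B i j x * v i x‖ ≤ M * ∑ i, ‖v i x‖ := by
    rw [Finset.mul_sum]
    refine (norm_sum_le _ _).trans (Finset.sum_le_sum fun i _ => ?_)
    rw [norm_mul]
    exact mul_le_mul_of_nonneg_right (h3 i j x) (norm_nonneg _)
  have a4 : 0 ≤ M * ∑ i, ∑ k, ‖pd k (v i) x‖ := by positivity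
  rw [e]
  refine (norm_sub_le _ _).trans ((add_le_add_left (norm_add_le _ _) _).trans ?_)
  nlinarith

/-- `car2` with `-β`, `F = lap (v j)`, `s = ∑ ‖Pt A B v j‖`. -/
theorem carleman_Pt (hA : ∀ k i j, Tk 1 univ (A k i j)) (hB : ∀ i j, Tk 0 univ (B i j)) (R : ℝ) :
    ∃ C τ₀ : ℝ, 0 ≤ C ∧ 1 ≤ τ₀ ∧ ∀ β : R3, τ₀ ≤ ‖β‖ → ∀ v : ι → R3 → ℂ, (∀ i, Tst (ball 0 R) (v i)) →
      ∀ i, ‖β‖ * wn (ball 0 R) (-β) (v i) ≤ C * ∑ j, wn (ball 0 R) (-β) (Pt A B v j) := by
  obtain ⟨M1, hM1, h1⟩ := Bd.exists_bound_fin (F := fun q : Fin 3 × ι × ι => A q.1 q.2.1 q.2.2)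
    fun q => (hA _ _ _).bd
  obtain ⟨M2, hM2, h2⟩ := Bd.exists_bound_fin
    (F := fun q : Fin 3 × ι × ι => pd q.1 (A q.1 q.2.1 q.2.2))
    fun q => ((hA _ _ _).pd (m := 0) (by norm_num) _).bd
  obtain ⟨M3, hM3, h3⟩ := Bd.exists_bound_fin (F := fun q : ι × ι => B q.1 q.2)
    fun q => (hB _ _).bd
  obtain ⟨C, τ₀, hC, hτ, H⟩ := car2 ι R (4 * (M1 + M2 + M3))
  refine ⟨C, τ₀, hC, hτ, fun β hβ v hv i => ?_⟩
  have hP := fun j => tk_Pt hA hB hv j
  have hs : Van (ball 0 R) fun x => ∑ j, ‖Pt A B v j x‖ :=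
    Eventually.of_forall fun x hx => by simp [(hP _).eq_zero hx]
  have := (H (-β) (by rwa [norm_neg]) v (fun i k => pd k (v i)) (fun i => lap (v i))
    (fun x => ∑ j, ‖Pt A B v j x‖) (fun i => H1.of_tk _ (hv i).tk1) (fun i => (hv i).lap.l2 _)
    (fun i => WL.of_contDiff _ (hv i).tk2.cd) (fun i => (hv i).van.mono ball_subset_closedBall)
    (L2.sum' _ fun j _ => ((hP j).l2 _).norm') (hs.mono ball_subset_closedBall)
    (Eventually.of_forall fun x j => exist0_lap_le hA (by positivity)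
      (fun k i j x => (h1 (k, i, j) x).trans (by linarith))
      (fun k i j x => (h2 (k, i, j) x).trans (by linarith))
      (fun i j x => (h3 (i, j) x).trans (by linarith)) hv x j) i).1
  rw [norm_neg, (hv i).van.wn_univ measurableSet_ball, hs.wn_univ measurableSet_ball] at this
  refine this.trans (mul_le_mul_of_nonneg_left ?_ hC)
  have h4 := wn_le_sum_of_le measurableSet_ball isBounded_ball (-β) Finset.univ
    (f := fun x => ∑ j, ‖Pt A B v j x‖) (g := fun j => Pt A B v j) (fun j _ => (hP j).l2 (ball 0 R))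
    zero_le_one (Eventually.of_forall fun x _ => by
      rw [one_mul, Real.norm_of_nonneg (by positivity)])
  rwa [one_mul] at h4

theorem exist0_Pt_add (hA : ∀ k i j, Tk 1 univ (A k i j)) {U : Set R3} {v v' : ι → R3 → ℂ}
    (hv : ∀ i, Tst U (v i)) (hv' : ∀ i, Tst U (v' i)) (j : ι) (x : R3) :
    Pt A B (fun i y => v i y + v' i y) j x = Pt A B v j x + Pt A B v' j x := by
  have : ∀ k i, pd k (fun y => A k i j y * (v i y + v' i y)) x =
      pd k (fun y => A k i j y * v i y) x + pd k (fun y => A k i j y * v' i y) x := fun k i => by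
    simp only [mul_add]
    exact pd_add k (exist0_diff ((hv i).tk1.mul_left (hA k i j).cd) x)
      (exist0_diff ((hv' i).tk1.mul_left (hA k i j).cd) x)
  simp only [Pt, this]
  simp only [lap_add (hv j).tk2.cd (hv' j).tk2.cd, mul_add, Finset.sum_add_distrib]
  ring

theorem exist0_Pt_smul (hA : ∀ k i j, Tk 1 univ (A k i j)) {U : Set R3} {v : ι → R3 → ℂ}
    (hv : ∀ i, Tst U (v i)) (c : ℂ) (j : ι) (x : R3) :
    Pt A B (fun i y => c * v i y) j x = c * Pt A B v j x := by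
  have : ∀ k i, pd k (fun y => A k i j y * (c * v i y)) x =
      c * pd k (fun y => A k i j y * v i y) x := fun k i => by
    simp only [mul_left_comm _ c]
    exact pd_const_mul k c (exist0_diff ((hv i).tk1.mul_left (hA k i j).cd) x)
  simp only [Pt, this]
  simp only [lap_const_mul c (hv j).tk2.cd, mul_left_comm _ c, ← Finset.mul_sum]
  ring

theorem exist0_wn (U : Set R3) (β : R3) (f : R3 → ℂ) :
    wn U β f = nr U fun x => (ew β x : ℂ) * f x := by
  simp only [wn, Complex.real_smul]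

theorem exist0_ew (β x : R3) : (ew (-β) x : ℂ) * ew β x = 1 := by
  exact_mod_cast ew_neg_mul β x

theorem exist0_l2 {R : ℝ} (β : R3) {f : R3 → ℂ} (hf : L2 (ball 0 R) f) :
    L2 (ball 0 R) fun x => (ew β x : ℂ) * f x :=
  L2.cont_mul measurableSet_ball isBounded_ball (contDiff_ew 0 β).continuous hf

/-- `hb_riesz` for `V = ι → tstSub (ball 0 R)`, `T v j = e^{β x} Pt A B v j`, `Λ v = ∑ ∫ F i * v i`. -/
theorem exist0 (hA : ∀ k i j, Tk 1 univ (A k i j)) (hB : ∀ i j, Tk 0 univ (B i j)) (R : ℝ) :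
    ∃ C τ₀ : ℝ, 0 ≤ C ∧ 1 ≤ τ₀ ∧ ∀ β : R3, τ₀ ≤ ‖β‖ → ∀ F : ι → R3 → ℂ,
      (∀ i, L2 (ball 0 R) (F i)) → ∃ y : ι → R3 → ℂ,
        (∀ j, L2 (ball 0 R) (y j) ∧
          ‖β‖ * wn (ball 0 R) β (y j) ≤ C * ∑ i, wn (ball 0 R) β (F i)) ∧
        ∀ v : ι → R3 → ℂ, (∀ i, Tst (ball 0 R) (v i)) →
          ∑ j, ∫ x, y j x * Pt A B v j x = ∑ i, ∫ x, F i x * v i x := by
  obtain ⟨C, τ₀, hC, hτ, H⟩ := carleman_Pt hA hB R
  refine ⟨C, τ₀, hC, hτ, fun β hβ F hF => ?_⟩
  have hβ0 : 0 < ‖β‖ := by linarith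
  have hU : MeasurableSet (ball (0 : R3) R) := measurableSet_ball
  let T : (ι → tstSub (ball 0 R)) →ₗ[ℂ] (ι → R3 → ℂ) :=
    { toFun := fun v j x => (ew (-β) x : ℂ) * Pt A B (fun i => (v i : R3 → ℂ)) j x
      map_add' := fun v v' => by
        funext j x
        have := exist0_Pt_add (B := B) hA (fun i => (v i).2) (fun i => (v' i).2) j x
        simp only [Pi.add_apply, ← mul_add, ← this]
        rfl
      map_smul' := fun c v => by
        funext j x
        have := exist0_Pt_smul (B := B) hA (fun i => (v i).2) c j x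
        simp only [Pi.smul_apply, RingHom.id_apply, smul_eq_mul, mul_left_comm c, ← this]
        rfl }
  let Λ : (ι → tstSub (ball 0 R)) →ₗ[ℂ] ℂ :=
    { toFun := fun v => ∑ i, ∫ x, F i x * (v i : R3 → ℂ) x
      map_add' := fun v v' => by
        rw [← Finset.sum_add_distrib]
        refine Finset.sum_congr rfl fun i _ => ?_
        rw [← integral_add ((hF i).integrable_mul_tk hU (v i).2)
          ((hF i).integrable_mul_tk hU (v' i).2)]
        simp only [← mul_add]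
        rfl
      map_smul' := fun c v => by
        simp only [RingHom.id_apply, smul_eq_mul, Finset.mul_sum, ← integral_const_mul,
          mul_left_comm c]
        rfl }
  have hw : 0 ≤ ∑ i, wn (ball 0 R) β (F i) := Finset.sum_nonneg fun i _ => wn_nonneg _ _ _
  obtain ⟨y, hy, hΛ⟩ := hb_riesz (U := ball 0 R) T
    (fun v j => exist0_l2 _ ((tk_Pt hA hB (fun i => (v i).2) j).l2 _)) Λ
    (C := C * (∑ i, wn (ball 0 R) β (F i)) / ‖β‖) (by positivity) (fun v => by
      have h1 : ∀ i, ‖∫ x, F i x * (v i : R3 → ℂ) x‖ ≤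
          wn (ball 0 R) β (F i) * wn (ball 0 R) (-β) (v i : R3 → ℂ) := fun i => by
        rw [integral_mul_tk_eq hU _ (v i).2, exist0_wn, exist0_wn]
        refine le_trans (le_of_eq ?_)
          (norm_setIntegral_mul_le (exist0_l2 β (hF i)) (exist0_l2 (-β) (Tk.l2 (v i).2 _)))
        congr 2
        funext x
        linear_combination (-(F i x * (v i : R3 → ℂ) x)) * exist0_ew β x
      have h2 : ∀ i, wn (ball 0 R) (-β) (v i : R3 → ℂ) ≤
          C / ‖β‖ * ∑ j, nr (ball 0 R) (T v j) := fun i => by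
        rw [div_mul_eq_mul_div, le_div_iff₀ hβ0, mul_comm]
        have := H β hβ (fun i => (v i : R3 → ℂ)) (fun i => (v i).2) i
        simp only [exist0_wn _ _ (Pt A B _ _)] at this
        exact this
      calc ‖Λ v‖ ≤ ∑ i, wn (ball 0 R) β (F i) * (C / ‖β‖ * ∑ j, nr (ball 0 R) (T v j)) :=
            (norm_sum_le _ _).trans (Finset.sum_le_sum fun i _ =>
              (h1 i).trans (mul_le_mul_of_nonneg_left (h2 i) (wn_nonneg _ _ _)))
        _ = _ := by
            rw [← Finset.sum_mul]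
            ring)
  refine ⟨fun j x => (ew (-β) x : ℂ) * y j x, fun j => ⟨exist0_l2 _ (hy j).1, ?_⟩, fun v hv => ?_⟩
  · have e : (fun x => (ew β x : ℂ) * ((ew (-β) x : ℂ) * y j x)) = y j := by
      funext x
      linear_combination (y j x) * exist0_ew β x
    rw [exist0_wn, e, mul_comm, ← le_div_iff₀ hβ0]
    exact (hy j).2
  · refine Eq.trans (Finset.sum_congr rfl fun j _ => ?_) (hΛ fun i => ⟨v i, hv i⟩).symm
    rw [integral_mul_tk_eq hU _ (tk_Pt hA hB hv j)]
    congr 1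
    funext x
    change _ = y j x * ((ew (-β) x : ℂ) * Pt A B v j x)
    ring

end Crest.Agent.R80
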