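import Crest.Agent.R80.Ext1

/-!
# Row 80: extension of smooth functions across the boundary
-/

namespace Crest.Agent.R80

open MeasureTheory Set Metric Filter Topology Complex
open scoped ContDiff
open Crest.AnalysisR.VecCalc3 Crest.AnalysisR.PDE Crest.AnalysisR.PDE.Elasticity

/-- the data of the reflection construction. -/
structure ExtData (Ω : Set R3) (ρ : R3 → ℝ) (O : Set R3) (s c : Fin 7 → ℝ) : Prop where
  df : DefF Ω ρ
  op : IsOpen O
  mem : ∀ x ∈ O, 0 ≤ ρ x → ∀ j, refl ρ (s j) x ∈ closure Ω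
  wt : ∀ r : ℕ, r ≤ 6 → ∑ j, c j * s j ^ r = if r = 0 then 1 else 0

section
variable {Ω O : Set R3} {ρ : R3 → ℝ} {s c : Fin 7 → ℝ}

/-- the weighted sum of reflections. -/
noncomputable def extSum {F : Type} [NormedAddCommGroup F] [NormedSpace ℝ F] (ρ : R3 → ℝ)
    (s c : Fin 7 → ℝ) (r : ℕ) (f : R3 → F) (x : R3) : F :=
  ∑ j, (c j * s j ^ r) • f (refl ρ (s j) x)

/-- the glued function. -/
noncomputable def extGl {F : Type} [NormedAddCommGroup F] [NormedSpace ℝ F] (ρ : R3 → ℝ)
    (s c : Fin 7 → ℝ) (r : ℕ) (f : R3 → F) (x : R3) : F :=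
  if ρ x ≤ 0 then (if r = 0 then f x else 0) else extSum ρ s c r f x

/-- the vector field `ρ ∇ρ`. -/
noncomputable def extN (ρ : R3 → ℝ) (x : R3) : R3 := ρ x • gradient ρ x

theorem ext_contDiff_N (h : ContDiff ℝ ∞ ρ) : ContDiff ℝ ∞ (extN ρ) :=
  h.smul (contDiff_gradient h)

theorem ext_refl_deriv (h : ContDiff ℝ ∞ ρ) (t : ℝ) (x : R3) :
    HasFDerivAt (refl ρ t) (ContinuousLinearMap.id ℝ R3 - t • fderiv ℝ (extN ρ) x) x := by
  have h1 := ((ext_contDiff_N h).differentiable (by simp) x).hasFDerivAt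
  have e : refl ρ t = fun x => x - t • extN ρ x := by
    funext x; simp only [refl, extN, mul_smul]
  rw [e]
  exact (hasFDerivAt_id x).sub (h1.const_smul t)

variable {F : Type} [NormedAddCommGroup F] [NormedSpace ℝ F] {f : R3 → F} {r : ℕ}

theorem ExtData.gl_in (h : ExtData Ω ρ O s c) {x : R3} (hx : x ∈ closure Ω) :
    extGl ρ s c r f x = if r = 0 then f x else 0 := by
  rw [h.df.closure_eq] at hx
  exact if_pos hx

theorem ExtData.gl_out (h : ExtData Ω ρ O s c) (hr : r ≤ 6) {x : R3} (hx : 0 ≤ ρ x) :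
    extGl ρ s c r f x = extSum ρ s c r f x := by
  unfold extGl
  split_ifs with h1 h2
  · have h0 : ρ x = 0 := le_antisymm h1 hx
    simp only [extSum, refl, h0, mul_zero, zero_smul, sub_zero]
    rw [← Finset.sum_smul, h.wt r hr, if_pos h2, one_smul]
  · have h0 : ρ x = 0 := le_antisymm h1 hx
    simp only [extSum, refl, h0, mul_zero, zero_smul, sub_zero]
    rw [← Finset.sum_smul, h.wt r hr, if_neg h2, zero_smul]
  · rfl

theorem ExtData.nhds (h : ExtData Ω ρ O s c) {x : R3} (hx : x ∈ O) :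
    closure Ω ∪ O ∩ {y | 0 ≤ ρ y} ∈ 𝓝 x := by
  filter_upwards [h.op.mem_nhds hx] with y hy
  rw [h.df.closure_eq]
  rcases le_total (ρ y) 0 with h1 | h1
  · exact Or.inl h1
  · exact Or.inr ⟨hy, h1⟩

theorem ExtData.not_closure (h : ExtData Ω ρ O s c) {x : R3} (hx : ¬ 0 ≤ ρ x) :
    x ∉ closure (O ∩ {y | 0 ≤ ρ y}) := fun hc =>
  hx (closure_minimal inter_subset_right (isClosed_le continuous_const h.df.cd.continuous) hc)

theorem ExtData.cont (h : ExtData Ω ρ O s c) (hr : r ≤ 6) (hf : ContinuousOn f (closure Ω)) :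
    ContinuousOn (extGl ρ s c r f) O := by
  intro x hx
  have h1 : ContinuousWithinAt (extGl ρ s c r f) (closure Ω) x := by
    by_cases hS : x ∈ closure Ω
    · refine ContinuousWithinAt.congr (f := fun x => if r = 0 then f x else 0) ?_
        (fun y hy => h.gl_in hy) (h.gl_in hS)
      split_ifs
      · exact hf x hS
      · exact continuousWithinAt_const
    · exact continuousWithinAt_of_notMem_closure (by rwa [closure_closure])
  have h2 : ContinuousWithinAt (extGl ρ s c r f) (O ∩ {y | 0 ≤ ρ y}) x := by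
    by_cases hT : 0 ≤ ρ x
    · refine ContinuousWithinAt.congr (f := extSum ρ s c r f) ?_
        (fun y hy => h.gl_out hr hy.2) (h.gl_out hr hT)
      unfold extSum
      refine tendsto_finsetSum _ fun j _ => ?_
      refine ContinuousWithinAt.const_smul (g := fun y => f (refl ρ (s j) y)) ?_ _
      exact ContinuousWithinAt.comp (g := f) (hf _ (h.mem x hx hT j))
        (contDiff_refl h.df.cd _).continuous.continuousWithinAt fun y hy => h.mem y hy.1 hy.2 j
    · exact continuousWithinAt_of_notMem_closure (h.not_closure hT)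
  exact ((h1.union h2).continuousAt (h.nhds hx)).continuousWithinAt

theorem ExtData.deriv (h : ExtData Ω ρ O s c) (hr : r + 1 ≤ 6)
    (hf : DifferentiableOn ℝ f (closure Ω)) {x : R3} (hx : x ∈ O) :
    HasFDerivAt (extGl ρ s c r f)
      (extGl ρ s c r (fderivWithin ℝ f (closure Ω)) x -
        (extGl ρ s c (r + 1) (fderivWithin ℝ f (closure Ω)) x).comp (fderiv ℝ (extN ρ) x)) x := by
  refine HasFDerivWithinAt.hasFDerivAt (HasFDerivWithinAt.union ?_ ?_) (h.nhds hx)
  · by_cases hS : x ∈ closure Ω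
    · refine HasFDerivWithinAt.congr (f := fun x => if r = 0 then f x else 0) ?_
        (fun y hy => h.gl_in hy) (h.gl_in hS)
      rw [h.gl_in hS, h.gl_in hS, if_neg (Nat.succ_ne_zero r), ContinuousLinearMap.zero_comp,
        sub_zero]
      split_ifs
      · exact (hf x hS).hasFDerivWithinAt
      · exact hasFDerivWithinAt_const _ _ _
    · exact HasFDerivWithinAt.of_notMem_closure (by rwa [closure_closure])
  · by_cases hT : 0 ≤ ρ x
    · refine HasFDerivWithinAt.congr (f := extSum ρ s c r f) ?_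
        (fun y hy => h.gl_out (by omega) hy.2) (h.gl_out (by omega) hT)
      rw [h.gl_out (by omega) hT, h.gl_out hr hT]
      have h1 : ∀ j ∈ (Finset.univ : Finset (Fin 7)), HasFDerivWithinAt
          (fun y => (c j * s j ^ r) • f (refl ρ (s j) y))
          ((c j * s j ^ r) • (fderivWithin ℝ f (closure Ω) (refl ρ (s j) x)).comp
            (ContinuousLinearMap.id ℝ R3 - s j • fderiv ℝ (extN ρ) x)) (O ∩ {y | 0 ≤ ρ y}) x := by
        intro j _
        exact (HasFDerivWithinAt.comp x (hf _ (h.mem x hx hT j)).hasFDerivWithinAt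
          (ext_refl_deriv h.df.cd (s j) x).hasFDerivWithinAt
          fun y hy => h.mem y hy.1 hy.2 j).const_smul _
      refine (HasFDerivWithinAt.fun_sum h1).congr_fderiv ?_
      ext v
      simp only [extSum, sum_apply, smul_apply,
        ContinuousLinearMap.comp_apply, sub_apply, ContinuousLinearMap.id_apply,
        map_sub, map_smul, smul_sub, Finset.sum_sub_distrib, smul_smul, pow_succ, mul_assoc]
    · exact HasFDerivWithinAt.of_notMem_closure (h.not_closure hT)

end

theorem ExtData.smooth {Ω O : Set R3} {ρ : R3 → ℝ} {s c : Fin 7 → ℝ} (h : ExtData Ω ρ O s c) (n : ℕ) :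
    ∀ (F : Type) [NormedAddCommGroup F] [NormedSpace ℝ F] (f : R3 → F) (r : ℕ), r + n ≤ 6 →
      ContDiffOn ℝ ∞ f (closure Ω) → ContDiffOn ℝ n (extGl ρ s c r f) O := by
  induction n with
  | zero =>
    intro F _ _ f r hr hf
    exact contDiffOn_zero.2 (h.cont (by omega) hf.continuousOn)
  | succ n ih =>
    intro F _ _ f r hr hf
    have hd := hf.differentiableOn (by simp)
    have hD : ContDiffOn ℝ ∞ (fderivWithin ℝ f (closure Ω)) (closure Ω) :=
      hf.fderivWithin h.df.uniqueDiffOn_closure (by simp)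
    have hN : ContDiff ℝ n (fderiv ℝ (extN ρ)) :=
      (ext_contDiff_N h.df.cd).fderiv_right (by exact_mod_cast le_top)
    rw [Nat.cast_succ, contDiffOn_succ_iff_fderiv_of_isOpen h.op]
    refine ⟨fun x hx => (h.deriv (by omega) hd hx).differentiableAt.differentiableWithinAt,
      by simp, ?_⟩
    refine ContDiffOn.congr ?_ fun x hx => (h.deriv (by omega) hd hx).fderiv
    exact (ih _ _ r (by omega) hD).sub ((ih _ _ (r + 1) (by omega) hD).clm_comp hN.contDiffOn)

/-- **Hestenes extension.**  With `S = closure Ω = {ρ ≤ 0}`, `s j = s₀ + j`, weights `c j`, put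
`gl r f x = if ρ x ≤ 0 then (if r = 0 then f x else 0) else ∑ j, c j * s j ^ r * f (refl ρ (s j) x)`.
On `T = O ∩ {0 ≤ ρ}` the second formula is valid up to the boundary when `r ≤ 6`.  With
`pw l f x = fderivWithin ℝ f S x (single l 1)` (smooth on `S` by `uniqueDiffOn_closure`) one has on `O`, for
`r + 1 ≤ 6` (`HasFDerivWithinAt.union` at boundary points),
`∂ᵢ (gl r f) = gl r (pw i f) - ∑ l, ∂ᵢ (ρ ∂ₗρ) * gl (r + 1) (pw l f)`.
Induction on `n`: `∀ r f, r + n ≤ 6 → ContDiffOn ℝ n (gl r f) O`.  Finally multiply `gl 0 f` by a cut-off equal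
to `1` on `S` with compact support in `O` (real part of `exists_cut`). -/
theorem exists_ext {Ω : Set R3} (h : IsDom Ω) {f : R3 → ℝ} (hf : ContDiffOn ℝ ∞ f (closure Ω)) :
    ∃ F : R3 → ℝ, ContDiff ℝ 6 F ∧ HasCompactSupport F ∧ EqOn F f (closure Ω) := by
  obtain ⟨ρ, hρ⟩ := h.exists_defF
  obtain ⟨s₀, O, hO, hsub, hmem⟩ := hρ.exists_refl
  obtain ⟨c, hc⟩ := exists_weights s₀
  have hE : ExtData Ω ρ O (fun j => s₀ + (j : ℕ)) c := by
    refine ⟨hρ, hO, fun x hx h0 j => hmem x hx h0 _ ⟨?_, ?_⟩, hc⟩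
    · have : (0 : ℝ) ≤ (j : ℕ) := by positivity
      linarith
    · have : ((j : ℕ) : ℝ) ≤ 6 := by exact_mod_cast Nat.lt_succ_iff.1 j.2
      linarith
  have hg := hE.smooth 6 ℝ f 0 le_rfl hf
  obtain ⟨χ, hχ, h1, -⟩ := exists_cut h.isCompact_closure hO hsub
  have hre : ContDiff ℝ 6 fun x => (χ x).re :=
    (Complex.reCLM.contDiff.comp hχ.cd).of_le (WithTop.coe_le_coe.2 (le_top (a := (6 : ℕ∞))))
  refine ⟨fun x => (χ x).re * extGl ρ (fun j => s₀ + (j : ℕ)) c 0 f x, ?_, ?_, fun x hx => ?_⟩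
  · rw [contDiff_iff_contDiffAt]
    intro x
    by_cases hx : x ∈ O
    · exact hre.contDiffAt.mul (hg.contDiffAt (hO.mem_nhds hx))
    · have h0 : χ =ᶠ[𝓝 x] 0 := notMem_tsupport_iff_eventuallyEq.1 fun h => hx (hχ.sub h)
      refine (contDiffAt_const (c := (0 : ℝ))).congr_of_eventuallyEq ?_
      filter_upwards [h0] with y hy
      simp [hy]
  · exact (hχ.cs.comp_left (g := Complex.re) rfl).mul_right
  · have h2 : χ x = 1 := (h1 x hx).eq_of_nhds
    simp [h2, hE.gl_in hx]

end Crest.Agent.R80
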