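import Crest.Agent.R80.Dom

/-!
# Row 80: reflections across the boundary
-/

namespace Crest.Agent.R80

open MeasureTheory Set Metric Filter Topology Complex
open scoped ContDiff
open Crest.AnalysisR.VecCalc3 Crest.AnalysisR.PDE Crest.AnalysisR.PDE.Elasticity

variable {Ω : Set R3} {ρ : R3 → ℝ}

/-- the reflection `x ↦ x - s ρ(x) ∇ρ(x)`. -/
noncomputable def refl (ρ : R3 → ℝ) (s : ℝ) (x : R3) : R3 := x - (s * ρ x) • gradient ρ x

theorem contDiff_gradient (h : ContDiff ℝ ∞ ρ) : ContDiff ℝ ∞ (gradient ρ) := by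
  refine contDiff_euclidean.2 fun i => ?_
  have e : (fun x => gradient ρ x i) = fun x => fderiv ℝ ρ x (EuclideanSpace.single i 1) := by
    funext x
    rw [← inner_gradient_left, EuclideanSpace.inner_single_right]
    simp
  rw [e]
  exact (h.fderiv_right (m := ∞) (by simp)).clm_apply contDiff_const

theorem contDiff_refl (h : ContDiff ℝ ∞ ρ) (s : ℝ) : ContDiff ℝ ∞ (refl ρ s) := by
  unfold refl
  exact contDiff_id.sub ((contDiff_const.mul h).smul (contDiff_gradient h))

private theorem Ext1_local (h : ContDiff ℝ ∞ ρ) {z : R3} (hz : ρ z = 0) {m₀ s₀ : ℝ} (hm₀ : 0 < m₀)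
    (hm : m₀ ≤ ‖gradient ρ z‖ ^ 2) (hs₀ : s₀ = 2 / m₀) :
    ∃ V : Set R3, IsOpen V ∧ z ∈ V ∧
      ∀ x ∈ V, 0 ≤ ρ x → ∀ s ∈ Icc s₀ (s₀ + 6), ρ (refl ρ s x) ≤ 0 := by
  have hg := (contDiff_gradient h).continuous
  have hd : Differentiable ℝ ρ := h.differentiable (by simp)
  have hΦ : Continuous fun p : R3 × R3 => fderiv ℝ ρ p.2 (gradient ρ p.1) :=
    ((h.continuous_fderiv (by simp)).comp continuous_snd).clm_apply (hg.comp continuous_fst)
  have h0 : m₀ / 2 < fderiv ℝ ρ z (gradient ρ z) := by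
    rw [← inner_gradient_left, real_inner_self_eq_norm_sq]; linarith
  have hev : ∀ᶠ p : R3 × R3 in 𝓝 (z, z), m₀ / 2 < fderiv ℝ ρ p.2 (gradient ρ p.1) :=
    hΦ.continuousAt.eventually (lt_mem_nhds h0)
  obtain ⟨δ, hδ, hball⟩ := Metric.eventually_nhds_iff.1 hev
  have hs0 : 0 < s₀ := by rw [hs₀]; positivity
  refine ⟨{x | ‖x - z‖ < δ / 2} ∩ {x | (s₀ + 6) * |ρ x| * ‖gradient ρ x‖ < δ / 2}, ?_, ?_, ?_⟩
  · exact (isOpen_lt (by fun_prop) continuous_const).inter
      (isOpen_lt ((continuous_const.mul h.continuous.abs).mul hg.norm) continuous_const)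
  · constructor
    · simp; positivity
    · simp [hz]; positivity
  rintro x ⟨hx1, hx2⟩ hρ s ⟨hs1, hs2⟩
  simp only [mem_ofPred_eq] at hx1 hx2
  have hs : 0 ≤ s := by linarith
  have hh : 0 ≤ s * ρ x := mul_nonneg hs hρ
  have hder : ∀ u : ℝ, HasDerivAt (fun u : ℝ => ρ (x - u • gradient ρ x))
      (-(fderiv ℝ ρ (x - u • gradient ρ x) (gradient ρ x))) u := by
    intro u
    have h1 : HasDerivAt (fun u : ℝ => x - u • gradient ρ x) (-gradient ρ x) u := by
      simpa using ((hasDerivAt_id u).smul_const (gradient ρ x)).const_sub x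
    have h2 := (hd _).hasFDerivAt.comp_hasDerivAt u h1
    rw [map_neg] at h2
    exact h2
  have key := (convex_Icc 0 (s * ρ x)).image_sub_le_mul_sub_of_deriv_le
    (f := fun u : ℝ => ρ (x - u • gradient ρ x)) (C := -(m₀ / 2))
    (fun u _ => (hder u).continuousAt.continuousWithinAt)
    (fun u _ => (hder u).differentiableAt.differentiableWithinAt)
    (fun u hu => by
      rw [(hder u).deriv]
      have hu' := interior_subset hu
      have h3 : ‖u • gradient ρ x‖ < δ / 2 := by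
        rw [norm_smul, Real.norm_of_nonneg hu'.1]
        refine lt_of_le_of_lt ?_ hx2
        have : u ≤ (s₀ + 6) * |ρ x| := by
          rw [abs_of_nonneg hρ]; exact hu'.2.trans (mul_le_mul_of_nonneg_right hs2 hρ)
        exact mul_le_mul_of_nonneg_right this (norm_nonneg _)
      have h4 : dist ((x, x - u • gradient ρ x) : R3 × R3) (z, z) < δ := by
        rw [Prod.dist_eq, max_lt_iff, dist_eq_norm, dist_eq_norm]
        refine ⟨by linarith, ?_⟩
        have : x - u • gradient ρ x - z = (x - z) - u • gradient ρ x := by abel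
        rw [this]
        linarith [norm_sub_le (x - z) (u • gradient ρ x)]
      have := hball h4
      simp only at this
      linarith)
    0 ⟨le_rfl, hh⟩ (s * ρ x) ⟨hh, le_rfl⟩ hh
  simp only [zero_smul, sub_zero] at key
  have h5 : 1 ≤ m₀ / 2 * s := by
    have : m₀ / 2 * s₀ = 1 := by rw [hs₀]; field_simp
    nlinarith
  unfold refl
  nlinarith

/-- `s₀ = 2 / min ‖∇ρ‖²` over the (compact) frontier.  Near `z ∈ frontier Ω`,
`ρ (x - h ∇ρ x) ≤ ρ x - h ‖∇ρ z‖² / 2` for small `h ≥ 0` (mean value inequality); `O` is the union of `Ω` and of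
such neighbourhoods. -/
theorem DefF.exists_refl (h : DefF Ω ρ) :
    ∃ (s₀ : ℝ) (O : Set R3), IsOpen O ∧ closure Ω ⊆ O ∧
      ∀ x ∈ O, 0 ≤ ρ x → ∀ s ∈ Icc s₀ (s₀ + 6), refl ρ s x ∈ closure Ω := by
  have hc : IsCompact (frontier Ω) :=
    (h.bd.isCompact_closure).of_isClosed_subset isClosed_frontier frontier_subset_closure
  obtain ⟨m₀, hm₀, hm⟩ := hc.exists_forall_le' (f := fun z => ‖gradient ρ z‖ ^ 2) (a := 0)
    ((contDiff_gradient h.cd).continuous.norm.pow 2).continuousOn
    fun z hz => pow_pos (norm_pos_iff.2 (h.gradient_ne_zero hz)) 2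
  have hz : ∀ z ∈ frontier Ω, ρ z = 0 := fun z hz => by rwa [h.frontier_eq] at hz
  choose! V hVo hVz hV using fun z (hz' : z ∈ frontier Ω) =>
    Ext1_local h.cd (hz z hz') hm₀ (hm z hz') rfl
  refine ⟨2 / m₀, Ω ∪ ⋃ z ∈ frontier Ω, V z, h.isOpen.union (isOpen_biUnion hVo), ?_, ?_⟩
  · intro x hx
    rw [closure_eq_self_union_frontier] at hx
    rcases hx with hx | hx
    · exact Or.inl hx
    · exact Or.inr (mem_biUnion hx (hVz x hx))
  · rintro x (hx | hx) hρ s hs
    · rw [h.eq] at hx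
      exact absurd hx (not_lt.2 hρ)
    · obtain ⟨z, hz', hx⟩ := mem_iUnion₂.1 hx
      rw [h.closure_eq]
      exact hV z hz' x hx hρ s hs

/-- extrapolation weights (Lagrange interpolation at the nodes `s₀ + j` evaluated at `0`, or invertibility of
the Vandermonde matrix). -/
theorem exists_weights (s₀ : ℝ) :
    ∃ c : Fin 7 → ℝ, ∀ r : ℕ, r ≤ 6 → ∑ j, c j * (s₀ + (j : ℕ)) ^ r = if r = 0 then 1 else 0 := by
  have hinj : Set.InjOn (fun j : Fin 7 => s₀ + ((j : ℕ) : ℝ)) (Finset.univ : Finset (Fin 7)) := by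
    intro i _ j _ hij
    simp only [add_right_inj, Nat.cast_inj] at hij
    exact Fin.ext hij
  refine ⟨fun j => (Lagrange.basis Finset.univ (fun j : Fin 7 => s₀ + ((j : ℕ) : ℝ)) j).eval 0,
    fun r hr => ?_⟩
  have h1 := Lagrange.eq_interpolate (f := (Polynomial.X : Polynomial ℝ) ^ r) hinj (by
    rw [Polynomial.degree_X_pow]
    simp only [Finset.card_univ, Fintype.card_fin]
    exact_mod_cast (by omega : r < 7))
  have h2 := congrArg (Polynomial.eval 0) h1
  rw [Lagrange.interpolate_apply, Polynomial.eval_finsetSum] at h2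
  simp only [Polynomial.eval_pow, Polynomial.eval_X, Polynomial.eval_mul, Polynomial.eval_C] at h2
  rw [zero_pow_eq] at h2
  rw [h2]
  exact Finset.sum_congr rfl fun j _ => mul_comm _ _

/-- `C^{n+1}` on an open set from the partial derivatives. -/
theorem contDiffOn_succ_of_partial {O : Set R3} (hO : IsOpen O) {n : ℕ} {f : R3 → ℝ}
    (hf : DifferentiableOn ℝ f O)
    (h : ∀ i : Fin 3, ContDiffOn ℝ n (fun x => fderiv ℝ f x (EuclideanSpace.single i 1)) O) :
    ContDiffOn ℝ (n + 1 : ℕ) f O := by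
  have e : ((n + 1 : ℕ) : WithTop ℕ∞) = (n : WithTop ℕ∞) + 1 := by push_cast; rfl
  rw [e, contDiffOn_succ_iff_fderiv_of_isOpen hO]
  refine ⟨hf, fun h' => absurd h' (by simp), contDiffOn_clm_apply.2 fun v => ?_⟩
  have e2 : (fun x => fderiv ℝ f x v) =
      fun x => ∑ i, v i * fderiv ℝ f x (EuclideanSpace.single i 1) := by
    funext x
    have hv : v = ∑ i, v i • (EuclideanSpace.single i (1 : ℝ) : R3) := by
      ext j; simp [Fin.sum_univ_three]; fin_cases j <;> simp
    conv_lhs => rw [hv]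
    simp [map_sum]
  rw [e2]
  exact ContDiffOn.sum fun i _ => contDiffOn_const.mul (h i)

end Crest.Agent.R80
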