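import Crest.Agent.R80.Gauge1

/-!
# Row 80: construction of the gauge
-/

namespace Crest.Agent.R80

open MeasureTheory Set Metric Filter Topology Complex
open scoped ContDiff
open Crest.AnalysisR.VecCalc3 Crest.AnalysisR.PDE Crest.AnalysisR.PDE.Elasticity

theorem Gauge_alg {ι : Type} [Fintype ι] {X X' : Matrix (Fin 3) ι ℂ} {P D : Matrix ι (Fin 3) ℂ}
    {A A' G : Matrix (Fin 3) (Fin 3) ℂ} (h1 : X' = G * X) (h2 : X * P = 1)
    (h3 : A * X * P + X * D = 0) :
    A' * ((X' - X) * P) - (X' - X) * P * A + (A' - A) = (X' - X) * D + (A' * X' - A * X) * P := by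
  have hD : X * D = -A := by
    rw [Matrix.mul_assoc, h2, Matrix.mul_one] at h3
    exact eq_neg_of_add_eq_zero_right h3
  subst h1
  simp only [Matrix.sub_mul, Matrix.mul_assoc, h2, hD, Matrix.mul_one, Matrix.mul_sub, Matrix.mul_neg,
    Matrix.one_mul]
  abel

theorem Gauge_cramer (C : Fin 3 → Fin 3 → R3 → ℂ) (k : Fin 3) (Y : Fin 3 → R3 → ℂ) (x : R3) :
    (colM (Function.update C k Y) x).det = ∑ l, (colM C x).adjugate k l * Y l x := by
  have e : colM (Function.update C k Y) x = (colM C x).updateCol k fun i => Y i x := by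
    ext i j
    by_cases h : j = k
    · subst h
      simp [colM]
    · simp [colM, Matrix.updateCol_ne h, Function.update_of_ne h]
  rw [e, ← Matrix.cramer_apply, Matrix.cramer_eq_adjugate_mulVec]
  rfl

theorem Gauge_contDiff_adj {C : Fin 3 → Fin 3 → R3 → ℂ} (hC : ∀ k i, ContDiff ℝ 1 (C k i))
    (k l : Fin 3) : ContDiff ℝ 1 fun x => (colM C x).adjugate k l := by
  have e : (fun x => (colM C x).adjugate k l) =
      fun x => (colM (Function.update C k fun i _ => ee l i) x).det := by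
    funext x
    rw [Gauge_cramer]
    simp [ee, Pi.single_apply]
  rw [e]
  refine contDiff_det_colM fun k' i => ?_
  by_cases h : k' = k
  · subst h
    rw [Function.update_self]
    exact contDiff_const
  · rw [Function.update_of_ne h]
    exact hC k' i

theorem Gauge_eta : ∃ η : ℝ, 0 < η ∧ ∀ M : Matrix (Fin 3) (Fin 3) ℂ,
    (∀ i k, ‖M i k - ee k i‖ ≤ η) → M.det ≠ 0 := by
  have hc : Continuous fun M : Fin 3 → Fin 3 → ℂ => (Matrix.of M).det :=
    Continuous.matrix_det continuous_id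
  have h1 : (Matrix.of fun i k : Fin 3 => ee k i).det ≠ 0 := by
    have : (Matrix.of fun i k : Fin 3 => ee k i) = 1 := by
      ext i k
      simp [ee, Pi.single_apply, Matrix.one_apply]
    rw [this, Matrix.det_one]
    exact one_ne_zero
  obtain ⟨η, hη, h⟩ := Metric.nhds_basis_closedBall.eventually_iff.1
    (hc.continuousAt.eventually_ne (x := fun i k => ee k i) h1)
  refine ⟨η, hη, fun M hM => h (x := fun i k => M i k) ?_⟩
  rw [mem_closedBall, dist_pi_le_iff hη.le]
  intro i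
  rw [dist_pi_le_iff hη.le]
  intro k
  rw [dist_eq_norm]
  exact hM i k

theorem Gauge_div {O : Set R3} {χ S : R3 → ℂ} (hχ : Tk 1 O χ) (hS : ContDiff ℝ 1 S)
    (h0 : ∀ x ∈ O, S x ≠ 0) : Tk 1 O fun x => χ x * (S x)⁻¹ := by
  refine ⟨contDiff_iff_contDiffAt.2 fun x => ?_, hχ.cs.mul_right,
    (tsupport_mul_subset_left (f := χ) (g := fun x => (S x)⁻¹)).trans hχ.sub⟩
  by_cases hx : x ∈ O
  · exact hχ.cd.contDiffAt.mul (hS.contDiffAt.inv (h0 x hx))
  · have h1 : χ =ᶠ[𝓝 x] 0 := notMem_tsupport_iff_eventuallyEq.1 fun h => hx (hχ.sub h)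
    refine (contDiffAt_const (c := (0 : ℂ))).congr_of_eventuallyEq ?_
    filter_upwards [h1] with y hy
    rw [hy, Pi.zero_apply, zero_mul]

/-- the gauge from a finite family of matched pairs and a right inverse -/
theorem Gauge_abs {U K : Set R3} (hU : IsOpen U) (hUb : Bornology.IsBounded U) (hKU : K ⊆ U) {θ : C3}
    {A A' : Fin 3 → Fin 3 → R3 → ℂ} (hA : ∀ i j, Bd (A i j)) (hA' : ∀ i j, Bd (A' i j))
    (hout : ∀ i j x, x ∉ K → A' i j x = A i j x) {ι : Type} [Fintype ι]
    {X X' P : ι → Fin 3 → R3 → ℂ} (hX : ∀ a, Mat U K θ A A' (X a) (X' a))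
    (hP : ∀ a j, Tk 1 U (P a j))
    (h1 : ∀ x ∈ K, ∀ i j, (fun y => ∑ a, X a i y * P a j y) =ᶠ[𝓝 x] fun _ => if i = j then 1 else 0)
    (hG : ∀ᵐ x : R3, x ∈ K → ∃ G : Matrix (Fin 3) (Fin 3) ℂ, ∀ a i, X' a i x = ∑ l, G i l * X a l x) :
    GE θ A A' K fun i j x => ∑ a, P a j x * (X' a i x - X a i x) := by
  have hm := hU.measurableSet
  have l0 : ∀ a i, L2 U (X a i) := fun a i => L2.of_continuous hm hUb ((hX a).cd i).continuous
  have l1 : ∀ a i, L2 U fun x => X' a i x - X a i x := fun a i => ((hX a).l2 i).sub' (l0 a i)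
  have l2 : ∀ a i, L2 U fun x => ∑ j, A' i j x * X' a j x := fun a i =>
    L2.sum' _ fun j _ => L2.bd_mul (hA' i j) ((hX a).l2 j)
  have l3 : ∀ a i, L2 U fun x => ∑ j, A i j x * X a j x := fun a i =>
    L2.sum' _ fun j _ => L2.bd_mul (hA i j) (l0 a j)
  have hD : ∀ a j, Tk 0 U (dv θ (P a j)) := fun a j => (hP a j).dv (by norm_num) θ
  have he : ∀ᵐ x : R3, ∀ a i, x ∈ U → x ∉ K → X' a i x = X a i x :=
    ae_all_iff.2 fun a => ae_all_iff.2 fun i => (hX a).eq i
  have hv : ∀ᵐ x : R3, x ∉ K → ∀ i j, ∑ a, P a j x * (X' a i x - X a i x) = 0 := by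
    filter_upwards [he] with x hx hK i j
    refine Finset.sum_eq_zero fun a _ => ?_
    by_cases hxU : x ∈ U
    · rw [hx a i hxU hK, sub_self, mul_zero]
    · rw [(hP a j).eq_zero hxU, zero_mul]
  refine ⟨fun i j => L2.sum' _ fun a _ => L2.tk_mul_univ hm (hP a j) (l1 a i),
    fun i j => hv.mono fun x hx hK => hx hK i j, fun i j => ?_⟩
  have hw := WD.sum (U := univ) (θ := θ) Finset.univ MeasurableSet.univ
    (fun a _ => (((hX a).sys' i).sub ((hX a).sys i) hm ((hX a).l2 i) (l2 a i) (l0 a i)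
      (l3 a i)).tk_mul_univ hU (l1 a i) ((l2 a i).sub' (l3 a i)) (hP a j))
    (fun a _ => L2.tk_mul_univ hm (hP a j) (l1 a i))
    (fun a _ => (L2.tk_mul_univ hm (hD a j) (l1 a i)).add'
      (L2.tk_mul_univ hm (hP a j) ((l2 a i).sub' (l3 a i))))
  refine hw.congr MeasurableSet.univ (Eventually.of_forall fun _ _ => rfl) ?_
  have hd : ∀ᵐ x : R3, ∀ a, x ∈ U → ∀ i, dv θ (X a i) x = ∑ j, A i j x * X a j x :=
    ae_all_iff.2 fun a => (hX a).ae_dv hU hUb hA
  filter_upwards [he, hv, hG, hd] with x he hv hG hd _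
  by_cases hK : x ∈ K
  · obtain ⟨G, hG⟩ := hG hK
    have dX : ∀ a i, DifferentiableAt ℝ (X a i) x := fun a i =>
      ((hX a).cd i).differentiable one_ne_zero x
    have dP : ∀ a j, DifferentiableAt ℝ (P a j) x := fun a j =>
      (hP a j).cd.differentiable one_ne_zero x
    have key := Gauge_alg (X := Matrix.of fun i a => X a i x) (X' := Matrix.of fun i a => X' a i x)
      (P := Matrix.of fun a j => P a j x) (D := Matrix.of fun a j => dv θ (P a j) x)
      (A := Matrix.of fun i j => A i j x) (A' := Matrix.of fun i j => A' i j x) (G := G)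
      (by ext i a; exact hG a i)
      (by ext i j; rw [Matrix.one_apply]; exact (h1 x hK i j).eq_of_nhds)
      (by
        ext i j
        have e := dv_congr θ (h1 x hK i j)
        rw [dv_const, dv_sum θ _ fun a _ => (dX a i).fun_mul (dP a j)] at e
        rw [Matrix.zero_apply, ← e, Matrix.add_apply, Matrix.mul_apply, Matrix.mul_apply,
          ← Finset.sum_add_distrib]
        refine Finset.sum_congr rfl fun a _ => ?_
        rw [dv_mul θ (dX a i) (dP a j), hd a (hKU hK) i]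
        rfl)
    have key' := congrFun (congrFun key i) j
    simp only [Matrix.add_apply, Matrix.sub_apply, Matrix.mul_apply, Matrix.of_apply] at key'
    simp only [gr, Finset.sum_sub_distrib, Finset.sum_add_distrib, mul_comm (P _ _ x),
      mul_comm (dv θ (P _ _) x)]
    exact key'
  · have e : gr A A' (fun i j x => ∑ a, P a j x * (X' a i x - X a i x)) i j x = 0 := by
      simp only [gr, hv hK, hout _ _ x hK, mul_zero, zero_mul, sub_self, Finset.sum_const_zero, add_zero]
    rw [e]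
    refine (Finset.sum_eq_zero fun a _ => ?_).symm
    by_cases hxU : x ∈ U
    · simp only [he a _ hxU hK, hout _ _ x hK, sub_self, mul_zero, add_zero]
    · rw [(hP a j).eq_zero hxU, (hD a j).eq_zero hxU, zero_mul, zero_mul, add_zero]

/-- Let `K' = cthickening δ K ⊆ U`.  For each `x₀` take three matched pairs `C k` with `C k x₀ ≈ ee k`, so
`det (colM C) ≠ 0` on an open `O x₀ ∋ x₀`.  Finite subcover of `K'`, smooth partition of unity `χ α` with
`tsupport (χ α) ⊆ O α ∩ U`, `∑ χ α = 1` on `K'` (`SmoothPartitionOfUnity.exists_isSubordinate`).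
`Π α = (χ α / det C α) adj (C α)` is `C¹` with compact support in `U`, `∑ C α Π α = 1` on `K'`.  Put
`H = ∑ α, (C' α - C α) Π α` (`WD.tk_mul_univ`).  For a.e. `x ∈ K` there is `G` with `C' α = G C α` for all `α`
(`four_rel`), so `H = G - 1`, and `∑ C α D(Π α) = -A` (differentiate `∑ C α Π α = 1`), which gives the equation
on `K`; off `K` both sides vanish. -/
theorem gauge {U K : Set R3} (hU : IsOpen U) (hUb : Bornology.IsBounded U) (hK : IsCompact K)
    (hKU : K ⊆ U) {θ : C3} (hθ : θ ≠ 0) {A A' : Fin 3 → Fin 3 → R3 → ℂ} (hA : ∀ i j, Bd (A i j))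
    (hA' : ∀ i j, Bd (A' i j)) (hout : ∀ i j x, x ∉ K → A' i j x = A i j x)
    (hM : ∀ (x₀ : R3) (ξ : C3) (η : ℝ), 0 < η →
      ∃ X X', Mat U K θ A A' X X' ∧ ∀ i, ‖X i x₀ - ξ i‖ ≤ η) :
    ∃ H, GE θ A A' K H := by
  classical
  obtain ⟨η, hη, hdet⟩ := Gauge_eta
  choose C C' hC hCη using fun (x₀ : R3) (k : Fin 3) => hM x₀ (ee k) η hη
  have hd : ∀ x₀, ContDiff ℝ 1 fun x => (colM (C x₀) x).det := fun x₀ =>
    contDiff_det_colM fun k i => (hC x₀ k).cd i
  obtain ⟨t, ht⟩ := hK.elim_finite_subcover (fun x₀ => {x | (colM (C x₀) x).det ≠ 0})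
    (fun x₀ => isOpen_ne_fun (hd x₀).continuous continuous_const)
    fun x _ => mem_iUnion.2 ⟨x, hdet _ fun i k => hCη x k i⟩
  have ht' : ∀ x ∈ K, ∃ α : t, (colM (C α) x).det ≠ 0 := fun x hx => by
    obtain ⟨α, hα, h⟩ := mem_iUnion₂.1 (ht hx)
    exact ⟨⟨α, hα⟩, h⟩
  have hc : ∀ x₀, ContDiff ℝ 1 fun x => starRingEnd ℂ (colM (C x₀) x).det := fun x₀ =>
    Complex.conjCLE.contDiff.comp (hd x₀)
  set S : R3 → ℂ := fun x => ∑ α : t, (colM (C α) x).det * starRingEnd ℂ (colM (C α) x).det with hS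
  have hS1 : ContDiff ℝ 1 S := ContDiff.sum fun α _ => (hd α).mul (hc α)
  have hS0 : ∀ x ∈ K, S x ≠ 0 := fun x hx h0 => by
    obtain ⟨α, hα⟩ := ht' x hx
    simp only [hS, Complex.mul_conj] at h0
    rw [← Complex.ofReal_sum, Complex.ofReal_eq_zero,
      Finset.sum_eq_zero_iff_of_nonneg fun _ _ => Complex.normSq_nonneg _] at h0
    exact hα (Complex.normSq_eq_zero.1 (h0 α (Finset.mem_univ _)))
  have hO : IsOpen (U ∩ {x | S x ≠ 0}) := hU.inter (isOpen_ne_fun hS1.continuous continuous_const)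
  obtain ⟨χ, hχ, hχ1, -⟩ := exists_cut hK hO fun x hx => ⟨hKU hx, hS0 x hx⟩
  have hφ := (Gauge_div hχ.tk1 hS1 fun x hx => hx.2).mono inter_subset_left
  refine ⟨_, Gauge_abs (ι := t × Fin 3) (X := fun a => C a.1 a.2) (X' := fun a => C' a.1 a.2)
    (P := fun a j x => χ x * (S x)⁻¹ *
      (starRingEnd ℂ (colM (C a.1) x).det * (colM (C a.1) x).adjugate a.2 j))
    hU hUb hKU hA hA' hout (fun a => hC a.1 a.2)
    (fun a j => hφ.mul_right ((hc a.1).mul (Gauge_contDiff_adj (fun k i => (hC a.1 k).cd i) _ _)))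
    (fun x hx i j => ?_) ?_⟩
  · filter_upwards [hχ1 x hx, hS1.continuous.continuousAt.eventually_ne (hS0 x hx)] with y h1 h2
    have e : ∀ α : t, ∑ k, C α k i y * (colM (C α) y).adjugate k j =
        (colM (C α) y).det * if i = j then 1 else 0 := fun α => by
      have := congrFun (congrFun (Matrix.mul_adjugate (colM (C α) y)) i) j
      rwa [Matrix.mul_apply, Matrix.smul_apply, Matrix.one_apply, smul_eq_mul] at this
    calc ∑ a : t × Fin 3, C a.1 a.2 i y * (χ y * (S y)⁻¹ *
          (starRingEnd ℂ (colM (C a.1) y).det * (colM (C a.1) y).adjugate a.2 j))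
        = ∑ α : t, (S y)⁻¹ * starRingEnd ℂ (colM (C α) y).det *
            ∑ k, C α k i y * (colM (C α) y).adjugate k j := by
          rw [Fintype.sum_prod_type]
          refine Finset.sum_congr rfl fun α _ => ?_
          rw [Finset.mul_sum, h1]
          exact Finset.sum_congr rfl fun k _ => by ring
      _ = (S y)⁻¹ * S y * if i = j then 1 else 0 := by
          simp only [e, hS, Finset.mul_sum, Finset.sum_mul]
          exact Finset.sum_congr rfl fun α _ => by ring
      _ = if i = j then 1 else 0 := by rw [inv_mul_cancel₀ h2, one_mul]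
  · have h4 : ∀ᵐ x : R3, ∀ (α : t) (a : t × Fin 3), x ∈ U → ∀ i,
        (colM (C α) x).det * C' a.1 a.2 i x =
          ∑ k, C' α k i x * (colM (Function.update (C α) k (C a.1 a.2)) x).det :=
      ae_all_iff.2 fun α => ae_all_iff.2 fun a =>
        four_rel hU hUb hK hKU hθ hA hA' (hC α) (hC a.1 a.2)
    filter_upwards [h4] with x hx hxK
    obtain ⟨α, hα⟩ := ht' x hxK
    refine ⟨Matrix.of fun i l => (colM (C α) x).det⁻¹ * ∑ k, C' α k i x * (colM (C α) x).adjugate k l,
      fun a i => ?_⟩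
    rw [(eq_inv_mul_iff_mul_eq₀ hα).2 (hx α a (hKU hxK) i)]
    simp only [Gauge_cramer, Matrix.of_apply, Finset.mul_sum, Finset.sum_mul]
    rw [Finset.sum_comm]
    exact Finset.sum_congr rfl fun l _ => Finset.sum_congr rfl fun k _ => by ring

end Crest.Agent.R80
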