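import Crest.Agent.R80.Car1

/-!
# Row 80: linear relations between matched solutions
-/

namespace Crest.Agent.R80

open MeasureTheory Set Metric Filter Topology Complex
open scoped ContDiff
open Crest.AnalysisR.VecCalc3 Crest.AnalysisR.PDE Crest.AnalysisR.PDE.Elasticity

variable {U K : Set R3} {θ : C3} {A A' : Fin 3 → Fin 3 → R3 → ℂ}

/-- the matrix with columns `C k`. -/
def colM (C : Fin 3 → Fin 3 → R3 → ℂ) (x : R3) : Matrix (Fin 3) (Fin 3) ℂ :=
  Matrix.of fun i k => C k i x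

theorem Gauge1_det_apply (C : Fin 3 → Fin 3 → R3 → ℂ) (x : R3) :
    (colM C x).det = C 0 0 x * C 1 1 x * C 2 2 x - C 0 0 x * C 2 1 x * C 1 2 x -
      C 1 0 x * C 0 1 x * C 2 2 x + C 1 0 x * C 2 1 x * C 0 2 x + C 2 0 x * C 0 1 x * C 1 2 x -
      C 2 0 x * C 1 1 x * C 0 2 x := by
  rw [Matrix.det_fin_three]
  rfl

theorem Gauge1_det_eq (C : Fin 3 → Fin 3 → R3 → ℂ) :
    (fun x => (colM C x).det) = fun x => C 0 0 x * C 1 1 x * C 2 2 x - C 0 0 x * C 2 1 x * C 1 2 x -
      C 1 0 x * C 0 1 x * C 2 2 x + C 1 0 x * C 2 1 x * C 0 2 x + C 2 0 x * C 0 1 x * C 1 2 x -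
      C 2 0 x * C 1 1 x * C 0 2 x :=
  funext (Gauge1_det_apply C)

theorem Gauge1_cramer (C : Fin 3 → Fin 3 → R3 → ℂ) (Y : Fin 3 → R3 → ℂ) (x : R3) (i : Fin 3) :
    (colM C x).det * Y i x - ∑ k, (colM (Function.update C k Y) x).det * C k i x = 0 := by
  have u01 : Function.update C 0 Y 1 = C 1 := Function.update_of_ne (by decide) _ _
  have u02 : Function.update C 0 Y 2 = C 2 := Function.update_of_ne (by decide) _ _
  have u10 : Function.update C 1 Y 0 = C 0 := Function.update_of_ne (by decide) _ _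
  have u12 : Function.update C 1 Y 2 = C 2 := Function.update_of_ne (by decide) _ _
  have u20 : Function.update C 2 Y 0 = C 0 := Function.update_of_ne (by decide) _ _
  have u21 : Function.update C 2 Y 1 = C 1 := Function.update_of_ne (by decide) _ _
  simp only [Gauge1_det_apply, Fin.sum_univ_three, Function.update_self, u01, u02, u10, u12, u20, u21]
  fin_cases i <;> simp <;> ring

theorem Mat.ae_dv {X X' : Fin 3 → R3 → ℂ} (h : Mat U K θ A A' X X') (hU : IsOpen U)
    (hUb : Bornology.IsBounded U) (hA : ∀ i j, Bd (A i j)) :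
    ∀ᵐ x : R3, x ∈ U → ∀ i, dv θ (X i) x = ∑ j, A i j x * X j x := by
  have hm : MeasurableSet U := hU.measurableSet
  have key : ∀ i, ∀ᵐ x : R3, x ∈ U → dv θ (X i) x = ∑ j, A i j x * X j x := fun i =>
    WD.unique (WD.of_contDiff U θ (h.cd i)) (h.sys i) hU
      (L2.of_continuous hm hUb (continuous_dv θ (h.cd i)))
      (L2.sum' Finset.univ fun j _ => L2.bd_mul (hA i j) (L2.of_continuous hm hUb (h.cd j).continuous))
      (Eventually.of_forall fun _ _ => rfl)
  filter_upwards [ae_all_iff.2 key] with x hx hxU i using hx i hxU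

theorem contDiff_det_colM {C : Fin 3 → Fin 3 → R3 → ℂ} (hC : ∀ k i, ContDiff ℝ 1 (C k i)) :
    ContDiff ℝ 1 fun x => (colM C x).det := by
  rw [Gauge1_det_eq]
  exact (((((((hC 0 0).mul (hC 1 1)).mul (hC 2 2)).sub (((hC 0 0).mul (hC 2 1)).mul (hC 1 2))).sub
    (((hC 1 0).mul (hC 0 1)).mul (hC 2 2))).add (((hC 1 0).mul (hC 2 1)).mul (hC 0 2))).add
    (((hC 2 0).mul (hC 0 1)).mul (hC 1 2))).sub (((hC 2 0).mul (hC 1 1)).mul (hC 0 2))

/-- Liouville's formula (`Matrix.det_fin_three`, `dv_mul`, `ring`). -/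
theorem dv_det_colM {C : Fin 3 → Fin 3 → R3 → ℂ} (hC : ∀ k i, ContDiff ℝ 1 (C k i)) {x : R3}
    (h : ∀ k i, dv θ (C k i) x = ∑ j, A i j x * C k j x) :
    dv θ (fun y => (colM C y).det) x = (∑ i, A i i x) * (colM C x).det := by
  have d : ∀ k i, DifferentiableAt ℝ (C k i) x := fun k i =>
    ((hC k i).differentiable one_ne_zero).differentiableAt
  have d3 : ∀ k i k' i' k'' i'', DifferentiableAt ℝ (fun y => C k i y * C k' i' y * C k'' i'' y) x :=
    fun k i k' i' k'' i'' => ((d k i).mul (d k' i')).mul (d k'' i'')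
  have e3 : ∀ k i k' i' k'' i'', dv θ (fun y => C k i y * C k' i' y * C k'' i'' y) x =
      dv θ (C k i) x * C k' i' x * C k'' i'' x + C k i x * dv θ (C k' i') x * C k'' i'' x +
        C k i x * C k' i' x * dv θ (C k'' i'') x := by
    intro k i k' i' k'' i''
    rw [dv_mul θ (f := fun y => C k i y * C k' i' y) ((d k i).mul (d k' i')) (d k'' i''),
      dv_mul θ (d k i) (d k' i')]
    ring
  rw [Gauge1_det_eq, Gauge1_det_apply]
  rw [dv_sub θ (((((d3 _ _ _ _ _ _).fun_sub (d3 _ _ _ _ _ _)).fun_sub (d3 _ _ _ _ _ _)).fun_add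
      (d3 _ _ _ _ _ _)).fun_add (d3 _ _ _ _ _ _)) (d3 _ _ _ _ _ _),
    dv_add θ ((((d3 _ _ _ _ _ _).fun_sub (d3 _ _ _ _ _ _)).fun_sub (d3 _ _ _ _ _ _)).fun_add
      (d3 _ _ _ _ _ _)) (d3 _ _ _ _ _ _),
    dv_add θ (((d3 _ _ _ _ _ _).fun_sub (d3 _ _ _ _ _ _)).fun_sub (d3 _ _ _ _ _ _)) (d3 _ _ _ _ _ _),
    dv_sub θ ((d3 _ _ _ _ _ _).fun_sub (d3 _ _ _ _ _ _)) (d3 _ _ _ _ _ _),
    dv_sub θ (d3 _ _ _ _ _ _) (d3 _ _ _ _ _ _)]
  simp only [e3, h, Fin.sum_univ_three]
  ring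

/-- `R i = det C · Y' i - ∑ k, C' k i · det (C with column k replaced by Y)` solves `D R = (A' + tr A) R` weakly
on `U` (`WD.mul`, `dv_det_colM`) and vanishes off `K` (Cramer's rule); `WD.extend`, `car1_zero`. -/
theorem four_rel (hU : IsOpen U) (hUb : Bornology.IsBounded U) (hK : IsCompact K) (hKU : K ⊆ U)
    (hθ : θ ≠ 0) (hA : ∀ i j, Bd (A i j)) (hA' : ∀ i j, Bd (A' i j))
    {C C' : Fin 3 → Fin 3 → R3 → ℂ} (hC : ∀ k, Mat U K θ A A' (C k) (C' k))
    {Y Y' : Fin 3 → R3 → ℂ} (hY : Mat U K θ A A' Y Y') :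
    ∀ᵐ x : R3, x ∈ U → ∀ i, (colM C x).det * Y' i x =
      ∑ k, C' k i x * (colM (Function.update C k Y) x).det := by
  have hm : MeasurableSet U := hU.measurableSet
  have hKm : MeasurableSet K := hK.isClosed.measurableSet
  -- the determinants
  have hup : ∀ k l i, ContDiff ℝ 1 (Function.update C k Y l i) := by
    intro k l i
    by_cases hl : l = k
    · subst hl; rw [Function.update_self]; exact hY.cd i
    · rw [Function.update_of_ne hl]; exact (hC l).cd i
  set d : R3 → ℂ := fun x => (colM C x).det with hd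
  set e : Fin 3 → R3 → ℂ := fun k x => (colM (Function.update C k Y) x).det with he
  have hdc : ContDiff ℝ 1 d := contDiff_det_colM fun k i => (hC k).cd i
  have hec : ∀ k, ContDiff ℝ 1 (e k) := fun k => contDiff_det_colM (hup k)
  have hCa : ∀ᵐ x : R3, ∀ k, x ∈ U → ∀ i, dv θ (C k i) x = ∑ j, A i j x * C k j x :=
    ae_all_iff.2 fun k => (hC k).ae_dv hU hUb hA
  have hYa := hY.ae_dv hU hUb hA
  have hdv : ∀ᵐ x : R3, x ∈ U → dv θ d x = (∑ i, A i i x) * d x ∧
      ∀ k, dv θ (e k) x = (∑ i, A i i x) * e k x := by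
    filter_upwards [hCa, hYa] with x h1 h2 hx
    refine ⟨dv_det_colM (fun k i => (hC k).cd i) fun k i => h1 k hx i, fun k => ?_⟩
    refine dv_det_colM (hup k) fun l i => ?_
    by_cases hl : l = k
    · subst hl; rw [Function.update_self]; exact h2 hx i
    · rw [Function.update_of_ne hl]; exact h1 l hx i
  -- the relation
  set R : Fin 3 → R3 → ℂ := fun i x => d x * Y' i x - ∑ k, e k x * C' k i x with hR
  set F : Fin 3 → R3 → ℂ := fun i x => (∑ l, A l l x) * R i x + ∑ j, A' i j x * R j x with hF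
  have l1 : ∀ i, L2 U fun x => d x * Y' i x := fun i => L2.cont_mul hm hUb hdc.continuous (hY.l2 i)
  have l2 : ∀ k i, L2 U fun x => e k x * C' k i x := fun k i =>
    L2.cont_mul hm hUb (hec k).continuous ((hC k).l2 i)
  have hRl : ∀ i, L2 U (R i) := fun i => (l1 i).sub' (L2.sum' Finset.univ fun k _ => l2 k i)
  have hFl : ∀ i, L2 U (F i) := fun i =>
    (L2.bd_mul (Bd.sum Finset.univ fun l _ => hA l l) (hRl i)).add'
      (L2.sum' Finset.univ fun j _ => L2.bd_mul (hA' i j) (hRl j))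
  have lA : ∀ {Z : Fin 3 → R3 → ℂ}, (∀ j, L2 U (Z j)) → ∀ i, L2 U fun x => ∑ j, A' i j x * Z j x :=
    fun hZ i => L2.sum' Finset.univ fun j _ => L2.bd_mul (hA' i j) (hZ j)
  have lP : ∀ {φ : R3 → ℂ} {Z : Fin 3 → R3 → ℂ}, ContDiff ℝ 1 φ → (∀ j, L2 U (Z j)) → ∀ i,
      L2 U fun x => dv θ φ x * Z i x + φ x * ∑ j, A' i j x * Z j x := fun hφ hZ i =>
    (L2.cont_mul hm hUb (continuous_dv θ hφ) (hZ i)).add'
      (L2.cont_mul hm hUb hφ.continuous (lA hZ i))
  have hW : ∀ i, WD U θ (R i) (F i) := by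
    intro i
    have w1 := WD.mul (hY.sys' i) hU (hY.l2 i) (lA hY.l2 i) hdc
    have w2 := WD.sum (θ := θ) Finset.univ hm
      (fun k _ => WD.mul ((hC k).sys' i) hU ((hC k).l2 i) (lA (hC k).l2 i) (hec k))
      (fun k _ => l2 k i) (fun k _ => lP (hec k) (hC k).l2 i)
    have w3 := WD.sub w1 w2 hm (l1 i) (lP hdc hY.l2 i) (L2.sum' Finset.univ fun k _ => l2 k i)
      (L2.sum' Finset.univ fun k _ => lP (hec k) (hC k).l2 i)
    refine w3.congr hm (Eventually.of_forall fun _ _ => rfl) ?_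
    filter_upwards [hdv] with x hx hxU
    obtain ⟨h1, h2⟩ := hx hxU
    simp only [hF, hR, h1, h2, Fin.sum_univ_three]
    ring
  have h0 : ∀ i, ∀ᵐ x : R3, x ∈ U → x ∉ K → R i x = 0 := by
    intro i
    have a1 : ∀ᵐ x : R3, ∀ k, x ∈ U → x ∉ K → C' k i x = C k i x :=
      ae_all_iff.2 fun k => (hC k).eq i
    filter_upwards [a1, hY.eq i] with x h1 h2 hxU hxK
    simp only [hR, h2 hxU hxK, fun k => h1 k hxU hxK, hd, he]
    exact Gauge1_cramer C Y x i
  obtain ⟨r, hr⟩ := hK.isBounded.subset_closedBall (0 : R3)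
  obtain ⟨M, hM0, hM⟩ := (Bd.sum Finset.univ fun l _ => hA l l).exists_bound
  obtain ⟨M', hM0', hM'⟩ := Bd.exists_bound_fin (F := fun p : Fin 3 × Fin 3 => A' p.1 p.2)
    fun p => hA' p.1 p.2
  have hz := car1_zero (R := r) (C₀ := M + M') hθ (y := fun i => K.indicator (R i))
    (F := fun i => K.indicator (F i))
    (fun i => L2.indicator_univ hKm ((hRl i).mono_set hKU))
    (fun i => L2.indicator_univ hKm ((hFl i).mono_set hKU))
    (fun i => (hW i).extend hU hK hKU (hRl i) (hFl i) (h0 i))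
    (fun i => (Van.indicator K (R i)).mono hr) (Eventually.of_forall fun x i => by
      by_cases hx : x ∈ K
      · simp only [indicator_of_mem hx]
        have s1 : ‖R i x‖ ≤ ∑ j, ‖R j x‖ :=
          Finset.single_le_sum (f := fun j => ‖R j x‖) (fun j _ => norm_nonneg _) (Finset.mem_univ i)
        have s2 : ‖(∑ l, A l l x) * R i x‖ ≤ M * ∑ j, ‖R j x‖ := by
          rw [norm_mul]
          exact mul_le_mul (hM x) s1 (norm_nonneg _) hM0
        have s3 : ‖∑ j, A' i j x * R j x‖ ≤ M' * ∑ j, ‖R j x‖ := by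
          rw [Finset.mul_sum]
          refine (norm_sum_le _ _).trans (Finset.sum_le_sum fun j _ => ?_)
          rw [norm_mul]
          exact mul_le_mul_of_nonneg_right (hM' (i, j) x) (norm_nonneg _)
        calc ‖F i x‖ ≤ _ := norm_add_le _ _
          _ ≤ M * ∑ j, ‖R j x‖ + M' * ∑ j, ‖R j x‖ := add_le_add s2 s3
          _ = _ := by ring
      · simp [indicator_of_notMem hx])
  filter_upwards [ae_all_iff.2 hz, ae_all_iff.2 h0] with x h1 h2 hxU i
  have hRz : R i x = 0 := by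
    by_cases hx : x ∈ K
    · have := h1 i
      rwa [indicator_of_mem hx] at this
    · exact h2 i hxU hx
  have : d x * Y' i x = ∑ k, e k x * C' k i x := sub_eq_zero.1 hRz
  rw [show (colM C x).det = d x from rfl, this]
  exact Finset.sum_congr rfl fun k _ => mul_comm _ _

end Crest.Agent.R80
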