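import Crest.Agent.R80.Hol1

/-!
# Row 80: holomorphic dependence on the direction
-/

namespace Crest.Agent.R80

open MeasureTheory Set Metric Filter Topology Complex
open scoped ContDiff
open Crest.AnalysisR.VecCalc3 Crest.AnalysisR.PDE Crest.AnalysisR.PDE.Elasticity

theorem hol_integral_dv {f ψ : R3 → ℂ} (hf : L2 univ f) (hψ : Tst univ ψ) (θ : C3) :
    ∫ x, f x * dv θ ψ x = ∑ k, θ k * ∫ x, f x * pd k ψ x := by
  have hi : ∀ k, Integrable fun x => f x * pd k ψ x := fun k =>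
    L2.integrable_mul_tk MeasurableSet.univ hf (hψ.pd k)
  simp only [← integral_const_mul]
  rw [← integral_finsetSum _ fun k _ => (hi k).const_mul _]
  congr 1
  funext x
  simp only [dv, Finset.mul_sum]
  exact Finset.sum_congr rfl fun k _ => by ring

theorem hol_integral_rhs {ι : Type} [Fintype ι] {M Q : ι → R3 → ℂ} {S ψ : R3 → ℂ}
    (hM : ∀ j, Bd (M j)) (hQ : ∀ j, L2 univ (Q j)) (hS : L2 univ S) (hψ : Tst univ ψ) :
    ∫ x, (∑ j, M j x * Q j x + S x) * ψ x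
      = ∑ j, (∫ x, M j x * Q j x * ψ x) + ∫ x, S x * ψ x := by
  have hi : ∀ j, Integrable fun x => M j x * Q j x * ψ x := fun j =>
    L2.integrable_mul_tk MeasurableSet.univ (L2.bd_mul (hM j) (hQ j)) hψ
  rw [← integral_finsetSum _ fun j _ => hi j, ← integral_add (integrable_finsetSum _ fun j _ => hi j)
    (L2.integrable_mul_tk MeasurableSet.univ hS hψ)]
  congr 1
  funext x
  rw [add_mul, Finset.sum_mul]

/-- passing to the limit in the system -/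
theorem hol_wd_lim {ι : Type} [Fintype ι] {α : Type*} {l : Filter α} [l.NeBot] {θ : α → C3} {θ₀ : C3}
    (hθ : ∀ k, Tendsto (fun n => θ n k) l (𝓝 (θ₀ k))) {M : α → ι → R3 → ℂ} {M₀ : ι → R3 → ℂ}
    {e : α → ℝ} (he : Tendsto e l (𝓝 0)) (hM₀ : ∀ j, Bd (M₀ j))
    (hM : ∀ᶠ n in l, ∀ j, Bd (M n j) ∧ ∀ x, ‖M n j x - M₀ j x‖ ≤ e n)
    {Q : α → ι → R3 → ℂ} {Q₀ : ι → R3 → ℂ} {B : ℝ}
    (hQ : ∀ᶠ n in l, ∀ j, L2 univ (Q n j) ∧ nr univ (Q n j) ≤ B) (hQ₀ : ∀ j, L2 univ (Q₀ j))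
    (hw : ∀ j, WLim l univ (fun n => Q n j) (Q₀ j)) {S : α → R3 → ℂ} {S₀ : R3 → ℂ}
    (hS : ∀ᶠ n in l, L2 univ (S n)) (hS₀ : L2 univ S₀)
    (hS' : Tendsto (fun n => nr univ fun x => S n x - S₀ x) l (𝓝 0)) (i : ι)
    (h : ∀ᶠ n in l, WD univ (θ n) (Q n i) fun x => ∑ j, M n j x * Q n j x + S n x) :
    WD univ θ₀ (Q₀ i) fun x => ∑ j, M₀ j x * Q₀ j x + S₀ x := by
  intro ψ hψ
  have h1 : Tendsto (fun n => ∫ x, Q n i x * dv (θ n) ψ x) l (𝓝 (∫ x, Q₀ i x * dv θ₀ ψ x)) := by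
    rw [hol_integral_dv (hQ₀ i) hψ]
    refine (tendsto_finsetSum _ fun k _ =>
      (hθ k).mul ((hw i).tk MeasurableSet.univ (hψ.pd k))).congr' ?_
    filter_upwards [hQ] with n hn
    rw [hol_integral_dv (hn i).1 hψ]
  have h2 : ∀ j, Tendsto (fun n => ∫ x, M n j x * Q n j x * ψ x) l
      (𝓝 (∫ x, M₀ j x * Q₀ j x * ψ x)) := by
    intro j
    have a1 := (hw j).bd_tk MeasurableSet.univ (hM₀ j) hψ
    have a2 : WLim l univ (fun n x => (M n j x - M₀ j x) * Q n j x) fun _ => 0 := by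
      refine WLim.of_nr ?_ (L2.zero' _) ?_
      · filter_upwards [hM, hQ] with n hn hn'
        exact L2.bd_mul ((hn j).1.sub (hM₀ j)) (hn' j).1
      · have a3 : Tendsto (fun n => e n * B) l (𝓝 0) := by simpa using he.mul_const B
        refine squeeze_zero' (Eventually.of_forall fun n => nr_nonneg _ _) ?_ a3
        filter_upwards [hM, hQ] with n hn hn'
        have e0 : 0 ≤ e n := (norm_nonneg _).trans ((hn j).2 0)
        refine (nr_le_mul_of_le MeasurableSet.univ (hn' j).1 e0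
          (Eventually.of_forall fun x _ => ?_)).trans (mul_le_mul_of_nonneg_left (hn' j).2 e0)
        rw [sub_zero, norm_mul]
        exact mul_le_mul_of_nonneg_right ((hn j).2 x) (norm_nonneg _)
    have a4 := a1.add (a2.tk MeasurableSet.univ hψ)
    simp only [zero_mul, integral_zero, add_zero] at a4
    refine a4.congr' ?_
    filter_upwards [hM, hQ] with n hn hn'
    rw [← integral_add (L2.integrable_mul_tk MeasurableSet.univ (L2.bd_mul (hM₀ j) (hn' j).1) hψ)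
      (L2.integrable_mul_tk MeasurableSet.univ (L2.bd_mul ((hn j).1.sub (hM₀ j)) (hn' j).1) hψ)]
    congr 1
    funext x
    ring
  have h3 : Tendsto (fun n => -∫ x, (∑ j, M n j x * Q n j x + S n x) * ψ x) l
      (𝓝 (-∫ x, (∑ j, M₀ j x * Q₀ j x + S₀ x) * ψ x)) := by
    rw [hol_integral_rhs hM₀ hQ₀ hS₀ hψ]
    refine (((tendsto_finsetSum _ fun j _ => h2 j).add
      ((WLim.of_nr hS hS₀ hS').tk MeasurableSet.univ hψ)).neg).congr' ?_
    filter_upwards [hM, hQ, hS] with n hn hn' hn''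
    rw [hol_integral_rhs (fun j => (hn j).1) (fun j => (hn' j).1) hn'' hψ]
  refine tendsto_nhds_unique h1 (h3.congr' ?_)
  filter_upwards [h] with n hn
  exact (hn ψ hψ).symm

theorem hol_norm_rhs_le {ι : Type} [Fintype ι] {M Q : ι → ℂ} {L : ℝ} (hM : ∀ j, ‖M j‖ ≤ L) :
    ‖∑ j, M j * Q j‖ ≤ L * ∑ j, ‖Q j‖ := by
  rw [Finset.mul_sum]
  refine (norm_sum_le _ _).trans (Finset.sum_le_sum fun j _ => ?_)
  rw [norm_mul]
  exact mul_le_mul_of_nonneg_right (hM j) (norm_nonneg _)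

/-- solutions of systems with converging data converge weakly -/
theorem hol_lim {ι : Type} [Fintype ι] {α : Type*} {l : Filter α} [l.NeBot] {R L : ℝ} {θ : α → C3}
    {θ₀ : C3} (hθ₀ : θ₀ ≠ 0) (hθ : ∀ k, Tendsto (fun n => θ n k) l (𝓝 (θ₀ k)))
    {M : α → ι → ι → R3 → ℂ} {M₀ : ι → ι → R3 → ℂ} {e : α → ℝ} (he : Tendsto e l (𝓝 0))
    (hM₀ : ∀ i j, BL L (M₀ i j))
    (hM : ∀ᶠ n in l, ∀ i j, BL L (M n i j) ∧ ∀ x, ‖M n i j x - M₀ i j x‖ ≤ e n)
    {Q : α → ι → R3 → ℂ} (hQ : ∀ n i, L2 univ (Q n i)) (hQv : ∀ n i, Van (closedBall 0 R) (Q n i))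
    {S : α → ι → R3 → ℂ} {S₀ : ι → R3 → ℂ} (hS : ∀ᶠ n in l, ∀ i, L2 univ (S n i))
    (hS₀ : ∀ i, L2 univ (S₀ i))
    (hS' : ∀ i, Tendsto (fun n => nr univ fun x => S n i x - S₀ i x) l (𝓝 0))
    (h : ∀ᶠ n in l, ∀ i, WD univ (θ n) (Q n i) fun x => ∑ j, M n i j x * Q n j x + S n i x) :
    ∃ Q₀ : ι → R3 → ℂ, ∀ i ψ, L2 univ ψ →
      Tendsto (fun n => ∫ x, Q n i x * ψ x) l (𝓝 (∫ x, Q₀ i x * ψ x)) := by
  have hδ : 0 < n2 θ₀ / 2 := half_pos (n2_pos hθ₀)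
  have hn2 : ∀ᶠ n in l, n2 θ₀ / 2 ≤ n2 (θ n) :=
    ((continuous_n2.tendsto θ₀).comp (tendsto_pi_nhds.2 hθ)).eventually
      (eventually_ge_nhds (half_lt_self (n2_pos hθ₀)))
  obtain ⟨C, hC0, hC⟩ := car1 ι R L hδ
  have hSb : ∀ᶠ n in l, ∀ i, nr univ (S n i) ≤ nr univ (S₀ i) + 1 := by
    have : ∀ᶠ n in l, ∀ i, (nr univ fun x => S n i x - S₀ i x) ≤ 1 :=
      eventually_all.2 fun i => (hS' i).eventually (eventually_le_nhds one_pos)
    filter_upwards [this, hS] with n h1 h2 i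
    linarith [nr_le_add_sub (h2 i) (hS₀ i), h1 i]
  have hQb : ∀ᶠ n in l, ∀ j, L2 univ (Q n j) ∧
      nr univ (Q n j) ≤ C * ∑ i, (nr univ (S₀ i) + 1) := by
    filter_upwards [hn2, hSb, hS, hM, h] with n h1 h2 h3 h4 h5 j
    refine ⟨hQ n j, (hC (θ n) h1 (Q n) _ (fun x => ∑ i, ‖S n i x‖) (hQ n)
      (fun i => L2.add' (L2.sum' _ fun j _ => L2.bd_mul (h4 i j).1.bd (hQ n j)) (h3 i)) h5 (hQv n)
      (L2.sum' _ fun i _ => L2.norm' (h3 i)) (Eventually.of_forall fun x i => ?_) j).trans ?_⟩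
    · refine (norm_add_le _ _).trans (add_le_add (hol_norm_rhs_le fun j => (h4 i j).1.1 x) ?_)
      exact Finset.single_le_sum (f := fun i => ‖S n i x‖) (fun _ _ => norm_nonneg _)
        (Finset.mem_univ i)
    · refine mul_le_mul_of_nonneg_left ((nr_sum_le _ fun i _ => L2.norm' (h3 i)).trans
        (Finset.sum_le_sum fun i _ => ?_)) hC0
      rw [nr_norm (h3 i)]
      exact h2 i
  have key : ∀ 𝒰 : Ultrafilter α, (𝒰 : Filter α) ≤ l → ∃ Q₀ : ι → R3 → ℂ,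
      (∀ i, L2 univ (Q₀ i)) ∧ (∀ i, Van (closedBall 0 R) (Q₀ i)) ∧
      (∀ i, WLim 𝒰 univ (fun n => Q n i) (Q₀ i)) ∧
      ∀ i, WD univ θ₀ (Q₀ i) fun x => ∑ j, M₀ i j x * Q₀ j x + S₀ i x := by
    intro 𝒰 h𝒰
    have h1 : ∀ i, ∃ g, L2 univ g ∧ nr univ g ≤ C * ∑ i, (nr univ (S₀ i) + 1) ∧
        WLim 𝒰 univ (fun n => Q n i) g := fun i =>
      exists_WLim 𝒰 ((hQb.filter_mono h𝒰).mono fun n hn => hn i)
    choose Q₀ a1 a2 a3 using h1
    refine ⟨Q₀, a1, fun i => ?_, a3, fun i => ?_⟩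
    · have := (a3 i).ae_zero_off MeasurableSet.univ measurableSet_closedBall (a1 i)
        (Eventually.of_forall fun n => Filter.Eventually.mono (hQv n i) fun x hx _ => hx)
      exact this.mono fun x hx => hx (mem_univ x)
    · exact hol_wd_lim (fun k => (hθ k).mono_left h𝒰) (M := fun n => M n i) (he.mono_left h𝒰)
        (fun j => (hM₀ i j).bd) ((hM.filter_mono h𝒰).mono fun n hn j => ⟨(hn i j).1.bd, (hn i j).2⟩)
        (hQb.filter_mono h𝒰) a1 a3 (S := fun n => S n i)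
        ((hS.filter_mono h𝒰).mono fun n hn => hn i) (hS₀ i) ((hS' i).mono_left h𝒰) i
        ((h.filter_mono h𝒰).mono fun n hn => hn i)
  obtain ⟨Q₀, a1, a2, -, a4⟩ := key (Ultrafilter.of l) (Ultrafilter.of_le l)
  refine ⟨Q₀, fun i ψ hψ => (tendsto_iff_ultrafilter _ _ _).2 fun 𝒰 h𝒰 => ?_⟩
  obtain ⟨Q₁, b1, b2, b3, b4⟩ := key 𝒰 h𝒰
  have hl : ∀ {Z : ι → R3 → ℂ}, (∀ i, L2 univ (Z i)) → ∀ i,
      L2 univ fun x => ∑ j, M₀ i j x * Z j x + S₀ i x := fun hZ i =>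
    L2.add' (L2.sum' _ fun j _ => L2.bd_mul (hM₀ i j).bd (hZ j)) (hS₀ i)
  have hz := car1_zero (C₀ := L) hθ₀ (y := fun i x => Q₁ i x - Q₀ i x)
    (fun i => L2.sub' (b1 i) (a1 i)) (fun i => L2.sub' (hl b1 i) (hl a1 i))
    (fun i => (b4 i).sub (a4 i) MeasurableSet.univ (b1 i) (hl b1 i) (a1 i) (hl a1 i))
    (fun i => (b2 i).sub (a2 i)) (Eventually.of_forall fun x i => by
      have : ∑ j, M₀ i j x * Q₁ j x + S₀ i x - (∑ j, M₀ i j x * Q₀ j x + S₀ i x)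
          = ∑ j, M₀ i j x * (Q₁ j x - Q₀ j x) := by
        simp only [mul_sub, Finset.sum_sub_distrib]
        ring
      rw [this]
      exact hol_norm_rhs_le fun j => (hM₀ i j).1 x) i
  have e1 : ∫ x, Q₀ i x * ψ x = ∫ x, Q₁ i x * ψ x := by
    refine integral_congr_ae (hz.mono fun x hx => ?_)
    simp only [sub_eq_zero.1 hx]
  have := b3 i ψ hψ
  simp only [Measure.restrict_univ] at this
  rw [e1]
  exact this

/-- a common constant for finitely many nice families -/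
theorem hol_nice_fin {κ : Type*} [Finite κ] {f : κ → ℂ → R3 → ℂ} (hf : ∀ k, Nice (f k)) (t₀ : ℂ) :
    ∃ (L : ℝ) (f' : κ → R3 → ℂ), 0 ≤ L ∧ ∀ k, Bd (f' k) ∧ ∀ t, ‖t - t₀‖ ≤ 1 → BL L (f k t) ∧
      ∀ x, ‖f k t x - f k t₀ x - (t - t₀) * f' k x‖ ≤ L * ‖t - t₀‖ ^ 2 ∧ ‖f' k x‖ ≤ 3 * L := by
  choose L f' h1 h2 using fun k => hf k t₀
  obtain ⟨L₀, hL₀⟩ := Finite.exists_le L
  have h3 : ∀ k x, ‖f' k x‖ ≤ 3 * L k := by
    intro k x
    have a1 := h2 k (t₀ + 1) (by simp)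
    have a2 := (h2 k t₀ (by simp)).1.1 x
    have a3 := a1.2 x
    have a4 := a1.1.1 x
    simp only [add_sub_cancel_left, one_mul, norm_one, one_pow, mul_one] at a3
    have : f' k x = f k (t₀ + 1) x - f k t₀ x - (f k (t₀ + 1) x - f k t₀ x - f' k x) := by ring
    rw [this]
    linarith [norm_sub_le (f k (t₀ + 1) x - f k t₀ x) (f k (t₀ + 1) x - f k t₀ x - f' k x),
      norm_sub_le (f k (t₀ + 1) x) (f k t₀ x)]
  refine ⟨max L₀ 0, f', le_max_right _ _, fun k => ⟨⟨(h1 k).aestronglyMeasurable, _, h3 k⟩,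
    fun t ht => ?_⟩⟩
  have hL : L k ≤ max L₀ 0 := (hL₀ k).trans (le_max_left _ _)
  refine ⟨(h2 k t ht).1.mono hL, fun x => ⟨((h2 k t ht).2 x).trans ?_, (h3 k x).trans ?_⟩⟩
  · exact mul_le_mul_of_nonneg_right hL (sq_nonneg _)
  · linarith

theorem hol_quot_le {a a₀ a' s : ℂ} {L : ℝ} (hs : s ≠ 0) (h : ‖a - a₀ - s * a'‖ ≤ L * ‖s‖ ^ 2) :
    ‖s⁻¹ * (a - a₀) - a'‖ ≤ L * ‖s‖ := by
  have h0 : 0 < ‖s‖ := norm_pos_iff.2 hs
  have : s⁻¹ * (a - a₀) - a' = s⁻¹ * (a - a₀ - s * a') := by field_simp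
  rw [this, norm_mul, norm_inv, inv_mul_le_iff₀ h0]
  nlinarith

/-- Fix `t₀`.  For `t` near `t₀`, `n2 (θ t) ≥ δ` and `sys_h1` gives uniform `H¹` bounds.  The difference
`y t - y t₀` solves the system at `t₀` with a source of norm `≤ C ‖t - t₀‖` (`H1.wd_dv`, `WD.sub_dir`), so `car1`
bounds the difference quotients `Q t`.  Along an ultrafilter `𝒰 ≤ 𝓝[≠] t₀` they have a weak limit
(`exists_WLim`) which solves `D Q = M Q + M' y - θ'·∇y + F'` and vanishes off the ball; two such limits agree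
(`car1_zero`), so the limit exists (`tendsto_iff_ultrafilter`, `hasDerivAt_iff_tendsto_slope`).  In the limit
write the term `(θ t - θ t₀)·∇(y t)` against a test function as `-∫ y t · (θ t - θ t₀)·∇ψ`. -/
theorem hol {ι : Type} [Fintype ι] {R : ℝ} {θ : ℂ → C3}
    (hθ : ∀ i, Differentiable ℂ fun t => θ t i) (h0 : ∀ t, θ t ≠ 0) {M : ι → ι → ℂ → R3 → ℂ}
    {F : ι → ℂ → R3 → ℂ} (hM : ∀ i j, Nice (M i j)) (hF : ∀ i, Nice (F i))
    (hFv : ∀ i t, Van (closedBall 0 R) (F i t)) {y : ℂ → ι → R3 → ℂ} (hy : ∀ t i, L2 univ (y t i))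
    (hv : ∀ t i, Van (closedBall 0 R) (y t i))
    (h : ∀ t i, WD univ (θ t) (y t i) fun x => ∑ j, M i j t x * y t j x + F i t x) (i : ι)
    {ψ : R3 → ℂ} (hψ : L2 univ ψ) : Differentiable ℂ fun t => ∫ x, y t i x * ψ x := by
  intro t₀
  obtain ⟨L, f', hL, hf'⟩ := hol_nice_fin (κ := ι × ι ⊕ ι)
    (f := Sum.elim (fun p => M p.1 p.2) F) (by rintro (p | i); exacts [hM _ _, hF _]) t₀
  have hM' : ∀ i j, Bd (f' (Sum.inl (i, j))) ∧ ∀ t, ‖t - t₀‖ ≤ 1 → BL L (M i j t) ∧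
      ∀ x, ‖M i j t x - M i j t₀ x - (t - t₀) * f' (Sum.inl (i, j)) x‖ ≤ L * ‖t - t₀‖ ^ 2 ∧
        ‖f' (Sum.inl (i, j)) x‖ ≤ 3 * L := fun i j => hf' (Sum.inl (i, j))
  have hF' : ∀ i, Bd (f' (Sum.inr i)) ∧ ∀ t, ‖t - t₀‖ ≤ 1 → BL L (F i t) ∧
      ∀ x, ‖F i t x - F i t₀ x - (t - t₀) * f' (Sum.inr i) x‖ ≤ L * ‖t - t₀‖ ^ 2 ∧
        ‖f' (Sum.inr i) x‖ ≤ 3 * L := fun i => hf' (Sum.inr i)
  have h00 : ‖t₀ - t₀‖ ≤ 1 := by simp
  obtain ⟨C, -, hC⟩ := sys_h1 ι R L (n2_pos (h0 t₀))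
  obtain ⟨G, hG⟩ := hC (θ t₀) le_rfl (fun i j => M i j t₀) (fun i => F i t₀) (y t₀)
    (fun i j => ((hM' i j).2 t₀ h00).1) (fun i => ((hF' i).2 t₀ h00).1) (fun i => hFv i t₀)
    (hy t₀) (hv t₀) (h t₀)
  have hB : MeasurableSet (closedBall (0 : R3) R) := measurableSet_closedBall
  have hbl2 : ∀ {f : R3 → ℂ}, Bd f → L2 univ ((closedBall (0 : R3) R).indicator f) := by
    intro f hf
    have h1 : L2 (closedBall (0 : R3) R) fun _ => (1 : ℂ) :=
      L2.of_continuous hB isBounded_closedBall continuous_const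
    have h2 := L2.bd_mul hf h1
    simp only [mul_one] at h2
    exact L2.indicator_univ hB h2
  have hFl : ∀ i t, ‖t - t₀‖ ≤ 1 → L2 univ (F i t) := fun i t ht =>
    L2.congr' MeasurableSet.univ (hbl2 ((hF' i).2 t ht).1.bd)
      ((hFv i t).indicator_ae_eq.mono fun x hx _ => hx.symm)
  have hrhs : ∀ t, ‖t - t₀‖ ≤ 1 → ∀ i, L2 univ fun x => ∑ j, M i j t x * y t j x + F i t x :=
    fun t ht i => L2.add' (L2.sum' _ fun j _ => L2.bd_mul ((hM' i j).2 t ht).1.bd (hy t j))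
      (hFl i t ht)
  have hGl : ∀ (c : C3) i, L2 univ fun x => ∑ k, c k * G i k x := fun c i =>
    L2.sum' _ fun k _ => L2.cmul _ ((hG i).1.l2G k)
  have hGe : ∀ i, ∀ᵐ x : R3, ∑ k, θ t₀ k * G i k x = ∑ j, M i j t₀ x * y t₀ j x + F i t₀ x :=
    fun i => (((hG i).1.wd_dv MeasurableSet.univ (θ t₀)).unique (h t₀ i) isOpen_univ (hGl _ i)
      (hrhs t₀ h00 i) (Eventually.of_forall fun _ _ => rfl)).mono fun x hx => hx (mem_univ x)
  have hnear : ∀ᶠ t in 𝓝[≠] t₀, ‖t - t₀‖ ≤ 1 ∧ t - t₀ ≠ 0 := by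
    refine Eventually.and (nhdsWithin_le_nhds ?_) ?_
    · filter_upwards [closedBall_mem_nhds t₀ one_pos] with t ht
      exact mem_closedBall_iff_norm.1 ht
    · filter_upwards [self_mem_nhdsWithin] with t ht
      exact sub_ne_zero.2 ht
  have hnorm : Tendsto (fun t => ‖t - t₀‖) (𝓝[≠] t₀) (𝓝 0) :=
    (tendsto_norm_sub_self t₀).mono_left nhdsWithin_le_nhds
  have hslope : ∀ k, Tendsto (fun t => (t - t₀)⁻¹ * (θ t k - θ t₀ k)) (𝓝[≠] t₀)
      (𝓝 (deriv (fun t => θ t k) t₀)) := fun k => by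
    have := hasDerivAt_iff_tendsto_slope.1 (hθ k t₀).hasDerivAt
    simpa only [slope_fun_def_field, div_eq_inv_mul] using this
  set S : ℂ → ι → R3 → ℂ := fun t i x =>
    ∑ j, (t - t₀)⁻¹ * (M i j t x - M i j t₀ x) * y t₀ j x + (t - t₀)⁻¹ * (F i t x - F i t₀ x)
      - ∑ k, (t - t₀)⁻¹ * (θ t k - θ t₀ k) * G i k x with hS
  set S₀ : ι → R3 → ℂ := fun i x =>
    ∑ j, f' (Sum.inl (i, j)) x * y t₀ j x + (closedBall (0 : R3) R).indicator (f' (Sum.inr i)) x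
      - ∑ k, deriv (fun t => θ t k) t₀ * G i k x with hS₀
  have hSl : ∀ᶠ t in 𝓝[≠] t₀, ∀ i, L2 univ (S t i) := by
    filter_upwards [hnear] with t ht i
    exact L2.sub' (L2.add' (L2.sum' _ fun j _ => L2.bd_mul
      ((((hM' i j).2 t ht.1).1.bd.sub ((hM' i j).2 t₀ h00).1.bd).const_mul _) (hy t₀ j))
      (L2.cmul _ (L2.sub' (hFl i t ht.1) (hFl i t₀ h00)))) (hGl _ i)
  have hS₀l : ∀ i, L2 univ (S₀ i) := fun i =>
    L2.sub' (L2.add' (L2.sum' _ fun j _ => L2.bd_mul (hM' i j).1 (hy t₀ j)) (hbl2 (hF' i).1))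
      (hGl _ i)
  have hSt : ∀ i, Tendsto (fun t => nr univ fun x => S t i x - S₀ i x) (𝓝[≠] t₀) (𝓝 0) := by
    intro i
    set e : ℂ → ℝ := fun t => L * ‖t - t₀‖ +
      ∑ k, ‖(t - t₀)⁻¹ * (θ t k - θ t₀ k) - deriv (fun t => θ t k) t₀‖ with he
    set w : R3 → ℝ := fun x => ∑ j, ‖y t₀ j x‖ +
      ‖(closedBall (0 : R3) R).indicator (fun _ => (1 : ℂ)) x‖ + ∑ k, ‖G i k x‖ with hw
    have hwl : L2 univ w := L2.add' (L2.add' (L2.sum' _ fun j _ => L2.norm' (hy t₀ j))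
      (L2.norm' (hbl2 (Bd.const 1)))) (L2.sum' _ fun k _ => L2.norm' ((hG i).1.l2G k))
    have het : Tendsto (fun t => e t * nr univ w) (𝓝[≠] t₀) (𝓝 0) := by
      have := ((hnorm.const_mul L).add (tendsto_finsetSum Finset.univ fun k _ =>
        tendsto_iff_norm_sub_tendsto_zero.1 (hslope k))).mul_const (nr univ w)
      simpa using this
    refine squeeze_zero' (Eventually.of_forall fun n => nr_nonneg _ _) ?_ het
    filter_upwards [hnear] with t ht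
    have s0 : 0 ≤ ∑ k, ‖(t - t₀)⁻¹ * (θ t k - θ t₀ k) - deriv (fun t => θ t k) t₀‖ :=
      Finset.sum_nonneg fun _ _ => norm_nonneg _
    have l0 : 0 ≤ L * ‖t - t₀‖ := mul_nonneg hL (norm_nonneg _)
    have e0 : 0 ≤ e t := add_nonneg l0 s0
    have e1 : L * ‖t - t₀‖ ≤ e t := le_add_of_nonneg_right s0
    refine nr_le_mul_of_le MeasurableSet.univ hwl e0 ?_
    filter_upwards [hFv i t, hFv i t₀] with x hx hx₀ _
    have e2 : S t i x - S₀ i x =
        ∑ j, ((t - t₀)⁻¹ * (M i j t x - M i j t₀ x) - f' (Sum.inl (i, j)) x) * y t₀ j x +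
        ((t - t₀)⁻¹ * (F i t x - F i t₀ x) - (closedBall (0 : R3) R).indicator (f' (Sum.inr i)) x)
        - ∑ k, ((t - t₀)⁻¹ * (θ t k - θ t₀ k) - deriv (fun t => θ t k) t₀) * G i k x := by
      simp only [hS, hS₀, sub_mul, Finset.sum_sub_distrib]
      ring
    have a1 : ‖∑ j, ((t - t₀)⁻¹ * (M i j t x - M i j t₀ x) - f' (Sum.inl (i, j)) x) * y t₀ j x‖
        ≤ e t * ∑ j, ‖y t₀ j x‖ :=
      hol_norm_rhs_le fun j => (hol_quot_le ht.2 (((hM' i j).2 t ht.1).2 x).1).trans e1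
    have a2 : ‖(t - t₀)⁻¹ * (F i t x - F i t₀ x) -
        (closedBall (0 : R3) R).indicator (f' (Sum.inr i)) x‖
        ≤ e t * ‖(closedBall (0 : R3) R).indicator (fun _ => (1 : ℂ)) x‖ := by
      by_cases hxB : x ∈ closedBall (0 : R3) R
      · rw [indicator_of_mem hxB, indicator_of_mem hxB, norm_one, mul_one]
        exact (hol_quot_le ht.2 (((hF' i).2 t ht.1).2 x).1).trans e1
      · rw [indicator_of_notMem hxB, indicator_of_notMem hxB, hx hxB, hx₀ hxB]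
        simp
    have a3 : ‖∑ k, ((t - t₀)⁻¹ * (θ t k - θ t₀ k) - deriv (fun t => θ t k) t₀) * G i k x‖
        ≤ e t * ∑ k, ‖G i k x‖ :=
      hol_norm_rhs_le fun k => (Finset.single_le_sum
        (f := fun k => ‖(t - t₀)⁻¹ * (θ t k - θ t₀ k) - deriv (fun t => θ t k) t₀‖)
        (fun _ _ => norm_nonneg _) (Finset.mem_univ k)).trans (le_add_of_nonneg_left l0)
    have w0 : 0 ≤ w x := by positivity
    rw [e2, Real.norm_of_nonneg w0, hw]
    refine (norm_sub_le _ _).trans ((add_le_add_left (norm_add_le _ _) _).trans ?_)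
    simp only [mul_add]
    linarith
  obtain ⟨Q₀, hQ₀⟩ := hol_lim (l := 𝓝[≠] t₀) (R := R) (L := L) (h0 t₀)
    (fun k => ((hθ k).continuous.tendsto t₀).mono_left nhdsWithin_le_nhds)
    (M := fun t i j => M i j t) (M₀ := fun i j => M i j t₀) (e := fun t => 4 * L * ‖t - t₀‖)
    (by simpa using hnorm.const_mul (4 * L)) (fun i j => ((hM' i j).2 t₀ h00).1)
    (by
      filter_upwards [hnear] with t ht i j
      refine ⟨((hM' i j).2 t ht.1).1, fun x => ?_⟩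
      obtain ⟨a1, a2⟩ := ((hM' i j).2 t ht.1).2 x
      have a3 := norm_add_le (M i j t x - M i j t₀ x - (t - t₀) * f' (Sum.inl (i, j)) x)
        ((t - t₀) * f' (Sum.inl (i, j)) x)
      rw [sub_add_cancel, norm_mul] at a3
      have a4 := mul_le_mul_of_nonneg_left a2 (norm_nonneg (t - t₀))
      have a5 : L * ‖t - t₀‖ ^ 2 ≤ L * ‖t - t₀‖ := by
        refine mul_le_mul_of_nonneg_left ?_ hL
        nlinarith [norm_nonneg (t - t₀), ht.1]
      linarith)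
    (Q := fun t i x => (t - t₀)⁻¹ * (y t i x - y t₀ i x))
    (fun t i => L2.cmul _ (L2.sub' (hy t i) (hy t₀ i)))
    (fun t i => ((hv t i).sub (hv t₀ i)).mul_left fun _ => (t - t₀)⁻¹) hSl hS₀l hSt
    (by
      filter_upwards [hnear] with t ht i
      refine (((h t i).sub ((hG i).1.wd_dv MeasurableSet.univ (θ t)) MeasurableSet.univ (hy t i)
        (hrhs t ht.1 i) (hy t₀ i) (hGl _ i)).const_mul (t - t₀)⁻¹).congr MeasurableSet.univ
        (Eventually.of_forall fun _ _ => rfl) ?_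
      filter_upwards [hGe i] with x hx _
      have b1 : ∑ j, M i j t x * ((t - t₀)⁻¹ * (y t j x - y t₀ j x)) =
          (t - t₀)⁻¹ * (∑ j, M i j t x * y t j x - ∑ j, M i j t x * y t₀ j x) := by
        rw [← Finset.sum_sub_distrib, Finset.mul_sum]
        exact Finset.sum_congr rfl fun j _ => by ring
      have b2 : ∑ j, (t - t₀)⁻¹ * (M i j t x - M i j t₀ x) * y t₀ j x =
          (t - t₀)⁻¹ * (∑ j, M i j t x * y t₀ j x - ∑ j, M i j t₀ x * y t₀ j x) := by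
        rw [← Finset.sum_sub_distrib, Finset.mul_sum]
        exact Finset.sum_congr rfl fun j _ => by ring
      have b3 : ∑ k, (t - t₀)⁻¹ * (θ t k - θ t₀ k) * G i k x =
          (t - t₀)⁻¹ * (∑ k, θ t k * G i k x - ∑ k, θ t₀ k * G i k x) := by
        rw [← Finset.sum_sub_distrib, Finset.mul_sum]
        exact Finset.sum_congr rfl fun j _ => by ring
      simp only [hS]
      rw [b1, b2, b3, hx]
      ring)
  refine (hasDerivAt_iff_tendsto_slope.2 ((hQ₀ i ψ hψ).congr fun t => ?_)).differentiableAt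
  have i1 : ∀ t, Integrable fun x => y t i x * ψ x := fun t =>
    integrableOn_univ.1 (L2.integrableOn_mul (hy t i) hψ)
  rw [slope_def_field, div_eq_inv_mul, ← integral_sub (i1 t) (i1 t₀), ← integral_const_mul]
  congr 1
  funext x
  ring

end Crest.Agent.R80
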