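import Crest.Agent.R80.Car1
import Crest.Agent.R80.Riesz

/-!
# Row 80: `H¹` bounds for first order systems with Lipschitz coefficients
-/

namespace Crest.Agent.R80

open MeasureTheory Set Metric Filter Topology Complex
open scoped ContDiff
open Crest.AnalysisR.VecCalc3 Crest.AnalysisR.PDE Crest.AnalysisR.PDE.Elasticity

theorem Hol1_tendsto {y ψ : R3 → ℂ} (hy : L2 univ y) (hψ : Tst univ ψ) (i : Fin 3) :
    Tendsto (fun s : ℝ => ∫ x, y x * (s⁻¹ • (ψ (x - s • EuclideanSpace.single i 1) - ψ x))) (𝓝[>] 0)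
      (𝓝 (∫ x, y x * -pd i ψ x)) := by
  set e : R3 := EuclideanSpace.single i 1 with he
  have hn : ‖e‖ = 1 := by simp [he]
  obtain ⟨L, hL⟩ := hψ.tk1.exists_bl
  obtain ⟨R, hR⟩ := hψ.cs.isCompact.isBounded.subset_closedBall 0
  obtain ⟨χ, hχ, hχ1, -⟩ := exists_cut (isCompact_closedBall (0 : R3) (R + 1)) isOpen_univ (subset_univ _)
  have hym : AEStronglyMeasurable y volume := by simpa using hy.1
  have h0 : ∀ x, R < ‖x‖ → ψ x = 0 := fun x hx =>
    image_eq_zero_of_notMem_tsupport fun h => not_le.2 hx (mem_closedBall_zero_iff.1 (hR h))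
  refine tendsto_integral_filter_of_dominated_convergence (fun x => L * ‖y x * χ x‖)
    (Eventually.of_forall fun s => hym.mul (Continuous.aestronglyMeasurable ?_)) ?_
    ((L2.integrable_mul_tk MeasurableSet.univ hy hχ).norm.const_mul L)
    (Eventually.of_forall fun x => Tendsto.const_mul _ ?_)
  · have := hψ.continuous
    fun_prop
  · filter_upwards [Ioc_mem_nhdsGT one_pos] with s hs
    refine Eventually.of_forall fun x => ?_
    have hv : ‖s • e‖ = s := by rw [norm_smul, hn, mul_one, Real.norm_of_nonneg hs.1.le]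
    by_cases hx : x ∈ closedBall (0 : R3) (R + 1)
    · have h1 := hL.2 (x - s • e) x
      rw [sub_sub_cancel_left, norm_neg, hv] at h1
      rw [(hχ1 x hx).eq_of_nhds, mul_one, norm_mul, norm_smul, norm_inv, Real.norm_of_nonneg hs.1.le,
        mul_comm L]
      exact mul_le_mul_of_nonneg_left ((inv_mul_le_iff₀' hs.1).2 h1) (norm_nonneg _)
    · rw [mem_closedBall_zero_iff, not_le] at hx
      have h1 := norm_sub_norm_le x (s • e)
      rw [h0 x (by linarith), h0 _ (by linarith [hs.2]), sub_self, smul_zero, mul_zero, norm_zero]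
      exact mul_nonneg ((norm_nonneg _).trans (hL.1 0)) (norm_nonneg _)
  · have h1 : HasDerivAt (fun s : ℝ => x - s • e) (-e) 0 := by
      simpa using ((hasDerivAt_id (0 : ℝ)).smul_const e).const_sub x
    have h2 : HasFDerivAt ψ (fderiv ℝ ψ x) (x - (0 : ℝ) • e) := by
      rw [zero_smul, sub_zero]
      exact (hψ.tk1.cd.differentiable one_ne_zero x).hasFDerivAt
    have h3 := (h2.comp_hasDerivAt (0 : ℝ) h1).tendsto_slope_zero_right
    simpa [pd, he] using h3

/-- bounded difference quotients give a weak derivative: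
`∫ y (ψ(x - h e) - ψ x)/h = ∫ (y(x + h e) - y x)/h ψ`, let `h → 0` (dominated convergence), `exists_WD`. -/
theorem exists_WD_of_diff {y : R3 → ℂ} (hy : L2 univ y) (i : Fin 3) {C : ℝ} (hC : 0 ≤ C)
    (h : ∀ s : ℝ, 0 < s → s ≤ 1 →
      nr univ (fun x => y (x + s • EuclideanSpace.single i 1) - y x) ≤ C * s) :
    ∃ g, L2 univ g ∧ nr univ g ≤ C ∧ WD univ (ee i) y g := by
  refine exists_WD MeasurableSet.univ hy hC fun ψ hψ => ?_
  have ht := (Hol1_tendsto hy hψ i).norm
  simp only [mul_neg, integral_neg, norm_neg] at ht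
  rw [dv_ee]
  refine le_of_tendsto ht ?_
  filter_upwards [Ioc_mem_nhdsGT one_pos] with s hs
  set v : R3 := s • EuclideanSpace.single i 1 with hv
  have i1 := L2.integrable_mul_tk MeasurableSet.univ hy hψ
  have i2 := L2.integrable_mul_tk MeasurableSet.univ hy (hψ.translate (-v))
  have i3 := L2.integrable_mul_tk MeasurableSet.univ (hy.translate v) hψ
  have e : ∫ x, y x * (s⁻¹ • (ψ (x - v) - ψ x)) = s⁻¹ • ∫ x, (y (x + v) - y x) * ψ x := by
    simp only [mul_smul_comm, integral_smul, mul_sub, sub_mul, sub_eq_add_neg _ v]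
    rw [integral_sub i2 i1, integral_sub i3 i1,
      ← integral_add_right_eq_self (fun x => y x * ψ (x + -v)) v]
    simp only [add_neg_cancel_right]
  rw [e, norm_smul, norm_inv, Real.norm_of_nonneg hs.1.le, inv_mul_le_iff₀ hs.1]
  refine (norm_integral_mul_tk_le MeasurableSet.univ ((hy.translate v).sub' hy) hψ).trans ?_
  rw [← mul_assoc, mul_comm s]
  exact mul_le_mul_of_nonneg_right (h s hs.1 hs.2) (nr_nonneg _ _)

/-- `car1` for `y`, and for the differences `y (· + s e) - y` (`WD.translate`). -/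
theorem sys_h1 (ι : Type) [Fintype ι] (R L : ℝ) {δ : ℝ} (hδ : 0 < δ) :
    ∃ C : ℝ, 0 ≤ C ∧ ∀ θ : C3, δ ≤ n2 θ → ∀ (M : ι → ι → R3 → ℂ) (F y : ι → R3 → ℂ),
      (∀ i j, BL L (M i j)) → (∀ i, BL L (F i)) → (∀ i, Van (closedBall 0 R) (F i)) →
      (∀ i, L2 univ (y i)) → (∀ i, Van (closedBall 0 R) (y i)) →
      (∀ i, WD univ θ (y i) fun x => ∑ j, M i j x * y j x + F i x) →
      ∃ G : ι → Fin 3 → R3 → ℂ, ∀ i, H1 univ (y i) (G i) ∧ nr univ (y i) ≤ C ∧
        ∀ k, nr univ (G i k) ≤ C := by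
  obtain ⟨C₁, hC₁, hcar⟩ := car1 ι (R + 1) |L| hδ
  set b : R3 → ℝ := (closedBall (0 : R3) (R + 1)).indicator fun _ => 1 with hb
  have hb2 : L2 univ b := L2.indicator_univ measurableSet_closedBall
    (L2.of_continuous measurableSet_closedBall isBounded_closedBall continuous_const)
  have hB := nr_nonneg univ b
  have hL := abs_nonneg L
  have hsub : closedBall (0 : R3) R ⊆ closedBall 0 (R + 1) := closedBall_subset_closedBall (by linarith)
  have hbd : ∀ {f : R3 → ℂ} {c : ℝ}, Van (closedBall 0 (R + 1)) f → (∀ x, ‖f x‖ ≤ c) →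
      ∀ᵐ x : R3, ‖f x‖ ≤ c * b x := fun {f c} hv hc => by
    filter_upwards [hv] with x hx
    by_cases h : x ∈ closedBall (0 : R3) (R + 1)
    · rw [hb, indicator_of_mem h, mul_one]
      exact hc x
    · rw [hb, indicator_of_notMem h, mul_zero, hx h, norm_zero]
  set C₂ := C₁ * (|L| * nr univ b) with hC₂
  set C₃ := C₁ * (|L| * (Fintype.card ι * C₂ + nr univ b)) with hC₃
  have h2 : 0 ≤ C₂ := by positivity
  have h3 : 0 ≤ C₃ := by positivity
  refine ⟨C₂ + C₃, by positivity, fun θ hθ M F y hM hF hFv hy hv h => ?_⟩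
  replace hM : ∀ i j, BL |L| (M i j) := fun i j => (hM i j).mono (le_abs_self L)
  replace hF : ∀ i, BL |L| (F i) := fun i => (hF i).mono (le_abs_self L)
  have hFb : ∀ i, ∀ᵐ x : R3, ‖F i x‖ ≤ |L| * b x := fun i => hbd ((hFv i).mono hsub) (hF i).1
  have hF2 : ∀ i, L2 univ (F i) := fun i => L2.of_le' MeasurableSet.univ (hb2.rmul |L|)
    (hF i).continuous.aestronglyMeasurable ((hFb i).mono fun _ hx _ => hx)
  have hG2 : ∀ i, L2 univ fun x => ∑ j, M i j x * y j x + F i x := fun i =>
    (L2.sum' _ fun j _ => L2.bd_mul (hM i j).bd (hy j)).add' (hF2 i)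
  have hsum : ∀ (c z : ι → ℂ) (m : ℝ), (∀ j, ‖c j‖ ≤ m) → ‖∑ j, c j * z j‖ ≤ m * ∑ j, ‖z j‖ :=
    fun c z m hc => by
      rw [Finset.mul_sum]
      refine norm_sum_le_of_le _ fun j _ => ?_
      rw [norm_mul]
      exact mul_le_mul_of_nonneg_right (hc j) (norm_nonneg _)
  have hy1 : ∀ i, nr univ (y i) ≤ C₂ := fun i => by
    have := hcar θ hθ y _ (fun x => |L| * b x) hy hG2 h (fun i => (hv i).mono hsub) (hb2.rmul |L|)
      (by
        filter_upwards [ae_all_iff.2 hFb] with x hx i
        exact (norm_add_le _ _).trans (add_le_add (hsum _ _ _ fun j => (hM i j).1 x) (hx i))) i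
    rwa [nr_const_mul_real, abs_abs] at this
  have hs2 : L2 univ fun x => ∑ j, ‖y j x‖ := L2.sum' _ fun j _ => (hy j).norm'
  have hs3 : nr univ (fun x => ∑ j, ‖y j x‖ + b x) ≤ Fintype.card ι * C₂ + nr univ b := by
    refine (nr_add_le hs2 hb2).trans (add_le_add ((nr_sum_le _ fun j _ => (hy j).norm').trans ?_) le_rfl)
    rw [← Finset.card_univ, ← nsmul_eq_mul]
    exact Finset.sum_le_card_nsmul _ _ _ fun j _ => (nr_norm (hy j)).trans_le (hy1 j)
  have hdiff : ∀ (i : ι) (k : Fin 3) (s : ℝ), 0 < s → s ≤ 1 →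
      nr univ (fun x => y i (x + s • EuclideanSpace.single k 1) - y i x) ≤ C₃ * s := by
    intro i k s hs0 hs1
    set v : R3 := s • EuclideanSpace.single k 1 with hvd
    have hvn : ‖v‖ = s := by simp [hvd, norm_smul, abs_of_pos hs0]
    have hv1 : ‖v‖ ≤ 1 := hvn.trans_le hs1
    have hFd : ∀ i, ∀ᵐ x : R3, ‖F i (x + v) - F i x‖ ≤ |L| * s * b x := fun i =>
      hbd (((hFv i).translate hv1).sub ((hFv i).mono hsub)) fun x => by
        simpa only [add_sub_cancel_left, hvn] using (hF i).2 (x + v) x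
    have := hcar θ hθ (fun j x => y j (x + v) - y j x) _ (fun x => |L| * s * (∑ j, ‖y j x‖ + b x))
      (fun j => ((hy j).translate v).sub' (hy j)) (fun j => ((hG2 j).translate v).sub' (hG2 j))
      (fun j => ((h j).translate v).sub (h j) MeasurableSet.univ ((hy j).translate v)
        ((hG2 j).translate v) (hy j) (hG2 j))
      (fun j => ((hv j).translate hv1).sub ((hv j).mono hsub)) ((hs2.add' hb2).rmul _)
      (by
        filter_upwards [ae_all_iff.2 hFd] with x hx i
        have e : ∑ j, M i j (x + v) * y j (x + v) + F i (x + v) - (∑ j, M i j x * y j x + F i x) =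
            ∑ j, M i j (x + v) * (y j (x + v) - y j x) +
              (∑ j, (M i j (x + v) - M i j x) * y j x + (F i (x + v) - F i x)) := by
          simp only [mul_sub, sub_mul, Finset.sum_sub_distrib]
          ring
        rw [e, mul_add]
        refine (norm_add_le _ _).trans (add_le_add (hsum _ _ _ fun j => (hM i j).1 _)
          ((norm_add_le _ _).trans (add_le_add (hsum _ _ _ fun j => ?_) (hx i))))
        simpa only [add_sub_cancel_left, hvn] using (hM i j).2 (x + v) x) i
    rw [nr_const_mul_real, abs_of_nonneg (mul_nonneg hL hs0.le)] at this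
    refine this.trans ?_
    calc C₁ * (|L| * s * nr univ fun x => ∑ j, ‖y j x‖ + b x)
        ≤ C₁ * (|L| * s * (Fintype.card ι * C₂ + nr univ b)) := by gcongr
      _ = C₃ * s := by rw [hC₃]; ring
  choose G hG hGn hGw using fun i k => exists_WD_of_diff (hy i) k h3 (hdiff i k)
  exact ⟨G, fun i => ⟨⟨hy i, hG i, hGw i⟩, (hy1 i).trans (le_add_of_nonneg_right h3),
    fun k => (hGn i k).trans (le_add_of_nonneg_left h2)⟩⟩

end Crest.Agent.R80
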