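import Crest.Agent.R80.Calc2
import Crest.Agent.R80.CP

/-!
# Row 80: the twisted convolution `Sk`
-/

namespace Crest.Agent.R80

open MeasureTheory Set Metric Filter Topology Complex
open scoped ContDiff
open Crest.AnalysisR.VecCalc3 Crest.AnalysisR.PDE Crest.AnalysisR.PDE.Elasticity

variable {θ : C3} {x₀ : R3} {K : ℝ} {k : ℂ → ℂ} {f g : R3 → ℂ}

/-- `zc θ` as a continuous linear map. -/
noncomputable def Ker_zcL (θ : C3) : R3 →L[ℝ] ℂ :=
  ∑ i, (θ i / ((‖rp θ‖ ^ 2 : ℝ) : ℂ)) • (Complex.ofRealCLM.comp (EuclideanSpace.proj i))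

theorem Ker_zcL_apply (θ : C3) (x : R3) : Ker_zcL θ x = zc θ x := by
  unfold Ker_zcL zc
  rw [_root_.sum_apply, Finset.sum_div]
  refine Finset.sum_congr rfl fun i _ => ?_
  simp only [_root_.smul_apply, ContinuousLinearMap.comp_apply, smul_eq_mul,
    Complex.ofRealCLM_apply, EuclideanSpace.coe_proj]
  ring

theorem Ker_zc_eq (θ : C3) : zc θ = Ker_zcL θ := funext fun x => (Ker_zcL_apply θ x).symm

/-- the phase, as a linear function of the point. -/
noncomputable def Ker_ph (θ : C3) (K : ℝ) (t : ℂ) : R3 →L[ℝ] ℂ :=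
  t.im • ((I * K) • (Complex.ofRealCLM.comp (Complex.reCLM.comp (Ker_zcL θ)))) -
    t.re • ((I * K) • (Complex.ofRealCLM.comp (Complex.imCLM.comp (Ker_zcL θ))))

theorem Ker_ph_apply (θ : C3) (K : ℝ) (t : ℂ) (y : R3) :
    Ker_ph θ K t y = I * K * ((starRingEnd ℂ (zc θ y) * t).im : ℂ) := by
  unfold Ker_ph
  simp only [_root_.sub_apply, _root_.smul_apply,
    ContinuousLinearMap.comp_apply, smul_eq_mul, Complex.ofRealCLM_apply, Complex.reCLM_apply,
    Complex.imCLM_apply, Ker_zcL_apply, Complex.mul_im, Complex.conj_re, Complex.conj_im,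
    Complex.real_smul]
  push_cast
  ring

theorem Ker_continuous_ph (θ : C3) (K : ℝ) : Continuous (Ker_ph θ K) := by
  unfold Ker_ph
  fun_prop

theorem Ker_norm_ph (θ : C3) (K : ℝ) : ∃ C : ℝ, 0 ≤ C ∧ ∀ t, ‖Ker_ph θ K t‖ ≤ C * ‖t‖ := by
  refine ⟨‖(I * K) • (Complex.ofRealCLM.comp (Complex.reCLM.comp (Ker_zcL θ)))‖ +
    ‖(I * K) • (Complex.ofRealCLM.comp (Complex.imCLM.comp (Ker_zcL θ)))‖, by positivity,
    fun t => ?_⟩
  unfold Ker_ph
  refine (norm_sub_le _ _).trans ?_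
  rw [norm_smul, norm_smul t.re, Real.norm_eq_abs, Real.norm_eq_abs, add_mul]
  refine add_le_add ?_ ?_
  · rw [mul_comm]
    exact mul_le_mul_of_nonneg_left (Complex.abs_im_le_norm t) (norm_nonneg _)
  · rw [mul_comm]
    exact mul_le_mul_of_nonneg_left (Complex.abs_re_le_norm t) (norm_nonneg _)

theorem Ker_shift {L : R3 →L[ℝ] ℂ} {x v : R3} (h : HasFDerivAt f L (x - v)) :
    HasFDerivAt (fun y => f (y - v)) L x :=
  (h.comp x ((hasFDerivAt_id x).sub_const v)).congr_fderiv (L.comp_id)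

theorem Ker_norm_exp (K r : ℝ) : ‖Complex.exp (I * K * (r : ℂ))‖ = 1 := by
  rw [Complex.norm_exp]
  simp

theorem contDiff_zc (n : WithTop ℕ∞) (θ : C3) : ContDiff ℝ n (zc θ) := by
  rw [Ker_zc_eq]
  exact (Ker_zcL θ).contDiff

theorem zc_add (θ : C3) (x y : R3) : zc θ (x + y) = zc θ x + zc θ y := by
  simp only [← Ker_zcL_apply, map_add]

theorem zc_sub (θ : C3) (x y : R3) : zc θ (x - y) = zc θ x - zc θ y := by
  simp only [← Ker_zcL_apply, map_sub]

theorem pd_zc (θ : C3) (x₀ : R3) (i : Fin 3) (x : R3) :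
    pd i (fun y => zc θ (y - x₀)) x = zc θ (EuclideanSpace.single i 1) := by
  have h : HasFDerivAt (fun y => zc θ (y - x₀)) (Ker_zcL θ) x := by
    rw [Ker_zc_eq]
    exact Ker_shift (Ker_zcL θ).hasFDerivAt
  unfold pd
  rw [h.fderiv, Ker_zcL_apply]

theorem continuous_pl (θ : C3) : Continuous (pl θ) := by
  unfold pl
  fun_prop

theorem Ker_norm_le {M : ℝ} (hb : ∀ x, ‖f x‖ ≤ M) (x : R3) (t : ℂ) :
    ‖k t * Complex.exp (I * K * ((starRingEnd ℂ (zc θ (x - x₀)) * t).im : ℂ)) * f (x - pl θ t)‖ ≤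
      ‖k t‖ * M := by
  rw [norm_mul, norm_mul, Ker_norm_exp, mul_one]
  exact mul_le_mul_of_nonneg_left (hb _) (norm_nonneg _)

theorem Ker_cont_exp (θ : C3) (K : ℝ) (y : R3) :
    Continuous fun t : ℂ => Complex.exp (I * K * ((starRingEnd ℂ (zc θ y) * t).im : ℂ)) := by
  fun_prop

theorem Ker_meas (hk : Integrable k) (hf : Continuous f) (x : R3) :
    AEStronglyMeasurable (fun t : ℂ => k t *
      Complex.exp (I * K * ((starRingEnd ℂ (zc θ (x - x₀)) * t).im : ℂ)) * f (x - pl θ t)) volume :=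
  (hk.aestronglyMeasurable.mul (Ker_cont_exp θ K _).aestronglyMeasurable).mul
    (hf.comp (continuous_const.sub (continuous_pl θ))).aestronglyMeasurable

theorem integrable_Sk (hk : Integrable k) (hf : Continuous f) {M : ℝ} (hb : ∀ x, ‖f x‖ ≤ M) (x : R3) :
    Integrable fun t : ℂ => k t *
      Complex.exp (I * K * ((starRingEnd ℂ (zc θ (x - x₀)) * t).im : ℂ)) * f (x - pl θ t) := by
  exact (hk.norm.mul_const M).mono' (Ker_meas hk hf x) (Eventually.of_forall fun t => Ker_norm_le hb x t)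

theorem norm_Sk_le (hk : Integrable k) {M : ℝ} (hb : ∀ x, ‖f x‖ ≤ M) (x : R3) :
    ‖Sk θ x₀ K k f x‖ ≤ (∫ t, ‖k t‖) * M := by
  rw [← integral_mul_const]
  exact norm_integral_le_of_norm_le (hk.norm.mul_const M)
    (Eventually.of_forall fun t => Ker_norm_le hb x t)

theorem continuous_Sk (hk : Integrable k) (hf : Continuous f) {M : ℝ} (hb : ∀ x, ‖f x‖ ≤ M) :
    Continuous (Sk θ x₀ K k f) := by
  unfold Sk
  refine continuous_of_dominated (bound := fun t => ‖k t‖ * M) (fun x => Ker_meas hk hf x)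
    (fun x => Eventually.of_forall fun t => Ker_norm_le hb x t) (hk.norm.mul_const M)
    (Eventually.of_forall fun t => ?_)
  have hz : Continuous (zc θ) := (contDiff_zc 0 θ).continuous
  fun_prop

theorem Sk_add (hk : Integrable k) (hf : Continuous f) (hg : Continuous g) {M M' : ℝ}
    (hb : ∀ x, ‖f x‖ ≤ M) (hb' : ∀ x, ‖g x‖ ≤ M') (x : R3) :
    Sk θ x₀ K k (fun y => f y + g y) x = Sk θ x₀ K k f x + Sk θ x₀ K k g x := by
  unfold Sk
  rw [← integral_add (integrable_Sk hk hf hb x) (integrable_Sk hk hg hb' x)]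
  simp only [mul_add]

theorem Sk_sub (hk : Integrable k) (hf : Continuous f) (hg : Continuous g) {M M' : ℝ}
    (hb : ∀ x, ‖f x‖ ≤ M) (hb' : ∀ x, ‖g x‖ ≤ M') (x : R3) :
    Sk θ x₀ K k (fun y => f y - g y) x = Sk θ x₀ K k f x - Sk θ x₀ K k g x := by
  unfold Sk
  rw [← integral_sub (integrable_Sk hk hf hb x) (integrable_Sk hk hg hb' x)]
  simp only [mul_sub]

theorem integrable_k1 (hk1 : Integrable fun t => t * k t) (hk : Integrable k) (i : Fin 3) :
    Integrable (k1 θ K i k) := by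
  obtain ⟨C, -, hC⟩ := Ker_norm_ph θ K
  have he : k1 θ K i k = fun t => k t * Ker_ph θ K t (EuclideanSpace.single i 1) := by
    funext t
    rw [Ker_ph_apply]
    rfl
  rw [he]
  refine (hk1.norm.mul_const C).mono' (hk.aestronglyMeasurable.mul
    ((Ker_continuous_ph θ K).clm_apply continuous_const).aestronglyMeasurable)
    (Eventually.of_forall fun t => ?_)
  have h1 : ‖Ker_ph θ K t (EuclideanSpace.single i 1)‖ ≤ C * ‖t‖ := by
    refine ((Ker_ph θ K t).le_opNorm _).trans ?_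
    simpa using hC t
  rw [norm_mul, norm_mul]
  nlinarith [mul_le_mul_of_nonneg_left h1 (norm_nonneg (k t))]

/-- the derivative of the integrand. -/
noncomputable def Ker_D (θ : C3) (x₀ : R3) (K : ℝ) (k : ℂ → ℂ) (f : R3 → ℂ) (x : R3) (t : ℂ) :
    R3 →L[ℝ] ℂ :=
  (k t * Complex.exp (I * K * ((starRingEnd ℂ (zc θ (x - x₀)) * t).im : ℂ))) •
    (fderiv ℝ f (x - pl θ t) + f (x - pl θ t) • Ker_ph θ K t)

theorem Ker_hasFDerivAt (hf : ContDiff ℝ 1 f) (x : R3) (t : ℂ) :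
    HasFDerivAt (fun x => k t *
      Complex.exp (I * K * ((starRingEnd ℂ (zc θ (x - x₀)) * t).im : ℂ)) * f (x - pl θ t))
      (Ker_D θ x₀ K k f x t) x := by
  have h1 : HasFDerivAt (fun y => Ker_ph θ K t (y - x₀)) (Ker_ph θ K t) x := by
    exact Ker_shift (Ker_ph θ K t).hasFDerivAt
  have h2 : HasFDerivAt (fun y => f (y - pl θ t)) (fderiv ℝ f (x - pl θ t)) x := by
    exact Ker_shift ((hf.differentiable (by norm_num)) (x - pl θ t)).hasFDerivAt
  have h3 := (h1.cexp.const_mul (k t)).mul h2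
  simp only [Ker_ph_apply] at h3
  refine h3.congr_fderiv ?_
  unfold Ker_D
  ext v
  simp only [_root_.add_apply, _root_.smul_apply, smul_eq_mul]
  ring

theorem Ker_D_meas (hk : Integrable k) (hf : ContDiff ℝ 1 f) (x : R3) :
    AEStronglyMeasurable (Ker_D θ x₀ K k f x) volume := by
  have hp : Continuous fun t => x - pl θ t := continuous_const.sub (continuous_pl θ)
  exact (hk.aestronglyMeasurable.mul (Ker_cont_exp θ K _).aestronglyMeasurable).smul
    (((hf.continuous_fderiv (by norm_num)).comp hp).add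
      ((hf.continuous.comp hp).smul (Ker_continuous_ph θ K))).aestronglyMeasurable

theorem Ker_D_norm {M₀ M₁ C : ℝ} (h0 : ∀ x, ‖f x‖ ≤ M₀) (h1 : ∀ i x, ‖pd i f x‖ ≤ M₁)
    (hC : ∀ t, ‖Ker_ph θ K t‖ ≤ C * ‖t‖) (x : R3) (t : ℂ) :
    ‖Ker_D θ x₀ K k f x t‖ ≤ ‖k t‖ * (3 * M₁) + ‖t * k t‖ * (M₀ * C) := by
  unfold Ker_D
  rw [norm_smul, norm_mul, Ker_norm_exp, mul_one, norm_mul]
  have h2 : ‖fderiv ℝ f (x - pl θ t)‖ ≤ 3 * M₁ := by
    refine (norm_fderiv_le_sum f _).trans ?_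
    rw [Fin.sum_univ_three]
    linarith [h1 0 (x - pl θ t), h1 1 (x - pl θ t), h1 2 (x - pl θ t)]
  have h3 : ‖f (x - pl θ t) • Ker_ph θ K t‖ ≤ M₀ * (C * ‖t‖) := by
    rw [norm_smul]
    exact mul_le_mul (h0 _) (hC t) (norm_nonneg _) ((norm_nonneg _).trans (h0 0))
  have h4 := (norm_add_le _ _).trans (add_le_add h2 h3)
  nlinarith [mul_le_mul_of_nonneg_left h4 (norm_nonneg (k t))]

/-- differentiation under the integral (`hasFDerivAt_integral_of_dominated_of_fderiv_le`). -/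
theorem Sk_pd (hk : Integrable k) (hk1 : Integrable fun t => t * k t) (hf : ContDiff ℝ 1 f)
    {M₀ M₁ : ℝ} (h0 : ∀ x, ‖f x‖ ≤ M₀) (h1 : ∀ i x, ‖pd i f x‖ ≤ M₁) :
    Differentiable ℝ (Sk θ x₀ K k f) ∧
      ∀ i x, pd i (Sk θ x₀ K k f) x = Sk θ x₀ K k (pd i f) x + Sk θ x₀ K (k1 θ K i k) f x := by
  obtain ⟨C, -, hC⟩ := Ker_norm_ph θ K
  have hb : Integrable fun t => ‖k t‖ * (3 * M₁) + ‖t * k t‖ * (M₀ * C) :=
    (hk.norm.mul_const _).add (hk1.norm.mul_const _)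
  have hD : ∀ x, HasFDerivAt (Sk θ x₀ K k f) (∫ t, Ker_D θ x₀ K k f x t) x := by
    intro x
    unfold Sk
    exact hasFDerivAt_integral_of_dominated_of_fderiv_le (s := univ) (F' := Ker_D θ x₀ K k f)
      univ_mem (Eventually.of_forall fun y => Ker_meas hk hf.continuous y)
      (integrable_Sk hk hf.continuous h0 x) (Ker_D_meas hk hf x)
      (Eventually.of_forall fun t y _ => Ker_D_norm h0 h1 hC y t) hb
      (Eventually.of_forall fun t y _ => Ker_hasFDerivAt hf y t)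
  refine ⟨fun x => (hD x).differentiableAt, fun i x => ?_⟩
  have hI : Integrable (Ker_D θ x₀ K k f x) :=
    hb.mono' (Ker_D_meas hk hf x) (Eventually.of_forall fun t => Ker_D_norm h0 h1 hC x t)
  have e : pd i (Sk θ x₀ K k f) x = ∫ t, Ker_D θ x₀ K k f x t (EuclideanSpace.single i 1) := by
    rw [← ContinuousLinearMap.integral_apply hI, ← (hD x).fderiv]
    rfl
  rw [e]
  unfold Sk
  rw [← integral_add (integrable_Sk hk (continuous_pd i hf) (h1 i) x)
    (integrable_Sk (integrable_k1 hk1 hk i) hf.continuous h0 x)]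
  refine integral_congr_ae (Eventually.of_forall fun t => ?_)
  simp only [Ker_D, k1, pd, _root_.add_apply, _root_.smul_apply,
    smul_eq_mul, Ker_ph_apply]
  ring

theorem Ker_contDiff_one (hk : Integrable k) (hk1 : Integrable fun t => t * k t)
    (hf : ContDiff ℝ 1 f) {M₀ M₁ : ℝ} (h0 : ∀ x, ‖f x‖ ≤ M₀) (h1 : ∀ i x, ‖pd i f x‖ ≤ M₁) :
    ContDiff ℝ 1 (Sk θ x₀ K k f) := by
  obtain ⟨hd, he⟩ := Sk_pd (θ := θ) (x₀ := x₀) (K := K) hk hk1 hf h0 h1
  have h := contDiff_succ_of_pd (n := 0) hd fun i => by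
    rw [show pd i (Sk θ x₀ K k f) = _ from funext (he i)]
    exact contDiff_zero.2 ((continuous_Sk hk (continuous_pd i hf) (h1 i)).add
      (continuous_Sk (integrable_k1 hk1 hk i) hf.continuous h0))
  simpa using h

theorem Ker_integrable_mul_k1 (hk1 : Integrable fun t => t * k t)
    (hk2 : Integrable fun t => t ^ 2 * k t) (i : Fin 3) :
    Integrable fun t => t * k1 θ K i k t := by
  have h := integrable_k1 (θ := θ) (K := K) (k := fun t => t * k t)
    (by simpa only [← mul_assoc, ← sq] using hk2) hk1 i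
  refine h.congr (Eventually.of_forall fun t => ?_)
  simp only [k1]
  ring

/-- apply `Sk_pd` twice (`contDiff_succ_of_pd`). -/
theorem Sk_bd2 (θ : C3) (x₀ : R3) (K : ℝ) (hk : Integrable k) (hk1 : Integrable fun t => t * k t)
    (hk2 : Integrable fun t => t ^ 2 * k t) :
    ∃ b : ℝ, 0 ≤ b ∧ ∀ (f : R3 → ℂ) (M₀ M₁ M₂ : ℝ), Bd2 f M₀ M₁ M₂ →
      Bd2 (Sk θ x₀ K k f) ((∫ t, ‖k t‖) * M₀) ((∫ t, ‖k t‖) * M₁ + b * M₀)
        ((∫ t, ‖k t‖) * M₂ + b * M₁ + b * M₀) := by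
  have hi1 : ∀ i, Integrable (k1 θ K i k) := fun i => integrable_k1 hk1 hk i
  have hi1' : ∀ i, Integrable fun t => t * k1 θ K i k t := fun i => Ker_integrable_mul_k1 hk1 hk2 i
  have hi2 : ∀ i j, Integrable (k1 θ K i (k1 θ K j k)) := fun i j => integrable_k1 (hi1' j) (hi1 j) i
  obtain ⟨u, hu⟩ : ∃ u : Fin 3 → ℝ, u = fun i => ∫ t, ‖k1 θ K i k t‖ := ⟨_, rfl⟩
  obtain ⟨v, hv⟩ : ∃ v : Fin 3 × Fin 3 → ℝ, v = fun q => ∫ t, ‖k1 θ K q.1 (k1 θ K q.2 k) t‖ :=
    ⟨_, rfl⟩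
  have hu0 : ∀ i, 0 ≤ u i := fun i => by rw [hu]; exact integral_nonneg fun _ => norm_nonneg _
  have hv0 : ∀ q, 0 ≤ v q := fun q => by rw [hv]; exact integral_nonneg fun _ => norm_nonneg _
  have hus : ∀ i, u i ≤ ∑ i, u i := fun i =>
    Finset.single_le_sum (fun i _ => hu0 i) (Finset.mem_univ i)
  have hvs : ∀ q, v q ≤ ∑ q, v q := fun q =>
    Finset.single_le_sum (fun q _ => hv0 q) (Finset.mem_univ q)
  have hU : 0 ≤ ∑ i, u i := Finset.sum_nonneg fun i _ => hu0 i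
  have hV : 0 ≤ ∑ q, v q := Finset.sum_nonneg fun q _ => hv0 q
  refine ⟨2 * ∑ i, u i + ∑ q, v q, by positivity, fun f M₀ M₁ M₂ hf => ?_⟩
  have hf1 : ContDiff ℝ 1 f := hf.cd.of_le (by norm_num)
  have hp1 : ∀ i, ContDiff ℝ 1 (pd i f) := fun i => contDiff_pd i hf.cd (by norm_num)
  have hM0 : 0 ≤ M₀ := (norm_nonneg _).trans (hf.b0 0)
  have hM1 : 0 ≤ M₁ := (norm_nonneg _).trans (hf.b1 0 0)
  obtain ⟨hd, he⟩ := Sk_pd (θ := θ) (x₀ := x₀) (K := K) hk hk1 hf1 hf.b0 hf.b1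
  have he' : ∀ i, pd i (Sk θ x₀ K k f) =
      fun x => Sk θ x₀ K k (pd i f) x + Sk θ x₀ K (k1 θ K i k) f x := fun i => funext (he i)
  refine ⟨?_, fun x => norm_Sk_le hk hf.b0 x, fun i x => ?_, fun i j x => ?_⟩
  · have h := contDiff_succ_of_pd (n := 1) hd fun i => by
      rw [he' i]
      exact (Ker_contDiff_one hk hk1 (hp1 i) (hf.b1 i) fun j => hf.b2 j i).add
        (Ker_contDiff_one (hi1 i) (hi1' i) hf1 hf.b0 hf.b1)
    exact h
  · rw [he i x]
    refine (norm_add_le _ _).trans (add_le_add (norm_Sk_le hk (hf.b1 i) x)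
      ((norm_Sk_le (hi1 i) hf.b0 x).trans (mul_le_mul_of_nonneg_right ?_ hM0)))
    have := hus i
    rw [hu] at this ⊢
    simp only at this ⊢
    rw [hu] at hU
    linarith
  · obtain ⟨hd1, he1⟩ := Sk_pd (θ := θ) (x₀ := x₀) (K := K) hk hk1 (hp1 j) (hf.b1 j)
      fun i => hf.b2 i j
    obtain ⟨hd2, he2⟩ := Sk_pd (θ := θ) (x₀ := x₀) (K := K) (hi1 j) (hi1' j) hf1 hf.b0 hf.b1
    rw [he' j, pd_add i (hd1 x) (hd2 x), he1 i x, he2 i x]
    have a1 := norm_Sk_le (θ := θ) (x₀ := x₀) (K := K) hk (hf.b2 i j) x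
    have a2 : ‖Sk θ x₀ K (k1 θ K i k) (pd j f) x‖ ≤ u i * M₁ := by
      rw [hu]
      exact norm_Sk_le (hi1 i) (hf.b1 j) x
    have a3 : ‖Sk θ x₀ K (k1 θ K j k) (pd i f) x‖ ≤ u j * M₁ := by
      rw [hu]
      exact norm_Sk_le (hi1 j) (hf.b1 i) x
    have a4 : ‖Sk θ x₀ K (k1 θ K i (k1 θ K j k)) f x‖ ≤ v (i, j) * M₀ := by
      rw [hv]
      exact norm_Sk_le (hi2 i j) hf.b0 x
    have b1 : (u i + u j) * M₁ ≤ (2 * ∑ i, u i + ∑ q, v q) * M₁ :=
      mul_le_mul_of_nonneg_right (by linarith [hus i, hus j]) hM1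
    have b2 : v (i, j) * M₀ ≤ (2 * ∑ i, u i + ∑ q, v q) * M₀ :=
      mul_le_mul_of_nonneg_right (by linarith [hvs (i, j)]) hM0
    refine (norm_add_le _ _).trans ((add_le_add (norm_add_le _ _) (norm_add_le _ _)).trans ?_)
    linarith

end Crest.Agent.R80
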