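import Crest.Agent.R80.Ker

/-!
# Row 80: `Sk` inverts `θ · ∇`
-/

namespace Crest.Agent.R80

open MeasureTheory Set Metric Filter Topology Complex
open scoped ContDiff
open Crest.AnalysisR.VecCalc3 Crest.AnalysisR.PDE Crest.AnalysisR.PDE.Elasticity

variable {θ : C3}

theorem KerD_ne (hθ : Null θ) (h0 : θ ≠ 0) : ((‖rp θ‖ ^ 2 : ℝ) : ℂ) ≠ 0 :=
  ofReal_ne_zero.2 (pow_ne_zero 2 (norm_ne_zero_iff.2 (hθ.rp_ne_zero h0)))

theorem KerD_conj (hθ : Null θ) :
    ∑ i, θ i * starRingEnd ℂ (θ i) = 2 * ((‖rp θ‖ ^ 2 : ℝ) : ℂ) := by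
  have h := congrArg (fun r : ℝ => (r : ℂ)) hθ.n2_eq
  simp only [n2, ofReal_sum, ofReal_mul, ofReal_ofNat] at h
  rw [← h]
  exact Finset.sum_congr rfl fun i _ => by rw [mul_conj, normSq_eq_norm_sq]

theorem KerD_single (θ : C3) (i : Fin 3) :
    zc θ (EuclideanSpace.single i 1) = θ i / ((‖rp θ‖ ^ 2 : ℝ) : ℂ) := by
  unfold zc
  congr 1
  rw [Finset.sum_eq_single i]
  · simp
  · intro j _ hj
    simp [hj]
  · simp

theorem zc_pl (hθ : Null θ) (h0 : θ ≠ 0) (t : ℂ) : zc θ (pl θ t) = t := by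
  have h1 := KerD_conj hθ
  have h2 : ∑ i, θ i * θ i = 0 := hθ
  have h3 : ∀ i, ((pl θ t i : ℝ) : ℂ) =
      (starRingEnd ℂ t * θ i + t * starRingEnd ℂ (θ i)) / 2 := fun i => by
    apply Complex.ext
    · simp [pl, rp, ip]
    · simp [pl, rp, ip]
      ring
  rw [zc, div_eq_iff (KerD_ne hθ h0)]
  simp only [h3, Fin.sum_univ_three] at h1 h2 ⊢
  linear_combination (starRingEnd ℂ t / 2) * h2 + (t / 2) * h1

theorem dv_zc (hθ : Null θ) (x₀ x : R3) : dv θ (fun y => zc θ (y - x₀)) x = 0 := by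
  have h2 : ∑ i, θ i * θ i = 0 := hθ
  simp only [dv, pd_zc, KerD_single, ← mul_div_assoc]
  rw [← Finset.sum_div, h2, zero_div]

theorem dv_conj_zc (hθ : Null θ) (h0 : θ ≠ 0) (x₀ x : R3) :
    dv θ (fun y => starRingEnd ℂ (zc θ (y - x₀))) x = 2 := by
  simp only [dv, pd_conj, pd_zc, KerD_single, map_div₀, conj_ofReal, ← mul_div_assoc]
  rw [← Finset.sum_div, KerD_conj hθ, mul_div_assoc, div_self (KerD_ne hθ h0), mul_one]

theorem KerD_gw (θ : C3) (x₀ : R3) (K : ℝ) : gw θ x₀ K = fun x =>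
    Complex.exp ((K / 2 : ℂ) * (zc θ (x - x₀) * starRingEnd ℂ (zc θ (x - x₀)))) := by
  funext x
  rw [gw, ofReal_exp, mul_conj, normSq_eq_norm_sq]
  congr 1
  push_cast
  ring

theorem KerD_cd (n : WithTop ℕ∞) (θ : C3) (x₀ : R3) : ContDiff ℝ n fun y => zc θ (y - x₀) :=
  (contDiff_zc n θ).comp (contDiff_id.sub contDiff_const)

theorem KerD_cd' (n : WithTop ℕ∞) (θ : C3) (x₀ : R3) :
    ContDiff ℝ n fun y => starRingEnd ℂ (zc θ (y - x₀)) :=
  conjCLE.contDiff.comp (KerD_cd n θ x₀)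

theorem contDiff_gw (n : WithTop ℕ∞) (θ : C3) (x₀ : R3) (K : ℝ) : ContDiff ℝ n (gw θ x₀ K) := by
  rw [KerD_gw]
  exact (contDiff_const.mul ((KerD_cd n θ x₀).mul (KerD_cd' n θ x₀))).cexp

theorem gw_self (θ : C3) (x₀ : R3) (K : ℝ) : gw θ x₀ K x₀ = 1 := by
  simp [gw, zc]

theorem gw_neg_mul (θ : C3) (x₀ : R3) (K : ℝ) (x : R3) : gw θ x₀ K x * gw θ x₀ (-K) x = 1 := by
  rw [gw, gw, ← ofReal_mul, ← Real.exp_add]
  have : K * ‖zc θ (x - x₀)‖ ^ 2 / 2 + -K * ‖zc θ (x - x₀)‖ ^ 2 / 2 = 0 := by ring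
  rw [this, Real.exp_zero, ofReal_one]

theorem norm_gw_neg_le (θ : C3) (x₀ : R3) {K : ℝ} (hK : 0 ≤ K) (x : R3) : ‖gw θ x₀ (-K) x‖ ≤ 1 := by
  rw [gw, norm_real, Real.norm_of_nonneg (Real.exp_pos _).le, Real.exp_le_one_iff]
  nlinarith [mul_nonneg hK (sq_nonneg ‖zc θ (x - x₀)‖)]

theorem dv_gw (hθ : Null θ) (h0 : θ ≠ 0) (x₀ : R3) (K : ℝ) (x : R3) :
    dv θ (gw θ x₀ K) x = K * zc θ (x - x₀) * gw θ x₀ K x := by
  have h1 := (KerD_cd 1 θ x₀).differentiable one_ne_zero x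
  have h2 := (KerD_cd' 1 θ x₀).differentiable one_ne_zero x
  rw [KerD_gw, dv_cexp θ ((h1.fun_mul h2).const_mul _), dv_const_mul θ _ (h1.fun_mul h2),
    dv_mul θ h1 h2, dv_zc hθ, dv_conj_zc hθ h0]
  ring

theorem KerD_k1 (hθ : Null θ) (h0 : θ ≠ 0) (K : ℝ) (k : ℂ → ℂ) (t : ℂ) :
    ∑ i, θ i * k1 θ K i k t = K * t * k t := by
  have h1 := KerD_conj hθ
  have h2 : ∑ i, θ i * θ i = 0 := hθ
  have h3 := KerD_ne hθ h0
  simp only [k1, KerD_single, im_eq_sub_conj, map_mul, map_div₀, conj_conj, conj_ofReal,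
    Fin.sum_univ_three] at h1 h2 ⊢
  generalize ((‖rp θ‖ ^ 2 : ℝ) : ℂ) = N at *
  field_simp
  linear_combination (k t * K * t) * h1 - (k t * K * starRingEnd ℂ t) * h2

/-- the plane as a linear map -/
noncomputable def KerD_pl (θ : C3) : ℂ →L[ℝ] R3 := reCLM.smulRight (rp θ) + imCLM.smulRight (ip θ)

theorem KerD_pl_eq (θ : C3) (t : ℂ) : KerD_pl θ t = pl θ t := by
  simp [KerD_pl, pl]

/-- the exponent -/
noncomputable def KerD_ph (z : ℂ) (K : ℝ) (t : ℂ) : ℂ :=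
  I * K * (z.re * (ofRealCLM.comp imCLM) t - z.im * (ofRealCLM.comp reCLM) t) -
    K / 2 * ((ofRealCLM.comp reCLM) t * (ofRealCLM.comp reCLM) t +
      (ofRealCLM.comp imCLM) t * (ofRealCLM.comp imCLM) t)

theorem KerD_ph_cd (z : ℂ) (K : ℝ) : ContDiff ℝ 1 (KerD_ph z K) := by
  unfold KerD_ph
  fun_prop

theorem KerD_ph_eq (z : ℂ) (K : ℝ) (t : ℂ) : Complex.exp (KerD_ph z K t) =
    (Real.exp (-K * ‖t‖ ^ 2 / 2) : ℂ) * Complex.exp (I * K * ((starRingEnd ℂ z * t).im : ℂ)) := by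
  rw [ofReal_exp, ← Complex.exp_add, ← normSq_eq_norm_sq, normSq_apply]
  congr 1
  simp [KerD_ph]
  ring

theorem KerD_ph_deriv (z : ℂ) (K : ℝ) (t : ℂ) :
    fderiv ℝ (KerD_ph z K) t 1 + I * fderiv ℝ (KerD_ph z K) t I = -(K * z + K * t) := by
  have hr := (ofRealCLM.comp reCLM).hasFDerivAt (x := t)
  have hi := (ofRealCLM.comp imCLM).hasFDerivAt (x := t)
  have h := (((hi.const_mul (z.re : ℂ)).sub (hr.const_mul (z.im : ℂ))).const_mul (I * K)).sub
    (((hr.mul hr).add (hi.mul hi)).const_mul (K / 2 : ℂ))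
  have h' : HasFDerivAt (KerD_ph z K) _ t := h
  rw [h'.fderiv]
  simp
  linear_combination (-K : ℂ) * (re_add_im z) + (-K : ℂ) * (re_add_im t) +
    (K * z.re : ℂ) * I_mul_I

theorem KerD_Phi (θ : C3) (z : ℂ) (K : ℝ) {g : R3 → ℂ} (hg : ContDiff ℝ 1 g) (x : R3) (t : ℂ) :
    fderiv ℝ (fun t => Complex.exp (KerD_ph z K t) * g (x - KerD_pl θ t)) t 1 +
      I * fderiv ℝ (fun t => Complex.exp (KerD_ph z K t) * g (x - KerD_pl θ t)) t I =
      -(Complex.exp (KerD_ph z K t) * ((K * z + K * t) * g (x - pl θ t) + dv θ g (x - pl θ t))) := by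
  have h1 := ((KerD_ph_cd z K).differentiable one_ne_zero t).hasFDerivAt.cexp
  have h2 := (hg.differentiable one_ne_zero (x - KerD_pl θ t)).hasFDerivAt.comp t
    ((KerD_pl θ).hasFDerivAt.const_sub x)
  have h : HasFDerivAt (fun t => Complex.exp (KerD_ph z K t) * g (x - KerD_pl θ t)) _ t := h1.mul h2
  have e1 : KerD_pl θ 1 = rp θ := by simp [KerD_pl]
  have e2 : KerD_pl θ I = ip θ := by simp [KerD_pl]
  rw [h.fderiv, dv_eq_fderiv, ← KerD_pl_eq]
  simp only [_root_.add_apply, _root_.smul_apply, ContinuousLinearMap.comp_apply, _root_.neg_apply,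
    smul_eq_mul, map_neg, e1, e2]
  linear_combination (Complex.exp (KerD_ph z K t) * g (x - KerD_pl θ t)) * KerD_ph_deriv z K t

theorem KerD_cp (hθ : Null θ) (h0 : θ ≠ 0) (z : ℂ) (K : ℝ) {g : R3 → ℂ} (hg : Tk 1 univ g) (x : R3) :
    ∫ t : ℂ, k0 K t * Complex.exp (I * K * ((starRingEnd ℂ z * t).im : ℂ)) *
      ((K * z + K * t) * g (x - pl θ t) + dv θ g (x - pl θ t)) = g x := by
  have hcd : ContDiff ℝ 1 fun t => Complex.exp (KerD_ph z K t) * g (x - KerD_pl θ t) :=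
    (KerD_ph_cd z K).cexp.mul (hg.cd.comp (contDiff_const.sub (KerD_pl θ).contDiff))
  have hcs : HasCompactSupport fun t => Complex.exp (KerD_ph z K t) * g (x - KerD_pl θ t) := by
    refine HasCompactSupport.intro (K := (fun y => zc θ (x - y)) '' tsupport g)
      (IsCompact.image hg.cs ((contDiff_zc 0 θ).continuous.comp (continuous_const.sub continuous_id)))
      fun t ht => ?_
    rw [image_eq_zero_of_notMem_tsupport (f := g) fun h => ht ⟨_, h, ?_⟩, mul_zero]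
    simp only [sub_sub_cancel, KerD_pl_eq, zc_pl hθ h0]
  have h := cauchy_pompeiu hcd hcs
  simp only [KerD_Phi θ z K hg.cd x] at h
  have hπ : (2 * Real.pi : ℂ) ≠ 0 := by simp
  have e0 : Complex.exp (KerD_ph z K 0) * g (x - KerD_pl θ 0) = g x := by simp [KerD_ph]
  rw [e0] at h
  calc _ = ∫ t : ℂ, -(2 * Real.pi : ℂ)⁻¹ * (-(Complex.exp (KerD_ph z K t) *
        ((K * z + K * t) * g (x - pl θ t) + dv θ g (x - pl θ t))) / t) := by
        refine integral_congr_ae (Eventually.of_forall fun t => ?_)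
        simp only [KerD_ph_eq, k0, div_eq_mul_inv, mul_inv]
        ring
    _ = g x := by
        rw [integral_const_mul, h]
        field_simp

/-- With `z = zc θ (x - x₀)` and `Φ t = e^{i K Im (z̄ t) - K|t|²/2} g (x - pl θ t)` (`C¹`, compact support) one has
`-(∂₁ + i∂₂) Φ = (K z + K t) Φ + e^{...} (D g)(x - pl θ t)`; by `Sk_pd`, `dv_gw` the left hand side is
`gw · (2π)⁻¹ ∫ -(∂₁ + i∂₂)Φ / t`; `cauchy_pompeiu`.  (`∑ θ i * k1 θ K i k t = K t k t`.) -/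
theorem dv_gw_Sk (hθ : Null θ) (h0 : θ ≠ 0) (x₀ : R3) {K : ℝ} (hK : 0 < K) {g : R3 → ℂ}
    (hg : Tk 1 univ g) (x : R3) :
    dv θ (fun y => gw θ x₀ K y * Sk θ x₀ K (k0 K) g y) x = gw θ x₀ K x * g x := by
  have hk := integrable_k0 hK
  have hk1 : Integrable fun t => t * k0 K t := by simpa using integrable_pow_mul_k0 hK 1
  obtain ⟨M₀, -, hM₀⟩ := hg.exists_bound
  have hp : ∀ i, Tk 0 univ (pd i g) := fun i => hg.pd (by norm_num) i
  choose M hM0 hM using fun i => (hp i).exists_bound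
  have hM₁ : ∀ i x, ‖pd i g x‖ ≤ ∑ j, M j := fun i x =>
    (hM i x).trans (Finset.single_le_sum (fun j _ => hM0 j) (Finset.mem_univ i))
  obtain ⟨hd, hpd⟩ := Sk_pd (θ := θ) (x₀ := x₀) (K := K) hk hk1 hg.cd hM₀ hM₁
  have i0 := integrable_Sk (θ := θ) (x₀ := x₀) (K := K) hk hg.continuous hM₀ x
  have i1 := fun i => integrable_Sk (θ := θ) (x₀ := x₀) (K := K) hk (hp i).continuous (hM i) x
  have i2 := fun i => integrable_Sk (θ := θ) (x₀ := x₀) (K := K)
    (integrable_k1 (θ := θ) (K := K) hk1 hk i) hg.continuous hM₀ x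
  have key : K * zc θ (x - x₀) * Sk θ x₀ K (k0 K) g x + dv θ (Sk θ x₀ K (k0 K) g) x = g x := by
    rw [← KerD_cp hθ h0 (zc θ (x - x₀)) K hg x, dv]
    simp only [hpd, Sk]
    have i3 := fun i => ((i1 i).add (i2 i)).const_mul (θ i)
    simp only [Pi.add_apply] at i3
    rw [← integral_const_mul, Finset.sum_congr rfl fun i _ => by
      rw [← integral_add (i1 i) (i2 i), ← integral_const_mul], ← integral_finsetSum _ fun i _ => i3 i,
      ← integral_add (i0.const_mul _) (integrable_finsetSum _ fun i _ => i3 i)]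
    refine integral_congr_ae (Eventually.of_forall fun t => ?_)
    have := KerD_k1 hθ h0 K (k0 K) t
    simp only [dv, Fin.sum_univ_three] at this ⊢
    linear_combination (Complex.exp (I * K * ((starRingEnd ℂ (zc θ (x - x₀)) * t).im : ℂ)) *
      g (x - pl θ t)) * this
  rw [dv_mul θ ((contDiff_gw 1 θ x₀ K).differentiable one_ne_zero x) (hd x), dv_gw hθ h0, ← key]
  ring

end Crest.Agent.R80
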