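import Crest.Agent.R80.Calc2

/-!
# Row 80: `L²` toolkit
-/

namespace Crest.Agent.R80

open MeasureTheory Set Metric Filter Topology Complex
open scoped ContDiff
open Crest.AnalysisR.VecCalc3 Crest.AnalysisR.PDE Crest.AnalysisR.PDE.Elasticity

variable {E F : Type*} [NormedAddCommGroup E] [NormedAddCommGroup F] {U V K : Set R3}
  {n : WithTop ℕ∞}

theorem ae_restrict_of (hU : MeasurableSet U) {p : R3 → Prop} (h : ∀ᵐ x : R3, x ∈ U → p x) :
    ∀ᵐ x ∂volume.restrict U, p x := by
  exact (ae_restrict_iff' hU).2 h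

theorem nr_nonneg (U : Set R3) (f : R3 → E) : 0 ≤ nr U f := by
  exact lpNorm_nonneg

@[simp] theorem nr_zero (U : Set R3) : nr U (fun _ => (0 : E)) = 0 := by
  exact lpNorm_fun_zero _ _

theorem nr_sq {f : R3 → E} (hf : L2 U f) : nr U f ^ 2 = ∫ x in U, ‖f x‖ ^ 2 := by
  unfold nr
  rw [lpNorm_eq_integral_norm_rpow_toReal (by norm_num) (by norm_num) hf.aestronglyMeasurable]
  have h0 : 0 ≤ ∫ x in U, ‖f x‖ ^ 2 := integral_nonneg fun x => sq_nonneg _
  simp only [ENNReal.toReal_ofNat, Real.rpow_ofNat]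
  rw [← Real.rpow_natCast, ← Real.rpow_mul h0]
  norm_num

theorem L2.integrableOn_sq {f : R3 → E} (hf : L2 U f) : IntegrableOn (fun x => ‖f x‖ ^ 2) U := by
  exact (memLp_two_iff_integrable_sq_norm hf.aestronglyMeasurable).1 hf

theorem nr_eq_norm_toLp {f : R3 → E} (hf : L2 U f) : nr U f = ‖hf.toLp f‖ := by
  rw [Lp.norm_toLp, toReal_eLpNorm hf.aestronglyMeasurable]
  rfl

theorem nr_add_le {f g : R3 → E} (hf : L2 U f) (hg : L2 U g) :
    nr U (fun x => f x + g x) ≤ nr U f + nr U g := by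
  exact lpNorm_add_le (g := g) hf (by norm_num)

theorem nr_sub_le {f g : R3 → E} (hf : L2 U f) (hg : L2 U g) :
    nr U (fun x => f x - g x) ≤ nr U f + nr U g := by
  exact lpNorm_sub_le (g := g) hf (by norm_num)

theorem nr_sub_comm (U : Set R3) (f g : R3 → E) :
    nr U (fun x => f x - g x) = nr U fun x => g x - f x := by
  exact lpNorm_sub_comm f g _ _

theorem nr_le_add_sub {f g : R3 → E} (hf : L2 U f) (hg : L2 U g) :
    nr U f ≤ nr U g + nr U fun x => f x - g x := by
  exact lpNorm_le_lpNorm_add_lpNorm_sub' (f := f) hg (by norm_num)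

theorem nr_neg (U : Set R3) (f : R3 → E) : nr U (fun x => -f x) = nr U f := by
  exact lpNorm_fun_neg f _ _

theorem nr_sum_le {ι : Type*} (s : Finset ι) {f : ι → R3 → E} (hf : ∀ k ∈ s, L2 U (f k)) :
    nr U (fun x => ∑ k ∈ s, f k x) ≤ ∑ k ∈ s, nr U (f k) := by
  have h := lpNorm_sum_le hf (by norm_num)
  have e : (fun x => ∑ k ∈ s, f k x) = ∑ k ∈ s, f k := by
    funext x
    rw [Finset.sum_apply]
  rw [e]
  exact h

theorem nr_const_mul (U : Set R3) (c : ℂ) (f : R3 → ℂ) : nr U (fun x => c * f x) = ‖c‖ * nr U f := by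
  exact lpNorm_const_smul c f _

theorem nr_const_mul_real (U : Set R3) (c : ℝ) (f : R3 → ℝ) :
    nr U (fun x => c * f x) = |c| * nr U f := by
  exact lpNorm_const_smul c f _

theorem nr_norm {f : R3 → E} (hf : L2 U f) : nr U (fun x => ‖f x‖) = nr U f := by
  exact lpNorm_norm hf.aestronglyMeasurable _

theorem L2_lpNorm_congr {μ : Measure R3} {f g : R3 → E} (h : f =ᵐ[μ] g) :
    lpNorm f 2 μ = lpNorm g 2 μ := by
  by_cases hf : AEStronglyMeasurable f μ
  · rw [← toReal_eLpNorm hf, ← toReal_eLpNorm (hf.congr h), eLpNorm_congr_ae h]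
  · rw [lpNorm_of_not_aestronglyMeasurable hf,
      lpNorm_of_not_aestronglyMeasurable fun h' => hf (h'.congr h.symm)]

theorem L2_lpNorm_mono {μ : Measure R3} {f : R3 → E} {g : R3 → ℝ} (hg : MemLp g 2 μ)
    (h : ∀ᵐ x ∂μ, ‖f x‖ ≤ g x) : lpNorm f 2 μ ≤ lpNorm g 2 μ := by
  by_cases hf : AEStronglyMeasurable f μ
  · rw [← toReal_eLpNorm hf, ← toReal_eLpNorm hg.aestronglyMeasurable]
    exact ENNReal.toReal_mono hg.eLpNorm_ne_top (eLpNorm_mono_ae_real h)
  · simp [hf]

theorem L2_finite (hb : Bornology.IsBounded U) : IsFiniteMeasure (volume.restrict U) :=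
  isFiniteMeasure_restrict.2 hb.measure_lt_top.ne

theorem L2_bound (hb : Bornology.IsBounded U) {f : R3 → E} (hf : Continuous f) :
    ∃ C, ∀ x ∈ U, ‖f x‖ ≤ C := by
  obtain ⟨C, hC⟩ := hb.isCompact_closure.exists_bound_of_continuousOn hf.continuousOn
  exact ⟨C, fun x hx => hC x (subset_closure hx)⟩

theorem nr_congr (hU : MeasurableSet U) {f g : R3 → E} (h : ∀ᵐ x : R3, x ∈ U → f x = g x) :
    nr U f = nr U g := by
  exact L2_lpNorm_congr (ae_restrict_of hU h)

theorem nr_le_of_le (hU : MeasurableSet U) {f : R3 → E} {g : R3 → ℝ} (hg : L2 U g)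
    (h : ∀ᵐ x : R3, x ∈ U → ‖f x‖ ≤ g x) : nr U f ≤ nr U g := by
  exact L2_lpNorm_mono hg (ae_restrict_of hU h)

theorem nr_le_mul_of_le (hU : MeasurableSet U) {f : R3 → E} {g : R3 → F} (hg : L2 U g) {C : ℝ}
    (hC : 0 ≤ C) (h : ∀ᵐ x : R3, x ∈ U → ‖f x‖ ≤ C * ‖g x‖) : nr U f ≤ C * nr U g := by
  have h1 := nr_le_of_le hU (g := fun x => C * ‖g x‖) (hg.norm.const_mul C) h
  rwa [nr_const_mul_real, nr_norm hg, abs_of_nonneg hC] at h1

theorem nr_mono_set (hUV : U ⊆ V) {f : R3 → E} (hf : L2 V f) : nr U f ≤ nr V f := by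
  have hle : volume.restrict U ≤ volume.restrict V := Measure.restrict_mono hUV le_rfl
  unfold nr
  rw [← toReal_eLpNorm hf.aestronglyMeasurable,
    ← toReal_eLpNorm (hf.mono_measure hle).aestronglyMeasurable]
  exact ENNReal.toReal_mono hf.eLpNorm_ne_top (eLpNorm_mono_measure f hle)

theorem ae_eq_zero_of_nr (hU : MeasurableSet U) {f : R3 → E} (hf : L2 U f) (h : nr U f ≤ 0) :
    ∀ᵐ x : R3, x ∈ U → f x = 0 := by
  have h0 : lpNorm f 2 (volume.restrict U) = 0 := le_antisymm h lpNorm_nonneg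
  exact (ae_restrict_iff' hU).1 ((lpNorm_eq_zero hf (by norm_num)).1 h0)

theorem nr_indicator (hK : MeasurableSet K) (f : R3 → E) : nr univ (K.indicator f) = nr K f := by
  unfold nr
  rw [Measure.restrict_univ]
  by_cases hf : AEStronglyMeasurable f (volume.restrict K)
  · rw [← toReal_eLpNorm hf, ← toReal_eLpNorm ((aestronglyMeasurable_indicator_iff hK).2 hf),
      eLpNorm_indicator_eq_eLpNorm_restrict hK]
  · rw [lpNorm_of_not_aestronglyMeasurable hf, lpNorm_of_not_aestronglyMeasurable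
      fun h' => hf ((aestronglyMeasurable_indicator_iff hK).1 h')]

theorem nr_translate (f : R3 → E) (v : R3) : nr univ (fun x => f (x + v)) = nr univ f := by
  unfold nr
  rw [Measure.restrict_univ]
  by_cases hf : AEStronglyMeasurable f volume
  · have hv := measurePreserving_add_right (volume : Measure R3) v
    rw [← toReal_eLpNorm hf, ← eLpNorm_comp_measurePreserving hf hv,
      toReal_eLpNorm (hf.comp_measurePreserving hv)]
    rfl
  · rw [lpNorm_of_not_aestronglyMeasurable hf, lpNorm_of_not_aestronglyMeasurable fun h' => hf ?_]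
    have h := h'.comp_measurePreserving (measurePreserving_add_right (volume : Measure R3) (-v))
    simpa [Function.comp_def] using h

/-- a bounded function on a bounded set. -/
theorem exists_nr_le_of_bounded (hU : MeasurableSet U) (hb : Bornology.IsBounded U) :
    ∃ C : ℝ, 0 ≤ C ∧ ∀ (f : R3 → ℂ) (M : ℝ), 0 ≤ M → (∀ᵐ x : R3, x ∈ U → ‖f x‖ ≤ M) → nr U f ≤ C * M := by
  have := L2_finite hb
  refine ⟨nr U fun _ => (1 : ℝ), nr_nonneg _ _, fun f M hM h => ?_⟩
  have h1 := nr_le_mul_of_le hU (f := f) (g := fun _ => (1 : ℝ)) (memLp_const 1) hM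
    (by simpa using h)
  rwa [mul_comm] at h1

namespace L2

theorem add' {f g : R3 → E} (hf : L2 U f) (hg : L2 U g) : L2 U fun x => f x + g x := by
  exact hf.add hg

theorem sub' {f g : R3 → E} (hf : L2 U f) (hg : L2 U g) : L2 U fun x => f x - g x := by
  exact hf.sub hg

theorem neg' {f : R3 → E} (hf : L2 U f) : L2 U fun x => -f x := by
  exact hf.neg

theorem zero' (U : Set R3) : L2 U fun _ => (0 : E) := by
  exact MemLp.zero'

theorem sum' {ι : Type*} (s : Finset ι) {f : ι → R3 → E} (hf : ∀ k ∈ s, L2 U (f k)) :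
    L2 U fun x => ∑ k ∈ s, f k x := by
  exact memLp_finsetSum s hf

theorem cmul (c : ℂ) {f : R3 → ℂ} (hf : L2 U f) : L2 U fun x => c * f x := by
  exact hf.const_mul c

theorem rmul (c : ℝ) {f : R3 → ℝ} (hf : L2 U f) : L2 U fun x => c * f x := by
  exact hf.const_mul c

theorem norm' {f : R3 → E} (hf : L2 U f) : L2 U fun x => ‖f x‖ := by
  exact hf.norm

theorem conj {f : R3 → ℂ} (hf : L2 U f) : L2 U fun x => starRingEnd ℂ (f x) := by
  exact (Complex.conjCLE : ℂ →L[ℝ] ℂ).comp_memLp' hf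

theorem re' {f : R3 → ℂ} (hf : L2 U f) : L2 U fun x => (f x).re := by
  exact Complex.reCLM.comp_memLp' hf

theorem im' {f : R3 → ℂ} (hf : L2 U f) : L2 U fun x => (f x).im := by
  exact Complex.imCLM.comp_memLp' hf

theorem ofReal' {f : R3 → ℝ} (hf : L2 U f) : L2 U fun x => (f x : ℂ) := by
  exact Complex.ofRealCLM.comp_memLp' hf

theorem congr' (hU : MeasurableSet U) {f g : R3 → E} (hf : L2 U f)
    (h : ∀ᵐ x : R3, x ∈ U → g x = f x) : L2 U g := by
  exact (memLp_congr_ae (ae_restrict_of hU h)).2 hf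

theorem of_le' (hU : MeasurableSet U) {f : R3 → E} {g : R3 → ℝ} (hg : L2 U g)
    (hf : AEStronglyMeasurable f (volume.restrict U)) (h : ∀ᵐ x : R3, x ∈ U → ‖f x‖ ≤ g x) :
    L2 U f := by
  exact hg.mono' hf (ae_restrict_of hU h)

theorem mono_set (hUV : U ⊆ V) {f : R3 → E} (hf : L2 V f) : L2 U f := by
  exact hf.mono_measure (Measure.restrict_mono hUV le_rfl)

/-- extension by zero. -/
theorem indicator_univ (hK : MeasurableSet K) {f : R3 → E} (hf : L2 K f) :
    L2 univ (K.indicator f) := by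
  unfold L2
  rw [Measure.restrict_univ]
  exact (memLp_indicator_iff_restrict hK).2 hf

theorem indicator' (hK : MeasurableSet K) {f : R3 → E} (hf : L2 U f) : L2 U (K.indicator f) := by
  exact hf.indicator hK

theorem translate {f : R3 → E} (hf : L2 univ f) (v : R3) : L2 univ fun x => f (x + v) := by
  unfold L2 at hf ⊢
  rw [Measure.restrict_univ] at hf ⊢
  exact hf.comp_measurePreserving (measurePreserving_add_right (volume : Measure R3) v)

theorem bd_mul {b f : R3 → ℂ} (hb : Bd b) (hf : L2 U f) : L2 U fun x => b x * f x := by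
  obtain ⟨hm, C, hC⟩ := hb
  refine hf.of_le_mul (c := C) (hm.restrict.mul hf.aestronglyMeasurable)
    (Eventually.of_forall fun x => ?_)
  rw [norm_mul]
  exact mul_le_mul_of_nonneg_right (hC x) (norm_nonneg _)

theorem mul_bd {b f : R3 → ℂ} (hf : L2 U f) (hb : Bd b) : L2 U fun x => f x * b x := by
  simpa only [mul_comm] using bd_mul hb hf

theorem cont_mul (hU : MeasurableSet U) (hb : Bornology.IsBounded U) {φ f : R3 → ℂ}
    (hφ : Continuous φ) (hf : L2 U f) : L2 U fun x => φ x * f x := by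
  obtain ⟨C, hC⟩ := L2_bound hb hφ
  refine hf.of_le_mul (c := C) (hφ.aestronglyMeasurable.mul hf.aestronglyMeasurable)
    (ae_restrict_of hU (Eventually.of_forall fun x hx => ?_))
  rw [norm_mul]
  exact mul_le_mul_of_nonneg_right (hC x hx) (norm_nonneg _)

theorem of_continuous (hU : MeasurableSet U) (hb : Bornology.IsBounded U) {f : R3 → E}
    (hf : Continuous f) : L2 U f := by
  obtain ⟨C, hC⟩ := L2_bound hb hf
  have := L2_finite hb
  exact MemLp.of_bound hf.aestronglyMeasurable C (ae_restrict_of hU (Eventually.of_forall hC))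

/-- multiplication by a test function supported in `U` gives a global `L²` function. -/
theorem tk_mul_univ (hU : MeasurableSet U) {φ f : R3 → ℂ} (hφ : Tk n U φ) (hf : L2 U f) :
    L2 univ fun x => φ x * f x := by
  obtain ⟨C, -, hC⟩ := hφ.exists_bound
  have h := indicator_univ hU (bd_mul ⟨hφ.continuous.aestronglyMeasurable, C, hC⟩ hf)
  have e : (U.indicator fun x => φ x * f x) = fun x => φ x * f x := by
    funext x
    by_cases hx : x ∈ U
    · rw [indicator_of_mem hx]
    · rw [indicator_of_notMem hx, hφ.eq_zero hx, zero_mul]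
  rwa [e] at h

theorem integrableOn_mul {f g : R3 → ℂ} (hf : L2 U f) (hg : L2 U g) :
    IntegrableOn (fun x => f x * g x) U := by
  exact MemLp.integrable_mul hf hg

theorem integrableOn_mul_real {f g : R3 → ℝ} (hf : L2 U f) (hg : L2 U g) :
    IntegrableOn (fun x => f x * g x) U := by
  exact MemLp.integrable_mul hf hg

theorem integrable_mul_tk (hU : MeasurableSet U) {f ψ : R3 → ℂ} (hf : L2 U f) (hψ : Tk n U ψ) :
    Integrable fun x => f x * ψ x := by
  have hψ2 : L2 U ψ := (hψ.continuous.memLp_of_hasCompactSupport hψ.cs).restrict U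
  refine (integrableOn_mul hf hψ2).integrable_of_forall_notMem_eq_zero fun x hx => ?_
  rw [hψ.eq_zero hx, mul_zero]

theorem amp (hU : MeasurableSet U) (hb : Bornology.IsBounded U) (τ : ℝ) (θ : C3) {f : R3 → ℂ}
    (hf : L2 U f) : L2 U (amp τ θ f) := by
  exact cont_mul hU hb (contDiff_ex 0 _).continuous hf

theorem ew_smul [NormedSpace ℝ E] (hU : MeasurableSet U) (hb : Bornology.IsBounded U) (β : R3)
    {f : R3 → E} (hf : L2 U f) : L2 U fun x => ew β x • f x := by
  obtain ⟨C, hC⟩ := L2_bound hb (continuous_ew β)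
  refine hf.of_le_mul (c := C) ((continuous_ew β).aestronglyMeasurable.smul hf.aestronglyMeasurable)
    (ae_restrict_of hU (Eventually.of_forall fun x hx => ?_))
  rw [norm_smul]
  exact mul_le_mul_of_nonneg_right (hC x hx) (norm_nonneg _)

theorem ew_smul_of_van [NormedSpace ℝ E] {R : ℝ} (β : R3) {f : R3 → E} (hf : L2 U f)
    (hv : Van (closedBall 0 R) f) : L2 U fun x => ew β x • f x := by
  obtain ⟨C, hC⟩ := L2_bound (isBounded_closedBall (x := (0 : R3)) (r := R)) (continuous_ew β)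
  refine hf.of_le_mul (c := C) ((continuous_ew β).aestronglyMeasurable.smul hf.aestronglyMeasurable)
    (ae_restrict_of_ae ?_)
  filter_upwards [hv] with x hx
  by_cases h : x ∈ closedBall (0 : R3) R
  · rw [norm_smul]
    exact mul_le_mul_of_nonneg_right (hC x h) (norm_nonneg _)
  · simp [hx h]

end L2

theorem Tk.l2 {ψ : R3 → ℂ} (h : Tk n V ψ) (U : Set R3) : L2 U ψ := by
  exact (h.continuous.memLp_of_hasCompactSupport h.cs).restrict U

theorem L2_cs {f : R3 → E} {g : R3 → F} (hf : L2 U f) (hg : L2 U g) :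
    ∫ x in U, ‖f x‖ * ‖g x‖ ≤ nr U f * nr U g := by
  have h := integral_mul_norm_le_Lp_mul_Lq (μ := volume.restrict U) Real.HolderConjugate.two_two
    (f := fun x => ‖f x‖) (g := fun x => ‖g x‖) (by simpa using hf.norm) (by simpa using hg.norm)
  unfold nr
  rw [lpNorm_eq_integral_norm_rpow_toReal (by norm_num) (by norm_num) hf.aestronglyMeasurable,
    lpNorm_eq_integral_norm_rpow_toReal (by norm_num) (by norm_num) hg.aestronglyMeasurable]
  simpa using h

/-- Cauchy-Schwarz. -/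
theorem norm_setIntegral_mul_le {f g : R3 → ℂ} (hf : L2 U f) (hg : L2 U g) :
    ‖∫ x in U, f x * g x‖ ≤ nr U f * nr U g := by
  refine (norm_integral_le_integral_norm _).trans ?_
  simpa only [norm_mul] using L2_cs hf hg

theorem abs_setIntegral_mul_le {f g : R3 → ℝ} (hf : L2 U f) (hg : L2 U g) :
    |∫ x in U, f x * g x| ≤ nr U f * nr U g := by
  rw [← Real.norm_eq_abs]
  refine (norm_integral_le_integral_norm _).trans ?_
  simpa only [norm_mul] using L2_cs hf hg

theorem integral_mul_tk_eq (hU : MeasurableSet U) (f : R3 → ℂ) {ψ : R3 → ℂ} (hψ : Tk n U ψ) :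
    ∫ x, f x * ψ x = ∫ x in U, f x * ψ x := by
  refine (setIntegral_eq_integral_of_forall_compl_eq_zero fun x hx => ?_).symm
  rw [hψ.eq_zero hx, mul_zero]

theorem norm_integral_mul_tk_le (hU : MeasurableSet U) {f ψ : R3 → ℂ} (hf : L2 U f)
    (hψ : Tk n U ψ) : ‖∫ x, f x * ψ x‖ ≤ nr U f * nr U ψ := by
  rw [integral_mul_tk_eq hU f hψ]
  exact norm_setIntegral_mul_le hf (hψ.l2 U)

theorem integral_mul_tk_congr (hU : MeasurableSet U) {f g ψ : R3 → ℂ} (hψ : Tk n U ψ)
    (h : ∀ᵐ x : R3, x ∈ U → f x = g x) : ∫ x, f x * ψ x = ∫ x, g x * ψ x := by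
  refine integral_congr_ae ?_
  filter_upwards [h] with x hx
  by_cases hxU : x ∈ U
  · rw [hx hxU]
  · rw [hψ.eq_zero hxU, mul_zero, mul_zero]

/-- joint continuity of the pairing. -/
theorem tendsto_setIntegral_mul {α : Type*} {l : Filter α} {f g : α → R3 → ℂ} {f₀ g₀ : R3 → ℂ}
    (hf : ∀ᶠ n in l, L2 U (f n)) (hg : ∀ᶠ n in l, L2 U (g n)) (hf₀ : L2 U f₀) (hg₀ : L2 U g₀)
    (h : Tendsto (fun n => nr U fun x => f n x - f₀ x) l (𝓝 0))
    (h' : Tendsto (fun n => nr U fun x => g n x - g₀ x) l (𝓝 0)) :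
    Tendsto (fun n => ∫ x in U, f n x * g n x) l (𝓝 (∫ x in U, f₀ x * g₀ x)) := by
  rw [tendsto_iff_norm_sub_tendsto_zero]
  have hlim := ((h.mul h').add (h.mul_const (nr U g₀))).add (h'.const_mul (nr U f₀))
  simp only [mul_zero, zero_mul, add_zero] at hlim
  refine squeeze_zero' (Eventually.of_forall fun _ => norm_nonneg _) ?_ hlim
  filter_upwards [hf, hg] with n hfn hgn
  have hf' := hfn.sub' hf₀
  have hg' := hgn.sub' hg₀
  have e : (∫ x in U, f n x * g n x) - ∫ x in U, f₀ x * g₀ x =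
      (∫ x in U, (f n x - f₀ x) * (g n x - g₀ x)) + (∫ x in U, (f n x - f₀ x) * g₀ x) +
        ∫ x in U, f₀ x * (g n x - g₀ x) := by
    rw [← integral_sub (hfn.integrableOn_mul hgn) (hf₀.integrableOn_mul hg₀),
      ← integral_add (hf'.integrableOn_mul hg') (hf'.integrableOn_mul hg₀),
      ← integral_add (f := fun x => (f n x - f₀ x) * (g n x - g₀ x) + (f n x - f₀ x) * g₀ x)
        ((hf'.integrableOn_mul hg').add (hf'.integrableOn_mul hg₀)) (hf₀.integrableOn_mul hg')]
    refine integral_congr_ae (Eventually.of_forall fun x => ?_)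
    simp only
    ring
  rw [e]
  exact norm_add₃_le.trans (add_le_add_three (norm_setIntegral_mul_le hf' hg')
    (norm_setIntegral_mul_le hf' hg₀) (norm_setIntegral_mul_le hf₀ hg'))

theorem tendsto_nr {α : Type*} {l : Filter α} {f : α → R3 → E} {f₀ : R3 → E}
    (hf : ∀ᶠ n in l, L2 U (f n)) (hf₀ : L2 U f₀)
    (h : Tendsto (fun n => nr U fun x => f n x - f₀ x) l (𝓝 0)) :
    Tendsto (fun n => nr U (f n)) l (𝓝 (nr U f₀)) := by
  rw [tendsto_iff_norm_sub_tendsto_zero]
  refine squeeze_zero' (Eventually.of_forall fun _ => norm_nonneg _) ?_ h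
  filter_upwards [hf] with n hfn
  have h1 := nr_le_add_sub hfn hf₀
  have h2 := nr_le_add_sub hf₀ hfn
  rw [nr_sub_comm] at h2
  rw [Real.norm_eq_abs, abs_le]
  constructor <;> linarith

end Crest.Agent.R80
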