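import Crest.Agent.R80.L2

/-!
# Row 80: weighted norms, `Van`, `Bd`, `hat`
-/

namespace Crest.Agent.R80

open MeasureTheory Set Metric Filter Topology Complex
open scoped ContDiff
open Crest.AnalysisR.VecCalc3 Crest.AnalysisR.PDE Crest.AnalysisR.PDE.Elasticity

variable {E F : Type*} [NormedAddCommGroup E] [NormedSpace ℝ E] [NormedAddCommGroup F]
  [NormedSpace ℝ F] {U V K : Set R3} {n : WithTop ℕ∞}

theorem wn_nonneg (U : Set R3) (β : R3) (f : R3 → E) : 0 ≤ wn U β f := by
  exact nr_nonneg _ _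

theorem nr_amp (U : Set R3) (τ : ℝ) (θ : C3) (f : R3 → ℂ) :
    nr U (amp τ θ f) = wn U (τ • rp θ) f := by
  have hn : ∀ x, ‖amp τ θ f x‖ = ‖ew (τ • rp θ) x • f x‖ := fun x => by
    rw [amp, norm_mul, norm_ex_neg_smul, norm_smul, Real.norm_of_nonneg (ew_pos _ _).le]
  have h1 : AEStronglyMeasurable (amp τ θ f) (volume.restrict U) ↔
      AEStronglyMeasurable f (volume.restrict U) := by
    refine ⟨fun h => ?_, fun h =>
      (contDiff_ex 0 (-(τ : ℂ) • θ)).continuous.aestronglyMeasurable.mul h⟩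
    have h' := (contDiff_ex 0 ((τ : ℂ) • θ)).continuous.aestronglyMeasurable.mul h
    refine h'.congr (Eventually.of_forall fun x => ?_)
    rw [Pi.mul_apply, amp, ← mul_assoc, mul_comm (ex _ x), ex_neg_smul_mul, one_mul]
  have h2 : AEStronglyMeasurable (fun x => ew (τ • rp θ) x • f x) (volume.restrict U) ↔
      AEStronglyMeasurable f (volume.restrict U) := by
    refine ⟨fun h => ?_, fun h => (continuous_ew _).aestronglyMeasurable.smul h⟩
    have h' := (continuous_ew (-(τ • rp θ))).aestronglyMeasurable.smul h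
    refine h'.congr (Eventually.of_forall fun x => ?_)
    rw [Pi.smul_apply', smul_smul, ew_neg_mul, one_smul]
  unfold wn nr lpNorm
  by_cases h : AEStronglyMeasurable f (volume.restrict U)
  · rw [if_pos (h1.2 h), if_pos (h2.2 h), eLpNorm_congr_norm_ae (Eventually.of_forall hn)]
  · rw [if_neg (mt h1.1 h), if_neg (mt h2.1 h)]

section bounded

variable (hU : MeasurableSet U) (hb : Bornology.IsBounded U) (β : R3)
include hU hb

theorem wn_add_le {f g : R3 → E} (hf : L2 U f) (hg : L2 U g) :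
    wn U β (fun x => f x + g x) ≤ wn U β f + wn U β g := by
  simp only [wn, smul_add]
  exact nr_add_le (hf.ew_smul hU hb β) (hg.ew_smul hU hb β)

theorem wn_sub_le {f g : R3 → E} (hf : L2 U f) (hg : L2 U g) :
    wn U β (fun x => f x - g x) ≤ wn U β f + wn U β g := by
  simp only [wn, smul_sub]
  exact nr_sub_le (hf.ew_smul hU hb β) (hg.ew_smul hU hb β)

theorem wn_sum_le {ι : Type*} (s : Finset ι) {f : ι → R3 → E} (hf : ∀ k ∈ s, L2 U (f k)) :
    wn U β (fun x => ∑ k ∈ s, f k x) ≤ ∑ k ∈ s, wn U β (f k) := by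
  simp only [wn, Finset.smul_sum]
  exact nr_sum_le s fun k hk => (hf k hk).ew_smul hU hb β

theorem wn_le_of_le {f : R3 → E} {g : R3 → ℝ} (hg : L2 U g)
    (h : ∀ᵐ x : R3, x ∈ U → ‖f x‖ ≤ g x) : wn U β f ≤ wn U β g := by
  refine nr_le_of_le hU (hg.ew_smul hU hb β) ?_
  filter_upwards [h] with x hx hxU
  rw [norm_smul, Real.norm_of_nonneg (ew_pos _ _).le, smul_eq_mul]
  exact mul_le_mul_of_nonneg_left (hx hxU) (ew_pos _ _).le

theorem wn_le_mul_of_le {f : R3 → E} {g : R3 → F} (hg : L2 U g) {C : ℝ} (hC : 0 ≤ C)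
    (h : ∀ᵐ x : R3, x ∈ U → ‖f x‖ ≤ C * ‖g x‖) : wn U β f ≤ C * wn U β g := by
  refine nr_le_mul_of_le hU (hg.ew_smul hU hb β) hC ?_
  filter_upwards [h] with x hx hxU
  rw [norm_smul, norm_smul, Real.norm_of_nonneg (ew_pos _ _).le, mul_left_comm]
  exact mul_le_mul_of_nonneg_left (hx hxU) (ew_pos _ _).le

/-- the form in which pointwise bounds by several functions are used. -/
theorem wn_le_sum_of_le {ι : Type*} (s : Finset ι) {f : R3 → E} {g : ι → R3 → ℂ}
    (hg : ∀ k ∈ s, L2 U (g k)) {C : ℝ} (hC : 0 ≤ C)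
    (h : ∀ᵐ x : R3, x ∈ U → ‖f x‖ ≤ C * ∑ k ∈ s, ‖g k x‖) :
    wn U β f ≤ C * ∑ k ∈ s, wn U β (g k) := by
  have h1 : L2 U fun x => ∑ k ∈ s, ‖g k x‖ := L2.sum' s fun k hk => (hg k hk).norm'
  refine (wn_le_mul_of_le hU hb β h1 hC ?_).trans (mul_le_mul_of_nonneg_left ?_ hC)
  · filter_upwards [h] with x hx hxU
    rw [Real.norm_of_nonneg (Finset.sum_nonneg fun _ _ => norm_nonneg _)]
    exact hx hxU
  · refine (wn_sum_le hU hb β s fun k hk => (hg k hk).norm').trans (Finset.sum_le_sum fun k hk => ?_)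
    simpa using wn_le_mul_of_le hU hb β (f := fun x => ‖g k x‖) (hg k hk) zero_le_one
      (Eventually.of_forall fun x _ => by simp)

theorem wn_mono_set (hVU : V ⊆ U) {f : R3 → E} (hf : L2 U f) : wn V β f ≤ wn U β f := by
  exact nr_mono_set hVU (hf.ew_smul hU hb β)

theorem wn_norm {f : R3 → E} (hf : L2 U f) : wn U β (fun x => ‖f x‖) = wn U β f := by
  unfold wn
  rw [← nr_norm (hf.ew_smul hU hb β)]
  congr 1
  funext x
  rw [norm_smul, Real.norm_of_nonneg (ew_pos _ _).le, smul_eq_mul]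

end bounded

theorem wn_const_mul (U : Set R3) (β : R3) (c : ℂ) (f : R3 → ℂ) :
    wn U β (fun x => c * f x) = ‖c‖ * wn U β f := by
  unfold wn
  rw [← nr_const_mul]
  congr 1
  funext x
  rw [mul_smul_comm]

theorem wn_const_mul_real (U : Set R3) (β : R3) (c : ℝ) (f : R3 → ℝ) :
    wn U β (fun x => c * f x) = |c| * wn U β f := by
  unfold wn
  rw [← nr_const_mul_real]
  congr 1
  funext x
  rw [mul_smul_comm]

theorem wn_congr (hU : MeasurableSet U) (β : R3) {f g : R3 → E}
    (h : ∀ᵐ x : R3, x ∈ U → f x = g x) : wn U β f = wn U β g := by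
  refine nr_congr hU ?_
  filter_upwards [h] with x hx hxU
  rw [hx hxU]

theorem wn_indicator (hK : MeasurableSet K) (β : R3) (f : R3 → E) :
    wn univ β (K.indicator f) = wn K β f := by
  unfold wn
  rw [← nr_indicator hK]
  congr 1
  funext x
  by_cases hx : x ∈ K <;> simp [hx]

theorem wn_sq (β : R3) {f : R3 → E} (hf : L2 U fun x => ew β x • f x) :
    wn U β f ^ 2 = ∫ x in U, ew β x ^ 2 * ‖f x‖ ^ 2 := by
  unfold wn
  rw [nr_sq hf]
  congr 1
  funext x
  rw [norm_smul, Real.norm_of_nonneg (ew_pos _ _).le, mul_pow]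

namespace Van

omit [NormedSpace ℝ E] in
theorem mono {f : R3 → E} (h : Van K f) (hKV : K ⊆ V) : Van V f := by
  filter_upwards [h] with x hx hxV
  exact hx fun hxK => hxV (hKV hxK)

omit [NormedSpace ℝ E] in
theorem indicator (K : Set R3) (f : R3 → E) : Van K (K.indicator f) := by
  exact Eventually.of_forall fun x hx => Set.indicator_of_notMem hx f

omit [NormedSpace ℝ E] in
theorem indicator_ae_eq {f : R3 → E} (h : Van K f) : ∀ᵐ x : R3, K.indicator f x = f x := by
  filter_upwards [h] with x hx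
  by_cases hxK : x ∈ K
  · exact Set.indicator_of_mem hxK f
  · rw [Set.indicator_of_notMem hxK, hx hxK]

omit [NormedSpace ℝ E] in
theorem nr_univ (hK : MeasurableSet K) {f : R3 → E} (h : Van K f) : nr univ f = nr K f := by
  rw [← nr_indicator hK]
  refine nr_congr MeasurableSet.univ ?_
  filter_upwards [h.indicator_ae_eq] with x hx _
  exact hx.symm

theorem wn_univ (hK : MeasurableSet K) (β : R3) {f : R3 → E} (h : Van K f) :
    wn univ β f = wn K β f := by
  rw [← wn_indicator hK]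
  refine wn_congr MeasurableSet.univ β ?_
  filter_upwards [h.indicator_ae_eq] with x hx _
  exact hx.symm

omit [NormedSpace ℝ E] in
theorem l2_univ (hK : MeasurableSet K) {f : R3 → E} (h : Van K f) (hf : L2 K f) : L2 univ f := by
  refine (hf.indicator_univ hK).congr' MeasurableSet.univ ?_
  filter_upwards [h.indicator_ae_eq] with x hx _
  exact hx.symm

theorem add {f g : R3 → ℂ} (h : Van K f) (h' : Van K g) : Van K fun x => f x + g x := by
  filter_upwards [h, h'] with x hx hx' hK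
  rw [hx hK, hx' hK, add_zero]

theorem sub {f g : R3 → ℂ} (h : Van K f) (h' : Van K g) : Van K fun x => f x - g x := by
  filter_upwards [h, h'] with x hx hx' hK
  rw [hx hK, hx' hK, sub_zero]

theorem mul_left {f : R3 → ℂ} (h : Van K f) (g : R3 → ℂ) : Van K fun x => g x * f x := by
  filter_upwards [h] with x hx hK
  rw [hx hK, mul_zero]

theorem translate {R : ℝ} {f : R3 → ℂ} (h : Van (closedBall 0 R) f) {v : R3} (hv : ‖v‖ ≤ 1) :
    Van (closedBall 0 (R + 1)) fun x => f (x + v) := by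
  have h1 := (measurePreserving_add_right (volume : Measure R3) v).quasiMeasurePreserving.ae h
  filter_upwards [h1] with x hx hK
  refine hx fun hm => hK ?_
  rw [mem_closedBall_zero_iff] at hm ⊢
  have h2 := norm_sub_le (x + v) v
  rw [add_sub_cancel_right] at h2
  linarith

end Van

theorem Tk.van {ψ : R3 → ℂ} (h : Tk n U ψ) : Van U ψ := by
  exact Eventually.of_forall fun x hx => h.eq_zero hx

namespace Bd

variable {f g : R3 → ℂ}

theorem const (c : ℂ) : Bd fun _ => c := by
  exact ⟨aestronglyMeasurable_const, ‖c‖, fun _ => le_rfl⟩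

theorem add (hf : Bd f) (hg : Bd g) : Bd fun x => f x + g x := by
  obtain ⟨h1, C, hC⟩ := hf
  obtain ⟨h2, D, hD⟩ := hg
  exact ⟨h1.add h2, C + D, fun x => (norm_add_le _ _).trans (add_le_add (hC x) (hD x))⟩

theorem sub (hf : Bd f) (hg : Bd g) : Bd fun x => f x - g x := by
  obtain ⟨h1, C, hC⟩ := hf
  obtain ⟨h2, D, hD⟩ := hg
  exact ⟨h1.sub h2, C + D, fun x => (norm_sub_le _ _).trans (add_le_add (hC x) (hD x))⟩

theorem neg (hf : Bd f) : Bd fun x => -f x := by
  obtain ⟨h1, C, hC⟩ := hf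
  exact ⟨h1.neg, C, fun x => by rw [norm_neg]; exact hC x⟩

theorem mul (hf : Bd f) (hg : Bd g) : Bd fun x => f x * g x := by
  obtain ⟨h1, C, hC⟩ := hf
  obtain ⟨h2, D, hD⟩ := hg
  exact ⟨h1.mul h2, C * D, fun x => (norm_mul_le _ _).trans
    (mul_le_mul (hC x) (hD x) (norm_nonneg _) ((norm_nonneg _).trans (hC x)))⟩

theorem const_mul (c : ℂ) (hf : Bd f) : Bd fun x => c * f x := by
  exact (const c).mul hf

theorem sum {ι : Type*} (s : Finset ι) {F : ι → R3 → ℂ} (h : ∀ k ∈ s, Bd (F k)) :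
    Bd fun x => ∑ k ∈ s, F k x := by
  classical
  induction s using Finset.induction_on with
  | empty => simpa using const 0
  | insert a s ha ih =>
    simp only [Finset.sum_insert ha]
    exact (h a (Finset.mem_insert_self _ _)).add (ih fun k hk => h k (Finset.mem_insert_of_mem hk))

theorem indicator (hK : MeasurableSet K) (hf : Bd f) : Bd (K.indicator f) := by
  obtain ⟨h1, C, hC⟩ := hf
  exact ⟨h1.indicator hK, C, fun x => (norm_indicator_le_norm_self f x).trans (hC x)⟩

theorem hat {Ω : Set R3} (hΩ : MeasurableSet Ω) (hf : Bd f) (hg : Bd g) : Bd (hat Ω f g) := by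
  have e : R80.hat Ω f g = fun x => g x + Ω.indicator (fun y => f y - g y) x := by
    funext x
    by_cases hx : x ∈ Ω <;> simp [R80.hat, hx]
  rw [e]
  exact hg.add ((hf.sub hg).indicator hΩ)

theorem exists_bound (hf : Bd f) : ∃ C : ℝ, 0 ≤ C ∧ ∀ x, ‖f x‖ ≤ C := by
  obtain ⟨-, C, hC⟩ := hf
  exact ⟨C, (norm_nonneg _).trans (hC 0), hC⟩

/-- a common bound for finitely many coefficients. -/
theorem exists_bound_fin {ι : Type*} [Finite ι] {F : ι → R3 → ℂ} (h : ∀ k, Bd (F k)) :
    ∃ C : ℝ, 0 ≤ C ∧ ∀ k x, ‖F k x‖ ≤ C := by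
  cases nonempty_fintype ι
  choose C hC0 hC using fun k => (h k).exists_bound
  exact ⟨∑ k, C k, Finset.sum_nonneg fun k _ => hC0 k, fun k x =>
    (hC k x).trans (Finset.single_le_sum (fun k _ => hC0 k) (Finset.mem_univ k))⟩

end Bd

theorem Tk.bd {ψ : R3 → ℂ} (h : Tk n U ψ) : Bd ψ := by
  obtain ⟨C, -, hC⟩ := h.exists_bound
  exact ⟨h.continuous.aestronglyMeasurable, C, hC⟩

theorem BL.continuous {L : ℝ} {f : R3 → ℂ} (h : BL L f) : Continuous f := by
  have hL : 0 ≤ L := (norm_nonneg _).trans (h.1 0)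
  refine (LipschitzWith.of_dist_le_mul (K := ⟨L, hL⟩) fun x y => ?_).continuous
  rw [dist_eq_norm, dist_eq_norm]
  exact h.2 x y

theorem BL.bd {L : ℝ} {f : R3 → ℂ} (h : BL L f) : Bd f := by
  exact ⟨h.continuous.aestronglyMeasurable, L, h.1⟩

theorem BL.mono {L L' : ℝ} {f : R3 → ℂ} (h : BL L f) (hL : L ≤ L') : BL L' f := by
  exact ⟨fun x => (h.1 x).trans hL, fun x y =>
    (h.2 x y).trans (mul_le_mul_of_nonneg_right hL (norm_nonneg _))⟩

theorem Tk.exists_bl {ψ : R3 → ℂ} (h : Tk 1 U ψ) : ∃ L : ℝ, BL L ψ := by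
  obtain ⟨C, -, hC⟩ := h.exists_bound
  obtain ⟨D, hD⟩ := h.cd.lipschitzWith_of_hasCompactSupport h.cs one_ne_zero
  refine ⟨max C D, fun x => (hC x).trans (le_max_left _ _), fun x y => ?_⟩
  have h1 := hD.dist_le_mul x y
  rw [dist_eq_norm, dist_eq_norm] at h1
  exact h1.trans (mul_le_mul_of_nonneg_right (le_max_right _ _) (norm_nonneg _))

theorem bd_AF {κ : R3 → ℂ} {a : Fin 3 → R3 → ℂ} (hκ : Bd κ) (ha : ∀ i, Bd (a i)) (t : ℂ)
    (i j : Fin 3) : Bd (AF κ a t i j) := by
  have hα : Bd fun x => aα (fun k => a k x) t :=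
    ((ha 0).add ((ha 1).const_mul I)).add ((ha 2).const_mul t)
  have hβ : Bd fun x => aβ (fun k => a k x) t :=
    (((ha 0).const_mul (-t)).add ((ha 1).const_mul (I * t))).add (ha 2)
  have hσ : Bd fun x => aσ (fun k => a k x) t := hα.add (hβ.const_mul t)
  have hσ2 : Bd fun x => -aσ (fun k => a k x) t / 2 := by
    simp only [div_eq_mul_inv]
    exact hσ.neg.mul (Bd.const _)
  have hκ' : Bd fun x => 1 / 2 - κ x := (Bd.const _).sub hκ
  fin_cases i <;> fin_cases j
  · exact hσ2.sub (hκ'.mul hα)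
  · exact hκ'.neg.mul hβ
  · exact hκ.neg
  · exact (hκ'.const_mul (-t)).mul hα
  · exact hσ2.sub ((hκ'.const_mul t).mul hβ)
  · exact hκ.const_mul (-t)
  · exact (hκ.mul hσ).mul hα
  · exact (hκ.mul hσ).mul hβ
  · exact hκ.neg.mul hσ

theorem L2.gr {A A' H : Fin 3 → Fin 3 → R3 → ℂ} {R : ℝ} (hA : ∀ i j, Bd (A i j))
    (hA' : ∀ i j, Bd (A' i j)) (hK : K ⊆ closedBall 0 R)
    (hout : ∀ i j x, x ∉ K → A' i j x = A i j x) (hH : ∀ i j, L2 univ (H i j)) (i j : Fin 3) :
    L2 univ (gr A A' H i j) := by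
  unfold R80.gr
  refine L2.add' (L2.sum' _ fun k _ => ((hH k j).bd_mul (hA' i k)).sub' ((hH i k).mul_bd (hA k j))) ?_
  have h1 : L2 (closedBall (0 : R3) R) fun x => (A' i j x - A i j x) * 1 :=
    L2.bd_mul ((hA' i j).sub (hA i j))
      (L2.of_continuous measurableSet_closedBall isBounded_closedBall continuous_const)
  simp only [mul_one] at h1
  refine Van.l2_univ measurableSet_closedBall (Eventually.of_forall fun x hx => ?_) h1
  exact sub_eq_zero.2 (hout i j x fun hxK => hx (hK hxK))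

theorem AF_congr {κ κ' : R3 → ℂ} {a a' : Fin 3 → R3 → ℂ} {x : R3} (hκ : κ' x = κ x)
    (ha : ∀ i, a' i x = a i x) (t : ℂ) (i j : Fin 3) : AF κ' a' t i j x = AF κ a t i j x := by
  unfold AF
  rw [hκ, funext ha]

theorem hat_of_mem {G : Type*} {Ω : Set R3} (f g : R3 → G) {x : R3} (hx : x ∈ Ω) :
    hat Ω f g x = f x := by
  exact if_pos hx

theorem hat_of_notMem {G : Type*} {Ω : Set R3} (f g : R3 → G) {x : R3} (hx : x ∉ Ω) :
    hat Ω f g x = g x := by
  exact if_neg hx

@[simp] theorem hat_empty {G : Type*} (f g : R3 → G) : hat ∅ f g = g := by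
  exact funext fun x => hat_of_notMem f g (notMem_empty x)

@[simp] theorem hat_self {G : Type*} (Ω : Set R3) (f : R3 → G) : hat Ω f f = f := by
  exact funext fun x => ite_self _

theorem hat_eq_add (Ω : Set R3) (f g : R3 → ℂ) (x : R3) :
    hat Ω f g x = g x + Ω.indicator (fun y => f y - g y) x := by
  by_cases hx : x ∈ Ω <;> simp [hat, hx]

/-- gluing two Lipschitz functions that agree on the frontier: a segment from `Ω` to its complement
meets the frontier. -/
theorem BL.hat {L : ℝ} {Ω : Set R3} {f g : R3 → ℂ} (hf : BL L f) (hg : BL L g)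
    (h : ∀ x ∈ frontier Ω, f x = g x) : BL L (hat Ω f g) := by
  have key : ∀ x ∈ Ω, ∀ y, y ∉ Ω → ‖f x - g y‖ ≤ L * ‖x - y‖ := by
    intro x hx y hy
    obtain ⟨z, hz, hz'⟩ : ∃ z ∈ segment ℝ x y, z ∈ frontier Ω := by
      by_contra hc
      push Not at hc
      have h1 : segment ℝ x y ⊆ interior Ω ∪ interior Ωᶜ := fun z hz => by
        rw [← compl_frontier_eq_union_interior]
        exact hc z hz
      rcases (convex_segment x y).isPreconnected.subset_or_subset isOpen_interior isOpen_interior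
        (disjoint_compl_right.mono interior_subset interior_subset) h1 with h2 | h2
      · exact hy (interior_subset (h2 (right_mem_segment ℝ x y)))
      · exact interior_subset (h2 (left_mem_segment ℝ x y)) hx
    have h1 := dist_add_dist_of_mem_segment hz
    rw [dist_eq_norm, dist_eq_norm, dist_eq_norm] at h1
    have h2 := norm_sub_le_norm_sub_add_norm_sub (f x) (f z) (g y)
    have h3 := hf.2 x z
    have h4 := hg.2 z y
    rw [← h z hz'] at h4
    rw [← h1, mul_add]
    linarith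
  refine ⟨fun x => ?_, fun x y => ?_⟩
  · by_cases hx : x ∈ Ω
    · rw [hat_of_mem f g hx]; exact hf.1 x
    · rw [hat_of_notMem f g hx]; exact hg.1 x
  · by_cases hx : x ∈ Ω <;> by_cases hy : y ∈ Ω
    · rw [hat_of_mem f g hx, hat_of_mem f g hy]; exact hf.2 x y
    · rw [hat_of_mem f g hx, hat_of_notMem f g hy]; exact key x hx y hy
    · rw [hat_of_notMem f g hx, hat_of_mem f g hy, norm_sub_rev, norm_sub_rev x]; exact key y hy x hx
    · rw [hat_of_notMem f g hx, hat_of_notMem f g hy]; exact hg.2 x y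

end Crest.Agent.R80
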