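import Crest.Agent.R80.Weak2
import Crest.Agent.R80.Riesz

/-!
# Row 80: the limit `τ → ∞`
-/

namespace Crest.Agent.R80

open MeasureTheory Set Metric Filter Topology Complex
open scoped ContDiff
open Crest.AnalysisR.VecCalc3 Crest.AnalysisR.PDE Crest.AnalysisR.PDE.Elasticity

variable {α : Type*} {l : Filter α} {U : Set R3} {θ : C3}

/-- weak convergence of `L²` functions to an `L²` function. -/
structure LimW (l : Filter α) (U : Set R3) (F : α → R3 → ℂ) (g : R3 → ℂ) : Prop where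
  ev : ∀ᶠ n in l, L2 U (F n)
  lg : L2 U g
  lim : WLim l U F g

namespace LimW

variable {F G : α → R3 → ℂ} {g g' : R3 → ℂ}

theorem add (h : LimW l U F g) (h' : LimW l U G g') :
    LimW l U (fun n x => F n x + G n x) fun x => g x + g' x := by
  refine ⟨(h.ev.and h'.ev).mono fun n hn => hn.1.add' hn.2, h.lg.add' h'.lg, fun ψ hψ => ?_⟩
  have e : ∀ {f f' : R3 → ℂ}, L2 U f → L2 U f' → ∫ x in U, (f x + f' x) * ψ x =
      (∫ x in U, f x * ψ x) + ∫ x in U, f' x * ψ x := fun hf hf' => by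
    rw [← integral_add (hf.integrableOn_mul hψ) (hf'.integrableOn_mul hψ)]
    simp only [add_mul]
  rw [e h.lg h'.lg]
  refine ((h.lim ψ hψ).add (h'.lim ψ hψ)).congr' ?_
  filter_upwards [h.ev, h'.ev] with n h1 h2
  exact (e h1 h2).symm

theorem zero (l : Filter α) (U : Set R3) : LimW l U (fun _ _ => 0) fun _ => 0 :=
  ⟨Eventually.of_forall fun _ => L2.zero' U, L2.zero' U, fun _ _ => tendsto_const_nhds⟩

theorem sum {ι : Type*} (s : Finset ι) {F : ι → α → R3 → ℂ} {g : ι → R3 → ℂ}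
    (h : ∀ k ∈ s, LimW l U (F k) (g k)) :
    LimW l U (fun n x => ∑ k ∈ s, F k n x) fun x => ∑ k ∈ s, g k x := by
  classical
  induction s using Finset.induction_on with
  | empty => simpa using zero l U
  | insert k s hk ih =>
    simp only [Finset.sum_insert hk]
    exact (h k (Finset.mem_insert_self _ _)).add
      (ih fun j hj => h j (Finset.mem_insert_of_mem hj))

theorem bd_mul {b : R3 → ℂ} (hb : Bd b) (h : LimW l U F g) :
    LimW l U (fun n x => b x * F n x) fun x => b x * g x := by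
  refine ⟨h.ev.mono fun n hn => L2.bd_mul hb hn, L2.bd_mul hb h.lg, fun ψ hψ => ?_⟩
  have := h.lim _ (L2.bd_mul hb hψ)
  have e : ∀ f : R3 → ℂ, (fun x => f x * (b x * ψ x)) = fun x => b x * f x * ψ x := fun f => by
    funext x; ring
  simpa only [e] using this

theorem small {c : α → ℂ} (hc : Tendsto c l (𝓝 0)) (h : LimW l U F g) :
    LimW l U (fun n x => c n * F n x) fun _ => 0 := by
  refine ⟨h.ev.mono fun n hn => hn.cmul _, L2.zero' U, fun ψ hψ => ?_⟩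
  have := hc.mul (h.lim ψ hψ)
  simp only [zero_mul, integral_zero] at this ⊢
  refine this.congr fun n => ?_
  rw [← integral_const_mul]
  simp only [mul_assoc]

theorem tst (h : LimW l U F g) (hU : IsOpen U) {ψ : R3 → ℂ} (hψ : Tst U ψ) :
    Tendsto (fun n => ∫ x, F n x * ψ x) l (𝓝 (∫ x, g x * ψ x)) :=
  h.lim.tk hU.measurableSet hψ

end LimW

theorem lim_inv {τ : α → ℝ} (hτ : Tendsto τ l atTop) :
    Tendsto (fun n => (((τ n)⁻¹ : ℝ) : ℂ)) l (𝓝 0) := by
  have := (Complex.continuous_ofReal.tendsto 0).comp hτ.inv_tendsto_atTop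
  rw [Complex.ofReal_zero] at this
  exact this

theorem lim_pd_ex_mul (τ : ℝ) (θ : C3) {ψ : R3 → ℂ} (hψ : Tst U ψ) (i : Fin 3) (x : R3) :
    pd i (fun y => ex (-(τ : ℂ) • θ) y * ψ y) x =
      ex (-(τ : ℂ) • θ) x * (pd i ψ x - τ * θ i * ψ x) := by
  rw [pd_mul i ((contDiff_ex 1 _).differentiable one_ne_zero x)
    (hψ.cd.differentiable (by simp) x), pd_ex]
  simp only [Pi.smul_apply, smul_eq_mul]
  ring

theorem lim_lap_ex_mul (τ : ℝ) (hθ : Null θ) {ψ : R3 → ℂ} (hψ : Tst U ψ) (x : R3) :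
    lap (fun y => ex (-(τ : ℂ) • θ) y * ψ y) x =
      ex (-(τ : ℂ) • θ) x * (lap ψ x - 2 * τ * dv θ ψ x) := by
  rw [lap_ex_mul (hθ.smul _) hψ.tk2.cd, dv_smul]
  ring

/-- `∫ f ∂ᵢ (e ψ)` in terms of the amplitude. -/
theorem lim_int_pd (hU : IsOpen U) (hUb : Bornology.IsBounded U) (τ : ℝ) (θ : C3) {f ψ : R3 → ℂ}
    (hf : L2 U f) (hψ : Tst U ψ) (i : Fin 3) :
    ∫ x, f x * pd i (fun y => ex (-(τ : ℂ) • θ) y * ψ y) x =
      (∫ x, amp τ θ f x * pd i ψ x) - τ * θ i * ∫ x, amp τ θ f x * ψ x := by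
  have hA := hf.amp hU.measurableSet hUb τ θ
  rw [← integral_const_mul, ← integral_sub (hA.integrable_mul_tk hU.measurableSet (hψ.pd i))
    ((hA.integrable_mul_tk hU.measurableSet hψ).const_mul _)]
  congr 1
  funext x
  rw [lim_pd_ex_mul τ θ hψ, amp]
  ring

/-- `∫ f Δ (e ψ)` in terms of the amplitude. -/
theorem lim_int_lap (hU : IsOpen U) (hUb : Bornology.IsBounded U) (τ : ℝ) (hθ : Null θ)
    {f ψ : R3 → ℂ} (hf : L2 U f) (hψ : Tst U ψ) :
    ∫ x, f x * lap (fun y => ex (-(τ : ℂ) • θ) y * ψ y) x =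
      (∫ x, amp τ θ f x * lap ψ x) - 2 * τ * ∫ x, amp τ θ f x * dv θ ψ x := by
  have hA := hf.amp hU.measurableSet hUb τ θ
  rw [← integral_const_mul, ← integral_sub (hA.integrable_mul_tk hU.measurableSet hψ.lap)
    ((hA.integrable_mul_tk hU.measurableSet (hψ.dv θ)).const_mul _)]
  congr 1
  funext x
  rw [lim_lap_ex_mul τ hθ hψ, amp]
  ring

theorem lim_int (τ : ℝ) (θ : C3) (f ψ : R3 → ℂ) :
    ∫ x, f x * (ex (-(τ : ℂ) • θ) x * ψ x) =
      τ * ∫ x, ((τ⁻¹ : ℝ) : ℂ) * amp τ θ f x * ψ x ∨ τ = 0 := by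
  rcases eq_or_ne τ 0 with h | h
  · exact Or.inr h
  left
  rw [← integral_const_mul]
  congr 1
  funext x
  have : (τ : ℂ) ≠ 0 := by exact_mod_cast h
  rw [amp]
  push_cast
  field_simp

/-- `amp (Du i j) / τ ⇀ θ i X j`: test the weak derivative with `e^{-τθx} ψ`, then `WLim.of_tst`. -/
theorem wlim_Du (hU : IsOpen U) (hUb : Bornology.IsBounded U) {τ : α → ℝ} (hτ : Tendsto τ l atTop)
    {u : α → R3 → ℂ} {G : α → R3 → ℂ} (i : Fin 3) {M : ℝ}
    (h : ∀ᶠ n in l, L2 U (u n) ∧ L2 U (G n) ∧ WD U (ee i) (u n) (G n) ∧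
      nr U (amp (τ n) θ (G n)) ≤ M * τ n)
    {X : R3 → ℂ} (hX : L2 U X) (hl : WLim l U (fun n => amp (τ n) θ (u n)) X) :
    WLim l U (fun n x => ((τ n)⁻¹ : ℝ) * amp (τ n) θ (G n) x) fun x => θ i * X x := by
  have hm := hU.measurableSet
  refine WLim.of_tst hU (M := M) ?_ (hX.cmul _) fun ψ hψ => ?_
  · filter_upwards [h, hτ.eventually_gt_atTop 0] with n hn hpos
    refine ⟨(hn.2.1.amp hm hUb _ _).cmul _, ?_⟩
    rw [nr_const_mul, Complex.norm_real, Real.norm_eq_abs, abs_of_pos (inv_pos.2 hpos),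
      inv_mul_le_iff₀ hpos, mul_comm]
    exact hn.2.2.2
  have h1 := (hl.tk hm hψ).const_mul (θ i)
  have h2 := (lim_inv hτ).mul (hl.tk hm (hψ.pd i))
  have h3 := h1.sub h2
  rw [zero_mul, sub_zero, ← integral_const_mul] at h3
  simp only [mul_assoc]
  refine h3.congr' ?_
  filter_upwards [h, hτ.eventually_gt_atTop 0] with n hn hpos
  have e := hn.2.2.1 _ (hψ.mul_left (contDiff_ex ∞ (-(τ n : ℂ) • θ)))
  rw [dv_ee, lim_int_pd hU hUb _ _ hn.1 hψ, (lim_int _ _ _ _).resolve_right hpos.ne'] at e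
  have hne : (τ n : ℂ) ≠ 0 := by exact_mod_cast hpos.ne'
  simp only [mul_assoc] at e
  apply mul_left_cancel₀ hne
  push_cast at e ⊢
  rw [mul_sub, ← mul_assoc (τ n : ℂ) (τ n : ℂ)⁻¹, mul_inv_cancel₀ hne, one_mul]
  linear_combination -e

/-- Test the system with `e^{-τθx} ψ` (`lap_ex_mul` for the null vector `-τ θ`), divide by `τ` and pass to the
limit (`WLim.tk`, `WLim.bd_tk`, `wlim_Du`); the constraint by `ae_zero_of_tst`. -/
theorem lim_ts0 [l.NeBot] (hU : IsOpen U) (hUb : Bornology.IsBounded U) (hθ : Null θ) {κ : R3 → ℂ}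
    {a : Fin 3 → R3 → ℂ} {H : Fin 3 → Fin 3 → R3 → ℂ} (hκ : Bd κ) (ha : ∀ i, Bd (a i))
    (hH : ∀ i j, Bd (H i j)) {τ : α → ℝ} (hτ : Tendsto τ l atTop) {u : α → Fin 3 → R3 → ℂ}
    {Du : α → Fin 3 → Fin 3 → R3 → ℂ} {ε : α → R3 → ℂ} {M : ℝ}
    (hP : ∀ᶠ n in l, PS U κ a H (u n) (Du n) (ε n) ∧
      ∀ i j, nr U (amp (τ n) θ (Du n i j)) ≤ M * τ n)
    {X : Fin 3 → R3 → ℂ} {E : R3 → ℂ} (hX : ∀ j, L2 U (X j)) (hE : L2 U E)
    (hlX : ∀ j, WLim l U (fun n => amp (τ n) θ (u n j)) (X j))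
    (hlE : WLim l U (fun n => amp (τ n) θ (ε n)) E) : TS0 U θ κ a H X E := by
  have hm := hU.measurableSet
  have hc := lim_inv hτ
  have wX : ∀ j, LimW l U (fun n => amp (τ n) θ (u n j)) (X j) := fun j =>
    ⟨hP.mono fun n hn => (hn.1.h1 j).l2.amp hm hUb _ _, hX j, hlX j⟩
  have wE : LimW l U (fun n => amp (τ n) θ (ε n)) E :=
    ⟨hP.mono fun n hn => hn.1.l2.amp hm hUb _ _, hE, hlE⟩
  have wD : ∀ i j, LimW l U (fun n x => ((τ n)⁻¹ : ℝ) * amp (τ n) θ (Du n i j) x)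
      fun x => θ i * X j x := fun i j =>
    ⟨hP.mono fun n hn => (((hn.1.h1 j).l2G i).amp hm hUb _ _).cmul _, (hX j).cmul _,
      wlim_Du hU hUb hτ i (M := M) (hP.mono fun n hn =>
        ⟨(hn.1.h1 j).l2, (hn.1.h1 j).l2G i, (hn.1.h1 j).wd i, hn.2 i j⟩) (hX j) (hlX j)⟩
  have b4 : Bd fun x => 4 * κ x - 1 := (hκ.const_mul 4).sub (Bd.const 1)
  have b2 : Bd fun x => 2 * κ x := hκ.const_mul 2
  refine ⟨hX, hE, fun j ψ hψ => ?_, fun ψ hψ => ?_, ?_⟩
  · have wQ := (LimW.sum Finset.univ fun i _ => ((wD i j).add (wD j i)).bd_mul (ha i)).add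
      ((wE.bd_mul (b4.mul (ha j))).small hc)
    have wK := wE.bd_mul b2
    have h1 := (hc.mul ((wX j).tst hU hψ.lap)).sub (((wX j).tst hU (hψ.dv θ)).const_mul 2)
    have h2 := ((hc.mul (wK.tst hU (hψ.pd j))).sub ((wK.tst hU hψ).const_mul (θ j))).sub
      (wQ.tst hU hψ)
    have key := tendsto_nhds_unique_of_eventuallyEq h1 h2 (by
      filter_upwards [hP, hτ.eventually_gt_atTop 0] with n hn hpos
      have e := hn.1.e1 j _ (hψ.mul_left (contDiff_ex ∞ (-(τ n : ℂ) • θ)))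
      rw [lim_int_lap hU hUb _ hθ (hn.1.h1 j).l2 hψ,
        lim_int_pd hU hUb _ _ (L2.bd_mul b2 hn.1.l2) hψ,
        (lim_int _ _ _ _).resolve_right hpos.ne'] at e
      have hne : (τ n : ℂ) ≠ 0 := by exact_mod_cast hpos.ne'
      have e1 : (amp (τ n) θ fun x => 2 * κ x * ε n x) = fun x => 2 * κ x * amp (τ n) θ (ε n) x := by
        funext x; simp only [amp]; ring
      have e2 : (fun x => (((τ n)⁻¹ : ℝ) : ℂ) * amp (τ n) θ (q1 κ a (Du n) (ε n) j) x * ψ x) =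
          fun x => (∑ i, a i x * ((((τ n)⁻¹ : ℝ) : ℂ) * amp (τ n) θ (Du n i j) x +
            (((τ n)⁻¹ : ℝ) : ℂ) * amp (τ n) θ (Du n j i) x) +
            (((τ n)⁻¹ : ℝ) : ℂ) * ((4 * κ x - 1) * a j x * amp (τ n) θ (ε n) x)) * ψ x := by
        funext x; simp only [amp, q1, Fin.sum_univ_three]; ring
      rw [e1, e2] at e
      apply mul_left_cancel₀ hne
      have hi : (τ n : ℂ) * (((τ n)⁻¹ : ℝ) : ℂ) = 1 := by push_cast; exact mul_inv_cancel₀ hne
      linear_combination e + ((∫ x, amp (τ n) θ (u n j) x * lap ψ x) -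
        ∫ x, 2 * κ x * amp (τ n) θ (ε n) x * pd j ψ x) * hi)
    have e3 : ∫ x, -(1 / 2) * ((∑ i, θ i * a i x) * X j x +
          θ j * (2 * κ x * E x + ∑ i, a i x * X i x)) * ψ x =
        -(1 / 2) * (θ j * (∫ x, 2 * κ x * E x * ψ x) +
          ∫ x, (∑ i, a i x * (θ i * X j x + θ j * X i x) + 0) * ψ x) := by
      rw [← integral_const_mul, ← integral_add
        ((wK.lg.integrable_mul_tk hm hψ).const_mul _) (wQ.lg.integrable_mul_tk hm hψ),
        ← integral_const_mul]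
      congr 1
      funext x
      simp only [Fin.sum_univ_three]
      ring
    rw [e3]
    linear_combination (-1 / 2 : ℂ) * key
  · have bH : Bd fun x => ∑ i, H i i x := Bd.sum _ fun i _ => hH i i
    have wQ := (LimW.sum Finset.univ fun i _ => LimW.sum Finset.univ fun j _ =>
      ((wD i j).add (wD j i)).bd_mul (hH i j)).add ((wE.bd_mul (b4.mul bH)).small hc)
    have h1 := (hc.mul (wE.tst hU hψ.lap)).sub ((wE.tst hU (hψ.dv θ)).const_mul 2)
    have h2 := wQ.tst hU hψ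
    have key := tendsto_nhds_unique_of_eventuallyEq h1 h2 (by
      filter_upwards [hP, hτ.eventually_gt_atTop 0] with n hn hpos
      have e := hn.1.e2 _ (hψ.mul_left (contDiff_ex ∞ (-(τ n : ℂ) • θ)))
      rw [lim_int_lap hU hUb _ hθ hn.1.l2 hψ, (lim_int _ _ _ _).resolve_right hpos.ne'] at e
      have hne : (τ n : ℂ) ≠ 0 := by exact_mod_cast hpos.ne'
      have e2 : (fun x => (((τ n)⁻¹ : ℝ) : ℂ) * amp (τ n) θ (q2 κ H (Du n) (ε n)) x * ψ x) =
          fun x => (∑ i, ∑ j, H i j x * ((((τ n)⁻¹ : ℝ) : ℂ) * amp (τ n) θ (Du n i j) x +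
            (((τ n)⁻¹ : ℝ) : ℂ) * amp (τ n) θ (Du n j i) x) +
            (((τ n)⁻¹ : ℝ) : ℂ) * ((4 * κ x - 1) * (∑ i, H i i x) * amp (τ n) θ (ε n) x)) * ψ x := by
        funext x; simp only [amp, q2, Fin.sum_univ_three]; ring
      rw [e2] at e
      apply mul_left_cancel₀ hne
      have hi : (τ n : ℂ) * (((τ n)⁻¹ : ℝ) : ℂ) = 1 := by push_cast; exact mul_inv_cancel₀ hne
      linear_combination e + (∫ x, amp (τ n) θ (ε n) x * lap ψ x) * hi)
    have e3 : ∫ x, (1 / 2 * ∑ i, ∑ j, (θ i * X j x + θ j * X i x) * H i j x) * ψ x =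
        1 / 2 * ∫ x, (∑ i, ∑ j, H i j x * (θ i * X j x + θ j * X i x) + 0) * ψ x := by
      rw [← integral_const_mul]
      congr 1
      funext x
      simp only [Fin.sum_univ_three]
      ring
    rw [e3]
    linear_combination (-1 / 2 : ℂ) * key
  · have wS := LimW.sum Finset.univ fun i _ => wD i i
    have wR := (wE.bd_mul ((Bd.const 1).sub b2)).small hc
    refine ae_zero_of_tst hU wS.lg fun ψ hψ => ?_
    have key := tendsto_nhds_unique_of_eventuallyEq (wS.tst hU hψ) (wR.tst hU hψ) (by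
      filter_upwards [hP] with n hn
      refine integral_mul_tk_congr hm hψ ?_
      filter_upwards [hn.1.e3] with x hx hxU
      have := hx hxU
      simp only [amp, Fin.sum_univ_three] at this ⊢
      linear_combination (((τ n)⁻¹ : ℝ) : ℂ) * ex (-(τ n : ℂ) • θ) x * this)
    simpa using key

end Crest.Agent.R80
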