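import Crest.Agent.R80.Car1

/-!
# Row 80: the coefficients `AF` are nice; uniform bounds for the gauge
-/

namespace Crest.Agent.R80

open MeasureTheory Set Metric Filter Topology Complex
open scoped ContDiff
open Crest.AnalysisR.VecCalc3 Crest.AnalysisR.PDE Crest.AnalysisR.PDE.Elasticity

theorem Nice_bl_nonneg {L : ℝ} {f : R3 → ℂ} (h : BL L f) : 0 ≤ L :=
  (norm_nonneg _).trans (h.1 0)

namespace Nice

variable {f g : ℂ → R3 → ℂ}

theorem of_bl {L : ℝ} {f : R3 → ℂ} (h : BL L f) : Nice fun _ => f := by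
  intro t₀
  refine ⟨L, fun _ => 0, continuous_const, fun t _ => ⟨h, fun x => ?_⟩⟩
  have := Nice_bl_nonneg h
  simp only [sub_self, mul_zero, norm_zero]
  positivity

theorem const (c : ℂ) : Nice fun _ _ => c := by
  refine of_bl (L := ‖c‖) ⟨fun _ => le_rfl, fun x y => ?_⟩
  simp only [sub_self, norm_zero]
  positivity

theorem id : Nice fun t _ => t := by
  intro t₀
  refine ⟨‖t₀‖ + 1, fun _ => 1, continuous_const, fun t ht => ⟨⟨fun _ => ?_, fun x y => ?_⟩, fun x => ?_⟩⟩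
  · calc ‖t‖ = ‖t₀ + (t - t₀)‖ := by congr 1; ring
      _ ≤ ‖t₀‖ + ‖t - t₀‖ := norm_add_le _ _
      _ ≤ ‖t₀‖ + 1 := by linarith
  · simp only [sub_self, norm_zero]
    positivity
  · simp only [mul_one, sub_self, norm_zero]
    positivity

theorem add (hf : Nice f) (hg : Nice g) : Nice fun t x => f t x + g t x := by
  intro t₀
  obtain ⟨L, f', hf', h⟩ := hf t₀
  obtain ⟨M, g', hg', h'⟩ := hg t₀
  refine ⟨L + M, fun x => f' x + g' x, hf'.add hg', fun t ht => ⟨⟨fun x => ?_, fun x y => ?_⟩, fun x => ?_⟩⟩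
  · exact (norm_add_le _ _).trans (add_le_add ((h t ht).1.1 x) ((h' t ht).1.1 x))
  · calc ‖f t x + g t x - (f t y + g t y)‖ = ‖(f t x - f t y) + (g t x - g t y)‖ := by congr 1; ring
      _ ≤ L * ‖x - y‖ + M * ‖x - y‖ :=
        (norm_add_le _ _).trans (add_le_add ((h t ht).1.2 x y) ((h' t ht).1.2 x y))
      _ = (L + M) * ‖x - y‖ := by ring
  · calc ‖f t x + g t x - (f t₀ x + g t₀ x) - (t - t₀) * (f' x + g' x)‖
        = ‖(f t x - f t₀ x - (t - t₀) * f' x) + (g t x - g t₀ x - (t - t₀) * g' x)‖ := by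
          congr 1; ring
      _ ≤ L * ‖t - t₀‖ ^ 2 + M * ‖t - t₀‖ ^ 2 :=
        (norm_add_le _ _).trans (add_le_add ((h t ht).2 x) ((h' t ht).2 x))
      _ = (L + M) * ‖t - t₀‖ ^ 2 := by ring

theorem neg (hf : Nice f) : Nice fun t x => -f t x := by
  intro t₀
  obtain ⟨L, f', hf', h⟩ := hf t₀
  refine ⟨L, fun x => -f' x, hf'.neg, fun t ht => ⟨⟨fun x => ?_, fun x y => ?_⟩, fun x => ?_⟩⟩
  · rw [norm_neg]; exact (h t ht).1.1 x
  · calc ‖-f t x - -f t y‖ = ‖-(f t x - f t y)‖ := by congr 1; ring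
      _ ≤ L * ‖x - y‖ := by rw [norm_neg]; exact (h t ht).1.2 x y
  · calc ‖-f t x - -f t₀ x - (t - t₀) * -f' x‖ = ‖-(f t x - f t₀ x - (t - t₀) * f' x)‖ := by
          congr 1; ring
      _ ≤ L * ‖t - t₀‖ ^ 2 := by rw [norm_neg]; exact (h t ht).2 x

theorem sub (hf : Nice f) (hg : Nice g) : Nice fun t x => f t x - g t x := by
  simpa only [sub_eq_add_neg] using hf.add hg.neg

theorem Nice_diff_le {L : ℝ} {f' : R3 → ℂ} {t₀ : ℂ}
    (h : ∀ t, ‖t - t₀‖ ≤ 1 → BL L (f t) ∧ ∀ x, ‖f t x - f t₀ x - (t - t₀) * f' x‖ ≤ L * ‖t - t₀‖ ^ 2)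
    {t : ℂ} (ht : ‖t - t₀‖ ≤ 1) (x : R3) : ‖f t x - f t₀ x‖ ≤ 4 * L * ‖t - t₀‖ := by
  have h0 : ‖t₀ - t₀‖ ≤ 1 := by simp
  have h1 : ‖t₀ + 1 - t₀‖ ≤ 1 := by simp
  have hL : 0 ≤ L := Nice_bl_nonneg (h t₀ h0).1
  have hd : ‖f' x‖ ≤ 3 * L := by
    have e := (h (t₀ + 1) h1).2 x
    have e1 := (h (t₀ + 1) h1).1.1 x
    have e0 := (h t₀ h0).1.1 x
    simp only [add_sub_cancel_left, one_mul, norm_one, one_pow, mul_one] at e
    calc ‖f' x‖ = ‖f (t₀ + 1) x - f t₀ x - (f (t₀ + 1) x - f t₀ x - f' x)‖ := by congr 1; ring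
      _ ≤ ‖f (t₀ + 1) x‖ + ‖f t₀ x‖ + ‖f (t₀ + 1) x - f t₀ x - f' x‖ :=
        (norm_sub_le _ _).trans (add_le_add (norm_sub_le _ _) le_rfl)
      _ ≤ 3 * L := by linarith
  have hτ := norm_nonneg (t - t₀)
  calc ‖f t x - f t₀ x‖ = ‖(f t x - f t₀ x - (t - t₀) * f' x) + (t - t₀) * f' x‖ := by
        congr 1; ring
    _ ≤ L * ‖t - t₀‖ ^ 2 + ‖t - t₀‖ * (3 * L) := by
        refine (norm_add_le _ _).trans (add_le_add ((h t ht).2 x) ?_)
        rw [norm_mul]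
        exact mul_le_mul_of_nonneg_left hd hτ
    _ ≤ 4 * L * ‖t - t₀‖ := by
        have : L * ‖t - t₀‖ ^ 2 ≤ L * ‖t - t₀‖ := by
          refine mul_le_mul_of_nonneg_left ?_ hL
          nlinarith
        linarith

/-- `‖f' x‖ ≤ 3 L` (take `t = t₀ + 1`). -/
theorem mul (hf : Nice f) (hg : Nice g) : Nice fun t x => f t x * g t x := by
  intro t₀
  obtain ⟨L, f', hf', h⟩ := hf t₀
  obtain ⟨M, g', hg', h'⟩ := hg t₀
  have h0 : ‖t₀ - t₀‖ ≤ 1 := by simp
  have hL : 0 ≤ L := Nice_bl_nonneg (h t₀ h0).1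
  have hM : 0 ≤ M := Nice_bl_nonneg (h' t₀ h0).1
  have hLM : 0 ≤ L * M := mul_nonneg hL hM
  refine ⟨18 * (L * M), fun x => f' x * g t₀ x + f t₀ x * g' x,
    (hf'.mul (h' t₀ h0).1.continuous).add ((h t₀ h0).1.continuous.mul hg'),
    fun t ht => ⟨⟨fun x => ?_, fun x y => ?_⟩, fun x => ?_⟩⟩
  · rw [norm_mul]
    have := mul_le_mul ((h t ht).1.1 x) ((h' t ht).1.1 x) (norm_nonneg _) hL
    linarith
  · have hxy := norm_nonneg (x - y)
    calc ‖f t x * g t x - f t y * g t y‖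
        = ‖(f t x - f t y) * g t x + f t y * (g t x - g t y)‖ := by congr 1; ring
      _ ≤ L * ‖x - y‖ * M + L * (M * ‖x - y‖) := by
          refine (norm_add_le _ _).trans (add_le_add ?_ ?_) <;> rw [norm_mul]
          · exact mul_le_mul ((h t ht).1.2 x y) ((h' t ht).1.1 x) (norm_nonneg _) (by positivity)
          · exact mul_le_mul ((h t ht).1.1 y) ((h' t ht).1.2 x y) (norm_nonneg _) hL
      _ ≤ 18 * (L * M) * ‖x - y‖ := by nlinarith [mul_nonneg hLM hxy]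
  · have hτ := norm_nonneg (t - t₀)
    calc ‖f t x * g t x - f t₀ x * g t₀ x - (t - t₀) * (f' x * g t₀ x + f t₀ x * g' x)‖
        = ‖(f t x - f t₀ x - (t - t₀) * f' x) * g t₀ x +
            f t₀ x * (g t x - g t₀ x - (t - t₀) * g' x) +
            (f t x - f t₀ x) * (g t x - g t₀ x)‖ := by congr 1; ring
      _ ≤ L * ‖t - t₀‖ ^ 2 * M + L * (M * ‖t - t₀‖ ^ 2) +
            4 * L * ‖t - t₀‖ * (4 * M * ‖t - t₀‖) := by
          refine (norm_add_le _ _).trans (add_le_add ((norm_add_le _ _).trans (add_le_add ?_ ?_)) ?_) <;>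
            rw [norm_mul]
          · exact mul_le_mul ((h t ht).2 x) ((h' t₀ h0).1.1 x) (norm_nonneg _) (by positivity)
          · exact mul_le_mul ((h t₀ h0).1.1 x) ((h' t ht).2 x) (norm_nonneg _) hL
          · exact mul_le_mul (Nice_diff_le h ht x) (Nice_diff_le h' ht x) (norm_nonneg _)
              (by positivity)
      _ = 18 * (L * M) * ‖t - t₀‖ ^ 2 := by ring

theorem ite (p : Prop) [Decidable p] (hf : Nice f) : Nice fun t x => if p then f t x else 0 := by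
  by_cases hp : p
  · simpa only [hp, if_true] using hf
  · simpa only [hp, if_false] using const 0

theorem Nice_half (hf : Nice f) : Nice fun t x => f t x / 2 := by
  simpa only [div_eq_mul_inv] using hf.mul (const 2⁻¹)

end Nice

theorem nice_AF {L : ℝ} {κ : R3 → ℂ} {a : Fin 3 → R3 → ℂ} (hκ : BL L κ) (ha : ∀ i, BL L (a i))
    (i j : Fin 3) : Nice fun t => AF κ a t i j := by
  have hk : Nice fun _ x => κ x := Nice.of_bl hκ
  have h0 : Nice fun _ x => a 0 x := Nice.of_bl (ha 0)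
  have h1 : Nice fun _ x => a 1 x := Nice.of_bl (ha 1)
  have h2 : Nice fun _ x => a 2 x := Nice.of_bl (ha 2)
  have hα : Nice fun t x => aα (fun k => a k x) t :=
    (h0.add ((Nice.const I).mul h1)).add (Nice.id.mul h2)
  have hβ : Nice fun t x => aβ (fun k => a k x) t :=
    ((Nice.id.neg.mul h0).add (((Nice.const I).mul Nice.id).mul h1)).add h2
  have hσ : Nice fun t x => aσ (fun k => a k x) t := hα.add (Nice.id.mul hβ)
  have hc : Nice fun _ x => 1 / 2 - κ x := (Nice.const (1 / 2)).sub hk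
  fin_cases i <;> fin_cases j
  · exact hσ.neg.Nice_half.sub (hc.mul hα)
  · exact hc.neg.mul hβ
  · exact hk.neg
  · exact (Nice.id.neg.mul hc).mul hα
  · exact hσ.neg.Nice_half.sub ((Nice.id.mul hc).mul hβ)
  · exact Nice.id.neg.mul hk
  · exact (hk.mul hσ).mul hα
  · exact (hk.mul hσ).mul hβ
  · exact hk.neg.mul hσ

theorem dd_pos (t : ℂ) (i : Fin 3) : 0 < dd t i := by
  fin_cases i
  · exact zero_lt_one
  · exact zero_lt_one
  · exact Real.sqrt_pos.2 (by positivity)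

/-- homogeneity of the entries of `Am`. -/
theorem norm_Am_le (L : ℝ) :
    ∃ C : ℝ, 0 ≤ C ∧ ∀ (κ : ℂ) (a : C3) (t : ℂ), ‖κ‖ ≤ L → (∀ k, ‖a k‖ ≤ L) → ∀ i j,
      ‖Am κ a t i j‖ * dd t j ≤ C * (1 + ‖t‖ ^ 2) * dd t i := by
  obtain ⟨M, hM1, hLM⟩ : ∃ M : ℝ, 1 ≤ M ∧ L ≤ M := ⟨max L 1, le_max_right _ _, le_max_left _ _⟩
  refine ⟨18 * M ^ 3, by positivity, fun κ a t hκ ha i j => ?_⟩
  have hκ' : ‖κ‖ ≤ M := hκ.trans hLM
  have ha' : ∀ k, ‖a k‖ ≤ M := fun k => (ha k).trans hLM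
  obtain ⟨d, hd⟩ : ∃ d : ℝ, d = √(1 + ‖t‖ ^ 2) := ⟨_, rfl⟩
  have hd2 : 1 + ‖t‖ ^ 2 = d ^ 2 := by rw [hd, Real.sq_sqrt (by positivity)]
  have hd0 : 0 ≤ d := hd ▸ Real.sqrt_nonneg _
  have hd1 : 1 ≤ d := by nlinarith [sq_nonneg ‖t‖]
  have htd : ‖t‖ ≤ d := by nlinarith [norm_nonneg t]
  have hM0 : 0 ≤ M := by linarith
  have hMd : M ≤ M * d := by nlinarith
  have hta : ∀ k, ‖t‖ * ‖a k‖ ≤ M * d := fun k => by
    rw [mul_comm M]; exact mul_le_mul htd (ha' k) (norm_nonneg _) hd0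
  have hα : ‖aα a t‖ ≤ 3 * (M * d) := by
    unfold aα
    refine (norm_add_le _ _).trans ((add_le_add (norm_add_le _ _) le_rfl).trans ?_)
    simp only [norm_mul, norm_I, one_mul]
    linarith [ha' 0, ha' 1, hta 2]
  have hβ : ‖aβ a t‖ ≤ 3 * (M * d) := by
    unfold aβ
    refine (norm_add_le _ _).trans ((add_le_add (norm_add_le _ _) le_rfl).trans ?_)
    simp only [norm_mul, norm_I, one_mul, norm_neg]
    linarith [ha' 2, hta 0, hta 1]
  have hMd2 : M * d ≤ M * d ^ 2 := by nlinarith [mul_nonneg hM0 hd0]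
  have hσ : ‖aσ a t‖ ≤ 6 * (M * d ^ 2) := by
    unfold aσ
    refine (norm_add_le _ _).trans ?_
    rw [norm_mul]
    have : ‖t‖ * ‖aβ a t‖ ≤ d * (3 * (M * d)) := mul_le_mul htd hβ (norm_nonneg _) hd0
    nlinarith
  have hc : ‖1 / 2 - κ‖ ≤ 2 * M := by
    refine (norm_sub_le _ _).trans ?_
    have : ‖(1 / 2 : ℂ)‖ = 1 / 2 := by simp
    linarith
  have hM2 : M ≤ M ^ 3 := by nlinarith [mul_nonneg hM0 hM0]
  have hM3 : M ^ 2 ≤ M ^ 3 := by nlinarith [mul_nonneg hM0 hM0]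
  have hdd : d ≤ d ^ 2 := by nlinarith
  have e1 : M * d ^ 2 ≤ M ^ 3 * d ^ 2 := by gcongr
  have e2 : M ^ 2 * d ^ 2 ≤ M ^ 3 * d ^ 2 := by gcongr
  have e3 : M ^ 2 * d ≤ M ^ 3 * d ^ 2 := by gcongr
  have e4 : M * d ≤ M ^ 3 * d ^ 2 := by gcongr
  have e0 : 0 ≤ M ^ 3 * d ^ 2 := by positivity
  have hcα : ‖1 / 2 - κ‖ * ‖aα a t‖ ≤ 6 * (M ^ 2 * d) := by
    have := mul_le_mul hc hα (norm_nonneg _) (by positivity)
    linarith
  have hcβ : ‖1 / 2 - κ‖ * ‖aβ a t‖ ≤ 6 * (M ^ 2 * d) := by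
    have := mul_le_mul hc hβ (norm_nonneg _) (by positivity)
    linarith
  have htcα : ‖t‖ * (‖1 / 2 - κ‖ * ‖aα a t‖) ≤ 6 * (M ^ 2 * d ^ 2) := by
    have := mul_le_mul htd hcα (by positivity) hd0
    linarith
  have htcβ : ‖t‖ * (‖1 / 2 - κ‖ * ‖aβ a t‖) ≤ 6 * (M ^ 2 * d ^ 2) := by
    have := mul_le_mul htd hcβ (by positivity) hd0
    linarith
  have hκσ : ‖κ‖ * ‖aσ a t‖ ≤ 6 * (M ^ 2 * d ^ 2) := by
    have := mul_le_mul hκ' hσ (norm_nonneg _) hM0
    linarith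
  have hs2 : ‖-aσ a t / 2‖ ≤ 3 * (M * d ^ 2) := by
    rw [norm_div, norm_neg]
    have : ‖(2 : ℂ)‖ = 2 := by simp
    rw [this]
    linarith
  have hD : dd t = ![1, 1, d] := by rw [hd]; rfl
  rw [hd2, hD]
  fin_cases i <;> fin_cases j
  · show ‖-aσ a t / 2 - (1 / 2 - κ) * aα a t‖ * 1 ≤ 18 * M ^ 3 * d ^ 2 * 1
    have := norm_sub_le (-aσ a t / 2) ((1 / 2 - κ) * aα a t)
    rw [norm_mul] at this
    linarith
  · show ‖-(1 / 2 - κ) * aβ a t‖ * 1 ≤ 18 * M ^ 3 * d ^ 2 * 1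
    rw [norm_mul, norm_neg]
    linarith
  · show ‖-κ‖ * d ≤ 18 * M ^ 3 * d ^ 2 * 1
    rw [norm_neg]
    have := mul_le_mul_of_nonneg_right hκ' hd0
    linarith
  · show ‖-t * (1 / 2 - κ) * aα a t‖ * 1 ≤ 18 * M ^ 3 * d ^ 2 * 1
    rw [norm_mul, norm_mul, norm_neg, mul_assoc ‖t‖]
    linarith
  · show ‖-aσ a t / 2 - t * (1 / 2 - κ) * aβ a t‖ * 1 ≤ 18 * M ^ 3 * d ^ 2 * 1
    have := norm_sub_le (-aσ a t / 2) (t * (1 / 2 - κ) * aβ a t)
    rw [norm_mul, norm_mul, mul_assoc ‖t‖] at this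
    linarith
  · show ‖-t * κ‖ * d ≤ 18 * M ^ 3 * d ^ 2 * 1
    rw [norm_mul, norm_neg]
    have := mul_le_mul_of_nonneg_right (mul_le_mul htd hκ' (norm_nonneg _) hd0) hd0
    nlinarith
  · show ‖κ * aσ a t * aα a t‖ * 1 ≤ 18 * M ^ 3 * d ^ 2 * d
    rw [norm_mul, norm_mul]
    have := mul_le_mul hκσ hα (norm_nonneg _) (by positivity)
    linarith
  · show ‖κ * aσ a t * aβ a t‖ * 1 ≤ 18 * M ^ 3 * d ^ 2 * d
    rw [norm_mul, norm_mul]
    have := mul_le_mul hκσ hβ (norm_nonneg _) (by positivity)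
    linarith
  · show ‖-κ * aσ a t‖ * d ≤ 18 * M ^ 3 * d ^ 2 * d
    rw [norm_mul, norm_neg]
    refine mul_le_mul_of_nonneg_right ?_ hd0
    linarith

/-- `car1` for `ι = Fin 3 × Fin 3`, the direction `(1 + ‖t‖²)⁻¹ • th t` (`n2 = 2`) and the unknowns
`(dd t j / dd t i) H i j`. -/
theorem gauge_bound (R L : ℝ) :
    ∃ C : ℝ, 0 ≤ C ∧ ∀ (κ κ' : R3 → ℂ) (a a' : Fin 3 → R3 → ℂ) (K : Set R3) (t : ℂ)
      (H : Fin 3 → Fin 3 → R3 → ℂ), BL L κ → BL L κ' → (∀ i, BL L (a i)) → (∀ i, BL L (a' i)) →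
      K ⊆ closedBall 0 R → (∀ x ∉ K, κ' x = κ x ∧ ∀ i, a' i x = a i x) →
      GE (th t) (AF κ a t) (AF κ' a' t) K H →
      ∀ i j, nr univ (H i j) * dd t j ≤ C * dd t i := by
  obtain ⟨C₀, hC₀, hA⟩ := norm_Am_le L
  obtain ⟨C₁, hC₁, hcar⟩ := car1 (Fin 3 × Fin 3) R (2 * C₀) (δ := 2) two_pos
  set s : R3 → ℝ := (closedBall (0 : R3) R).indicator fun _ => 2 * C₀ with hs
  have hsL : L2 univ s :=
    L2.indicator_univ measurableSet_closedBall
      (L2.of_continuous measurableSet_closedBall isBounded_closedBall continuous_const)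
  refine ⟨C₁ * nr univ s, mul_nonneg hC₁ (nr_nonneg _ _),
    fun κ κ' a a' K t H hκ hκ' ha ha' hK hout hG i j => ?_⟩
  set w : ℝ := 1 + ‖t‖ ^ 2 with hw
  have hw0 : 0 < w := by positivity
  set c : ℂ := ((w⁻¹ : ℝ) : ℂ) with hc
  have hcn : ‖c‖ = w⁻¹ := by
    rw [hc, Complex.norm_real, Real.norm_of_nonneg (inv_nonneg.2 hw0.le)]
  set q : Fin 3 × Fin 3 → ℝ := fun p => dd t p.2 / dd t p.1 with hq
  have hq0 : ∀ p, 0 < q p := fun p => div_pos (dd_pos t _) (dd_pos t _)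
  have hqn : ∀ p, ‖((q p : ℝ) : ℂ)‖ = q p := fun p => by
    rw [Complex.norm_real, Real.norm_of_nonneg (hq0 p).le]
  have hbA : ∀ i j, Bd (AF κ a t i j) := bd_AF hκ.bd (fun i => (ha i).bd) t
  have hbA' : ∀ i j, Bd (AF κ' a' t i j) := bd_AF hκ'.bd (fun i => (ha' i).bd) t
  have hout' : ∀ i j x, x ∉ K → AF κ' a' t i j x = AF κ a t i j x := fun i j x hx =>
    AF_congr (hout x hx).1 (hout x hx).2 t i j
  -- the normalised coefficients are bounded
  have hB : ∀ {κ : R3 → ℂ} {a : Fin 3 → R3 → ℂ}, BL L κ → (∀ i, BL L (a i)) → ∀ i j x,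
      q (i, j) * (w⁻¹ * ‖AF κ a t i j x‖) ≤ C₀ := by
    intro κ a hκ ha i j x
    have h := hA (κ x) (fun k => a k x) t (hκ.1 x) (fun k => (ha k).1 x) i j
    have hi := dd_pos t i
    have : q (i, j) * (w⁻¹ * ‖AF κ a t i j x‖) = ‖AF κ a t i j x‖ * dd t j / (w * dd t i) := by
      simp only [hq]; field_simp
    rw [this, div_le_iff₀ (by positivity)]
    calc _ ≤ C₀ * w * dd t i := h
      _ = _ := by ring
  have key := hcar (c • th t) (by
      rw [n2_smul, n2_th, hcn, ← hw]; field_simp; exact le_rfl)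
    (fun p x => (q p : ℂ) * H p.1 p.2 x)
    (fun p x => (q p : ℂ) * (c * gr (AF κ a t) (AF κ' a' t) H p.1 p.2 x)) s
    (fun p => L2.cmul _ (hG.l2 _ _))
    (fun p => L2.cmul _ (L2.cmul _ (L2.gr hbA hbA' hK hout' hG.l2 _ _)))
    (fun p => ((hG.eq p.1 p.2).smul_dir c).const_mul _)
    (fun p => ((hG.van p.1 p.2).mono hK).mul_left fun _ => (q p : ℂ)) hsL
    (Eventually.of_forall fun x p => by
      obtain ⟨i, j⟩ := p
      set Y : Fin 3 × Fin 3 → ℝ := fun p => ‖(q p : ℂ) * H p.1 p.2 x‖ with hY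
      have hY0 : ∀ p, 0 ≤ Y p := fun p => norm_nonneg _
      have hYe : ∀ p, Y p = q p * ‖H p.1 p.2 x‖ := fun p => by simp only [hY]; rw [norm_mul, hqn]
      have hqq : ∀ i k j, q (i, j) = q (i, k) * q (k, j) := fun i k j => by
        have := dd_pos t i
        have := dd_pos t k
        simp only [hq]; field_simp
      have h1 : ∑ k, Y (k, j) ≤ ∑ p, Y p := by
        rw [Fintype.sum_prod_type]
        exact Finset.sum_le_sum fun k _ =>
          Finset.single_le_sum (f := fun l => Y (k, l)) (fun l _ => hY0 _) (Finset.mem_univ j)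
      have h2 : ∑ k, Y (i, k) ≤ ∑ p, Y p := by
        rw [Fintype.sum_prod_type]
        exact Finset.single_le_sum (f := fun l => ∑ k, Y (l, k))
          (fun l _ => Finset.sum_nonneg fun k _ => hY0 _) (Finset.mem_univ i)
      have h3 : q (i, j) * (w⁻¹ * ‖AF κ' a' t i j x - AF κ a t i j x‖) ≤ s x := by
        by_cases hx : x ∈ closedBall (0 : R3) R
        · rw [hs, indicator_of_mem hx]
          have e1 := hB hκ ha i j x
          have e2 := hB hκ' ha' i j x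
          have e3 : q (i, j) * (w⁻¹ * ‖AF κ' a' t i j x - AF κ a t i j x‖) ≤
              q (i, j) * (w⁻¹ * (‖AF κ' a' t i j x‖ + ‖AF κ a t i j x‖)) := by
            have := hq0 (i, j)
            gcongr
            exact norm_sub_le _ _
          linarith
        · rw [hs, indicator_of_notMem hx, hout' i j x fun h => hx (hK h)]
          simp
      have h4 : ∀ k, q (i, j) * (w⁻¹ * ‖AF κ' a' t i k x * H k j x - H i k x * AF κ a t k j x‖) ≤
          C₀ * Y (k, j) + C₀ * Y (i, k) := by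
        intro k
        have e1 := hB hκ ha k j x
        have e2 := hB hκ' ha' i k x
        have := hq0 (i, j)
        calc q (i, j) * (w⁻¹ * ‖AF κ' a' t i k x * H k j x - H i k x * AF κ a t k j x‖)
            ≤ q (i, j) * (w⁻¹ * (‖AF κ' a' t i k x‖ * ‖H k j x‖ + ‖H i k x‖ * ‖AF κ a t k j x‖)) := by
              gcongr
              rw [← norm_mul, ← norm_mul]
              exact norm_sub_le _ _
          _ = q (i, k) * (w⁻¹ * ‖AF κ' a' t i k x‖) * Y (k, j) +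
              q (k, j) * (w⁻¹ * ‖AF κ a t k j x‖) * Y (i, k) := by
              rw [hYe, hYe, hqq i k j]; ring
          _ ≤ C₀ * Y (k, j) + C₀ * Y (i, k) :=
              add_le_add (mul_le_mul_of_nonneg_right e2 (hY0 _))
                (mul_le_mul_of_nonneg_right e1 (hY0 _))
      rw [norm_mul, norm_mul, hqn, hcn]
      have := hq0 (i, j)
      calc q (i, j) * (w⁻¹ * ‖gr (AF κ a t) (AF κ' a' t) H i j x‖)
          ≤ q (i, j) * (w⁻¹ * (∑ k, ‖AF κ' a' t i k x * H k j x - H i k x * AF κ a t k j x‖ +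
              ‖AF κ' a' t i j x - AF κ a t i j x‖)) := by
            gcongr
            exact (norm_add_le _ _).trans (add_le_add (norm_sum_le _ _) le_rfl)
        _ = ∑ k, q (i, j) * (w⁻¹ * ‖AF κ' a' t i k x * H k j x - H i k x * AF κ a t k j x‖) +
              q (i, j) * (w⁻¹ * ‖AF κ' a' t i j x - AF κ a t i j x‖) := by
            rw [mul_add, mul_add, Finset.mul_sum, Finset.mul_sum]
        _ ≤ ∑ k, (C₀ * Y (k, j) + C₀ * Y (i, k)) + s x :=
            add_le_add (Finset.sum_le_sum fun k _ => h4 k) h3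
        _ ≤ 2 * C₀ * ∑ p, Y p + s x := by
            rw [Finset.sum_add_distrib, ← Finset.mul_sum, ← Finset.mul_sum]
            have := mul_le_mul_of_nonneg_left h1 hC₀
            have := mul_le_mul_of_nonneg_left h2 hC₀
            linarith) (i, j)
  rw [nr_const_mul, hqn] at key
  have hi := dd_pos t i
  simp only [hq] at key
  rw [div_mul_eq_mul_div, div_le_iff₀ hi] at key
  linarith

end Crest.Agent.R80
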