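import Crest.Agent.R80.Hol
import Crest.Agent.R80.Nice

/-!
# Row 80: Liouville's theorem for the gauge
-/

namespace Crest.Agent.R80

open MeasureTheory Set Metric Filter Topology Complex
open scoped ContDiff
open Crest.AnalysisR.VecCalc3 Crest.AnalysisR.PDE Crest.AnalysisR.PDE.Elasticity

theorem Liou_th_diff (i : Fin 3) : Differentiable ℂ fun t => th t i := by
  fin_cases i
  · show Differentiable ℂ fun t : ℂ => 1 - t ^ 2
    fun_prop
  · show Differentiable ℂ fun t : ℂ => I * (1 + t ^ 2)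
    fun_prop
  · show Differentiable ℂ fun t : ℂ => 2 * t
    fun_prop

theorem Liou_th_ne (t : ℂ) : th t ≠ 0 := by
  intro h
  have h0 : 1 - t ^ 2 = 0 := congrFun h 0
  have h1 : I * (1 + t ^ 2) = 0 := congrFun h 1
  have h2 : 1 + t ^ 2 = 0 := (mul_eq_zero.1 h1).resolve_left I_ne_zero
  have h3 : (2 : ℂ) = 0 := by linear_combination h0 + h2
  exact two_ne_zero h3

/-- an `L²` function orthogonal to all `L²` functions vanishes -/
theorem Liou_ae_eq {f g : R3 → ℂ} (hf : L2 univ f) (hg : L2 univ g)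
    (h : ∀ ψ, L2 univ ψ → ∫ x, f x * ψ x = ∫ x, g x * ψ x) : ∀ᵐ x : R3, f x = g x := by
  have hd : L2 univ fun x => f x - g x := hf.sub' hg
  have hψ := hd.conj
  have h1 := h _ hψ
  have i1 := L2.integrableOn_mul hf hψ
  have i2 := L2.integrableOn_mul hg hψ
  rw [integrableOn_univ] at i1 i2
  have h2 : ∫ x, (f x - g x) * starRingEnd ℂ (f x - g x) = 0 := by
    have e : (fun x => (f x - g x) * starRingEnd ℂ (f x - g x)) =
        fun x => f x * starRingEnd ℂ (f x - g x) - g x * starRingEnd ℂ (f x - g x) := by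
      funext x
      ring
    rw [e, integral_sub i1 i2, h1, sub_self]
  have h3 : ∫ x, ‖f x - g x‖ ^ 2 = 0 := by
    have e : (fun x => (f x - g x) * starRingEnd ℂ (f x - g x)) =
        fun x => ((‖f x - g x‖ ^ 2 : ℝ) : ℂ) := by
      funext x
      rw [Complex.mul_conj, Complex.normSq_eq_norm_sq]
    rw [e, integral_complex_ofReal] at h2
    exact_mod_cast h2
  have h4 := nr_sq hd
  rw [Measure.restrict_univ, h3] at h4
  have h5 : nr univ (fun x => f x - g x) ≤ 0 := (pow_eq_zero_iff two_ne_zero |>.1 h4).le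
  filter_upwards [ae_eq_zero_of_nr MeasurableSet.univ hd h5] with x hx
  exact sub_eq_zero.1 (hx (mem_univ x))

theorem Liou_norm_le {f ψ : R3 → ℂ} (hf : L2 univ f) (hψ : L2 univ ψ) :
    ‖∫ x, f x * ψ x‖ ≤ nr univ f * nr univ ψ := by
  have := norm_setIntegral_mul_le hf hψ
  rwa [Measure.restrict_univ] at this

theorem Liou_hol {R L : ℝ} {κ κ' : R3 → ℂ} {a a' : Fin 3 → R3 → ℂ} {K : Set R3} (hκ : BL L κ)
    (hκ' : BL L κ') (ha : ∀ i, BL L (a i)) (ha' : ∀ i, BL L (a' i)) (hK : K ⊆ closedBall 0 R)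
    (hout : ∀ x ∉ K, κ' x = κ x ∧ ∀ i, a' i x = a i x) {H : ℂ → Fin 3 → Fin 3 → R3 → ℂ}
    (hH : ∀ t, GE (th t) (AF κ a t) (AF κ' a' t) K (H t)) (i j : Fin 3) {ψ : R3 → ℂ}
    (hψ : L2 univ ψ) : Differentiable ℂ fun t => ∫ x, H t i j x * ψ x := by
  refine hol (ι := Fin 3 × Fin 3) (R := R) Liou_th_diff Liou_th_ne
    (M := fun p q t x => (if p.2 = q.2 then AF κ' a' t p.1 q.1 x else 0) -
      (if p.1 = q.1 then AF κ a t q.2 p.2 x else 0))
    (F := fun p t x => AF κ' a' t p.1 p.2 x - AF κ a t p.1 p.2 x)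
    (fun p q => (Nice.ite _ (nice_AF hκ' ha' _ _)).sub (Nice.ite _ (nice_AF hκ ha _ _)))
    (fun p => (nice_AF hκ' ha' _ _).sub (nice_AF hκ ha _ _)) (fun p t => ?_)
    (y := fun t p => H t p.1 p.2) (fun t p => (hH t).l2 _ _)
    (fun t p => ((hH t).van _ _).mono hK) (fun t p => ?_) (i, j) hψ
  · refine Eventually.of_forall fun x hx => ?_
    obtain ⟨h1, h2⟩ := hout x fun h => hx (hK h)
    have h3 : (fun k => a' k x) = fun k => a k x := funext h2
    simp only [AF, h1, h3, sub_self]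
  · have e : (fun x => ∑ q : Fin 3 × Fin 3,
        ((if p.2 = q.2 then AF κ' a' t p.1 q.1 x else 0) -
          (if p.1 = q.1 then AF κ a t q.2 p.2 x else 0)) * H t q.1 q.2 x +
        (AF κ' a' t p.1 p.2 x - AF κ a t p.1 p.2 x)) =
        gr (AF κ a t) (AF κ' a' t) (H t) p.1 p.2 := by
      funext x
      unfold gr
      congr 1
      simp only [sub_mul, Finset.sum_sub_distrib, ite_mul, zero_mul, Fintype.sum_prod_type]
      congr 1
      · exact Finset.sum_congr rfl fun k _ => by rw [Finset.sum_ite_eq]; simp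
      · rw [Finset.sum_comm]
        exact Finset.sum_congr rfl fun k _ => by rw [Finset.sum_ite_eq]; simp [mul_comm]
    rw [e]
    exact (hH t).eq _ _

theorem Liou_const {φ : ℂ → ℂ} (hφ : Differentiable ℂ φ) {C : ℝ} (h : ∀ t, ‖φ t‖ ≤ C) (t s : ℂ) :
    φ t = φ s :=
  hφ.apply_eq_apply_of_bounded
    (isBounded_iff_forall_norm_le.2 ⟨C, by rintro _ ⟨u, rfl⟩; exact h u⟩) t s

theorem Liou_zero {φ : ℂ → ℂ} (hφ : Differentiable ℂ φ) {C : ℝ}
    (h : ∀ t, ‖φ t‖ * √(1 + ‖t‖ ^ 2) ≤ C) (t : ℂ) : φ t = 0 := by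
  have h1 : ∀ u, ‖φ u‖ ≤ C := fun u => by
    refine le_trans ?_ (h u)
    refine le_mul_of_one_le_right (norm_nonneg _) ?_
    rw [Real.one_le_sqrt]
    linarith [sq_nonneg ‖u‖]
  by_contra hne
  have hc : 0 < ‖φ t‖ := norm_pos_iff.2 hne
  have hC : 0 ≤ C := (norm_nonneg _).trans (h1 t)
  set s : ℝ := C / ‖φ t‖ + 1 with hs
  have hs0 : 0 ≤ s := by positivity
  have h2 := h (s : ℂ)
  rw [Liou_const hφ h1 (s : ℂ) t, Complex.norm_real, Real.norm_of_nonneg hs0] at h2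
  have h3 : s ≤ √(1 + s ^ 2) := Real.le_sqrt_of_sq_le (by linarith)
  have h4 := mul_le_mul_of_nonneg_left h3 hc.le
  have h5 : ‖φ t‖ * s = C + ‖φ t‖ := by
    rw [hs]
    field_simp
  linarith

/-- `hol` for `ι = Fin 3 × Fin 3`; `gauge_bound`; `Differentiable.apply_eq_apply_of_bounded`,
`Differentiable.apply_eq_of_tendsto_cocompact`; test with `ψ = conj (difference)`. -/
theorem liou {R L : ℝ} {κ κ' : R3 → ℂ} {a a' : Fin 3 → R3 → ℂ} {K : Set R3} (hκ : BL L κ)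
    (hκ' : BL L κ') (ha : ∀ i, BL L (a i)) (ha' : ∀ i, BL L (a' i)) (hK : K ⊆ closedBall 0 R)
    (hout : ∀ x ∉ K, κ' x = κ x ∧ ∀ i, a' i x = a i x) {H : ℂ → Fin 3 → Fin 3 → R3 → ℂ}
    (hH : ∀ t, GE (th t) (AF κ a t) (AF κ' a' t) K (H t)) (t : ℂ) :
    ∀ᵐ x : R3, H t 0 2 x = 0 ∧ H t 1 2 x = 0 ∧ H t 0 0 x = H 0 0 0 x ∧ H t 0 1 x = H 0 0 1 x ∧
      H t 1 0 x = H 0 1 0 x ∧ H t 1 1 x = H 0 1 1 x ∧ H t 2 2 x = H 0 2 2 x := by
  obtain ⟨C, hC0, hC⟩ := gauge_bound R L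
  have hb := fun u => hC κ κ' a a' K u (H u) hκ hκ' ha ha' hK hout (hH u)
  have hc : ∀ i j : Fin 3, (∀ u, dd u i = dd u j) → ∀ᵐ x : R3, H t i j x = H 0 i j x := by
    intro i j hij
    refine Liou_ae_eq ((hH t).l2 i j) ((hH 0).l2 i j) fun ψ hψ => ?_
    refine Liou_const (Liou_hol hκ hκ' ha ha' hK hout hH i j hψ) (C := C * nr univ ψ) (fun u => ?_) t 0
    refine (Liou_norm_le ((hH u).l2 i j) hψ).trans
      (mul_le_mul_of_nonneg_right ?_ (nr_nonneg _ _))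
    have h1 := hb u i j
    rw [hij u] at h1
    exact le_of_mul_le_mul_right h1 (dd_pos u j)
  have hz : ∀ i : Fin 3, (∀ u, dd u i = 1) → ∀ᵐ x : R3, H t i 2 x = 0 := by
    intro i hi
    refine Liou_ae_eq ((hH t).l2 i 2) (L2.zero' univ) fun ψ hψ => ?_
    simp only [zero_mul, integral_zero]
    refine Liou_zero (Liou_hol hκ hκ' ha ha' hK hout hH i 2 hψ) (C := C * nr univ ψ) (fun u => ?_) t
    have h1 := hb u i 2
    rw [hi u, mul_one] at h1
    have h2 : dd u 2 = √(1 + ‖u‖ ^ 2) := rfl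
    rw [h2] at h1
    have h3 := mul_le_mul_of_nonneg_right (Liou_norm_le ((hH u).l2 i 2) hψ)
      (Real.sqrt_nonneg (1 + ‖u‖ ^ 2))
    have h4 := mul_le_mul_of_nonneg_right h1 (nr_nonneg univ ψ)
    linarith
  filter_upwards [hz 0 fun _ => rfl, hz 1 fun _ => rfl, hc 0 0 fun _ => rfl, hc 0 1 fun _ => rfl,
    hc 1 0 fun _ => rfl, hc 1 1 fun _ => rfl, hc 2 2 fun _ => rfl] with x h1 h2 h3 h4 h5 h6 h7
  exact ⟨h1, h2, h3, h4, h5, h6, h7⟩

end Crest.Agent.R80
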