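import Crest.Agent.R80.Match
import Crest.Agent.R80.Gauge
import Crest.Agent.R80.Liou
import Crest.Agent.R80.Alg
import Crest.Agent.R80.Ext

/-!
# Row 80: assembly
-/

namespace Crest.Agent.R80

open MeasureTheory Set Metric Filter Topology Complex
open scoped ContDiff
open Crest.AnalysisR.VecCalc3 Crest.AnalysisR.PDE Crest.AnalysisR.PDE.Elasticity

theorem main (S : Setup) : ∀ x ∈ S.Ω, S.c₁.m x = S.c₂.m x ∧ S.c₁.l x = S.c₂.l x := by
  have hb := bdy S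
  obtain ⟨r, hr0, hr⟩ := S.dom.exists_ball
  obtain ⟨L, hκ, hκ', ha⟩ := S.exists_bl hb
  have hout : ∀ x ∉ closure S.Ω, S.kh x = S.c₁.ka x ∧ ∀ i, S.ah i x = S.c₁.a i x := fun x hx =>
    have hx' : x ∉ S.Ω := fun h => hx (subset_closure h)
    ⟨hat_of_notMem _ _ hx', fun i => hat_of_notMem _ _ hx'⟩
  have hG : ∀ t, ∃ H, GE (th t) (AF S.c₁.ka S.c₁.a t) (AF S.kh S.ah t) (closure S.Ω) H := fun t =>
    gauge isOpen_ball isBounded_ball S.dom.isCompact_closure hr (th_ne_zero t)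
      (bd_AF hκ.bd (fun i => (ha i).1.bd) t) (bd_AF hκ'.bd (fun i => (ha i).2.bd) t)
      (fun i j x hx => AF_congr (hout x hx).1 (hout x hx).2 t i j)
      (fun x₀ ξ η hη => exists_mat S hr t x₀ ξ hη)
  choose H hH using hG
  have hl := liou hκ hκ' (fun i => (ha i).1) (fun i => (ha i).2) (hr.trans ball_subset_closedBall)
    hout hH
  refine alg S hb (hH 0) (hH 1) ?_ (hl 1)
  filter_upwards [hl 0] with x hx using ⟨hx.1, hx.2.1⟩

theorem exists_co {Ω : Set R3} (h : IsDom Ω) {lam mu : R3 → ℝ}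
    (hl : ContDiffOn ℝ ∞ lam (closure Ω)) (hm : ContDiffOn ℝ ∞ mu (closure Ω))
    (hpos : ∀ x ∈ closure Ω, 0 < mu x ∧ 0 < 3 * lam x + 2 * mu x) :
    ∃ c : Co, ∀ x ∈ closure Ω, c.lam x = lam x ∧ c.mu x = mu x := by
  have hp : ∀ x ∈ closure Ω, 0 < lam x + 2 * mu x := fun x hx => by
    have := hpos x hx; linarith [this.1, this.2]
  obtain ⟨m, hm6, hmc, hme⟩ := exists_ext h (f := fun x => Real.log (mu x))
    (hm.log fun x hx => (hpos x hx).1.ne')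
  obtain ⟨l, hl6, hlc, hle⟩ := exists_ext h (f := fun x => Real.log (mu x / (lam x + 2 * mu x)))
    ((hm.div (hl.add (contDiffOn_const.mul hm)) fun x hx => (hp x hx).ne').log
      fun x hx => (div_pos (hpos x hx).1 (hp x hx)).ne')
  refine ⟨⟨m, l, hm6, hl6, hmc, hlc⟩, fun x hx => ?_⟩
  have h1 : Real.exp (m x) = mu x := by rw [hme hx, Real.exp_log (hpos x hx).1]
  have h2 : Real.exp (-l x) = (lam x + 2 * mu x) / mu x := by
    rw [Real.exp_neg, hle hx, Real.exp_log (div_pos (hpos x hx).1 (hp x hx)), inv_div]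
  refine ⟨?_, h1⟩
  show Real.exp (m x) * (Real.exp (-l x) - 2) = lam x
  rw [h1, h2]
  have := (hpos x hx).1.ne'
  field_simp
  ring

theorem final (Ω : Set R3) (hbdd : Bornology.IsBounded Ω) (hbdry : HasSmoothBoundary Ω)
    (lam₁ mu₁ lam₂ mu₂ : R3 → ℝ)
    (hl₁ : ContDiffOn ℝ ∞ lam₁ (closure Ω)) (hm₁ : ContDiffOn ℝ ∞ mu₁ (closure Ω))
    (hl₂ : ContDiffOn ℝ ∞ lam₂ (closure Ω)) (hm₂ : ContDiffOn ℝ ∞ mu₂ (closure Ω))
    (hpos : ∀ x ∈ closure Ω,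
      0 < mu₁ x ∧ 0 < 3 * lam₁ x + 2 * mu₁ x ∧ 0 < mu₂ x ∧ 0 < 3 * lam₂ x + 2 * mu₂ x)
    (hdata : SameBoundaryData Ω lam₁ mu₁ lam₂ mu₂) :
    ∀ x ∈ Ω, lam₁ x = lam₂ x ∧ mu₁ x = mu₂ x := by
  have hd : IsDom Ω := ⟨hbdd, hbdry⟩
  obtain ⟨c₁, h₁⟩ := exists_co hd hl₁ hm₁ fun x hx => ⟨(hpos x hx).1, (hpos x hx).2.1⟩
  obtain ⟨c₂, h₂⟩ := exists_co hd hl₂ hm₂ fun x hx => ⟨(hpos x hx).2.2.1, (hpos x hx).2.2.2⟩
  have he : ∀ (c : Co) (lam mu : R3 → ℝ), (∀ x ∈ closure Ω, c.lam x = lam x ∧ c.mu x = mu x) →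
      ∀ u, elasticEnergy Ω c.lam c.mu u = elasticEnergy Ω lam mu u := by
    intro c lam mu h u
    refine setIntegral_congr_fun hd.measurableSet fun x hx => ?_
    simp only [energyDensity, (h x (subset_closure hx)).1, (h x (subset_closure hx)).2]
  let S : Setup :=
    { Ω := Ω
      dom := hd
      c₁ := c₁
      c₂ := c₂
      pos₁ := fun x hx => by rw [(h₁ x hx).1, (h₁ x hx).2]; exact (hpos x hx).2.1
      pos₂ := fun x hx => by rw [(h₂ x hx).1, (h₂ x hx).2]; exact (hpos x hx).2.2.2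
      data := fun φ hφ => by
        simp only [he c₁ lam₁ mu₁ h₁, he c₂ lam₂ mu₂ h₂]
        exact hdata φ hφ }
  intro x hx
  obtain ⟨hm, hl⟩ := main S x hx
  have hm' : c₁.m x = c₂.m x := hm
  have hl' : c₁.l x = c₂.l x := hl
  rw [← (h₁ x (subset_closure hx)).1, ← (h₁ x (subset_closure hx)).2,
    ← (h₂ x (subset_closure hx)).1, ← (h₂ x (subset_closure hx)).2]
  simp only [Co.lam, Co.mu, hm', hl', and_self]

end Crest.Agent.R80
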