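import Crest.Agent.R80.Coef
import Crest.Agent.R80.Weak2

/-!
# Row 80: the `4 × 4` system for `(u, ε)`
-/

namespace Crest.Agent.R80

open MeasureTheory Set Metric Filter Topology Complex
open scoped ContDiff
open Crest.AnalysisR.VecCalc3 Crest.AnalysisR.PDE Crest.AnalysisR.PDE.Elasticity

theorem PSys_bilc (c : Co) (P : Fin 3 → Fin 3 → R3 → ℂ) {ψ : Fin 3 → R3 → ℂ} {x : R3}
    (Q : Fin 3 → Fin 3 → ℂ) (h : ∀ i l, pd i (ψ l) x = Complex.exp (-c.mc x) * Q i l) :
    c.bilc P ψ x = ∑ i, ∑ l, (P i l x + P l i x) * Q i l +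
      (4 * c.ka x - 1) * epsOf c.ka P x * ∑ i, Q i i := by
  have h1 := c.mu_mul_expneg x
  have h2 := c.lam_mul x
  have h3 : ∑ i, P i i x = (1 - 2 * c.ka x) * epsOf c.ka P x := by
    rw [epsOf, mul_div_cancel₀ _ (c.one_sub_two_ka_ne x)]
  simp only [Co.bilc, bil, h, h3]
  simp only [Fin.sum_univ_three]
  generalize Complex.exp (-c.mc x) = E at h1
  linear_combination (E * epsOf c.ka P x * (Q 0 0 + Q 1 1 + Q 2 2)) * h2 +
    ((4 * c.ka x - 1) * epsOf c.ka P x * (Q 0 0 + Q 1 1 + Q 2 2) +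
      ((P 0 0 x + P 0 0 x) * Q 0 0 + (P 0 1 x + P 1 0 x) * Q 0 1 + (P 0 2 x + P 2 0 x) * Q 0 2 +
      ((P 1 0 x + P 0 1 x) * Q 1 0 + (P 1 1 x + P 1 1 x) * Q 1 1 + (P 1 2 x + P 2 1 x) * Q 1 2) +
      ((P 2 0 x + P 0 2 x) * Q 2 0 + (P 2 1 x + P 1 2 x) * Q 2 1 + (P 2 2 x + P 2 2 x) * Q 2 2))) * h1

theorem PSys_dexp (c : Co) (x : R3) : DifferentiableAt ℝ (fun y => Complex.exp (-c.mc y)) x :=
  c.contDiff_expneg.differentiable (by norm_num) x

/-- pointwise identity for the test field `ψ l = δ_{lj} e^{-m} g`. -/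
theorem bilc_test1 (c : Co) (P : Fin 3 → Fin 3 → R3 → ℂ) {g : R3 → ℂ} (hg : ContDiff ℝ 1 g)
    (j : Fin 3) (x : R3) :
    c.bilc P (fun l y => if l = j then Complex.exp (-c.mc y) * g y else 0) x =
      ∑ i, (P i j x + P j i x) * pd i g x + (4 * c.ka x - 1) * epsOf c.ka P x * pd j g x -
        q1 c.ka c.a P (epsOf c.ka P) j x * g x := by
  rw [PSys_bilc c P fun i l => if l = j then pd i g x - c.a i x * g x else 0]
  · simp only [mul_ite, mul_zero, Finset.sum_ite_eq', Finset.mem_univ, if_true, q1]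
    simp only [Fin.sum_univ_three]
    ring
  · intro i l
    split_ifs
    · rw [pd_mul i (PSys_dexp c x) (hg.differentiable (by norm_num) x), c.pd_expneg]
      ring
    · simp

/-- pointwise identity for the test field `ψ l = e^{-m} (∂ₗ f + f aₗ)`, whose gradient is
`e^{-m} (∂ᵢ∂ₗ f + (∂ᵢf aₗ - aᵢ ∂ₗf) - f Hᵢₗ)`. -/
theorem bilc_test2 (c : Co) (P : Fin 3 → Fin 3 → R3 → ℂ) {f : R3 → ℂ} (hf : ContDiff ℝ 2 f)
    (x : R3) :
    c.bilc P (fun l y => Complex.exp (-c.mc y) * (pd l f y + f y * c.a l y)) x =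
      ∑ i, ∑ l, (P i l x + P l i x) * pd i (pd l f) x + (4 * c.ka x - 1) * epsOf c.ka P x * lap f x -
        q2 c.ka c.H P (epsOf c.ka P) x * f x := by
  rw [PSys_bilc c P fun i l => pd i (pd l f) x + (pd i f x * c.a l x - c.a i x * pd l f x) -
    f x * c.H i l x]
  · simp only [q2, lap, Fin.sum_univ_three]
    ring
  · intro i l
    have d1 : DifferentiableAt ℝ f x := hf.differentiable (by norm_num) x
    have d2 : DifferentiableAt ℝ (pd l f) x :=
      (contDiff_pd (m := 1) l hf (by norm_num)).differentiable (by norm_num) x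
    have d3 : DifferentiableAt ℝ (c.a l) x := (c.tk_a l).cd.differentiable (by norm_num) x
    rw [pd_mul i (PSys_dexp c x) (d2.fun_add (d1.fun_mul d3)), c.pd_expneg, pd_add i d2 (d1.fun_mul d3),
      pd_mul i d1 d3, Co.H]
    ring

theorem PSys_glue {Ω : Set R3} (hΩ : MeasurableSet Ω) {A B T : R3 → ℂ} (hT : Integrable T)
    (hA : ∀ x ∈ Ω, A x = T x) (hB : ∀ x ∈ Ωᶜ, B x = T x)
    (h : (∫ x in Ω, A x) + ∫ x in Ωᶜ, B x = 0) : ∫ x, T x = 0 := by
  rwa [setIntegral_congr_fun hΩ hA, setIntegral_congr_fun hΩ.compl hB,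
    integral_add_compl hΩ hT] at h

theorem PSys_tk1 {U : Set R3} (c : Co) {g : R3 → ℂ} (hg : Tst U g) (j l : Fin 3) :
    Tk 1 U fun y => if l = j then Complex.exp (-c.mc y) * g y else 0 :=
  Tk.ite _ (Tk.mul_left (c.contDiff_expneg.of_le (by norm_num)) hg.tk1)

theorem PSys_tk2 {U : Set R3} (c : Co) {f : R3 → ℂ} (hf : Tst U f) (l : Fin 3) :
    Tk 1 U fun y => Complex.exp (-c.mc y) * (pd l f y + f y * c.a l y) :=
  Tk.mul_left (c.contDiff_expneg.of_le (by norm_num))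
    ((hf.pd l).tk1.add (hf.tk1.mul_right ((c.tk_a l).cd.of_le (by norm_num))))

/-- the part of the argument that does not depend on the gluing. -/
theorem PSys_core {U : Set R3} (hU : IsOpen U) {κ ε : R3 → ℂ} {a u : Fin 3 → R3 → ℂ}
    {H Du : Fin 3 → Fin 3 → R3 → ℂ} (h1 : ∀ j, H1 U (u j) fun i => Du i j) (hκ : Bd κ)
    (ha : ∀ i, Bd (a i)) (hH : ∀ i j, Bd (H i j)) (hε : L2 U ε)
    (h3 : ∀ x, ∑ i, Du i i x = (1 - 2 * κ x) * ε x)
    (t1 : ∀ j g, Tst U g → Integrable (fun x => ∑ i, (Du i j x + Du j i x) * pd i g x +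
        (4 * κ x - 1) * ε x * pd j g x - q1 κ a Du ε j x * g x) →
      ∫ x, ∑ i, (Du i j x + Du j i x) * pd i g x + (4 * κ x - 1) * ε x * pd j g x -
        q1 κ a Du ε j x * g x = 0)
    (t2 : ∀ f, Tst U f → Integrable (fun x => ∑ i, ∑ l, (Du i l x + Du l i x) * pd i (pd l f) x +
        (4 * κ x - 1) * ε x * lap f x - q2 κ H Du ε x * f x) →
      ∫ x, ∑ i, ∑ l, (Du i l x + Du l i x) * pd i (pd l f) x +
        (4 * κ x - 1) * ε x * lap f x - q2 κ H Du ε x * f x = 0) :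
    PS U κ a H u Du ε := by
  have hUm := hU.measurableSet
  have hD : ∀ i j, L2 U (Du i j) := fun i j => (h1 j).l2G i
  have hk : L2 U fun x => (4 * κ x - 1) * ε x :=
    L2.bd_mul ((hκ.const_mul 4).sub (Bd.const 1)) hε
  have iD : ∀ i j {ψ}, Tst U ψ → Integrable fun x => Du i j x * ψ x :=
    fun i j _ hψ => (hD i j).integrable_mul_tk hUm hψ
  have iD2 : ∀ i j {ψ}, Tst U ψ → Integrable fun x => (Du i j x + Du j i x) * ψ x :=
    fun i j _ hψ => ((hD i j).add' (hD j i)).integrable_mul_tk hUm hψ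
  have sD : ∀ i j {ψ}, Tst U ψ →
      ∫ x, (Du i j x + Du j i x) * ψ x = (∫ x, Du i j x * ψ x) + ∫ x, Du j i x * ψ x := by
    intro i j ψ hψ
    simp only [add_mul]
    exact integral_add (iD i j hψ) (iD j i hψ)
  refine ⟨h1, hε, fun j g hg => ?_, fun f hf => ?_, Eventually.of_forall fun x _ => h3 x⟩
  · have i1 := integrable_finsetSum Finset.univ fun i _ => iD2 i j (hg.pd i)
    have i2 := hk.integrable_mul_tk hUm (hg.pd j)
    have i3 := (L2.q1 hκ ha hD hε j).integrable_mul_tk hUm hg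
    have h0 := t1 j g hg ((i1.add i2).sub i3)
    rw [integral_sub (i1.fun_add i2) i3, integral_add i1 i2,
      integral_finsetSum _ fun i _ => iD2 i j (hg.pd i)] at h0
    have e1 : ∀ i, ∫ x, (Du i j x + Du j i x) * pd i g x =
        (∫ x, Du i j x * pd i g x) + ∫ x, Du i i x * pd j g x := fun i => by
      rw [sD i j (hg.pd i), (h1 i).swap hg j i]
    have e2 : ∫ x, 2 * κ x * ε x * pd j g x =
        ∑ i, (∫ x, Du i i x * pd j g x) + ∫ x, (4 * κ x - 1) * ε x * pd j g x := by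
      rw [← integral_finsetSum _ fun i _ => iD i i (hg.pd j),
        ← integral_add (integrable_finsetSum _ fun i _ => iD i i (hg.pd j)) i2]
      congr 1
      funext x
      rw [← Finset.sum_mul, h3]
      ring
    simp only [e1, Finset.sum_add_distrib] at h0
    rw [(h1 j).integral_lap hUm hg, e2]
    linear_combination -h0
  · have i0 : ∀ i, Integrable fun x => ∑ l, (Du i l x + Du l i x) * pd i (pd l f) x := fun i =>
      integrable_finsetSum Finset.univ fun l _ => iD2 i l ((hf.pd l).pd i)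
    have i1 := integrable_finsetSum Finset.univ fun i _ => i0 i
    have i2 := hk.integrable_mul_tk hUm hf.lap
    have i3 := (L2.q2 hκ hH hD hε).integrable_mul_tk hUm hf
    have h0 := t2 f hf ((i1.add i2).sub i3)
    rw [integral_sub (i1.fun_add i2) i3, integral_add i1 i2, integral_finsetSum _ fun i _ => i0 i] at h0
    have e0 : ∀ i, ∫ x, ∑ l, (Du i l x + Du l i x) * pd i (pd l f) x =
        ∑ l, ((∫ x, Du l l x * pd i (pd i f) x) + ∫ x, Du i i x * pd l (pd l f) x) := by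
      intro i
      rw [integral_finsetSum _ fun l _ => iD2 i l ((hf.pd l).pd i)]
      refine Finset.sum_congr rfl fun l _ => ?_
      rw [sD i l ((hf.pd l).pd i), (h1 i).swap (hf.pd l) l i, ← (h1 l).swap (hf.pd i) i l]
      congr 2
      funext x
      rw [pd_comm i l hf.tk2.cd.contDiffAt]
    have e1 : ∀ i, ∑ l, ∫ x, Du i i x * pd l (pd l f) x = ∫ x, Du i i x * lap f x := by
      intro i
      rw [← integral_finsetSum _ fun l _ => iD i i ((hf.pd l).pd l)]
      simp only [lap, Finset.mul_sum]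
    have e2 : ∫ x, ε x * lap f x = ∑ i, (∫ x, Du i i x * lap f x) +
        ∑ i, (∫ x, Du i i x * lap f x) + ∫ x, (4 * κ x - 1) * ε x * lap f x := by
      have j1 := integrable_finsetSum Finset.univ fun i _ => iD i i hf.lap
      rw [← integral_finsetSum _ fun i _ => iD i i hf.lap, ← integral_add j1 j1,
        ← integral_add (j1.fun_add j1) i2]
      congr 1
      funext x
      rw [← Finset.sum_mul, h3]
      ring
    simp only [e0, Finset.sum_add_distrib] at h0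
    rw [Finset.sum_comm] at h0
    simp only [e1] at h0
    rw [e2]
    linear_combination h0

/-- Test the glued system with the fields above (for `c₂` in `Ω`, for `c₁` outside), add the two integrals
(`integral_add_compl`), and use `H1.integral_lap`, `H1.swap`:
`∑ᵢ ∫ Duⱼᵢ ∂ᵢ g = ∫ div u ∂ⱼ g`, `∑ ∫ Duᵢₗ ∂ᵢ∂ₗ f = ∫ div u Δ f`, and `div u = (1 - 2κ) ε`. -/
theorem psys {U Ω : Set R3} (hU : IsOpen U) (hΩ : MeasurableSet Ω) (c₂ c₁ : Co)
    (hm : ∀ x ∈ frontier Ω, c₁.m x = c₂.m x) (ha : ∀ i, ∀ x ∈ frontier Ω, c₁.a i x = c₂.a i x)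
    {u : Fin 3 → R3 → ℂ} {Du : Fin 3 → Fin 3 → R3 → ℂ} (h1 : ∀ j, H1 U (u j) fun i => Du i j)
    (hG : GLame U Ω c₂ c₁ Du) :
    PS U (hat Ω c₂.ka c₁.ka) (fun i => hat Ω (c₂.a i) (c₁.a i))
      (fun i j => hat Ω (c₂.H i j) (c₁.H i j)) u Du (epsOf (hat Ω c₂.ka c₁.ka) Du) := by
  have hmc : ∀ x ∈ frontier Ω, c₂.mc x = c₁.mc x := fun x hx => by rw [Co.mc, Co.mc, hm x hx]
  have hinv : Bd fun x => (1 - 2 * hat Ω c₂.ka c₁.ka x)⁻¹ := by
    convert Bd.hat hΩ c₂.bd_inv_one_sub c₁.bd_inv_one_sub using 2 with x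
    by_cases hx : x ∈ Ω
    · simp only [hat_of_mem _ _ hx]
    · simp only [hat_of_notMem _ _ hx]
  refine PSys_core hU h1 (Bd.hat hΩ c₂.tk_ka.bd c₁.tk_ka.bd)
    (fun i => Bd.hat hΩ (c₂.tk_a i).bd (c₁.tk_a i).bd)
    (fun i j => Bd.hat hΩ (c₂.tk_H i j).bd (c₁.tk_H i j).bd)
    (L2.epsOf hinv fun i j => (h1 j).l2G i) (fun x => ?_) (fun j g hg hT => ?_) fun f hf hT => ?_
  · rw [epsOf, mul_div_cancel₀]
    by_cases hx : x ∈ Ω
    · rw [hat_of_mem _ _ hx]
      exact c₂.one_sub_two_ka_ne x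
    · rw [hat_of_notMem _ _ hx]
      exact c₁.one_sub_two_ka_ne x
  · refine PSys_glue hΩ hT (fun x hx => ?_) (fun x hx => ?_)
      (hG _ _ (PSys_tk1 c₂ hg j) (PSys_tk1 c₁ hg j) fun l x hx => by simp only [hmc x hx])
    · rw [bilc_test1 c₂ Du hg.tk1.cd]
      simp only [q1, epsOf, hat_of_mem _ _ hx]
    · rw [bilc_test1 c₁ Du hg.tk1.cd]
      simp only [q1, epsOf, hat_of_notMem _ _ hx]
  · refine PSys_glue hΩ hT (fun x hx => ?_) (fun x hx => ?_)
      (hG _ _ (PSys_tk2 c₂ hf) (PSys_tk2 c₁ hf) fun l x hx => by simp only [hmc x hx, ha l x hx])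
    · rw [bilc_test2 c₂ Du hf.tk2.cd]
      simp only [q2, epsOf, hat_of_mem _ _ hx]
    · rw [bilc_test2 c₁ Du hf.tk2.cd]
      simp only [q2, epsOf, hat_of_notMem _ _ hx]

/-- the case `Ω = ∅`. -/
theorem psys1 {U : Set R3} (hU : IsOpen U) (c : Co) {u : Fin 3 → R3 → ℂ}
    {Du : Fin 3 → Fin 3 → R3 → ℂ} (h1 : ∀ j, H1 U (u j) fun i => Du i j) (hL : WLame U c Du) :
    PS U c.ka c.a c.H u Du (epsOf c.ka Du) := by
  have := psys hU MeasurableSet.empty c c (fun _ _ => rfl) (fun _ _ _ => rfl) h1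
    fun ψ₂ ψ₁ _ h _ => by simpa using hL ψ₁ h
  simpa using this

end Crest.Agent.R80
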