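import Crest.Agent.R80.Coef
import Crest.Agent.R80.Ind

/-!
# Row 80: the transport system in spinor coordinates
-/

namespace Crest.Agent.R80

open MeasureTheory Set Metric Filter Topology Complex
open scoped ContDiff
open Crest.AnalysisR.VecCalc3 Crest.AnalysisR.PDE Crest.AnalysisR.PDE.Elasticity

variable {U : Set R3} {t : ℂ} {X : Fin 3 → R3 → ℂ} {E : R3 → ℂ}

theorem eq_of_null {t : ℂ} {X : C3} (h : ∑ i, th t i * X i = 0) :
    X 0 = (X 0 - I * X 1) / 2 - t * (X 2 - t * ((X 0 - I * X 1) / 2)) ∧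
      X 1 = I * ((X 0 - I * X 1) / 2) + I * t * (X 2 - t * ((X 0 - I * X 1) / 2)) := by
  have hI : I * I = -1 := I_mul_I
  simp only [Fin.sum_univ_three, th, Matrix.cons_val_zero, Matrix.cons_val_one, Matrix.cons_val_two,
    Matrix.head_cons, Matrix.tail_cons] at h
  constructor
  · linear_combination (1 / 2 : ℂ) * h
  · linear_combination (-I / 2) * h + (X 1 / 2) * hI + (t ^ 2 * X 1 / 2) * hI +
      (-(t ^ 2) * X 1 / 2) * hI + (X 1 / 2) * hI

theorem contDiff_toX {a : Fin 3 → R3 → ℂ} (ha : ∀ i, ContDiff ℝ 1 (a i))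
    (hX : ∀ j, ContDiff ℝ 1 (X j)) (hE : ContDiff ℝ 1 E) (t : ℂ) (i : Fin 3) :
    ContDiff ℝ 1 (toX t a X E i) := by
  have h0 : ContDiff ℝ 1 fun x => (X 0 x - I * X 1 x) / 2 :=
    ((hX 0).sub (contDiff_const.mul (hX 1))).div_const 2
  fin_cases i
  · exact h0
  · exact (hX 2).sub (contDiff_const.mul h0)
  · exact hE.add (ContDiff.sum fun i _ => (ha i).mul (hX i))

theorem TSc_dv_a (c : Co) (θ : C3) (j : Fin 3) (x : R3) :
    dv θ (c.a j) x = ∑ k, θ k * (c.a k x * c.a j x - c.H k j x) := by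
  refine Finset.sum_congr rfl fun k _ => ?_
  simp only [Co.H]
  ring

/-- the pointwise algebra behind `ts_core`. -/
theorem TSc_alg (κ e : ℂ) (a X : C3) (H : Fin 3 → Fin 3 → ℂ) (hs : ∀ i j, H i j = H j i)
    (h : ∑ i, th t i * X i = 0) :
    let Y : C3 := ![(X 0 - I * X 1) / 2, X 2 - t * ((X 0 - I * X 1) / 2), e + ∑ i, a i * X i]
    let g : C3 := fun j => -(1 / 2) * ((∑ i, th t i * a i) * X j +
      th t j * (2 * κ * e + ∑ i, a i * X i))
    (∑ j, Am κ a t 0 j * Y j = (1 / 2 : ℂ) * (g 0 - I * g 1)) ∧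
    (∑ j, Am κ a t 1 j * Y j = g 2 - t * ((1 / 2 : ℂ) * (g 0 - I * g 1))) ∧
    (∑ j, Am κ a t 2 j * Y j = 1 / 2 * (∑ i, ∑ j, (th t i * X j + th t j * X i) * H i j) +
        ∑ j, ((∑ k, th t k * (a k * a j - H k j)) * X j + a j * g j)) := by
  intro Y g
  obtain ⟨h0, h1⟩ := eq_of_null h
  have hI : I * I = -1 := I_mul_I
  set η₀ := (X 0 - I * X 1) / 2 with hη₀
  set η₁ := X 2 - t * η₀ with hη₁
  have h2 : X 2 = η₁ + t * η₀ := by rw [hη₁]; ring
  have hY0 : Y 0 = η₀ := rfl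
  have hY1 : Y 1 = η₁ := rfl
  have hY2 : Y 2 = e + ∑ i, a i * X i := rfl
  have hA : ∑ i, a i * X i = aα a t * η₀ + aβ a t * η₁ := by
    rw [Fin.sum_univ_three, h2, h1, h0]
    simp only [aα, aβ]
    ring
  have hσ := sum_th_mul t a
  have t0 : th t 0 = 1 - t ^ 2 := rfl
  have t1 : th t 1 = I * (1 + t ^ 2) := rfl
  have t2 : th t 2 = 2 * t := rfl
  have hg0 : (1 / 2 : ℂ) * (g 0 - I * g 1) =
      -(1 / 2) * (aσ a t * η₀ + (2 * κ * e + ∑ i, a i * X i)) := by
    simp only [g, hσ, t0, t1]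
    rw [hη₀]
    linear_combination ((1 + t ^ 2) * (2 * κ * e + ∑ i, a i * X i) / 4) * hI
  refine ⟨?_, ?_, ?_⟩
  · rw [hg0, Fin.sum_univ_three, hY0, hY1, hY2, hA]
    simp only [Am, Matrix.of_apply, Matrix.cons_val', Matrix.cons_val_zero, Matrix.cons_val_one,
      Matrix.cons_val_two, Matrix.head_cons, Matrix.tail_cons, Matrix.cons_val_fin_one,
      Matrix.empty_val']
    ring
  · rw [hg0, Fin.sum_univ_three, hY0, hY1, hY2]
    simp only [g, hσ, t2]
    rw [hA, h2]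
    simp only [Am, Matrix.of_apply, Matrix.cons_val', Matrix.cons_val_zero, Matrix.cons_val_one,
      Matrix.cons_val_two, Matrix.head_cons, Matrix.tail_cons, Matrix.cons_val_fin_one,
      Matrix.empty_val']
    ring
  · have hR : 1 / 2 * (∑ i, ∑ j, (th t i * X j + th t j * X i) * H i j) +
        ∑ j, ((∑ k, th t k * (a k * a j - H k j)) * X j + a j * g j) =
        -κ * (∑ i, th t i * a i) * e := by
      simp only [g, Fin.sum_univ_three]
      rw [hs 1 0, hs 2 0, hs 2 1]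
      ring
    rw [hR, hσ, Fin.sum_univ_three, hY0, hY1, hY2, hA]
    simp only [Am, Matrix.of_apply, Matrix.cons_val', Matrix.cons_val_zero, Matrix.cons_val_one,
      Matrix.cons_val_two, Matrix.head_cons, Matrix.tail_cons, Matrix.cons_val_fin_one,
      Matrix.empty_val', Matrix.head_fin_const]
    ring

/-- `D (a · X) = σ (a · X) - H(θ, X) + a · D X`, so `D γ = -κ σ E = -κ σ (γ - a · X)`; then rewrite
`X = η₀ (1, i, t) + η₁ (-t, i t, 1)` a.e. (`eq_of_null`). -/
theorem ts_core (hU : IsOpen U) {κ : R3 → ℂ} {a : Fin 3 → R3 → ℂ} {H : Fin 3 → Fin 3 → R3 → ℂ}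
    (hκ : Bd κ) (ha : ∀ i, Bd (a i)) (hH : ∀ i j, Bd (H i j)) (hs : ∀ i j x, H i j x = H j i x)
    (hprod : ∀ (j : Fin 3) (f g : R3 → ℂ), L2 U f → L2 U g → WD U (th t) f g →
      WD U (th t) (fun x => a j x * f x)
        fun x => (∑ k, th t k * (a k x * a j x - H k j x)) * f x + a j x * g x)
    (h : TS0 U (th t) κ a H X E) :
    (∀ i, L2 U (toX t a X E i)) ∧ Sys U (th t) (AF κ a t) (toX t a X E) := by
  have hm : MeasurableSet U := hU.measurableSet
  have hσ : Bd fun x => ∑ i, th t i * a i x := Bd.sum _ fun i _ => (ha i).const_mul _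
  have haX : L2 U fun x => ∑ i, a i x * X i x := L2.sum' _ fun i _ => L2.bd_mul (ha i) (h.l2 i)
  have hκE : L2 U fun x => 2 * κ x * E x := L2.bd_mul (hκ.const_mul 2) h.l2'
  set g : Fin 3 → R3 → ℂ := fun j x => -(1 / 2) * ((∑ i, th t i * a i x) * X j x +
    th t j * (2 * κ x * E x + ∑ i, a i x * X i x)) with hg
  have hgl : ∀ j, L2 U (g j) := fun j =>
    L2.cmul _ ((L2.bd_mul hσ (h.l2 j)).add' (L2.cmul _ (hκE.add' haX)))
  have hgw : ∀ j, WD U (th t) (X j) (g j) := h.e1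
  have l01 : L2 U fun x => X 0 x - I * X 1 x := (h.l2 0).sub' (L2.cmul I (h.l2 1))
  have g01 : L2 U fun x => g 0 x - I * g 1 x := (hgl 0).sub' (L2.cmul I (hgl 1))
  have l0 : L2 U fun x => (X 0 x - I * X 1 x) / 2 :=
    L2.congr' hm (L2.cmul (1 / 2) l01) (Eventually.of_forall fun x _ => by ring)
  have g0 : L2 U fun x => (1 / 2 : ℂ) * (g 0 x - I * g 1 x) := L2.cmul _ g01
  have w0 : WD U (th t) (fun x => (X 0 x - I * X 1 x) / 2)
      fun x => (1 / 2 : ℂ) * (g 0 x - I * g 1 x) :=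
    (((hgw 0).sub ((hgw 1).const_mul I) hm (h.l2 0) (hgl 0) (L2.cmul I (h.l2 1))
      (L2.cmul I (hgl 1))).const_mul (1 / 2)).congr hm
      (Eventually.of_forall fun x _ => by ring) (Eventually.of_forall fun x _ => rfl)
  have l1 : L2 U fun x => X 2 x - t * ((X 0 x - I * X 1 x) / 2) := (h.l2 2).sub' (L2.cmul t l0)
  have w1 : WD U (th t) (fun x => X 2 x - t * ((X 0 x - I * X 1 x) / 2))
      fun x => g 2 x - t * ((1 / 2 : ℂ) * (g 0 x - I * g 1 x)) :=
    (hgw 2).sub (w0.const_mul t) hm (h.l2 2) (hgl 2) (L2.cmul t l0) (L2.cmul t g0)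
  have l2 : L2 U fun x => E x + ∑ i, a i x * X i x := h.l2'.add' haX
  have hb : ∀ j, Bd fun x => ∑ k, th t k * (a k x * a j x - H k j x) := fun j =>
    Bd.sum _ fun k _ => (((ha k).mul (ha j)).sub (hH k j)).const_mul _
  have gp : ∀ j, L2 U fun x => (∑ k, th t k * (a k x * a j x - H k j x)) * X j x + a j x * g j x :=
    fun j => (L2.bd_mul (hb j) (h.l2 j)).add' (L2.bd_mul (ha j) (hgl j))
  have gE : L2 U fun x => 1 / 2 * ∑ i, ∑ j, (th t i * X j x + th t j * X i x) * H i j x :=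
    L2.cmul _ (L2.sum' _ fun i _ => L2.sum' _ fun j _ =>
      L2.mul_bd ((L2.cmul _ (h.l2 j)).add' (L2.cmul _ (h.l2 i))) (hH i j))
  have w2 : WD U (th t) (fun x => E x + ∑ i, a i x * X i x)
      fun x => 1 / 2 * (∑ i, ∑ j, (th t i * X j x + th t j * X i x) * H i j x) +
        ∑ j, ((∑ k, th t k * (a k x * a j x - H k j x)) * X j x + a j x * g j x) :=
    h.e2.add (WD.sum _ hm (fun j _ => hprod j _ _ (h.l2 j) (hgl j) (hgw j))
      (fun j _ => L2.bd_mul (ha j) (h.l2 j)) fun j _ => gp j) hm h.l2' gE haX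
      (L2.sum' _ fun j _ => gp j)
  refine ⟨fun i => ?_, fun i => ?_⟩
  · fin_cases i
    · exact l0
    · exact l1
    · exact l2
  · fin_cases i
    · refine w0.congr hm (Eventually.of_forall fun x _ => rfl) ?_
      filter_upwards [h.e3] with x hx hxU
      exact (TSc_alg (κ x) (E x) (fun k => a k x) (fun j => X j x) (fun i j => H i j x)
        (fun i j => hs i j x) (hx hxU)).1
    · refine w1.congr hm (Eventually.of_forall fun x _ => rfl) ?_
      filter_upwards [h.e3] with x hx hxU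
      exact (TSc_alg (κ x) (E x) (fun k => a k x) (fun j => X j x) (fun i j => H i j x)
        (fun i j => hs i j x) (hx hxU)).2.1
    · refine w2.congr hm (Eventually.of_forall fun x _ => rfl) ?_
      filter_upwards [h.e3] with x hx hxU
      exact (TSc_alg (κ x) (E x) (fun k => a k x) (fun j => X j x) (fun i j => H i j x)
        (fun i j => hs i j x) (hx hxU)).2.2

theorem ts_one (hU : IsOpen U) (c : Co) (h : TS0 U (th t) c.ka c.a c.H X E) :
    Sys U (th t) (AF c.ka c.a t) (toX t c.a X E) := by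
  refine (ts_core hU c.tk_ka.bd (fun i => (c.tk_a i).bd) (fun i j => (c.tk_H i j).bd) c.H_symm
    (fun j f g hf hg hfg => ?_) h).2
  refine (hfg.mul hU hf hg ((c.tk_a j).cd.of_le (by norm_num))).congr hU.measurableSet
    (Eventually.of_forall fun x _ => rfl) (Eventually.of_forall fun x _ => ?_)
  rw [TSc_dv_a]

theorem ts_hat (hU : IsOpen U) (S : Setup) (hb : BDy S.Ω S.c₁ S.c₂)
    (h : TS0 U (th t) S.kh S.ah S.Hh X E) :
    (∀ i, L2 U (toX t S.ah X E i)) ∧ Sys U (th t) (AF S.kh S.ah t) (toX t S.ah X E) := by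
  refine ts_core hU S.bd_kh S.bd_ah S.bd_Hh (fun i j x => ?_) (fun j f g hf hg hfg => ?_) h
  · by_cases hx : x ∈ S.Ω
    · simp only [Setup.Hh, hat_of_mem _ _ hx, S.c₂.H_symm i j]
    · simp only [Setup.Hh, hat_of_notMem _ _ hx, S.c₁.H_symm i j]
  · refine (hfg.hat_mul S.dom hU hf hg ((S.c₂.tk_a j).of_le (by norm_num))
      ((S.c₁.tk_a j).of_le (by norm_num)) fun x hx => (hb.a j x hx).symm).congr hU.measurableSet
      (Eventually.of_forall fun x _ => rfl) (Eventually.of_forall fun x _ => ?_)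
    by_cases hx : x ∈ S.Ω
    · simp only [Setup.Hh, Setup.ah, hat_of_mem _ _ hx, TSc_dv_a]
    · simp only [Setup.Hh, Setup.ah, hat_of_notMem _ _ hx, TSc_dv_a]

end Crest.Agent.R80
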