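import Crest.Agent.R80.Cgo
import Crest.Agent.R80.PSys
import Crest.Agent.R80.DNc
import Crest.Agent.R80.BD
import Crest.Agent.R80.Diff
import Crest.Agent.R80.Lim
import Crest.Agent.R80.TSc

/-!
# Row 80: matched solutions of the transport systems
-/

namespace Crest.Agent.R80

open MeasureTheory Set Metric Filter Topology Complex
open scoped ContDiff
open Crest.AnalysisR.VecCalc3 Crest.AnalysisR.PDE Crest.AnalysisR.PDE.Elasticity

/-- one value of `τ`: the CGO solution, the glued solution and all the bounds. -/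
private theorem Match_step (S : Setup) {r : ℝ} (hr : closure S.Ω ⊆ ball 0 r) (t : ℂ)
    {X : Fin 3 → R3 → ℂ} {E : R3 → ℂ} (hX : ∀ j, ContDiff ℝ 1 (X j)) (hE : ContDiff ℝ 1 E)
    {C τ₀ : ℝ} (hC : 0 ≤ C) (hτ₀ : 1 ≤ τ₀)
    (h : ∀ τ : ℝ, τ₀ ≤ τ →
        ∃ (u : Fin 3 → R3 → ℂ) (Du : Fin 3 → Fin 3 → R3 → ℂ),
          (∀ j, H1 (ball 0 (r + 1)) (u j) fun i => Du i j) ∧ WLame (ball 0 (r + 1)) S.c₁ Du ∧
          (∀ j, nr (ball 0 (r + 1)) (fun x => amp τ (th t) (u j) x - X j x) ≤ C / τ) ∧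
          nr (ball 0 (r + 1)) (fun x => amp τ (th t) (epsOf S.c₁.ka Du) x - E x) ≤ C / τ ∧
          ∀ i j, nr (ball 0 (r + 1)) (amp τ (th t) (Du i j)) ≤ C * τ) :
    ∃ M τ₁ : ℝ, 0 < τ₁ ∧ ∀ τ : ℝ, τ₁ ≤ τ →
      ∃ (u w : Fin 3 → R3 → ℂ) (Du Dw : Fin 3 → Fin 3 → R3 → ℂ) (ε ε' : R3 → ℂ),
        PS (ball 0 r) S.c₁.ka S.c₁.a S.c₁.H u Du ε ∧
        PS (ball 0 r) S.kh S.ah S.Hh (fun j x => u j x - w j x)
          (fun i j x => Du i j x - Dw i j x) ε' ∧
        (∀ j, nr (ball 0 r) (fun x => amp τ (th t) (u j) x - X j x) ≤ C / τ) ∧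
        nr (ball 0 r) (fun x => amp τ (th t) ε x - E x) ≤ C / τ ∧
        (∀ i j, nr (ball 0 r) (amp τ (th t) (Du i j)) ≤ M * τ) ∧
        (∀ i j, nr (ball 0 r) (amp τ (th t) fun x => Du i j x - Dw i j x) ≤ M * τ) ∧
        (∀ j, L2 (ball 0 r) (w j) ∧ nr (ball 0 r) (amp τ (th t) (w j)) ≤ M ∧
          Van (closure S.Ω) (w j)) ∧
        nr (ball 0 r) (amp τ (th t) fun x => ε x - ε' x) ≤ M ∧
        ∀ᵐ x : R3, x ∈ ball (0 : R3) r → x ∉ closure S.Ω → ε x - ε' x = 0 := by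
  have hb := bdy S
  obtain ⟨C₁, τ₁, hC₁, hτ₁, hd⟩ := diff_est S hb hr
  have hp : 0 < ‖rp (th t)‖ := norm_pos_iff.2 ((null_th t).rp_ne_zero (th_ne_zero t))
  obtain ⟨p, hpdef⟩ : ∃ p, p = ‖rp (th t)‖ := ⟨_, rfl⟩
  rw [← hpdef] at hp
  have hsub : ball (0 : R3) r ⊆ ball 0 (r + 1) := ball_subset_ball (by linarith)
  have hr' : closure S.Ω ⊆ ball 0 (r + 1) := hr.trans hsub
  have hm : MeasurableSet (ball (0 : R3) (r + 1)) := measurableSet_ball
  have hm' : MeasurableSet (ball (0 : R3) r) := measurableSet_ball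
  have hEl : L2 (ball 0 (r + 1)) E := L2.of_continuous hm isBounded_ball hE.continuous
  obtain ⟨M₀, hM₀⟩ : ∃ M₀, M₀ = nr (ball 0 (r + 1)) E + C + C / p := ⟨_, rfl⟩
  have hM₀0 : 0 ≤ M₀ := by
    rw [hM₀]; have := nr_nonneg (ball (0 : R3) (r + 1)) E; positivity
  refine ⟨C + C₁ * M₀ + C₁ * p * M₀, τ₀ + τ₁ / p, by positivity, fun τ hτ => ?_⟩
  have hτp : 0 ≤ τ₁ / p := by positivity
  have hτ0 : τ₀ ≤ τ := by linarith
  have hτ1 : 1 ≤ τ := by linarith
  have hβn : ‖τ • rp (th t)‖ = τ * p := by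
    rw [norm_smul, Real.norm_of_nonneg (by linarith), hpdef]
  have hβ : τ₁ ≤ ‖τ • rp (th t)‖ := by
    rw [hβn, ← div_le_iff₀ hp]; linarith
  obtain ⟨u, Du, hu, hL, h1, h2, h3⟩ := h τ hτ0
  obtain ⟨w, Dw, hw, hwv, hDwv, hG⟩ := dn S isOpen_ball hr' hu hL
  have hP1 := psys1 isOpen_ball S.c₁ hu hL
  have hP2 : PS (ball 0 (r + 1)) S.kh S.ah S.Hh (fun j x => u j x - w j x)
      (fun i j x => Du i j x - Dw i j x)
      (epsOf S.kh fun i j x => Du i j x - Dw i j x) :=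
    psys isOpen_ball S.dom.measurableSet S.c₂ S.c₁ hb.m hb.a
      (fun j => (hu j).sub ((hw j).mono (subset_univ _)) hm) hG
  have hεa : L2 (ball 0 (r + 1)) (amp τ (th t) (epsOf S.c₁.ka Du)) :=
    hP1.l2.amp hm isBounded_ball τ _
  have hCτ : C / τ ≤ C := div_le_self hC hτ1
  have k1 : wn (ball 0 (r + 1)) (τ • rp (th t)) (epsOf S.c₁.ka Du) ≤ M₀ := by
    rw [← nr_amp]
    have := nr_le_add_sub hεa hEl
    have h5 : 0 ≤ C / p := by positivity
    linarith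
  have k2 : ∀ i j, wn (ball 0 (r + 1)) (τ • rp (th t)) (Du i j) ≤ ‖τ • rp (th t)‖ * M₀ := by
    intro i j
    rw [← nr_amp, hβn]
    refine (h3 i j).trans ?_
    have h5 : C / p ≤ M₀ := by
      rw [hM₀]; have := nr_nonneg (ball (0 : R3) (r + 1)) E; linarith
    calc C * τ = τ * p * (C / p) := by field_simp
      _ ≤ τ * p * M₀ := by gcongr
  obtain ⟨d1, d2, d3, d4⟩ := hd _ hβ u w Du Dw _ _ M₀ hP1 hP2 hw hwv hDwv k1 k2
  have hDa : ∀ i j, L2 (ball 0 (r + 1)) (amp τ (th t) (Du i j)) := fun i j =>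
    ((hu j).l2G i).amp hm isBounded_ball τ _
  have k3 : ∀ i j, nr (ball 0 r) (amp τ (th t) (Du i j)) ≤ C * τ := fun i j =>
    (nr_mono_set hsub (hDa i j)).trans (h3 i j)
  have e1 : 0 ≤ C₁ * M₀ := by positivity
  have e2 : 0 ≤ C₁ * p * M₀ := by positivity
  refine ⟨u, w, Du, Dw, _, _, hP1.mono hsub, hP2.mono hsub, fun j => ?_, ?_, fun i j => ?_,
    fun i j => ?_, fun j => ⟨(hw j).l2.mono_set (subset_univ _), ?_,
      (hwv j).mono subset_closure⟩, ?_, d4⟩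
  · exact (nr_mono_set hsub (((hu j).l2.amp hm isBounded_ball τ _).sub'
      (L2.of_continuous hm isBounded_ball (hX j).continuous))).trans (h1 j)
  · exact (nr_mono_set hsub (hεa.sub' hEl)).trans h2
  · refine (k3 i j).trans ?_
    nlinarith
  · have hDw : L2 (ball 0 r) (amp τ (th t) (Dw i j)) :=
      (((hw j).l2G i).mono_set (subset_univ _)).amp hm' isBounded_ball τ _
    have e3 : (amp τ (th t) fun x => Du i j x - Dw i j x) =
        fun x => amp τ (th t) (Du i j) x - amp τ (th t) (Dw i j) x := by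
      funext x; simp only [amp]; ring
    rw [e3]
    refine (nr_sub_le ((hDa i j).mono_set hsub) hDw).trans ?_
    have h5 := d3 i j
    rw [← nr_amp, hβn] at h5
    have h6 := k3 i j
    nlinarith
  · rw [nr_amp]; linarith [d1 j]
  · rw [nr_amp]; linarith

/-- `cgo` on `ball 0 (r + 1)`; for `τ = n` large choose `u n`, then `w n` by `dn`; `psys1`, `psys`; `diff_est` with
`β = τ Re θ` (`nr_amp`); weak limits `W`, `Z` of the amplitudes of `w n`, `ε n - ε' n` along an ultrafilter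
`≤ atTop` (`exists_WLim`), vanishing off `closure Ω` (`WLim.ae_zero_off`); `lim_ts0` for both systems with limits
`(X, E)` and `(X - W, E - Z)`; `ts_one`, `ts_hat`. -/
theorem exists_mat (S : Setup) {r : ℝ} (hr : closure S.Ω ⊆ ball 0 r) (t : ℂ) (x₀ : R3) (ξ : C3)
    {η : ℝ} (hη : 0 < η) :
    ∃ X X' : Fin 3 → R3 → ℂ, Mat (ball 0 r) (closure S.Ω) (th t) (AF S.c₁.ka S.c₁.a t)
      (AF S.kh S.ah t) X X' ∧ ∀ i, ‖X i x₀ - ξ i‖ ≤ η := by
  have hb := bdy S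
  obtain ⟨X, E, hX, hE, hξ, C, τ₀, hC, hτ₀, h⟩ := cgo S.c₁ t (r + 1) x₀ ξ hη
  obtain ⟨M, τ₁, hτ₁, hs⟩ := Match_step S hr t hX hE hC hτ₀ h
  obtain ⟨τ, hτdef⟩ : ∃ τ : ℕ → ℝ, τ = fun n : ℕ => τ₁ + (n : ℝ) := ⟨_, rfl⟩
  have hτ1 : ∀ n, τ₁ ≤ τ n := fun n => by
    rw [hτdef]; simp
  have hτ : Tendsto τ atTop atTop := by
    rw [hτdef]; exact tendsto_atTop_add_const_left _ _ tendsto_natCast_atTop_atTop
  choose u w Du Dw ε ε' hP1 hP2 h1 h2 h3 h4 h5 h6 h7 using fun n => hs (τ n) (hτ1 n)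
  have hm : MeasurableSet (ball (0 : R3) r) := measurableSet_ball
  have hXl : ∀ j, L2 (ball 0 r) (X j) := fun j =>
    L2.of_continuous hm isBounded_ball (hX j).continuous
  have hEl : L2 (ball 0 r) E := L2.of_continuous hm isBounded_ball hE.continuous
  have hua : ∀ n j, L2 (ball 0 r) (amp (τ n) (th t) (u n j)) := fun n j =>
    ((hP1 n).h1 j).l2.amp hm isBounded_ball _ _
  have hεa : ∀ n, L2 (ball 0 r) (amp (τ n) (th t) (ε n)) := fun n =>
    (hP1 n).l2.amp hm isBounded_ball _ _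
  have hwa : ∀ n j, L2 (ball 0 r) (amp (τ n) (th t) (w n j)) := fun n j =>
    (h5 n j).1.amp hm isBounded_ball _ _
  have hza : ∀ n, L2 (ball 0 r) (amp (τ n) (th t) fun x => ε n x - ε' n x) := fun n =>
    ((hP1 n).l2.sub' (hP2 n).l2).amp hm isBounded_ball _ _
  have hz : Tendsto (fun n => C / τ n) atTop (𝓝 0) := tendsto_const_nhds.div_atTop hτ
  have lX : ∀ j, WLim atTop (ball 0 r) (fun n => amp (τ n) (th t) (u n j)) (X j) := fun j =>
    WLim.of_nr (Eventually.of_forall fun n => hua n j) (hXl j)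
      (squeeze_zero (fun n => nr_nonneg _ _) (fun n => h1 n j) hz)
  have lE : WLim atTop (ball 0 r) (fun n => amp (τ n) (th t) (ε n)) E :=
    WLim.of_nr (Eventually.of_forall hεa) hEl
      (squeeze_zero (fun n => nr_nonneg _ _) (fun n => h2 n) hz)
  have T1 : TS0 (ball 0 r) (th t) S.c₁.ka S.c₁.a S.c₁.H X E :=
    lim_ts0 isOpen_ball isBounded_ball (null_th t) S.c₁.tk_ka.bd (fun i => (S.c₁.tk_a i).bd)
      (fun i j => (S.c₁.tk_H i j).bd) hτ (Eventually.of_forall fun n => ⟨hP1 n, h3 n⟩) hXl hEl lX lE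
  obtain ⟨𝒰, h𝒰⟩ : ∃ 𝒰 : Ultrafilter ℕ, (𝒰 : Filter ℕ) ≤ atTop := ⟨_, Ultrafilter.of_le atTop⟩
  have exW : ∀ j, ∃ W, L2 (ball 0 r) W ∧ nr (ball 0 r) W ≤ M ∧
      WLim (𝒰 : Filter ℕ) (ball 0 r) (fun n => amp (τ n) (th t) (w n j)) W := fun j =>
    exists_WLim 𝒰 (Eventually.of_forall fun n => ⟨hwa n j, (h5 n j).2.1⟩)
  choose W hWl _ hW using exW
  obtain ⟨Z, hZl, -, hZ⟩ := exists_WLim 𝒰 (M := M)
    (F := fun n => amp (τ n) (th t) fun x => ε n x - ε' n x)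
    (Eventually.of_forall fun n => ⟨hza n, h6 n⟩)
  have hK : MeasurableSet (closure S.Ω) := isClosed_closure.measurableSet
  have vW : ∀ j, ∀ᵐ x : R3, x ∈ ball (0 : R3) r → x ∉ closure S.Ω → W j x = 0 := fun j =>
    (hW j).ae_zero_off hm hK (hWl j) (Eventually.of_forall fun n => by
      filter_upwards [(h5 n j).2.2] with x hx _ hx'
      simp only [amp, hx hx', mul_zero])
  have vZ : ∀ᵐ x : R3, x ∈ ball (0 : R3) r → x ∉ closure S.Ω → Z x = 0 :=
    hZ.ae_zero_off hm hK hZl (Eventually.of_forall fun n => by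
      filter_upwards [h7 n] with x hx hx1 hx'
      simp only [amp, hx hx1 hx', mul_zero])
  have lX' : ∀ j, WLim (𝒰 : Filter ℕ) (ball 0 r)
      (fun n => amp (τ n) (th t) fun x => u n j x - w n j x) fun x => X j x - W j x := fun j =>
    ((((lX j).mono_left h𝒰).sub (hW j) (Eventually.of_forall fun n => ⟨hua n j, hwa n j⟩) (hXl j)
      (hWl j))).congr hm (Eventually.of_forall fun n => Eventually.of_forall fun x _ => by
        simp only [amp]; ring)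
  have lE' : WLim (𝒰 : Filter ℕ) (ball 0 r) (fun n => amp (τ n) (th t) (ε' n))
      fun x => E x - Z x :=
    (((lE.mono_left h𝒰).sub hZ (Eventually.of_forall fun n => ⟨hεa n, hza n⟩) hEl hZl)).congr hm
      (Eventually.of_forall fun n => Eventually.of_forall fun x _ => by
        simp only [amp]; ring)
  have T2 : TS0 (ball 0 r) (th t) S.kh S.ah S.Hh (fun j x => X j x - W j x) fun x => E x - Z x :=
    lim_ts0 (l := (𝒰 : Filter ℕ)) isOpen_ball isBounded_ball (null_th t) S.bd_kh S.bd_ah S.bd_Hh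
      (hτ.mono_left h𝒰) (u := fun n j x => u n j x - w n j x)
      (Du := fun n i j x => Du n i j x - Dw n i j x)
      (Eventually.of_forall fun n => ⟨hP2 n, h4 n⟩) (fun j => (hXl j).sub' (hWl j))
      (hEl.sub' hZl) lX' lE'
  obtain ⟨s1, s2⟩ := ts_hat isOpen_ball S hb T2
  refine ⟨toX t S.c₁.a X E, _, ⟨contDiff_toX (fun i => (S.c₁.tk_a i).cd.of_le (by norm_num)) hX hE t,
    ts_one isOpen_ball S.c₁ T1, s1, s2, fun i => ?_⟩, hξ⟩
  filter_upwards [ae_all_iff.2 vW, vZ] with x hx1 hx2 hxr hxK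
  have hx' : x ∉ S.Ω := fun h => hxK (subset_closure h)
  have e1 : ∀ j, W j x = 0 := fun j => hx1 j hxr hxK
  have e2 := hx2 hxr hxK
  have e3 : ∀ k, S.ah k x = S.c₁.a k x := fun k => hat_of_notMem _ _ hx'
  fin_cases i <;> simp [toX, e1, e2, e3]

end Crest.Agent.R80
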