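import Crest.Agent.R80.L2b

/-!
# Row 80: mollifiers
-/

namespace Crest.Agent.R80

open MeasureTheory Set Metric Filter Topology Complex
open scoped ContDiff
open Crest.AnalysisR.VecCalc3 Crest.AnalysisR.PDE Crest.AnalysisR.PDE.Elasticity

variable {f g y : R3 → ℂ} {k : ℕ} {R : ℝ} {U : Set R3}

theorem mol_memLp (hf : L2 univ f) : MemLp f 2 volume := by
  have := hf
  rwa [L2, Measure.restrict_univ] at this

theorem mol_l2_of_memLp (hf : MemLp f 2 volume) : L2 univ f := by
  rwa [L2, Measure.restrict_univ]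

theorem mol_locInt (hf : L2 univ f) : LocallyIntegrable f volume :=
  (mol_memLp hf).locallyIntegrable (by norm_num)

theorem mol_eq_conv (k : ℕ) (f : R3 → ℂ) :
    mol k f = MeasureTheory.convolution ((bump k).normed volume) f
      (ContinuousLinearMap.lsmul ℝ ℝ) volume := by
  funext x
  rw [convolution_def]
  rfl

/-- `mol k f` is the convolution `(bump k).normed volume ⋆[lsmul ℝ ℝ, volume] f`;
`HasCompactSupport.contDiff_convolution_left`. -/
theorem contDiff_mol (hf : L2 univ f) (k : ℕ) : ContDiff ℝ ∞ (mol k f) := by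
  rw [mol_eq_conv]
  exact (bump k).hasCompactSupport_normed.contDiff_convolution_left _ (bump k).contDiff_normed
    (mol_locInt hf)

/-- `mol k f x = ∫ f y * ρ (x - y)`, and `y ↦ ρ (x - y)` is a test function. -/
theorem mol_eq (k : ℕ) (f : R3 → ℂ) (x : R3) :
    mol k f x = ∫ y, f y * (((bump k).normed volume (x - y) : ℝ) : ℂ) := by
  rw [← integral_sub_left_eq_self _ volume x]
  unfold mol
  refine integral_congr_ae (Eventually.of_forall fun y => ?_)
  simp only [sub_sub_cancel, Complex.real_smul]
  ring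

theorem tst_bump (k : ℕ) : Tst univ fun y => (((bump k).normed volume y : ℝ) : ℂ) := by
  refine ⟨contDiff_ofReal (bump k).contDiff_normed, ?_, subset_univ _⟩
  exact (bump k).hasCompactSupport_normed.comp_left (g := fun r : ℝ => (r : ℂ)) ofReal_zero

theorem mol_pd_conv (hf : L2 univ f) {φ : R3 → ℂ} (hφ : Tst univ φ) (i : Fin 3) (x : R3) :
    pd i (fun x => ∫ y, f y * φ (x - y)) x = ∫ y, f y * pd i φ (x - y) := by
  have e : (fun x => ∫ y, f y * φ (x - y)) =
      MeasureTheory.convolution f φ (ContinuousLinearMap.mul ℝ ℂ) volume := by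
    funext x
    rw [convolution_def]
    rfl
  have h1 : ContDiff ℝ 1 φ := hφ.tk1.cd
  have hd := hφ.cs.hasFDerivAt_convolution_right (ContinuousLinearMap.mul ℝ ℂ) (mol_locInt hf) h1 x
  rw [e]
  unfold pd
  rw [hd.fderiv, convolution_precompR_apply _ (mol_locInt hf) (hφ.cs.fderiv ℝ)
    (h1.continuous_fderiv one_ne_zero), convolution_def]
  rfl

theorem pd_mol (hf : L2 univ f) (k : ℕ) (i : Fin 3) (x : R3) :
    pd i (mol k f) x = ∫ y, f y * pd i (fun z => (((bump k).normed volume z : ℝ) : ℂ)) (x - y) := by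
  have e : mol k f = fun x => ∫ y, f y * (((bump k).normed volume (x - y) : ℝ) : ℂ) :=
    funext (mol_eq k f)
  rw [e]
  exact mol_pd_conv hf (tst_bump k) i x

theorem mol_norm_sq_le (hf : L2 univ f) (k : ℕ) (x : R3) :
    ‖mol k f x‖ ^ 2 ≤ ∫ y, (bump k).normed volume y * ‖f (x - y)‖ ^ 2 := by
  have hf2 : Integrable (fun x => ‖f x‖ ^ 2) volume := by
    have := hf.integrableOn_sq
    rwa [integrableOn_univ] at this
  have hρ : Integrable ((bump k).normed volume) volume := (bump k).integrable_normed
  have hρ0 : ∀ y, 0 ≤ (bump k).normed volume y := (bump k).nonneg_normed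
  have hρc : Continuous ((bump k).normed volume) := (bump k).continuous_normed
  have hn : LocallyIntegrable (fun y => ‖f y‖) volume :=
    (mol_memLp hf).norm.locallyIntegrable (by norm_num)
  have i1 : Integrable (fun y => (bump k).normed volume y * ‖f (x - y)‖) volume :=
    (bump k).hasCompactSupport_normed.convolutionExists_left (ContinuousLinearMap.lsmul ℝ ℝ) hρc hn x
  have i2 : Integrable (fun y => (bump k).normed volume y * ‖f (x - y)‖ ^ 2) volume :=
    (bump k).hasCompactSupport_normed.convolutionExists_left (ContinuousLinearMap.lsmul ℝ ℝ) hρc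
      hf2.locallyIntegrable x
  set a := ‖mol k f x‖ with ha
  have ha0 : 0 ≤ a := norm_nonneg _
  have h1 : a ≤ ∫ y, (bump k).normed volume y * ‖f (x - y)‖ := by
    refine (norm_integral_le_integral_norm _).trans (le_of_eq ?_)
    refine integral_congr_ae (Eventually.of_forall fun y => ?_)
    simp only [norm_smul, Real.norm_eq_abs, abs_of_nonneg (hρ0 y)]
  have h2 : ∫ y, 2 * a * ((bump k).normed volume y * ‖f (x - y)‖) ≤
      ∫ y, (a ^ 2 * (bump k).normed volume y + (bump k).normed volume y * ‖f (x - y)‖ ^ 2) := by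
    refine integral_mono (i1.const_mul _) ((hρ.const_mul _).add i2) fun y => ?_
    have := mul_nonneg (hρ0 y) (sq_nonneg (a - ‖f (x - y)‖))
    nlinarith
  rw [integral_const_mul, integral_add (hρ.const_mul _) i2, integral_const_mul,
    (bump k).integral_normed] at h2
  nlinarith

/-- Jensen (Cauchy-Schwarz for the probability measure `ρ`) and Fubini. -/
theorem l2_mol (hf : L2 univ f) (k : ℕ) : L2 univ (mol k f) ∧ nr univ (mol k f) ≤ nr univ f := by
  have hf2 : Integrable (fun x => ‖f x‖ ^ 2) volume := by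
    have := hf.integrableOn_sq
    rwa [integrableOn_univ] at this
  have hρ : Integrable ((bump k).normed volume) volume := (bump k).integrable_normed
  have hG := hρ.integrable_convolution (ContinuousLinearMap.lsmul ℝ ℝ) hf2
  have hI := integral_convolution (ContinuousLinearMap.lsmul ℝ ℝ) hρ hf2
  rw [(bump k).integral_normed] at hI
  simp only [ContinuousLinearMap.lsmul_apply, one_smul] at hI
  have hc : Continuous (mol k f) := (contDiff_mol hf k).continuous
  have hle : ∀ x, ‖mol k f x‖ ^ 2 ≤ MeasureTheory.convolution ((bump k).normed volume)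
      (fun x => ‖f x‖ ^ 2) (ContinuousLinearMap.lsmul ℝ ℝ) volume x := by
    intro x
    rw [convolution_def]
    exact mol_norm_sq_le hf k x
  have hint : Integrable (fun x => ‖mol k f x‖ ^ 2) volume := by
    refine hG.mono' (by fun_prop) (Eventually.of_forall fun x => ?_)
    rw [Real.norm_eq_abs, abs_of_nonneg (sq_nonneg _)]
    exact hle x
  have hm : L2 univ (mol k f) :=
    mol_l2_of_memLp ((memLp_two_iff_integrable_sq_norm hc.aestronglyMeasurable).2 hint)
  refine ⟨hm, ?_⟩
  refine (pow_le_pow_iff_left₀ (nr_nonneg _ _) (nr_nonneg _ _) two_ne_zero).1 ?_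
  rw [nr_sq hm, nr_sq hf, Measure.restrict_univ, ← hI]
  exact integral_mono hint hG hle

theorem mol_sub (hf : L2 univ f) (hg : L2 univ g) (k : ℕ) (x : R3) :
    mol k (fun y => f y - g y) x = mol k f x - mol k g x := by
  rw [mol_eq, mol_eq, mol_eq, ← integral_sub
    (hf.integrable_mul_tk MeasurableSet.univ ((tst_bump k).reflect x))
    (hg.integrable_mul_tk MeasurableSet.univ ((tst_bump k).reflect x))]
  refine integral_congr_ae (Eventually.of_forall fun y => ?_)
  simp only [sub_mul]

theorem mol_eq_zero' {K : Set R3} (hv : Van K f) (k : ℕ) {x : R3}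
    (hx : ∀ z ∈ K, 1 / ((k : ℝ) + 1) ≤ ‖x - z‖) : mol k f x = 0 := by
  rw [mol_eq]
  refine integral_eq_zero_of_ae ?_
  filter_upwards [hv] with y hy
  by_cases hK : y ∈ K
  · have : (bump k).normed volume (x - y) = 0 := by
      by_contra h0
      have hm : x - y ∈ Function.support ((bump k).normed volume) := h0
      rw [(bump k).support_normed_eq, mem_ball_zero_iff] at hm
      exact absurd (hx y hK) (not_le.2 hm)
    simp [this]
  · simp [hy hK]

theorem mol_eq_zero_of_ball (hv : Van (closedBall 0 R) f) (k : ℕ) {x : R3}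
    (hx : x ∉ closedBall (0 : R3) (R + 1)) : mol k f x = 0 := by
  refine mol_eq_zero' hv k fun z hz => ?_
  rw [mem_closedBall_zero_iff] at hx hz
  have h1 : 1 / ((k : ℝ) + 1) ≤ 1 := by
    rw [div_le_one (by positivity)]
    linarith [(Nat.cast_nonneg k : (0 : ℝ) ≤ k)]
  have h2 := norm_sub_norm_le x z
  linarith [not_le.1 hx]

theorem mol_tendsto_cont (gc : Continuous g) (gs : HasCompactSupport g) :
    Tendsto (fun k => nr univ fun x => mol k g x - g x) atTop (𝓝 0) := by
  obtain ⟨R, hR⟩ := gs.isCompact.isBounded.subset_closedBall (0 : R3)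
  have hz : ∀ x, x ∉ closedBall (0 : R3) R → g x = 0 := fun x hx =>
    image_eq_zero_of_notMem_tsupport fun h => hx (hR h)
  have hv : Van (closedBall 0 R) g := Eventually.of_forall hz
  obtain ⟨C, hC0, hC⟩ := exists_nr_le_of_bounded (U := closedBall (0 : R3) (R + 1))
    measurableSet_closedBall isBounded_closedBall
  rw [Metric.tendsto_atTop]
  intro ε hε
  have hδ : 0 < ε / (C + 1) := by positivity
  obtain ⟨η, hη, hu⟩ := Metric.uniformContinuous_iff.1 (gs.uniformContinuous_of_continuous gc) _ hδ
  obtain ⟨N, hN⟩ := exists_nat_one_div_lt hη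
  refine ⟨N, fun k hk => ?_⟩
  rw [Real.dist_eq, sub_zero, abs_of_nonneg (nr_nonneg _ _)]
  have hk' : 1 / ((k : ℝ) + 1) < η := by
    refine lt_of_le_of_lt (one_div_le_one_div_of_le (by positivity) ?_) hN
    have : (N : ℝ) ≤ k := by exact_mod_cast hk
    linarith
  have hv' : Van (closedBall 0 (R + 1)) fun x => mol k g x - g x := by
    refine Eventually.of_forall fun x hx => ?_
    have hx' : x ∉ closedBall (0 : R3) R := fun h =>
      hx (closedBall_subset_closedBall (by linarith) h)
    simp only [mol_eq_zero_of_ball hv k hx, hz x hx', sub_zero]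
  rw [hv'.nr_univ measurableSet_closedBall]
  have hb : ∀ x, ‖mol k g x - g x‖ ≤ ε / (C + 1) := by
    intro x
    rw [← dist_eq_norm, mol_eq_conv]
    refine (bump k).dist_normed_convolution_le gc.aestronglyMeasurable fun z hz => ?_
    exact (hu (lt_trans (mem_ball.1 hz) hk')).le
  refine lt_of_le_of_lt (hC _ _ hδ.le (Eventually.of_forall fun x _ => hb x)) ?_
  rw [← mul_div_assoc, div_lt_iff₀ (by positivity)]
  nlinarith

/-- approximate `f` by a continuous compactly supported function
(`MemLp.exists_hasCompactSupport_eLpNorm_sub_le`), for which the convergence is uniform with supports in a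
fixed ball. -/
theorem tendsto_nr_mol_sub (hf : L2 univ f) :
    Tendsto (fun k => nr univ fun x => mol k f x - f x) atTop (𝓝 0) := by
  rw [Metric.tendsto_atTop]
  intro ε hε
  obtain ⟨g, gs, gf, gc, gm⟩ := (mol_memLp hf).exists_hasCompactSupport_eLpNorm_sub_le
    (by norm_num) (ε := ENNReal.ofReal (ε / 3)) (by simp [hε])
  have hg : L2 univ g := mol_l2_of_memLp gm
  have hfg : L2 univ fun x => f x - g x := hf.sub' hg
  have h1 : nr univ (fun x => f x - g x) ≤ ε / 3 := by
    unfold nr
    rw [Measure.restrict_univ, ← toReal_eLpNorm (mol_memLp hfg).aestronglyMeasurable]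
    exact ENNReal.toReal_le_of_le_ofReal (by positivity) gf
  obtain ⟨N, hN⟩ := Metric.tendsto_atTop.1 (mol_tendsto_cont gc gs) (ε / 3) (by positivity)
  refine ⟨N, fun k hk => ?_⟩
  have h2 := hN k hk
  rw [Real.dist_eq, sub_zero, abs_of_nonneg (nr_nonneg _ _)] at h2 ⊢
  have e : (fun x => mol k f x - f x) =
      fun x => (mol k (fun y => f y - g y) x + (mol k g x - g x)) - (f x - g x) := by
    funext x
    rw [mol_sub hf hg]
    ring
  have l1 := l2_mol hfg k
  have l2 : L2 univ fun x => mol k g x - g x := (l2_mol hg k).1.sub' hg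
  have h3 := nr_sub_le (l1.1.add' l2) hfg
  have h4 := nr_add_le l1.1 l2
  rw [e]
  linarith [l1.2]

theorem mol_eq_zero {K : Set R3} (hv : Van K f) (k : ℕ) {x : R3}
    (hx : ∀ z ∈ K, 1 / ((k : ℝ) + 1) ≤ ‖x - z‖) : mol k f x = 0 := by
  exact mol_eq_zero' hv k hx

theorem tst_mol (hf : L2 univ f) (hv : Van (closedBall 0 R) f) (k : ℕ) :
    Tst (closedBall 0 (R + 1)) (mol k f) := by
  have hs : tsupport (mol k f) ⊆ closedBall 0 (R + 1) := by
    refine closure_minimal (fun x hx => ?_) isClosed_closedBall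
    by_contra h
    exact hx (mol_eq_zero_of_ball hv k h)
  exact ⟨contDiff_mol hf k, (isCompact_closedBall _ _).of_isClosed_subset (isClosed_tsupport _) hs,
    hs⟩

theorem WD.dv_mol {θ : C3} (h : WD univ θ f g) (hf : L2 univ f) (k : ℕ) (x : R3) :
    dv θ (mol k f) x = mol k g x := by
  have hw := h _ ((tst_bump k).reflect x)
  rw [mol_eq, ← neg_inj, ← hw]
  unfold dv
  simp only [R80.pd_mol hf, pd_reflect (f := fun z => (((bump k).normed volume z : ℝ) : ℂ)),
    Finset.mul_sum]
  rw [integral_finsetSum, ← Finset.sum_neg_distrib]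
  · refine Finset.sum_congr rfl fun i _ => ?_
    rw [← integral_const_mul, ← integral_neg]
    refine integral_congr_ae (Eventually.of_forall fun z => ?_)
    ring
  · intro i _
    have := (hf.integrable_mul_tk MeasurableSet.univ (((tst_bump k).pd i).reflect x)).const_mul
      (-θ i)
    refine this.congr (Eventually.of_forall fun z => ?_)
    ring

theorem H1.pd_mol {G : Fin 3 → R3 → ℂ} (h : H1 univ f G) (k : ℕ) (i : Fin 3) :
    pd i (mol k f) = mol k (G i) := by
  funext x
  rw [← dv_ee]
  exact (h.wd i).dv_mol h.l2 k x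

theorem mol_lap_eq (hy : L2 univ y) (k : ℕ) (x : R3) :
    lap (mol k y) x = ∫ z, y z * lap (fun z => (((bump k).normed volume (x - z) : ℝ) : ℂ)) z := by
  simp only [lap_reflect (f := fun z => (((bump k).normed volume z : ℝ) : ℂ))]
  unfold lap
  simp only [Finset.mul_sum]
  rw [integral_finsetSum]
  · refine Finset.sum_congr rfl fun i _ => ?_
    have e : pd i (mol k y) = fun x =>
        ∫ z, y z * pd i (fun z => (((bump k).normed volume z : ℝ) : ℂ)) (x - z) :=
      funext (pd_mol hy k i)
    rw [e]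
    exact mol_pd_conv hy ((tst_bump k).pd i) i x
  · intro i _
    exact hy.integrable_mul_tk MeasurableSet.univ ((((tst_bump k).pd i).pd i).reflect x)

theorem WLd.lap_mol {f₀ : R3 → ℂ} {F : Fin 3 → R3 → ℂ} (h : WLd univ y f₀ F) (hy : L2 univ y)
    (hF : ∀ i, L2 univ (F i)) (k : ℕ) (x : R3) :
    lap (mol k y) x = mol k f₀ x + ∑ i, pd i (mol k (F i)) x := by
  have hw := h _ ((tst_bump k).reflect x)
  rw [mol_lap_eq hy, hw, mol_eq, sub_eq_add_neg, ← Finset.sum_neg_distrib]
  congr 1
  refine Finset.sum_congr rfl fun i _ => ?_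
  rw [R80.pd_mol (hF i), ← integral_neg]
  refine integral_congr_ae (Eventually.of_forall fun z => ?_)
  simp only [pd_reflect (f := fun z => (((bump k).normed volume z : ℝ) : ℂ))]
  ring

theorem WL.lap_mol (h : WL univ y f) (hy : L2 univ y) (k : ℕ) (x : R3) :
    lap (mol k y) x = mol k f x := by
  rw [mol_lap_eq hy, h _ ((tst_bump k).reflect x), mol_eq]

/-- `C¹` test functions are `H¹` limits of smooth ones (`φ n = mol (n + n₀) ψ`; use `integral_mul_pd` to see
that `ψ` has the weak gradient `pd i ψ`). -/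
theorem exists_tst_approx (hU : IsOpen U) {ψ : R3 → ℂ} (hψ : Tk 1 U ψ) :
    ∃ φ : ℕ → R3 → ℂ, (∀ n, Tst U (φ n)) ∧
      Tendsto (fun n => nr univ fun x => φ n x - ψ x) atTop (𝓝 0) ∧
      ∀ i, Tendsto (fun n => nr univ fun x => pd i (φ n) x - pd i ψ x) atTop (𝓝 0) := by
  obtain ⟨δ, hδ, hδU⟩ := hψ.cs.isCompact.exists_cthickening_subset_open hU hψ.sub
  obtain ⟨N, hN⟩ := exists_nat_one_div_lt hδ
  have hl : L2 univ ψ := hψ.l2 univ
  have hp : ∀ i, L2 univ (pd i ψ) := fun i => (hψ.pd (m := 0) (by simp) i).l2 univ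
  have hH : H1 univ ψ fun i => pd i ψ := by
    refine ⟨hl, hp, fun i φ hφ => ?_⟩
    rw [dv_ee]
    exact integral_mul_pd hψ.cd hφ.tk1 i
  have hv : Van (tsupport ψ) ψ :=
    Eventually.of_forall fun x hx => image_eq_zero_of_notMem_tsupport hx
  refine ⟨fun n => mol (n + N) ψ, fun n => ?_, ?_, fun i => ?_⟩
  · have hs : tsupport (mol (n + N) ψ) ⊆ cthickening δ (tsupport ψ) := by
      refine closure_minimal (fun x hx => ?_) isClosed_cthickening
      by_contra h
      refine hx (mol_eq_zero hv _ fun z hz => ?_)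
      by_contra hlt
      refine h (mem_cthickening_of_dist_le x z δ _ hz ?_)
      rw [dist_eq_norm]
      refine (not_le.1 hlt).le.trans (le_trans (one_div_le_one_div_of_le (by positivity) ?_) hN.le)
      push_cast
      linarith [(Nat.cast_nonneg n : (0 : ℝ) ≤ n)]
    exact ⟨contDiff_mol hl _,
      hψ.cs.isCompact.cthickening.of_isClosed_subset (isClosed_tsupport _) hs, hs.trans hδU⟩
  · exact (tendsto_nr_mol_sub hl).comp (tendsto_add_atTop_nat N)
  · simp only [hH.pd_mol]
    exact (tendsto_nr_mol_sub (hp i)).comp (tendsto_add_atTop_nat N)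

end Crest.Agent.R80
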