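import Crest.Agent.R80.Mol

/-!
# Row 80: calculus of weak derivatives
-/

namespace Crest.Agent.R80

open MeasureTheory Set Metric Filter Topology Complex
open scoped ContDiff
open Crest.AnalysisR.VecCalc3 Crest.AnalysisR.PDE Crest.AnalysisR.PDE.Elasticity

variable {U V K : Set R3} {θ : C3} {f g f' g' φ : R3 → ℂ}

/-- du Bois-Reymond (`IsOpen.ae_eq_zero_of_integral_contDiff_smul_eq_zero`). -/
theorem ae_zero_of_tst (hU : IsOpen U) (hg : L2 U g) (h : ∀ ψ, Tst U ψ → ∫ x, g x * ψ x = 0) :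
    ∀ᵐ x : R3, x ∈ U → g x = 0 := by
  refine hU.ae_eq_zero_of_integral_contDiff_smul_eq_zero
    (locallyIntegrableOn_of_locallyIntegrable_restrict (hg.locallyIntegrable (by norm_num)))
    fun r h1 h2 h3 => ?_
  have hs : Function.support (fun y => (r y : ℂ)) = Function.support r := by
    ext y
    simp
  have ht : tsupport (fun y => (r y : ℂ)) = tsupport r := by
    unfold tsupport
    rw [hs]
  have h4 := h (fun y => (r y : ℂ))
    ⟨contDiff_ofReal h1, by unfold HasCompactSupport; rw [ht]; exact h2, ht ▸ h3⟩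
  rw [← h4]
  refine integral_congr_ae (Eventually.of_forall fun x => ?_)
  simp only [Complex.real_smul, mul_comm]

theorem ae_eq_of_tst (hU : IsOpen U) (hg : L2 U g) (hg' : L2 U g')
    (h : ∀ ψ, Tst U ψ → ∫ x, g x * ψ x = ∫ x, g' x * ψ x) : ∀ᵐ x : R3, x ∈ U → g x = g' x := by
  have h1 := ae_zero_of_tst hU (hg.sub' hg') fun ψ hψ => by
    simp only [sub_mul]
    rw [integral_sub (hg.integrable_mul_tk hU.measurableSet hψ)
      (hg'.integrable_mul_tk hU.measurableSet hψ), h ψ hψ, sub_self]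
  filter_upwards [h1] with x hx hxU using sub_eq_zero.mp (hx hxU)

theorem Weak_tendsto_right (hU : MeasurableSet U) (hf : L2 U f) {a : ℕ → R3 → ℂ} {b : R3 → ℂ}
    (ha : ∀ n, Tk 0 U (a n)) (hb : Tk 0 U b)
    (h : Tendsto (fun n => nr univ fun x => a n x - b x) atTop (𝓝 0)) :
    Tendsto (fun n => ∫ x, f x * a n x) atTop (𝓝 (∫ x, f x * b x)) := by
  rw [tendsto_iff_norm_sub_tendsto_zero]
  have h1 := h.const_mul (nr U f)
  rw [mul_zero] at h1
  refine squeeze_zero (fun _ => norm_nonneg _) (fun n => ?_) h1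
  rw [← integral_sub (hf.integrable_mul_tk hU (ha n)) (hf.integrable_mul_tk hU hb)]
  simp only [← mul_sub]
  refine (norm_integral_mul_tk_le hU hf ((ha n).sub' hb)).trans ?_
  exact mul_le_mul_of_nonneg_left (nr_mono_set (subset_univ U) (((ha n).sub' hb).l2 univ))
    (nr_nonneg _ _)

theorem Weak_tendsto_left {α : Type*} {l : Filter α} {F : α → R3 → ℂ} (hU : MeasurableSet U)
    (hF : ∀ᶠ n in l, L2 U (F n)) (hf : L2 U f) {ψ : R3 → ℂ} (hψ : Tst U ψ)
    (h : Tendsto (fun n => nr U fun x => F n x - f x) l (𝓝 0)) :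
    Tendsto (fun n => ∫ x, F n x * ψ x) l (𝓝 (∫ x, f x * ψ x)) := by
  rw [tendsto_iff_norm_sub_tendsto_zero]
  have h1 := h.mul_const (nr U ψ)
  rw [zero_mul] at h1
  refine squeeze_zero' (Eventually.of_forall fun _ => norm_nonneg _) ?_ h1
  filter_upwards [hF] with n hn
  rw [← integral_sub (hn.integrable_mul_tk hU hψ) (hf.integrable_mul_tk hU hψ)]
  simp only [← sub_mul]
  exact norm_integral_mul_tk_le hU (hn.sub' hf) hψ

theorem Weak_int_dv (hU : MeasurableSet U) (hf : L2 U f) {ψ : R3 → ℂ} (hψ : Tk 1 U ψ) (θ : C3) :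
    ∫ x, f x * dv θ ψ x = ∑ i, θ i * ∫ x, f x * pd i ψ x := by
  have hi : ∀ i, Integrable fun x => f x * pd i ψ x := fun i =>
    hf.integrable_mul_tk hU (hψ.pd (m := 0) (by simp) i)
  simp only [← integral_const_mul]
  rw [← integral_finset_sum _ fun i _ => (hi i).const_mul (θ i)]
  refine integral_congr_ae (Eventually.of_forall fun x => ?_)
  simp only [dv, Finset.mul_sum]
  exact Finset.sum_congr rfl fun i _ => by ring

/-- replacing a function that vanishes on `U \ K` by its restriction to `K`. -/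
theorem Weak_indicator {a b : R3 → ℂ} (h0 : ∀ᵐ x : R3, x ∈ U → x ∉ K → f x = 0)
    (hb : ∀ x, x ∉ U → b x = 0) (hab : ∀ x ∈ K, a x = b x) :
    ∫ x, K.indicator f x * a x = ∫ x, f x * b x := by
  refine integral_congr_ae ?_
  filter_upwards [h0] with x hx
  by_cases hK : x ∈ K
  · rw [indicator_of_mem hK, hab x hK]
  · rw [indicator_of_notMem hK, zero_mul]
    by_cases hU : x ∈ U
    · rw [hx hU hK, zero_mul]
    · rw [hb x hU, mul_zero]

theorem Weak_int_zero (hU : IsOpen U) (hK : IsClosed K)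
    (hf : ∀ᵐ x : R3, x ∈ U → x ∉ K → f x = 0) {ψ : R3 → ℂ} (hψ : Tst (U \ K) ψ) :
    ∫ x, f x * ψ x = 0 := by
  rw [integral_mul_tk_congr (g := fun _ => 0) (hU.sdiff hK).measurableSet hψ]
  · simp
  · filter_upwards [hf] with x hx hx' using hx hx'.1 hx'.2

namespace WD

/-- `C¹` test functions are allowed. -/
theorem tk1 (h : WD U θ f g) (hU : IsOpen U) (hf : L2 U f) (hg : L2 U g) {ψ : R3 → ℂ}
    (hψ : Tk 1 U ψ) : ∫ x, f x * dv θ ψ x = -∫ x, g x * ψ x := by
  obtain ⟨a, ha, h1, h2⟩ := exists_tst_approx hU hψ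
  have hm := hU.measurableSet
  have t1 : Tendsto (fun n => ∫ x, f x * dv θ (a n) x) atTop (𝓝 (∫ x, f x * dv θ ψ x)) := by
    simp only [Weak_int_dv hm hf hψ, fun n => Weak_int_dv hm hf (ha n).tk1 θ]
    refine tendsto_finset_sum _ fun i _ => Tendsto.const_mul _ ?_
    exact Weak_tendsto_right hm hf (fun n => ((ha n).pd i).tk0) (hψ.pd (by simp) i) (h2 i)
  have t2 := (Weak_tendsto_right hm hg (fun n => (ha n).tk0) (hψ.of_le (by simp)) h1).neg
  exact tendsto_nhds_unique (t1.congr fun n => h (a n) (ha n)) t2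

theorem of_contDiff (U : Set R3) (θ : C3) (hf : ContDiff ℝ 1 f) : WD U θ f (dv θ f) := by
  exact fun ψ hψ => integral_mul_dv hf hψ.tk1 θ

theorem mono (h : WD U θ f g) (hVU : V ⊆ U) : WD V θ f g := by
  exact fun ψ hψ => h ψ (Tk.mono hψ hVU)

theorem congr (h : WD U θ f g) (hU : MeasurableSet U) (hf : ∀ᵐ x : R3, x ∈ U → f' x = f x)
    (hg : ∀ᵐ x : R3, x ∈ U → g' x = g x) : WD U θ f' g' := by
  intro ψ hψ
  rw [integral_mul_tk_congr hU (hψ.dv θ) hf, integral_mul_tk_congr hU hψ hg]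
  exact h ψ hψ

theorem zero (U : Set R3) (θ : C3) : WD U θ (fun _ => 0) fun _ => 0 := by
  intro ψ _
  simp

theorem add (h : WD U θ f g) (h' : WD U θ f' g') (hU : MeasurableSet U) (hf : L2 U f) (hg : L2 U g)
    (hf' : L2 U f') (hg' : L2 U g') : WD U θ (fun x => f x + f' x) fun x => g x + g' x := by
  intro ψ hψ
  simp only [add_mul]
  rw [integral_add (hf.integrable_mul_tk hU (hψ.dv θ)) (hf'.integrable_mul_tk hU (hψ.dv θ)),
    integral_add (hg.integrable_mul_tk hU hψ) (hg'.integrable_mul_tk hU hψ), h ψ hψ, h' ψ hψ]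
  ring

theorem sub (h : WD U θ f g) (h' : WD U θ f' g') (hU : MeasurableSet U) (hf : L2 U f) (hg : L2 U g)
    (hf' : L2 U f') (hg' : L2 U g') : WD U θ (fun x => f x - f' x) fun x => g x - g' x := by
  intro ψ hψ
  simp only [sub_mul]
  rw [integral_sub (hf.integrable_mul_tk hU (hψ.dv θ)) (hf'.integrable_mul_tk hU (hψ.dv θ)),
    integral_sub (hg.integrable_mul_tk hU hψ) (hg'.integrable_mul_tk hU hψ), h ψ hψ, h' ψ hψ]
  ring

theorem const_mul (h : WD U θ f g) (c : ℂ) : WD U θ (fun x => c * f x) fun x => c * g x := by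
  intro ψ hψ
  simp only [mul_assoc, integral_const_mul]
  rw [h ψ hψ, mul_neg]

theorem sum {ι : Type*} (s : Finset ι) {F G : ι → R3 → ℂ} (hU : MeasurableSet U)
    (h : ∀ k ∈ s, WD U θ (F k) (G k)) (hF : ∀ k ∈ s, L2 U (F k)) (hG : ∀ k ∈ s, L2 U (G k)) :
    WD U θ (fun x => ∑ k ∈ s, F k x) fun x => ∑ k ∈ s, G k x := by
  intro ψ hψ
  simp only [Finset.sum_mul]
  rw [integral_finset_sum _ fun k hk => (hF k hk).integrable_mul_tk hU (hψ.dv θ),
    integral_finset_sum _ fun k hk => (hG k hk).integrable_mul_tk hU hψ, ← Finset.sum_neg_distrib]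
  exact Finset.sum_congr rfl fun k hk => h k hk ψ hψ

theorem smul_dir (h : WD U θ f g) (c : ℂ) : WD U (c • θ) f fun x => c * g x := by
  intro ψ hψ
  simp only [dv_smul, mul_left_comm _ c, mul_assoc, integral_const_mul]
  rw [h ψ hψ, mul_neg]

theorem sub_dir {θ' : C3} (h : WD U θ f g) (h' : WD U θ' f g') (hU : MeasurableSet U) (hf : L2 U f)
    (hg : L2 U g) (hg' : L2 U g') : WD U (θ - θ') f fun x => g x - g' x := by
  intro ψ hψ
  simp only [dv_sub_left, mul_sub, sub_mul]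
  rw [integral_sub (hf.integrable_mul_tk hU (hψ.dv θ)) (hf.integrable_mul_tk hU (hψ.dv θ')),
    integral_sub (hg.integrable_mul_tk hU hψ) (hg'.integrable_mul_tk hU hψ), h ψ hψ, h' ψ hψ]
  ring

theorem translate (h : WD univ θ f g) (v : R3) :
    WD univ θ (fun x => f (x + v)) fun x => g (x + v) := by
  intro ψ hψ
  have h1 := h _ (Tk.translate hψ (-v))
  simp only [dv_translate] at h1
  rw [← integral_add_right_eq_self (fun x => f x * dv θ ψ (x + -v)) v,
    ← integral_add_right_eq_self (fun x => g x * ψ (x + -v)) v] at h1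
  simpa only [add_neg_cancel_right] using h1

theorem Weak_mul (h : WD U θ f g) (hU : IsOpen U) (hf : L2 U f) (hg : L2 U g) {ψ : R3 → ℂ}
    (hφ : ContDiff ℝ 1 φ) (hψ : ContDiff ℝ 1 ψ) (h1 : Tk 1 U fun x => φ x * ψ x)
    (h2 : Tk 0 U fun x => φ x * dv θ ψ x) (h3 : Tk 0 U fun x => dv θ φ x * ψ x) :
    ∫ x, φ x * f x * dv θ ψ x = -∫ x, (dv θ φ x * f x + φ x * g x) * ψ x := by
  have hm := hU.measurableSet
  have e := h.tk1 hU hf hg h1
  have e1 : ∀ x, f x * dv θ (fun x => φ x * ψ x) x =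
      f x * (dv θ φ x * ψ x) + f x * (φ x * dv θ ψ x) := fun x => by
    rw [dv_mul θ (hφ.differentiable (by simp) x) (hψ.differentiable (by simp) x), mul_add]
  have e2 : ∀ x, (dv θ φ x * f x + φ x * g x) * ψ x =
      f x * (dv θ φ x * ψ x) + g x * (φ x * ψ x) := fun x => by ring
  have e3 : ∀ x, φ x * f x * dv θ ψ x = f x * (φ x * dv θ ψ x) := fun x => by ring
  simp only [e1] at e
  simp only [e2, e3]
  rw [integral_add (hf.integrable_mul_tk hm h3) (hf.integrable_mul_tk hm h2)] at e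
  rw [integral_add (hf.integrable_mul_tk hm h3) (hg.integrable_mul_tk hm h1)]
  linear_combination e

/-- product rule with a `C¹` function (test with `φ ψ`, `WD.tk1`). -/
theorem mul (h : WD U θ f g) (hU : IsOpen U) (hf : L2 U f) (hg : L2 U g) (hφ : ContDiff ℝ 1 φ) :
    WD U θ (fun x => φ x * f x) fun x => dv θ φ x * f x + φ x * g x := by
  intro ψ hψ
  exact Weak_mul h hU hf hg hφ hψ.tk1.cd (Tk.mul_left hφ hψ.tk1)
    (Tk.mul_left (hφ.of_le (by simp)) (hψ.dv θ).tk0)
    (Tk.mul_left (contDiff_dv θ hφ (by simp)) hψ.tk0)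

theorem unique (h : WD U θ f g) (h' : WD U θ f' g') (hU : IsOpen U) (hg : L2 U g) (hg' : L2 U g')
    (hf : ∀ᵐ x : R3, x ∈ U → f x = f' x) : ∀ᵐ x : R3, x ∈ U → g x = g' x := by
  refine ae_eq_of_tst hU hg hg' fun ψ hψ => neg_injective ?_
  rw [← h ψ hψ, ← h' ψ hψ]
  exact integral_mul_tk_congr hU.measurableSet (hψ.dv θ) hf

theorem ae_zero_off (h : WD U θ f g) (hU : IsOpen U) (hK : IsClosed K) (hg : L2 U g)
    (hf : ∀ᵐ x : R3, x ∈ U → x ∉ K → f x = 0) : ∀ᵐ x : R3, x ∈ U → x ∉ K → g x = 0 := by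
  have h1 := ae_zero_of_tst (hU.sdiff hK) (hg.mono_set diff_subset) fun ψ hψ => by
    have h2 := h.mono diff_subset ψ hψ
    rw [Weak_int_zero hU hK hf (hψ.dv θ)] at h2
    exact neg_eq_zero.mp h2.symm
  filter_upwards [h1] with x hx a b using hx ⟨a, b⟩

theorem van (h : WD univ θ f g) (hK : IsClosed K) (hg : L2 univ g) (hf : Van K f) : Van K g := by
  have h1 := h.ae_zero_off isOpen_univ hK hg (by filter_upwards [hf] with x hx _ using hx)
  filter_upwards [h1] with x hx using hx (mem_univ x)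

/-- extension by zero: test with `χ ψ`, `χ` from `exists_cut`. -/
theorem extend (h : WD U θ f g) (hU : IsOpen U) (hK : IsCompact K) (hKU : K ⊆ U) (hf : L2 U f)
    (hg : L2 U g) (h0 : ∀ᵐ x : R3, x ∈ U → x ∉ K → f x = 0) :
    WD univ θ (K.indicator f) (K.indicator g) := by
  obtain ⟨χ, hχ, h1, -⟩ := exists_cut hK hU hKU
  have h2 := h.ae_zero_off hU hK.isClosed hg h0
  intro ψ hψ
  have ht : Tst U fun x => χ x * ψ x := Tk.mul_right hχ hψ.cd
  have hev : ∀ x ∈ K, ψ =ᶠ[𝓝 x] fun x => χ x * ψ x := fun x hx => by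
    filter_upwards [h1 x hx] with z hz
    rw [hz, one_mul]
  rw [Weak_indicator h0 (fun x hx => (ht.dv θ).eq_zero hx) fun x hx => dv_congr θ (hev x hx),
    Weak_indicator h2 (fun x hx => ht.eq_zero hx) fun x hx => (hev x hx).eq_of_nhds]
  exact h _ ht

/-- multiplication by a test function supported in `U` gives a global weak derivative. -/
theorem tk_mul_univ (h : WD U θ f g) (hU : IsOpen U) (hf : L2 U f) (hg : L2 U g) (hφ : Tk 1 U φ) :
    WD univ θ (fun x => φ x * f x) fun x => dv θ φ x * f x + φ x * g x := by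
  intro ψ hψ
  exact Weak_mul h hU hf hg hφ.cd hψ.tk1.cd (hφ.mul_right hψ.tk1.cd)
    ((hφ.of_le (by simp)).mul_right (hψ.dv θ).tk0.cd)
    ((hφ.dv (by simp) θ).mul_right hψ.tk0.cd)

/-- closedness under `L²` limits. -/
theorem of_tendsto {α : Type*} {l : Filter α} [l.NeBot] {F G : α → R3 → ℂ} (hU : MeasurableSet U)
    (h : ∀ᶠ n in l, WD U θ (F n) (G n) ∧ L2 U (F n) ∧ L2 U (G n)) (hf : L2 U f) (hg : L2 U g)
    (h1 : Tendsto (fun n => nr U fun x => F n x - f x) l (𝓝 0))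
    (h2 : Tendsto (fun n => nr U fun x => G n x - g x) l (𝓝 0)) : WD U θ f g := by
  intro ψ hψ
  have t1 := Weak_tendsto_left hU (h.mono fun n hn => hn.2.1) hf (hψ.dv θ) h1
  have t2 := (Weak_tendsto_left hU (h.mono fun n hn => hn.2.2) hg hψ h2).neg
  exact tendsto_nhds_unique (t1.congr' (h.mono fun n hn => hn.1 ψ hψ)) t2

end WD

namespace WL

variable {y F : R3 → ℂ}

theorem mono (h : WL U y F) (hVU : V ⊆ U) : WL V y F := by
  exact fun ψ hψ => h ψ (Tk.mono hψ hVU)

theorem congr (h : WL U y F) (hU : MeasurableSet U) {y' F' : R3 → ℂ}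
    (hy : ∀ᵐ x : R3, x ∈ U → y' x = y x) (hF : ∀ᵐ x : R3, x ∈ U → F' x = F x) : WL U y' F' := by
  intro ψ hψ
  rw [integral_mul_tk_congr hU hψ.lap hy, integral_mul_tk_congr hU hψ hF]
  exact h ψ hψ

theorem sub {y' F' : R3 → ℂ} (h : WL U y F) (h' : WL U y' F') (hU : MeasurableSet U) (hy : L2 U y)
    (hF : L2 U F) (hy' : L2 U y') (hF' : L2 U F') :
    WL U (fun x => y x - y' x) fun x => F x - F' x := by
  intro ψ hψ
  simp only [sub_mul]
  rw [integral_sub (hy.integrable_mul_tk hU hψ.lap) (hy'.integrable_mul_tk hU hψ.lap),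
    integral_sub (hF.integrable_mul_tk hU hψ) (hF'.integrable_mul_tk hU hψ), h ψ hψ, h' ψ hψ]

theorem wld (h : WL U y F) : WLd U y F fun _ _ => 0 := by
  intro ψ hψ
  simpa using h ψ hψ

theorem of_contDiff (U : Set R3) (hy : ContDiff ℝ 2 y) : WL U y (lap y) := by
  exact fun ψ hψ => integral_mul_lap hy hψ.tk2

theorem ae_zero_off (h : WL U y F) (hU : IsOpen U) (hK : IsClosed K) (hF : L2 U F)
    (hy : ∀ᵐ x : R3, x ∈ U → x ∉ K → y x = 0) : ∀ᵐ x : R3, x ∈ U → x ∉ K → F x = 0 := by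
  have h1 := ae_zero_of_tst (hU.sdiff hK) (hF.mono_set diff_subset) fun ψ hψ => by
    have h2 := h.mono diff_subset ψ hψ
    rw [Weak_int_zero hU hK hy hψ.lap] at h2
    exact h2.symm
  filter_upwards [h1] with x hx a b using hx ⟨a, b⟩

theorem van (h : WL univ y F) (hK : IsClosed K) (hF : L2 univ F) (hy : Van K y) : Van K F := by
  have h1 := h.ae_zero_off isOpen_univ hK hF (by filter_upwards [hy] with x hx _ using hx)
  filter_upwards [h1] with x hx using hx (mem_univ x)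

theorem extend (h : WL U y F) (hU : IsOpen U) (hK : IsCompact K) (hKU : K ⊆ U) (hy : L2 U y)
    (hF : L2 U F) (h0 : ∀ᵐ x : R3, x ∈ U → x ∉ K → y x = 0) :
    WL univ (K.indicator y) (K.indicator F) := by
  obtain ⟨χ, hχ, h1, -⟩ := exists_cut hK hU hKU
  have h2 := h.ae_zero_off hU hK.isClosed hF h0
  intro ψ hψ
  have ht : Tst U fun x => χ x * ψ x := Tk.mul_right hχ hψ.cd
  have hev : ∀ x ∈ K, ψ =ᶠ[𝓝 x] fun x => χ x * ψ x := fun x hx => by
    filter_upwards [h1 x hx] with z hz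
    rw [hz, one_mul]
  rw [Weak_indicator h0 (fun x hx => ht.lap.eq_zero hx) fun x hx => lap_congr (hev x hx),
    Weak_indicator h2 (fun x hx => ht.eq_zero hx) fun x hx => (hev x hx).eq_of_nhds]
  exact h _ ht

end WL

end Crest.Agent.R80
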